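/-
R72/Defs: definitions for row 72 (triangular Hilbert transform).  Author: helper40.  FROZEN.

Overview of the proof (everything is done with finite REAL matrices).
* A trilinear form `tri F₀ F₁ F₂ ψ₀ ψ₁ ψ₂ = tr (ψ₀ F₀ ψ₁ F₁ ψ₂ F₂)` with `|ψⱼ| ≤ wⱼ` is bounded (SVD, split
  by the largest singular value) by `∑ₘ 8^m TT` of the Gram matrices met at the three vertices (`Tri`).
* `TT` is the second-order deficit of the concave functional `LL R w = log det (1 + R w)`; it telescopes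
  along the dyadic tree (`Dyad`, S0097) and along the Gaussian heat flow (`Heat`, `VE`).
* Point-dependent truncations are piecewise constant in the heat time; a jump of the third matrix costs a
  product of maximal functions (`Jump`, `JV`, `Max1`, `Max2`, `VW`, `ThmJ`); the rough part of the cut-off is
  a square function (`ThmS`, `Kern1`, `Kern2`).  `DT` is the resulting theorem on the lattice, `Lat`
  transfers lattice estimates to the line, `Cont1`-`Cont3` give S0096 with `√n`, `Var` gives S0095.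
-/
import Mathlib

set_option autoImplicit false

namespace Crest.Agent.R72

open Matrix MeasureTheory
open scoped ENNReal

/-! ### matrices -/

section mat
variable {ι : Type} [Fintype ι] [DecidableEq ι]

/-- the weighted Gram matrix `Zᵀ α Z`. -/
def gram (Z : Matrix ι ι ℝ) (α : ι → ℝ) : Matrix ι ι ℝ := Zᵀ * diagonal α * Z

/-- `log det (1 + R w)`. -/
noncomputable def LL (R : Matrix ι ι ℝ) (w : ι → ℝ) : ℝ := Real.log (1 + R * diagonal w).det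

/-- the Bellman function `tr (R w) - log det (1 + R w)`. -/
noncomputable def Phi (R : Matrix ι ι ℝ) (w : ι → ℝ) : ℝ := (R * diagonal w).trace - LL R w

/-- `(1 + R w)⁻¹ R`, the gradient of `LL` in `w`. -/
noncomputable def MM (R : Matrix ι ι ℝ) (w : ι → ℝ) : Matrix ι ι ℝ := (1 + R * diagonal w)⁻¹ * R

/-- `w (1 + R w)⁻¹`, the gradient of `LL` in `R`. -/
noncomputable def NN (R : Matrix ι ι ℝ) (w : ι → ℝ) : Matrix ι ι ℝ :=
  diagonal w * (1 + R * diagonal w)⁻¹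

/-- the majorant of `MM R w` that is affine in `R`. -/
def Aff (R Z : Matrix ι ι ℝ) (w : ι → ℝ) : Matrix ι ι ℝ :=
  (1 - diagonal w * Z)ᵀ * R * (1 - diagonal w * Z) + Zᵀ * diagonal w * Z

/-- `tr (X ψ Y ψ)`. -/
def qf (X Y : Matrix ι ι ℝ) (ψ : ι → ℝ) : ℝ := (X * diagonal ψ * Y * diagonal ψ).trace

/-- the vertex form. -/
noncomputable def TT (R S : Matrix ι ι ℝ) (w ψ : ι → ℝ) : ℝ := qf (MM R w) (MM S w) ψ

/-- the vertex form at scale `m`. -/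
noncomputable def TV (m : ℤ) (Z₁ : Matrix ι ι ℝ) (α : ι → ℝ) (Z₂ : Matrix ι ι ℝ) (γ w ψ : ι → ℝ) : ℝ :=
  (8 : ℝ) ^ m * TT (gram ((2 : ℝ) ^ (-m) • Z₁) α) (gram ((2 : ℝ) ^ (-m) • Z₂) γ) w ψ

/-- the triangular form. -/
def tri (F₀ F₁ F₂ : Matrix ι ι ℝ) (ψ₀ ψ₁ ψ₂ : ι → ℝ) : ℝ :=
  ∑ a, ∑ b, ∑ c, F₀ a b * F₁ b c * F₂ c a * (ψ₀ a * ψ₁ b * ψ₂ c)

/-- the cube of the `ℓ³` norm. -/
def cube (F : Matrix ι ι ℝ) : ℝ := ∑ a, ∑ b, |F a b| ^ 3

/-- the weighted Hilbert-Schmidt norm, squared. -/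
def hs (F : Matrix ι ι ℝ) (α β : ι → ℝ) : ℝ := ∑ a, ∑ b, α a * β b * F a b ^ 2

end mat

/-- the discrete Haar sign of the interval `[n 2^j, (n+1) 2^j)` (for `1 ≤ j`). -/
def hsg (j n a : ℕ) : ℝ :=
  if a / 2 ^ j = n then (if a / 2 ^ (j - 1) % 2 = 0 then 1 else -1) else 0

/-! ### Gaussians -/

/-- the heat kernel (variance `t`). -/
noncomputable def g (t x : ℝ) : ℝ := (√(2 * Real.pi * t))⁻¹ * Real.exp (-x ^ 2 / (2 * t))
/-- first derivative in `x`. -/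
noncomputable def g1 (t x : ℝ) : ℝ := (-x / t) * g t x
/-- second derivative in `x`. -/
noncomputable def g2 (t x : ℝ) : ℝ := (x ^ 2 / t ^ 2 - 1 / t) * g t x
/-- third derivative in `x`. -/
noncomputable def g3 (t x : ℝ) : ℝ := (-x ^ 3 / t ^ 3 + 3 * x / t ^ 2) * g t x
/-- fourth derivative in `x`. -/
noncomputable def g4 (t x : ℝ) : ℝ := (x ^ 4 / t ^ 4 - 6 * x ^ 2 / t ^ 3 + 3 / t ^ 2) * g t x

/-- the sum of the three coordinates. -/
def s3 (p : ℝ × ℝ × ℝ) : ℝ := p.1 + p.2.1 + p.2.2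

section heat
variable {ι : Type} [Fintype ι] [DecidableEq ι]

/-- Gaussian weights of the points `y a`, variance `τ`, centre `r`. -/
noncomputable def wv (y : ι → ℝ) (τ r : ℝ) : ι → ℝ := fun a => g τ (y a - r)

/-- the cancellative weights; `|pv y t r| ≤ wv y (2 t) r`. -/
noncomputable def pv (y : ι → ℝ) (t r : ℝ) : ι → ℝ := fun a => √t / 2 * g1 t (y a - r)

/-- energy density at the point `(z.1, z.2, -z.1 - z.2)` of the plane `p₁ + p + p₂ = 0`. -/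
noncomputable def en (y₁ x y₂ : ι → ℝ) (Z₁ Z₂ : Matrix ι ι ℝ) (v t : ℝ) (z : ℝ × ℝ) : ℝ :=
  qf (MM (gram Z₁ (wv y₁ (v * t) z.1) + gram Z₂ (wv y₂ (v * t) (-z.1 - z.2))) (wv x t z.2))
    (MM (gram Z₁ (wv y₁ (v * t) z.1) + gram Z₂ (wv y₂ (v * t) (-z.1 - z.2))) (wv x t z.2))
    (fun b => g1 t (x b - z.2))

/-- Bellman density. -/
noncomputable def be (y₁ x y₂ : ι → ℝ) (Z₁ Z₂ : Matrix ι ι ℝ) (v t : ℝ) (z : ℝ × ℝ) : ℝ :=
  Phi (gram Z₁ (wv y₁ (v * t) z.1) + gram Z₂ (wv y₂ (v * t) (-z.1 - z.2))) (wv x t z.2) +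
    Phi (gram Z₁ (wv y₁ (v * t) z.1)) (wv x t z.2) +
    Phi (gram Z₂ (wv y₂ (v * t) (-z.1 - z.2))) (wv x t z.2)

/-- the Bellman functional at time `t`. -/
noncomputable def Th (y₁ x y₂ : ι → ℝ) (Z₁ Z₂ : Matrix ι ι ℝ) (v t : ℝ) : ℝ :=
  ∫ z, be y₁ x y₂ Z₁ Z₂ v t z

/-- the energy spent between two times. -/
noncomputable def EE (y₁ x y₂ : ι → ℝ) (Z₁ Z₂ : Matrix ι ι ℝ) (v t₁ t₂ : ℝ) : ℝ≥0∞ :=
  ∫⁻ t in Set.Ioc t₁ t₂, ∫⁻ z, ENNReal.ofReal (en y₁ x y₂ Z₁ Z₂ v t z)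

/-- the vertex form at scale `m`, time `t`, centres `p = (p₁, p, p₂)`. -/
noncomputable def TVp (y₁ x y₂ : ι → ℝ) (Z₁ Z₂ : Matrix ι ι ℝ) (m : ℤ) (t : ℝ) (p : ℝ × ℝ × ℝ) : ℝ :=
  TV m Z₁ (wv y₁ (2 * t) p.1) Z₂ (wv y₂ (2 * t) p.2.2) (wv x (2 * t) p.2.1) (pv x t p.2.1)

/-- the sum over all scales. -/
noncomputable def TVs (y₁ x y₂ : ι → ℝ) (Z₁ Z₂ : Matrix ι ι ℝ) (t : ℝ) (p : ℝ × ℝ × ℝ) : ℝ≥0∞ :=
  ∑' m : ℤ, ENNReal.ofReal (TVp y₁ x y₂ Z₁ Z₂ m t p)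

end heat

/-- lattice points `a + θ`. -/
def lat (N : ℕ) (θ : ℝ) : Fin N → ℝ := fun a => (a.val : ℝ) + θ

/-- the localised triangular form on the lattice. -/
noncomputable def loc {N : ℕ} (F₀ F₁ F₂ : Matrix (Fin N) (Fin N) ℝ) (θ t : ℝ) (p : ℝ × ℝ × ℝ) : ℝ :=
  tri F₀ F₁ F₂ (fun a => g1 t (lat N 0 a - p.1)) (fun b => g1 t (lat N 0 b - p.2.1))
    (fun c => g1 t (lat N θ c - p.2.2))

/-! ### kernels -/

/-- the density in the radius `s > 0` of the coefficient function. -/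
noncomputable def bk (t u s : ℝ) : ℝ := 4 * √t * (g1 t (u - s) - g1 t (u + s)) / s

/-- coefficient function of the annulus `(ε, R)`. -/
noncomputable def ak (ε R t u : ℝ) : ℝ := ∫ s in Set.Ioc ε R, bk t u s

/-- coefficient function of the full kernel. -/
noncomputable def al (t u : ℝ) : ℝ := ∫ s in Set.Ioi 0, bk t u s

/-- the rough part belonging to the radius `ε`. -/
noncomputable def rr (ε t u : ℝ) : ℝ :=
  if ε ^ 2 < t then -∫ s in Set.Ioc 0 ε, bk t u s else ∫ s in Set.Ioi ε, bk t u s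

/-- the switch belonging to the radius `ε`. -/
noncomputable def sw (ε t : ℝ) : ℝ := if ε ^ 2 < t then 1 else 0

/-- the weight in the shift `u`. -/
noncomputable def om (t u : ℝ) : ℝ := (√t)⁻¹ * (1 + |u| / √t) ^ (-(5 / 4) : ℝ)

/-- an approximate identity at scale `√t`. -/
noncomputable def eta (t x : ℝ) : ℝ := g (4 * t) x - 2 * t * g2 (4 * t) x

/-- the annular kernel smoothed at scale `1` and cut at scale `√T`. -/
noncomputable def kern (ε R T σ : ℝ) : ℝ :=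
  ∫ s in Set.Ioc ε R, ((eta 1 (σ - s) - eta T (σ - s)) - (eta 1 (σ + s) - eta T (σ + s))) / s

/-- the annular kernel. -/
noncomputable def kap (ε R s : ℝ) : ℝ := if ε < |s| ∧ |s| < R then 1 / s else 0

/-- the rescaled smooth kernels converging to `kap`. -/
noncomputable def kn (ε R : ℝ) (k : ℕ) (s : ℝ) : ℝ :=
  ((k : ℝ) + 1) * kern (((k : ℝ) + 1) * ε) (((k : ℝ) + 1) * R) (((k : ℝ) + 1) ^ 4) (((k : ℝ) + 1) * s)

/-- `ϑ` selects, with signs, at most `n` pairwise disjoint annuli of the family `𝒜`. -/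
def Sel {κ : Type} (n : ℕ) (𝒜 : Finset κ) (ε R ϑ : κ → ℝ) : Prop :=
  (∀ α, |ϑ α| ≤ 1) ∧ ∃ A : Finset κ, A ⊆ 𝒜 ∧ A.card ≤ n ∧ (∀ α, α ∉ A → ϑ α = 0) ∧
    ∀ α ∈ A, ∀ β ∈ A, α ≠ β → R α ≤ ε β ∨ R β ≤ ε α

/-! ### the continuum -/

/-- the unit cube of offsets. -/
def ucube : Set (ℝ × ℝ × ℝ) := Set.Ico 0 1 ×ˢ Set.Ico 0 1 ×ˢ Set.Ico 0 1

/-- the real annular transform. -/
noncomputable def Bh (F G : ℝ × ℝ → ℝ) (ε R : ℝ) (z : ℝ × ℝ) : ℝ :=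
  ∫ s, F (z.1 + s, z.2) * G (z.1, z.2 + s) * kap ε R s

/-- measurable, bounded, with bounded support. -/
def Nice (F : ℝ × ℝ → ℝ) : Prop :=
  Measurable F ∧ ∃ B : ℝ, (∀ z, |F z| ≤ B) ∧ ∀ z, F z ≠ 0 → |z.1| ≤ B ∧ |z.2| ≤ B

/-- admissible finite families of rational annuli. -/
def Adm (n : ℕ) (A : Finset (ℚ × ℚ)) : Prop :=
  A.card ≤ n ∧ (∀ α ∈ A, 0 < α.1 ∧ α.1 < α.2) ∧
    ∀ α ∈ A, ∀ β ∈ A, α ≠ β → α.2 ≤ β.1 ∨ β.2 ≤ α.1

/-- the real counting function restricted to the finite family `𝒜`. -/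
noncomputable def cnt (𝒜 : Finset (ℚ × ℚ)) (n : ℕ) (F G : ℝ × ℝ → ℝ) (z : ℝ × ℝ) : ℝ≥0∞ :=
  ⨆ (A : Finset (ℚ × ℚ)) (_ : A ⊆ 𝒜) (_ : Adm n A), ∑ α ∈ A, ‖Bh F G (α.1 : ℝ) (α.2 : ℝ) z‖ₑ

end Crest.Agent.R72
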