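/-
R72/Mat1: elementary facts on `gram`, `MM`, `NN`, `Aff`, `qf`.
Skeleton by helper40; keep the statements unchanged (add any helper lemmas you like).
-/
import Crest.Agent.R72.Defs

set_option autoImplicit false
set_option linter.unusedSectionVars false

namespace Crest.Agent.R72

open Matrix MeasureTheory

variable {ι : Type} [Fintype ι] [DecidableEq ι]

theorem Mat1.conj {A : Matrix ι ι ℝ} (hA : A.PosSemidef) (B : Matrix ι ι ℝ) :
    (Bᵀ * A * B).PosSemidef := by
  simpa using hA.conjTranspose_mul_mul_same B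

theorem Mat1.sym {A : Matrix ι ι ℝ} (hA : A.PosSemidef) : Aᵀ = A := by
  simpa using hA.1.eq

open scoped MatrixOrder in
theorem Mat1.exists_sq {A : Matrix ι ι ℝ} (hA : A.PosSemidef) : ∃ B : Matrix ι ι ℝ, A = Bᵀ * B := by
  obtain ⟨B, hB⟩ := CStarAlgebra.nonneg_iff_eq_star_mul_self.1 hA.nonneg
  exact ⟨B, by simpa [star_eq_conjTranspose] using hB⟩

theorem Mat1.sqrt_mul {w : ι → ℝ} (hw : ∀ b, 0 ≤ w b) :
    diagonal (fun b => √(w b)) * diagonal (fun b => √(w b)) = diagonal w := by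
  rw [diagonal_mul_diagonal]
  congr 1
  funext b
  exact Real.mul_self_sqrt (hw b)

theorem Mat1.one_le_det_one_add {D : Matrix ι ι ℝ} (hD : D.PosSemidef) : 1 ≤ (1 + D).det := by
  have hH : (1 + D).IsHermitian := isHermitian_one.add hD.1
  rw [hH.det_eq_prod_eigenvalues]
  refine Finset.one_le_prod fun i _ => ?_
  have h1 := hH.mulVec_eigenvectorBasis i
  have h2 := hD.dotProduct_mulVec_nonneg (hH.eigenvectorBasis i).ofLp
  have h3 : (hH.eigenvectorBasis i).ofLp ⬝ᵥ (hH.eigenvectorBasis i).ofLp = 1 := by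
    have := (hH.eigenvectorBasis.orthonormal.1 i)
    have h4 := EuclideanSpace.real_norm_sq_eq (hH.eigenvectorBasis i)
    rw [this] at h4
    simp only [dotProduct, ← sq]
    rw [← h4]; norm_num
  have h4 := congrArg (fun v => (hH.eigenvectorBasis i).ofLp ⬝ᵥ v) h1
  simp only [add_mulVec, one_mulVec, dotProduct_add, dotProduct_smul, h3, smul_eq_mul,
    mul_one] at h4
  rw [star_trivial] at h2
  change (1 : ℝ) ≤ hH.eigenvalues i
  linarith

theorem gram_apply (Z : Matrix ι ι ℝ) (α : ι → ℝ) (i j : ι) :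
    gram Z α i j = ∑ a, α a * (Z a i * Z a j) := by
  simp only [gram, Matrix.mul_apply, transpose_apply, diagonal_apply, mul_ite, mul_zero,
    Finset.sum_ite_eq', Finset.mem_univ, if_true]
  exact Finset.sum_congr rfl fun a _ => by ring

theorem gram_psd (Z : Matrix ι ι ℝ) {α : ι → ℝ} (h : ∀ a, 0 ≤ α a) : (gram Z α).PosSemidef := by
  exact Mat1.conj (PosSemidef.diagonal h) Z

theorem gram_transpose (Z : Matrix ι ι ℝ) (α : ι → ℝ) : (gram Z α)ᵀ = gram Z α := by
  ext i j
  simp only [transpose_apply, gram_apply]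
  exact Finset.sum_congr rfl fun a _ => by ring

theorem gram_smul (c : ℝ) (Z : Matrix ι ι ℝ) (α : ι → ℝ) : gram (c • Z) α = c ^ 2 • gram Z α := by
  ext i j
  simp only [gram_apply, Matrix.smul_apply, smul_eq_mul, Finset.mul_sum]
  exact Finset.sum_congr rfl fun a _ => by ring

/-- `(2^(-m))^2 = 4^(-m)`. -/
theorem gram_scale (m : ℤ) (Z : Matrix ι ι ℝ) (α : ι → ℝ) :
    gram ((2 : ℝ) ^ (-m) • Z) α = (4 : ℝ) ^ (-m) • gram Z α := by
  rw [gram_smul, ← zpow_natCast, ← _root_.zpow_mul, mul_comm, _root_.zpow_mul]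
  norm_num

theorem gram_zero (α : ι → ℝ) : gram (0 : Matrix ι ι ℝ) α = 0 := by
  simp [gram]

theorem gram_add (Z : Matrix ι ι ℝ) (α β : ι → ℝ) : gram Z (α + β) = gram Z α + gram Z β := by
  ext i j
  simp only [gram_apply, Matrix.add_apply, Pi.add_apply, add_mul, Finset.sum_add_distrib]

theorem gram_smul_w (c : ℝ) (Z : Matrix ι ι ℝ) (α : ι → ℝ) : gram Z (c • α) = c • gram Z α := by
  ext i j
  simp only [gram_apply, Matrix.smul_apply, Pi.smul_apply, smul_eq_mul, Finset.mul_sum]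
  exact Finset.sum_congr rfl fun a _ => by ring

theorem trace_gram_mul (Z : Matrix ι ι ℝ) (α w : ι → ℝ) :
    (gram Z α * diagonal w).trace = hs Z α w := by
  simp only [Matrix.trace, diag_apply, mul_diagonal, gram_apply, hs, Finset.sum_mul]
  rw [Finset.sum_comm]
  exact Finset.sum_congr rfl fun a _ => Finset.sum_congr rfl fun b _ => by ring

theorem hs_nonneg (Z : Matrix ι ι ℝ) {α β : ι → ℝ} (hα : ∀ a, 0 ≤ α a) (hβ : ∀ b, 0 ≤ β b) :
    0 ≤ hs Z α β := by
  exact Finset.sum_nonneg fun a _ => Finset.sum_nonneg fun b _ =>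
    mul_nonneg (mul_nonneg (hα a) (hβ b)) (sq_nonneg _)

theorem hs_transpose (Z : Matrix ι ι ℝ) (α β : ι → ℝ) : hs Zᵀ α β = hs Z β α := by
  simp only [hs, transpose_apply]
  rw [Finset.sum_comm]
  exact Finset.sum_congr rfl fun a _ => Finset.sum_congr rfl fun b _ => by ring

theorem cube_nonneg (Z : Matrix ι ι ℝ) : 0 ≤ cube Z := by
  exact Finset.sum_nonneg fun a _ => Finset.sum_nonneg fun b _ => by positivity

theorem cube_transpose (Z : Matrix ι ι ℝ) : cube Zᵀ = cube Z := by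
  simp only [cube, transpose_apply]
  rw [Finset.sum_comm]

theorem tri_eq_trace (F₀ F₁ F₂ : Matrix ι ι ℝ) (ψ₀ ψ₁ ψ₂ : ι → ℝ) :
    tri F₀ F₁ F₂ ψ₀ ψ₁ ψ₂ =
      (diagonal ψ₀ * F₀ * diagonal ψ₁ * F₁ * diagonal ψ₂ * F₂).trace := by
  simp only [tri, Matrix.trace, diag_apply]
  refine Finset.sum_congr rfl fun a _ => ?_
  rw [Finset.sum_comm, Matrix.mul_apply]
  refine Finset.sum_congr rfl fun c _ => ?_
  rw [mul_diagonal, Matrix.mul_apply, Finset.sum_mul, Finset.sum_mul]
  refine Finset.sum_congr rfl fun b _ => ?_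
  rw [mul_diagonal, diagonal_mul]
  ring

/-- `det (1 + R w) = det (1 + √w R √w)` (`Matrix.det_one_add_mul_comm`). -/
theorem det_X_eq (R : Matrix ι ι ℝ) {w : ι → ℝ} (hw : ∀ b, 0 ≤ w b) :
    (1 + R * diagonal w).det =
      (1 + diagonal (fun b => √(w b)) * R * diagonal (fun b => √(w b))).det := by
  rw [← Mat1.sqrt_mul hw, ← Matrix.mul_assoc, det_one_add_mul_comm, ← Matrix.mul_assoc]

/-- Recipe: `det_X_eq`; `D = √w R √w` is PSD, so by the spectral theorem (or
`Matrix.IsHermitian.det_eq_prod_eigenvalues` for `1 + D`, all of whose eigenvalues are `≥ 1`). -/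
theorem one_le_det {R : Matrix ι ι ℝ} {w : ι → ℝ} (hR : R.PosSemidef) (hw : ∀ b, 0 ≤ w b) :
    1 ≤ (1 + R * diagonal w).det := by
  rw [det_X_eq R hw]
  refine Mat1.one_le_det_one_add ?_
  simpa using Mat1.conj hR (diagonal fun b => √(w b))

theorem isUnit_det_X {R : Matrix ι ι ℝ} {w : ι → ℝ} (hR : R.PosSemidef) (hw : ∀ b, 0 ≤ w b) :
    IsUnit (1 + R * diagonal w).det :=
  (lt_of_lt_of_le one_pos (one_le_det hR hw)).ne'.isUnit

theorem inv_X_eq {R : Matrix ι ι ℝ} {w : ι → ℝ} (hR : R.PosSemidef) (hw : ∀ b, 0 ≤ w b) :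
    (1 + R * diagonal w)⁻¹ = 1 - R * NN R w := by
  have h := Matrix.mul_nonsing_inv _ (isUnit_det_X hR hw)
  rw [add_mul, Matrix.one_mul, Matrix.mul_assoc] at h
  exact eq_sub_of_add_eq h

theorem inv_X_eq' {R : Matrix ι ι ℝ} {w : ι → ℝ} (hR : R.PosSemidef) (hw : ∀ b, 0 ≤ w b) :
    (1 + R * diagonal w)⁻¹ = 1 - MM R w * diagonal w := by
  have h := Matrix.nonsing_inv_mul _ (isUnit_det_X hR hw)
  rw [mul_add, Matrix.mul_one, ← Matrix.mul_assoc] at h
  exact eq_sub_of_add_eq h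

theorem NN_eq {R : Matrix ι ι ℝ} {w : ι → ℝ} (hR : R.PosSemidef) (hw : ∀ b, 0 ≤ w b) :
    NN R w = diagonal w - diagonal w * MM R w * diagonal w := by
  rw [NN, inv_X_eq' hR hw, mul_sub, Matrix.mul_one, Matrix.mul_assoc]

theorem Mat1.MWR {R : Matrix ι ι ℝ} {w : ι → ℝ} (hR : R.PosSemidef) (hw : ∀ b, 0 ≤ w b) :
    MM R w * diagonal w * R = R - MM R w := by
  have h : MM R w = (1 - MM R w * diagonal w) * R := by rw [← inv_X_eq' hR hw, MM]
  rw [sub_mul, Matrix.one_mul] at h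
  rw [eq_sub_iff_add_eq, add_comm, ← eq_sub_iff_add_eq]
  exact h

theorem Mat1.RWM {R : Matrix ι ι ℝ} {w : ι → ℝ} (hR : R.PosSemidef) (hw : ∀ b, 0 ≤ w b) :
    R * diagonal w * MM R w = R - MM R w := by
  have h : (1 + R * diagonal w) * MM R w = R := by
    rw [MM, ← Matrix.mul_assoc, Matrix.mul_nonsing_inv _ (isUnit_det_X hR hw), Matrix.one_mul]
  rw [add_mul, Matrix.one_mul] at h
  rw [eq_sub_iff_add_eq, add_comm]
  exact h

theorem Mat1.WRW {R : Matrix ι ι ℝ} {w : ι → ℝ} (hR : R.PosSemidef) (hw : ∀ b, 0 ≤ w b) :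
    (diagonal w + diagonal w * R * diagonal w).PosSemidef := by
  refine (PosSemidef.diagonal hw).add ?_
  simpa using Mat1.conj hR (diagonal w)

/-- push-through: `(1 + R w)⁻¹ R = R (1 + w R)⁻¹`, so `MM` is symmetric. -/
theorem MM_transpose {R : Matrix ι ι ℝ} {w : ι → ℝ} (hR : R.PosSemidef) (hw : ∀ b, 0 ≤ w b) :
    (MM R w)ᵀ = MM R w := by
  have h1 := congrArg transpose (Mat1.MWR hR hw)
  rw [transpose_mul, transpose_mul, transpose_sub, Mat1.sym hR, diagonal_transpose] at h1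
  have h2 : (1 + R * diagonal w) * (MM R w)ᵀ = R := by
    rw [add_mul, Matrix.one_mul, Matrix.mul_assoc, h1]; abel
  calc (MM R w)ᵀ = (1 + R * diagonal w)⁻¹ * ((1 + R * diagonal w) * (MM R w)ᵀ) := by
        rw [← Matrix.mul_assoc, Matrix.nonsing_inv_mul _ (isUnit_det_X hR hw), Matrix.one_mul]
    _ = MM R w := by rw [h2, MM]

theorem NN_transpose {R : Matrix ι ι ℝ} {w : ι → ℝ} (hR : R.PosSemidef) (hw : ∀ b, 0 ≤ w b) :
    (NN R w)ᵀ = NN R w := by
  rw [NN_eq hR hw, transpose_sub, transpose_mul, transpose_mul, MM_transpose hR hw,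
    diagonal_transpose, Matrix.mul_assoc]

/-- `R - M = M w R`, `1 - w M = (1 + w R)⁻¹`. -/
theorem Aff_MM {R : Matrix ι ι ℝ} {w : ι → ℝ} (hR : R.PosSemidef) (hw : ∀ b, 0 ≤ w b) :
    Aff R (MM R w) w = MM R w := by
  rw [Aff, transpose_sub, transpose_mul, MM_transpose hR hw, diagonal_transpose, transpose_one,
    sub_mul, Matrix.one_mul, Mat1.MWR hR hw]
  noncomm_ring

theorem Aff_psd {R : Matrix ι ι ℝ} {w : ι → ℝ} (hR : R.PosSemidef) (hw : ∀ b, 0 ≤ w b)
    (Z : Matrix ι ι ℝ) : (Aff R Z w).PosSemidef := by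
  exact (Mat1.conj hR _).add (Mat1.conj (PosSemidef.diagonal hw) Z)

theorem MM_psd {R : Matrix ι ι ℝ} {w : ι → ℝ} (hR : R.PosSemidef) (hw : ∀ b, 0 ≤ w b) :
    (MM R w).PosSemidef := by
  rw [← Aff_MM hR hw]; exact Aff_psd hR hw _

/-- Recipe: the difference is `(Z - M)ᵀ (w + w R w) (Z - M)` since `(w + w R w) M = w R` and
`R - M = M w R`. -/
theorem MM_le_Aff {R : Matrix ι ι ℝ} {w : ι → ℝ} (hR : R.PosSemidef) (hw : ∀ b, 0 ≤ w b)
    (Z : Matrix ι ι ℝ) : (Aff R Z w - MM R w).PosSemidef := by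
  have h1 := Mat1.MWR hR hw
  have h2 := Mat1.RWM hR hw
  have h3 : (diagonal w + diagonal w * R * diagonal w) * MM R w = diagonal w * R := by
    rw [add_mul, Matrix.mul_assoc, Matrix.mul_assoc, ← Matrix.mul_assoc R, h2]
    noncomm_ring
  have h4 : MM R w * (diagonal w + diagonal w * R * diagonal w) = R * diagonal w := by
    rw [mul_add, ← Matrix.mul_assoc, ← Matrix.mul_assoc, h1]
    noncomm_ring
  have h5 : Aff R Z w - MM R w =
      (Z - MM R w)ᵀ * (diagonal w + diagonal w * R * diagonal w) * (Z - MM R w) := by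
    rw [transpose_sub, MM_transpose hR hw, sub_mul, h4, mul_sub, sub_mul, sub_mul,
      Matrix.mul_assoc _ _ (MM R w), h3, h2, Aff, transpose_sub, transpose_mul, diagonal_transpose,
      transpose_one]
    noncomm_ring
  rw [h5]
  exact Mat1.conj (Mat1.WRW hR hw) _

/-- `Z = 0` in `MM_le_Aff`. -/
theorem MM_le {R : Matrix ι ι ℝ} {w : ι → ℝ} (hR : R.PosSemidef) (hw : ∀ b, 0 ≤ w b) :
    (R - MM R w).PosSemidef := by
  simpa [Aff] using MM_le_Aff hR hw 0

/-- `MM R w ≤ Aff R (MM R' w) w ≤ Aff R' (MM R' w) w = MM R' w`. -/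
theorem MM_mono {R R' : Matrix ι ι ℝ} {w : ι → ℝ} (hR : R.PosSemidef) (h : (R' - R).PosSemidef)
    (hw : ∀ b, 0 ≤ w b) : (MM R' w - MM R w).PosSemidef := by
  have hR' : R'.PosSemidef := by simpa using hR.add h
  have h1 := MM_le_Aff hR hw (MM R' w)
  have h2 := Mat1.conj h (1 - diagonal w * MM R' w)
  have h3 : MM R' w - MM R w = (Aff R (MM R' w) w - MM R w) +
      (1 - diagonal w * MM R' w)ᵀ * (R' - R) * (1 - diagonal w * MM R' w) := by
    conv_lhs => rw [← Aff_MM hR' hw]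
    simp only [Aff]
    noncomm_ring
  rw [h3]
  exact h1.add h2

/-- `N = X⁻ᵀ (w + w R w) X⁻¹` with `X = 1 + R w`. -/
theorem NN_psd {R : Matrix ι ι ℝ} {w : ι → ℝ} (hR : R.PosSemidef) (hw : ∀ b, 0 ≤ w b) :
    (NN R w).PosSemidef := by
  have h1 := Mat1.conj (Mat1.WRW hR hw) (1 + R * diagonal w)⁻¹
  have h2 : diagonal w + diagonal w * R * diagonal w = diagonal w * (1 + R * diagonal w) := by
    noncomm_ring
  rw [h2, Matrix.mul_assoc, Matrix.mul_assoc, Matrix.mul_nonsing_inv _ (isUnit_det_X hR hw),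
    Matrix.mul_one] at h1
  rw [← NN_transpose hR hw, NN, transpose_mul, diagonal_transpose]
  exact h1

theorem NN_le {R : Matrix ι ι ℝ} {w : ι → ℝ} (hR : R.PosSemidef) (hw : ∀ b, 0 ≤ w b) :
    (diagonal w - NN R w).PosSemidef := by
  rw [NN_eq hR hw, sub_sub_cancel]
  simpa using Mat1.conj (MM_psd hR hw) (diagonal w)

/-- from `NN_eq` and `MM_mono`. -/
theorem NN_anti {R R' : Matrix ι ι ℝ} {w : ι → ℝ} (hR : R.PosSemidef) (h : (R' - R).PosSemidef)
    (hw : ∀ b, 0 ≤ w b) : (NN R w - NN R' w).PosSemidef := by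
  have hR' : R'.PosSemidef := by simpa using hR.add h
  have h1 := Mat1.conj (MM_mono hR h hw) (diagonal w)
  rw [diagonal_transpose] at h1
  rw [NN_eq hR hw, NN_eq hR' hw]
  convert h1 using 1
  noncomm_ring

/-- `√w M √w = 1 - (1 + √w R √w)⁻¹`. -/
theorem MM_conj {R : Matrix ι ι ℝ} {w : ι → ℝ} (hR : R.PosSemidef) (hw : ∀ b, 0 ≤ w b) :
    diagonal (fun b => √(w b)) * MM R w * diagonal (fun b => √(w b)) =
      1 - (1 + diagonal (fun b => √(w b)) * R * diagonal (fun b => √(w b)))⁻¹ := by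
  have h2 := Mat1.RWM hR hw
  rw [← Mat1.sqrt_mul hw] at h2
  set S := diagonal (fun b => √(w b))
  have h3 : (1 + S * R * S) * (1 - S * MM R w * S) = 1 := by
    have : (1 + S * R * S) * (1 - S * MM R w * S) =
        1 + S * (R - MM R w - R * (S * S) * MM R w) * S := by noncomm_ring
    rw [this, h2]
    simp
  rw [Matrix.inv_eq_right_inv h3, sub_sub_cancel]

/-- the trace of a product of PSD matrices is nonnegative. -/
theorem trace_mul_nonneg {X Y : Matrix ι ι ℝ} (hX : X.PosSemidef) (hY : Y.PosSemidef) :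
    0 ≤ (X * Y).trace := by
  obtain ⟨B, rfl⟩ := Mat1.exists_sq hX
  rw [Matrix.mul_assoc, trace_mul_comm]
  simpa using (Mat1.conj hY Bᵀ).trace_nonneg

theorem qf_comm (X Y : Matrix ι ι ℝ) (ψ : ι → ℝ) : qf X Y ψ = qf Y X ψ := by
  rw [qf, qf, Matrix.mul_assoc (X * diagonal ψ), trace_mul_comm, ← Matrix.mul_assoc]

theorem qf_nonneg {X Y : Matrix ι ι ℝ} (hX : X.PosSemidef) (hY : Y.PosSemidef) (ψ : ι → ℝ) :
    0 ≤ qf X Y ψ := by
  have h := trace_mul_nonneg hX (Mat1.conj hY (diagonal ψ))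
  rwa [diagonal_transpose, ← Matrix.mul_assoc, ← Matrix.mul_assoc] at h

theorem qf_mono {X X' Y Y' : Matrix ι ι ℝ} (hX : X.PosSemidef) (hX' : (X' - X).PosSemidef)
    (hY : Y.PosSemidef) (hY' : (Y' - Y).PosSemidef) (ψ : ι → ℝ) : qf X Y ψ ≤ qf X' Y' ψ := by
  have hY2 : Y'.PosSemidef := by simpa using hY.add hY'
  have h1 := qf_nonneg hX hY' ψ
  have h2 := qf_nonneg hX' hY2 ψ
  simp only [qf, mul_sub, sub_mul, trace_sub] at h1 h2 ⊢
  linarith

theorem qf_apply (X Y : Matrix ι ι ℝ) (ψ : ι → ℝ) :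
    qf X Y ψ = ∑ i, ∑ j, X i j * Y j i * (ψ i * ψ j) := by
  simp only [qf, Matrix.trace, diag_apply]
  refine Finset.sum_congr rfl fun i _ => ?_
  rw [mul_diagonal, Matrix.mul_apply, Finset.sum_mul]
  refine Finset.sum_congr rfl fun j _ => ?_
  rw [mul_diagonal]
  ring

theorem qf_smul (c d e : ℝ) (X Y : Matrix ι ι ℝ) (ψ : ι → ℝ) :
    qf (c • X) (d • Y) (fun b => e * ψ b) = c * d * e ^ 2 * qf X Y ψ := by
  simp only [qf_apply, Matrix.smul_apply, smul_eq_mul, Finset.mul_sum]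
  exact Finset.sum_congr rfl fun a _ => Finset.sum_congr rfl fun b _ => by ring

theorem TT_nonneg {R S : Matrix ι ι ℝ} {w : ι → ℝ} (hR : R.PosSemidef) (hS : S.PosSemidef)
    (hw : ∀ b, 0 ≤ w b) (ψ : ι → ℝ) : 0 ≤ TT R S w ψ :=
  qf_nonneg (MM_psd hR hw) (MM_psd hS hw) ψ

theorem TV_nonneg (m : ℤ) (Z₁ Z₂ : Matrix ι ι ℝ) {α γ w : ι → ℝ} (hα : ∀ a, 0 ≤ α a)
    (hγ : ∀ a, 0 ≤ γ a) (hw : ∀ b, 0 ≤ w b) (ψ : ι → ℝ) : 0 ≤ TV m Z₁ α Z₂ γ w ψ :=
  mul_nonneg (zpow_nonneg (by norm_num) m) (TT_nonneg (gram_psd _ hα) (gram_psd _ hγ) hw ψ)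

theorem TV_comm (m : ℤ) (Z₁ Z₂ : Matrix ι ι ℝ) (α γ w ψ : ι → ℝ) :
    TV m Z₁ α Z₂ γ w ψ = TV m Z₂ γ Z₁ α w ψ := by
  simp only [TV, TT]; rw [qf_comm]

theorem tr4_nonneg {N E : Matrix ι ι ℝ} (hN : N.PosSemidef) (hE : Eᵀ = E) :
    0 ≤ (N * E * N * E).trace := by
  have h := trace_mul_nonneg hN (Mat1.conj hN E)
  rwa [hE, ← Matrix.mul_assoc, ← Matrix.mul_assoc] at h

theorem tr4_mono {N N' E : Matrix ι ι ℝ} (hN : N.PosSemidef) (h : (N' - N).PosSemidef)
    (hE : Eᵀ = E) : (N * E * N * E).trace ≤ (N' * E * N' * E).trace := by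
  have hN' : N'.PosSemidef := by simpa using hN.add h
  have h1 := trace_mul_nonneg hN (Mat1.conj h E)
  have h2 := trace_mul_nonneg h (Mat1.conj hN' E)
  rw [hE, ← Matrix.mul_assoc, ← Matrix.mul_assoc] at h1 h2
  simp only [mul_sub, sub_mul, trace_sub] at h1 h2
  linarith

/-- `tr4_nonneg` for `E + E'` and `E - E'`. -/
theorem tr4_cs {N E E' : Matrix ι ι ℝ} (hN : N.PosSemidef) (hE : Eᵀ = E) (hE' : E'ᵀ = E') :
    2 * |(N * E * N * E').trace| ≤ (N * E * N * E).trace + (N * E' * N * E').trace := by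
  have h1 := tr4_nonneg hN (E := E + E') (by rw [transpose_add, hE, hE'])
  have h2 := tr4_nonneg hN (E := E - E') (by rw [transpose_sub, hE, hE'])
  have h3 : (N * E' * N * E).trace = (N * E * N * E').trace := by
    rw [Matrix.mul_assoc (N * E'), trace_mul_comm, ← Matrix.mul_assoc]
  simp only [mul_sub, sub_mul, trace_sub, mul_add, add_mul, trace_add] at h1 h2
  rcases abs_cases (N * E * N * E').trace with h | h <;> linarith [h.1]

/-- `2 |A i j| ≤ A i i + A j j`, `A i i ≤ B i i ≤ tr B`. -/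
theorem psd_entry_le {A B : Matrix ι ι ℝ} (hA : A.PosSemidef) (h : (B - A).PosSemidef) (i j : ι) :
    |A i j| ≤ B.trace := by
  have hB : B.PosSemidef := by simpa using hA.add h
  have hd : ∀ k, A k k ≤ B.trace := fun k => by
    have h1 : 0 ≤ (B - A) k k := h.diag_nonneg
    have h2 : B k k ≤ B.trace :=
      Finset.single_le_sum (f := fun k => B k k) (fun k _ => hB.diag_nonneg) (Finset.mem_univ k)
    rw [Matrix.sub_apply] at h1
    linarith
  have hs : A j i = A i j := by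
    have := congrFun (congrFun (Mat1.sym hA) i) j
    rwa [transpose_apply] at this
  have h1 := hA.dotProduct_mulVec_nonneg (Pi.single i 1 + Pi.single j 1)
  have h2 := hA.dotProduct_mulVec_nonneg (Pi.single i 1 - Pi.single j 1)
  simp only [star_trivial, mulVec_add, mulVec_sub, add_dotProduct, sub_dotProduct, dotProduct_add,
    dotProduct_sub, single_dotProduct, mulVec_single_one, col_apply, one_mul] at h1 h2
  rw [abs_le]
  constructor <;> linarith [hd i, hd j]

/-! ### measurability (`Matrix.inv_def`, `Matrix.det_apply`, `Matrix.adjugate_apply`) -/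

section meas
variable {Ω : Type*} [MeasurableSpace Ω]

theorem measurable_det {X : Ω → Matrix ι ι ℝ} (h : ∀ i j, Measurable fun z => X z i j) :
    Measurable fun z => (X z).det := by
  simp only [Matrix.det_apply']
  exact Finset.measurable_sum _ fun σ _ =>
    (Finset.measurable_prod _ fun i _ => h _ _).const_mul _

theorem measurable_inv_apply {X : Ω → Matrix ι ι ℝ} (h : ∀ i j, Measurable fun z => X z i j)
    (i j : ι) : Measurable fun z => (X z)⁻¹ i j := by
  simp only [Matrix.inv_def, Matrix.smul_apply, Ring.inverse_eq_inv', smul_eq_mul, adjugate_apply]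
  refine (measurable_det h).inv.mul (measurable_det fun k l => ?_)
  simp only [updateRow_apply]
  split_ifs
  · exact measurable_const
  · exact h _ _

theorem measurable_mul_apply {X Y : Ω → Matrix ι ι ℝ} (hX : ∀ i j, Measurable fun z => X z i j)
    (hY : ∀ i j, Measurable fun z => Y z i j) (i j : ι) : Measurable fun z => (X z * Y z) i j := by
  simp only [Matrix.mul_apply]
  exact Finset.measurable_sum _ fun k _ => (hX _ _).mul (hY _ _)

theorem measurable_diagonal_apply {w : Ω → ι → ℝ} (hw : ∀ i, Measurable fun z => w z i) (i j : ι) :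
    Measurable fun z => diagonal (w z) i j := by
  simp only [diagonal_apply]
  split_ifs
  · exact hw _
  · exact measurable_const

theorem measurable_trace {X : Ω → Matrix ι ι ℝ} (h : ∀ i j, Measurable fun z => X z i j) :
    Measurable fun z => (X z).trace := by
  exact Finset.measurable_sum _ fun k _ => h k k

theorem measurable_gram_apply (Z : Matrix ι ι ℝ) {α : Ω → ι → ℝ}
    (hα : ∀ i, Measurable fun z => α z i) (i j : ι) : Measurable fun z => gram Z (α z) i j := by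
  simp only [gram_apply]
  exact Finset.measurable_sum _ fun k _ => (hα k).mul_const _

theorem Mat1.measurable_X {R : Ω → Matrix ι ι ℝ} {w : Ω → ι → ℝ}
    (hR : ∀ i j, Measurable fun z => R z i j) (hw : ∀ i, Measurable fun z => w z i) (i j : ι) :
    Measurable fun z => (1 + R z * diagonal (w z)) i j := by
  simp only [Matrix.add_apply]
  exact (measurable_mul_apply hR (measurable_diagonal_apply hw) i j).const_add _

theorem measurable_MM_apply {R : Ω → Matrix ι ι ℝ} {w : Ω → ι → ℝ}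
    (hR : ∀ i j, Measurable fun z => R z i j) (hw : ∀ i, Measurable fun z => w z i) (i j : ι) :
    Measurable fun z => MM (R z) (w z) i j := by
  exact measurable_mul_apply (measurable_inv_apply (Mat1.measurable_X hR hw)) hR i j

theorem measurable_NN_apply {R : Ω → Matrix ι ι ℝ} {w : Ω → ι → ℝ}
    (hR : ∀ i j, Measurable fun z => R z i j) (hw : ∀ i, Measurable fun z => w z i) (i j : ι) :
    Measurable fun z => NN (R z) (w z) i j := by
  exact measurable_mul_apply (measurable_diagonal_apply hw)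
    (measurable_inv_apply (Mat1.measurable_X hR hw)) i j

theorem measurable_LL {R : Ω → Matrix ι ι ℝ} {w : Ω → ι → ℝ}
    (hR : ∀ i j, Measurable fun z => R z i j) (hw : ∀ i, Measurable fun z => w z i) :
    Measurable fun z => LL (R z) (w z) := by
  exact (measurable_det (Mat1.measurable_X hR hw)).log

theorem measurable_Phi {R : Ω → Matrix ι ι ℝ} {w : Ω → ι → ℝ}
    (hR : ∀ i j, Measurable fun z => R z i j) (hw : ∀ i, Measurable fun z => w z i) :
    Measurable fun z => Phi (R z) (w z) := by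
  exact (measurable_trace (measurable_mul_apply hR (measurable_diagonal_apply hw))).sub
    (measurable_LL hR hw)

theorem measurable_qf {X Y : Ω → Matrix ι ι ℝ} {ψ : Ω → ι → ℝ}
    (hX : ∀ i j, Measurable fun z => X z i j) (hY : ∀ i j, Measurable fun z => Y z i j)
    (hψ : ∀ i, Measurable fun z => ψ z i) : Measurable fun z => qf (X z) (Y z) (ψ z) := by
  exact measurable_trace (measurable_mul_apply (measurable_mul_apply
    (measurable_mul_apply hX (measurable_diagonal_apply hψ)) hY) (measurable_diagonal_apply hψ))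

end meas

end Crest.Agent.R72
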