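/-
R72/Deriv: derivatives of `LL`, `MM`, `NN` along paths.
Skeleton by helper40; keep the statements unchanged (add any helper lemmas you like).
-/
import Crest.Agent.R72.Mat1

set_option autoImplicit false
set_option linter.unusedSectionVars false

namespace Crest.Agent.R72

open Matrix MeasureTheory

variable {ι : Type} [Fintype ι] [DecidableEq ι]

/-- Jacobi's formula.  Recipe: `Matrix.det_apply` and `HasDerivAt.fun_finset_prod` give the derivative
`∑ i, det (X.updateRow i (X' i))` (or `updateCol`), which is `tr (adjugate X * X')`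
(`Matrix.cramer`, `Matrix.cramer_eq_adjugate_mulVec`). -/
theorem hasDerivAt_det {X : ℝ → Matrix ι ι ℝ} {X' : Matrix ι ι ℝ} {r : ℝ}
    (h : ∀ i j, HasDerivAt (fun s => X s i j) (X' i j) r) :
    HasDerivAt (fun s => (X s).det) ((adjugate (X r) * X').trace) r := by
  have h1 : HasDerivAt (fun s => ∑ σ : Equiv.Perm ι, ((Equiv.Perm.sign σ : ℤ) : ℝ) * ∏ i, X s (σ i) i)
      (∑ σ : Equiv.Perm ι, ((Equiv.Perm.sign σ : ℤ) : ℝ) *
        ∑ i, (∏ j ∈ Finset.univ.erase i, X r (σ j) j) • X' (σ i) i) r :=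
    HasDerivAt.fun_sum fun σ _ =>
      (HasDerivAt.fun_finsetProd (f := fun i s => X s (σ i) i) fun i _ => h (σ i) i).const_mul _
  have h2 : (adjugate (X r) * X').trace = ∑ σ : Equiv.Perm ι, ((Equiv.Perm.sign σ : ℤ) : ℝ) *
      ∑ i, (∏ j ∈ Finset.univ.erase i, X r (σ j) j) • X' (σ i) i := by
    simp only [Finset.mul_sum]
    rw [Finset.sum_comm]
    refine Finset.sum_congr rfl fun i _ => ?_
    have h3 : (adjugate (X r) * X').diag i = cramer (X r) (fun k => X' k i) i := by
      rw [cramer_eq_adjugate_mulVec]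
      rfl
    rw [h3, cramer_apply, det_apply']
    refine Finset.sum_congr rfl fun σ _ => ?_
    congr 1
    rw [← Finset.mul_prod_erase _ _ (Finset.mem_univ i), updateCol_self, smul_eq_mul, mul_comm]
    congr 1
    exact Finset.prod_congr rfl fun j hj => updateCol_ne (Finset.mem_erase.1 hj).1
  rw [h2]
  simpa only [det_apply'] using h1

theorem hasDerivAt_mul_apply {X Y : ℝ → Matrix ι ι ℝ} {X' Y' : Matrix ι ι ℝ} {r : ℝ}
    (hX : ∀ i j, HasDerivAt (fun s => X s i j) (X' i j) r)
    (hY : ∀ i j, HasDerivAt (fun s => Y s i j) (Y' i j) r) (i j : ι) :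
    HasDerivAt (fun s => (X s * Y s) i j) ((X' * Y r + X r * Y') i j) r := by
  simp only [Matrix.add_apply, mul_apply, ← Finset.sum_add_distrib]
  exact HasDerivAt.fun_sum fun k _ => (hX i k).fun_mul (hY k j)

/-- Recipe: near `r` the determinant is nonzero, `(X s)⁻¹ = (det)⁻¹ • adjugate` has differentiable entries,
and differentiate `(X s)⁻¹ * X s = 1` (uniqueness of derivatives), or use
`(X s)⁻¹ - (X r)⁻¹ = -(X s)⁻¹ (X s - X r) (X r)⁻¹`. -/
theorem hasDerivAt_inv_apply {X : ℝ → Matrix ι ι ℝ} {X' : Matrix ι ι ℝ} {r : ℝ}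
    (h : ∀ i j, HasDerivAt (fun s => X s i j) (X' i j) r) (hX : IsUnit (X r).det) (i j : ι) :
    HasDerivAt (fun s => (X s)⁻¹ i j) ((-((X r)⁻¹ * X' * (X r)⁻¹)) i j) r := by
  have hd := hasDerivAt_det h
  have hex : ∀ i j, ∃ y, HasDerivAt (fun s => (X s)⁻¹ i j) y r := fun i j => by
    have h1 := hasDerivAt_det (X := fun s => (X s).updateRow j (Pi.single i 1))
      (X' := X'.updateRow j 0) (r := r) (fun a b => by
        by_cases ha : a = j
        · subst ha
          simp only [updateRow_self, Pi.zero_apply]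
          exact hasDerivAt_const _ _
        · simp only [updateRow_ne ha]
          exact h a b)
    have h2 := (hd.fun_inv hX.ne_zero).fun_mul h1
    simp only [inv_def, Ring.inverse_eq_inv', Matrix.smul_apply, adjugate_apply, smul_eq_mul]
    exact ⟨_, h2⟩
  choose Y hY using hex
  have h3 : of Y * X r + (X r)⁻¹ * X' = 0 := by
    ext a b
    have h4 := hasDerivAt_mul_apply (X := fun s => (X s)⁻¹) (X' := of Y) hY h a b
    have h5 : (fun s => ((X s)⁻¹ * X s) a b) =ᶠ[nhds r] fun _ => (1 : Matrix ι ι ℝ) a b := by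
      filter_upwards [hd.continuousAt.eventually_ne hX.ne_zero] with s hs
      rw [nonsing_inv_mul _ (Ne.isUnit hs)]
    exact h4.unique ((hasDerivAt_const r _).congr_of_eventuallyEq h5)
  have h6 : of Y = -((X r)⁻¹ * X' * (X r)⁻¹) := by
    rw [← neg_mul, ← eq_neg_of_add_eq_zero_left h3, mul_nonsing_inv_cancel_right _ _ hX]
  rw [← h6]
  exact hY i j

theorem hasDerivAt_trace {X : ℝ → Matrix ι ι ℝ} {X' : Matrix ι ι ℝ} {r : ℝ}
    (hX : ∀ i j, HasDerivAt (fun s => X s i j) (X' i j) r) :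
    HasDerivAt (fun s => (X s).trace) X'.trace r :=
  HasDerivAt.fun_sum (u := Finset.univ) fun i _ => hX i i

theorem hasDerivAt_diagonal_apply {w : ℝ → ι → ℝ} {w' : ι → ℝ} {r : ℝ}
    (hw : ∀ i, HasDerivAt (fun s => w s i) (w' i) r) (i j : ι) :
    HasDerivAt (fun s => diagonal (w s) i j) (diagonal w' i j) r := by
  simp only [diagonal_apply]
  split_ifs
  · exact hw i
  · exact hasDerivAt_const _ _

theorem hasDerivAt_gram_apply (Z : Matrix ι ι ℝ) {α : ℝ → ι → ℝ} {α' : ι → ℝ} {r : ℝ}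
    (hα : ∀ i, HasDerivAt (fun s => α s i) (α' i) r) (i j : ι) :
    HasDerivAt (fun s => gram Z (α s) i j) (gram Z α' i j) r := by
  simp only [gram_apply]
  exact HasDerivAt.fun_sum fun a _ => (hα a).mul_const _

section path
variable {R : ℝ → Matrix ι ι ℝ} {R' : Matrix ι ι ℝ} {w : ℝ → ι → ℝ} {w' : ι → ℝ} {r : ℝ}
  (hR : ∀ i j, HasDerivAt (fun s => R s i j) (R' i j) r)
  (hw : ∀ i, HasDerivAt (fun s => w s i) (w' i) r)
  (hp : (R r).PosSemidef) (hw0 : ∀ i, 0 ≤ w r i)
include hR hw hp hw0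

omit hp hw0 in
theorem hasDerivAt_X_apply (i j : ι) : HasDerivAt (fun s => (1 + R s * diagonal (w s)) i j)
    ((R' * diagonal (w r) + R r * diagonal w') i j) r :=
  (hasDerivAt_mul_apply hR (hasDerivAt_diagonal_apply hw) i j).const_add _

theorem hasDerivAt_LL : HasDerivAt (fun s => LL (R s) (w s))
    ((NN (R r) (w r) * R').trace + (MM (R r) (w r) * diagonal w').trace) r := by
  have hu := isUnit_det_X hp hw0
  have h1 := (hasDerivAt_det (X := fun s => 1 + R s * diagonal (w s))
    (hasDerivAt_X_apply hR hw)).log hu.ne_zero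
  have h2 : (NN (R r) (w r) * R').trace + (MM (R r) (w r) * diagonal w').trace =
      ((1 + R r * diagonal (w r))⁻¹ * (R' * diagonal (w r) + R r * diagonal w')).trace := by
    rw [NN, MM, mul_add, trace_add, ← mul_assoc, ← mul_assoc, mul_assoc (diagonal (w r)),
      trace_mul_comm (diagonal (w r))]
  rw [h2, inv_def, Ring.inverse_eq_inv', smul_mul_assoc, trace_smul, smul_eq_mul, ← div_eq_inv_mul]
  exact h1

theorem hasDerivAt_MM_apply (i j : ι) : HasDerivAt (fun s => MM (R s) (w s) i j)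
    (((1 + R r * diagonal (w r))⁻¹ * R' * (1 - NN (R r) (w r) * R r) -
      MM (R r) (w r) * diagonal w' * MM (R r) (w r)) i j) r := by
  have h1 := hasDerivAt_mul_apply (X := fun s => (1 + R s * diagonal (w s))⁻¹)
    (hasDerivAt_inv_apply (X := fun s => 1 + R s * diagonal (w s)) (hasDerivAt_X_apply hR hw)
      (isUnit_det_X hp hw0)) hR i j
  convert h1 using 3
  · rfl
  · rw [NN, MM]
    refine congrFun (congrFun ?_ i) j
    noncomm_ring

theorem hasDerivAt_NN_apply (i j : ι) : HasDerivAt (fun s => NN (R s) (w s) i j)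
    (((1 - NN (R r) (w r) * R r) * diagonal w' * (1 + R r * diagonal (w r))⁻¹ -
      NN (R r) (w r) * R' * NN (R r) (w r)) i j) r := by
  have h1 := hasDerivAt_mul_apply (Y := fun s => (1 + R s * diagonal (w s))⁻¹)
    (hasDerivAt_diagonal_apply hw)
    (hasDerivAt_inv_apply (X := fun s => 1 + R s * diagonal (w s)) (hasDerivAt_X_apply hR hw)
      (isUnit_det_X hp hw0)) i j
  convert h1 using 3
  · rfl
  · rw [NN]
    refine congrFun (congrFun ?_ i) j
    noncomm_ring

end path

end Crest.Agent.R72
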