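/-
R72/Gauss: the heat kernel: derivatives, integrals, convolutions, bounds.
Skeleton by helper40; keep the statements unchanged (add any helper lemmas you like).
-/
import Crest.Agent.R72.Defs

set_option autoImplicit false
set_option linter.unusedSectionVars false

namespace Crest.Agent.R72

open MeasureTheory

theorem g_pos {t : ℝ} (ht : 0 < t) (x : ℝ) : 0 < g t x := by
  unfold g
  have := Real.pi_pos
  positivity

theorem g_nonneg (t x : ℝ) : 0 ≤ g t x := by
  unfold g
  positivity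

theorem g_neg (t x : ℝ) : g t (-x) = g t x := by
  simp only [g, neg_sq]

theorem g_le (t x : ℝ) (ht : 0 < t) : g t x ≤ (√(2 * Real.pi * t))⁻¹ := by
  refine mul_le_of_le_one_right (by positivity) (Real.exp_le_one_iff.2 ?_)
  exact div_nonpos_of_nonpos_of_nonneg (neg_nonpos.2 (sq_nonneg x)) (by positivity)

theorem measurable_g : Measurable fun p : ℝ × ℝ => g p.1 p.2 := by
  unfold g
  fun_prop

theorem measurable_g1 : Measurable fun p : ℝ × ℝ => g1 p.1 p.2 := by
  unfold g1 g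
  fun_prop

theorem measurable_g2 : Measurable fun p : ℝ × ℝ => g2 p.1 p.2 := by
  unfold g2 g
  fun_prop

theorem continuous_g (t : ℝ) : Continuous (g t) := by
  unfold g
  fun_prop

theorem continuous_g1 (t : ℝ) : Continuous (g1 t) := by
  unfold g1 g
  fun_prop

theorem continuous_g2 (t : ℝ) : Continuous (g2 t) := by
  unfold g2 g
  fun_prop

theorem hasDerivAt_g {t : ℝ} (ht : 0 < t) (x : ℝ) : HasDerivAt (g t) (g1 t x) x := by
  have h1 := ((((hasDerivAt_pow 2 x).neg).div_const (2 * t)).exp).const_mul (√(2 * Real.pi * t))⁻¹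
  refine HasDerivAt.congr_deriv (h1) ?_
  simp only [g1, g, Pi.neg_apply]
  field_simp
  norm_num

theorem hasDerivAt_g1 {t : ℝ} (ht : 0 < t) (x : ℝ) : HasDerivAt (g1 t) (g2 t x) x := by
  have h1 := (((hasDerivAt_id' x).neg).div_const t).mul (hasDerivAt_g ht x)
  refine HasDerivAt.congr_deriv (h1) ?_
  simp only [g2, g1, Pi.neg_apply]
  field_simp
  ring

theorem hasDerivAt_g2 {t : ℝ} (ht : 0 < t) (x : ℝ) : HasDerivAt (g2 t) (g3 t x) x := by
  have h1 := (((hasDerivAt_pow 2 x).div_const (t ^ 2)).sub_const (1 / t)).mul (hasDerivAt_g ht x)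
  refine HasDerivAt.congr_deriv (h1) ?_
  simp only [g3, g1]
  field_simp
  ring

/-- the heat equation. -/
theorem hasDerivAt_g_time {t : ℝ} (ht : 0 < t) (x : ℝ) :
    HasDerivAt (fun s => g s x) (g2 t x / 2) t := by
  have hp : 0 < 2 * Real.pi * t := by have := Real.pi_pos; positivity
  have hr : 0 < √(2 * Real.pi * t) := Real.sqrt_pos.2 hp
  have h1 := (((hasDerivAt_id' t).const_mul (2 * Real.pi)).sqrt hp.ne').fun_inv hr.ne'
  have h2 := ((hasDerivAt_const t (-x ^ 2)).fun_div ((hasDerivAt_id' t).const_mul 2)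
    (by positivity)).exp
  refine HasDerivAt.congr_deriv (h1.mul h2) ?_
  simp only [g2, g]
  rw [Real.sq_sqrt hp.le]
  have := Real.pi_pos
  field_simp
  ring

theorem hasDerivAt_g2_time {t : ℝ} (ht : 0 < t) (x : ℝ) :
    HasDerivAt (fun s => g2 s x) (g4 t x / 2) t := by
  have h1 := (((hasDerivAt_const t (x ^ 2)).fun_div (hasDerivAt_pow 2 t) (by positivity)).fun_sub
    ((hasDerivAt_const t (1 : ℝ)).fun_div (hasDerivAt_id' t) ht.ne')).mul (hasDerivAt_g_time ht x)
  refine HasDerivAt.congr_deriv (h1) ?_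
  simp only [g4, g2]
  field_simp
  ring

theorem gauss_eq (t x : ℝ) :
    g t x = (√(2 * Real.pi * t))⁻¹ * Real.exp (-(2 * t)⁻¹ * x ^ 2) := by
  unfold g
  congr 2
  ring

theorem integrable_g {t : ℝ} (ht : 0 < t) : Integrable (g t) := by
  simp only [funext (gauss_eq t)]
  exact (integrable_exp_neg_mul_sq (by positivity)).const_mul _

/-- `integral_gaussian`. -/
theorem integral_g {t : ℝ} (ht : 0 < t) : ∫ x, g t x = 1 := by
  have hp : 0 < 2 * Real.pi * t := by have := Real.pi_pos; positivity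
  simp only [gauss_eq]
  rw [integral_const_mul, integral_gaussian, div_inv_eq_mul,
    show Real.pi * (2 * t) = 2 * Real.pi * t by ring]
  exact inv_mul_cancel₀ (Real.sqrt_pos.2 hp).ne'

/-- `x^k g t x` is integrable (`integrable_rpow_mul_exp_neg_mul_sq`, or domination by a wider Gaussian). -/
theorem integrable_pow_mul_g {t : ℝ} (ht : 0 < t) (k : ℕ) : Integrable fun x => x ^ k * g t x := by
  have h := (integrable_rpow_mul_exp_neg_mul_sq (b := (2 * t)⁻¹) (by positivity) (s := k)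
    (lt_of_lt_of_le (by norm_num) (Nat.cast_nonneg k))).const_mul (√(2 * Real.pi * t))⁻¹
  refine h.congr (Filter.Eventually.of_forall fun x => ?_)
  simp only [gauss_eq, Real.rpow_natCast]
  ring

/-- moments, by integration by parts (`integral_eq_zero_of_hasDerivAt_of_integrable` for `x^(k+1) g`). -/
theorem moment_succ {t : ℝ} (ht : 0 < t) (k : ℕ) :
    ∫ x, x ^ (k + 2) * g t x = (k + 1) * t * ∫ x, x ^ k * g t x := by
  have hd : ∀ x, HasDerivAt (fun x => x ^ (k + 1) * g t x)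
      ((k + 1) * (x ^ k * g t x) - t⁻¹ * (x ^ (k + 2) * g t x)) x := by
    intro x
    refine HasDerivAt.congr_deriv ((hasDerivAt_pow (k + 1) x).mul (hasDerivAt_g ht x)) ?_
    simp only [g1, Nat.add_sub_cancel]
    push_cast
    ring
  have h1 := (integrable_pow_mul_g ht k).const_mul ((k : ℝ) + 1)
  have h2 := (integrable_pow_mul_g ht (k + 2)).const_mul t⁻¹
  have h := integral_eq_zero_of_hasDerivAt_of_integrable hd (h1.sub h2)
    (integrable_pow_mul_g ht (k + 1))
  rw [integral_sub h1 h2, integral_const_mul, integral_const_mul, sub_eq_zero] at h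
  rw [mul_right_comm, h]
  field_simp

theorem moment_one {t : ℝ} (ht : 0 < t) : ∫ x, x * g t x = 0 := by
  have h := integral_neg_eq_self (fun x => x * g t x) volume
  simp only [g_neg, neg_mul, integral_neg] at h
  linarith

/-- completing the square. -/
theorem g_mul_g {a b : ℝ} (ha : 0 < a) (hb : 0 < b) (x y p : ℝ) :
    g a (x - p) * g b (y + p) = g (a + b) (x + y) * g (a * b / (a + b)) (p - (b * x - a * y) / (a + b)) := by
  have hπ := Real.pi_pos
  have h1 : (√(2 * Real.pi * a))⁻¹ * (√(2 * Real.pi * b))⁻¹ =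
      (√(2 * Real.pi * (a + b)))⁻¹ * (√(2 * Real.pi * (a * b / (a + b))))⁻¹ := by
    rw [← mul_inv, ← mul_inv, ← Real.sqrt_mul (by positivity), ← Real.sqrt_mul (by positivity)]
    congr 2
    field_simp
  unfold g
  rw [mul_mul_mul_comm, h1, ← Real.exp_add, mul_mul_mul_comm _ (Real.exp _), ← Real.exp_add]
  congr 2
  field_simp
  ring

theorem integrable_g_mul_g {a b : ℝ} (ha : 0 < a) (hb : 0 < b) (x y : ℝ) :
    Integrable fun p => g a (x - p) * g b (y + p) := by
  simp only [g_mul_g ha hb]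
  exact ((integrable_g (by positivity)).comp_sub_right _).const_mul _

theorem conv_g {a b : ℝ} (ha : 0 < a) (hb : 0 < b) (x y : ℝ) :
    ∫ p, g a (x - p) * g b (y + p) = g (a + b) (x + y) := by
  simp only [g_mul_g ha hb]
  rw [integral_const_mul, integral_sub_right_eq_self (g (a * b / (a + b))),
    integral_g (by positivity), mul_one]

theorem conv_g' {a b : ℝ} (ha : 0 < a) (hb : 0 < b) (x y : ℝ) :
    ∫ p, g a (x - p) * g b (y - p) = g (a + b) (x - y) := by
  rw [sub_eq_add_neg x y, ← conv_g ha hb]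
  refine integral_congr_ae (Filter.Eventually.of_forall fun p => ?_)
  simp only
  rw [← g_neg b (y - p)]
  congr 2
  ring

theorem gauss_const {t : ℝ} (ht : 0 < t) :
    (√(2 * Real.pi * t))⁻¹ = √2 * (√(2 * Real.pi * (2 * t)))⁻¹ := by
  have hπ := Real.pi_pos
  rw [show 2 * Real.pi * (2 * t) = 2 * (2 * Real.pi * t) by ring, Real.sqrt_mul zero_le_two (_ * t)]
  field_simp

theorem gauss_two {t : ℝ} (ht : 0 < t) (x : ℝ) :
    g t x = √2 * g (2 * t) x * Real.exp (-(x ^ 2 / t / 4)) := by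
  unfold g
  rw [gauss_const ht, mul_assoc √2, mul_assoc √2, mul_assoc _ (Real.exp _), ← Real.exp_add]
  congr 3
  field_simp
  ring

theorem gauss_sqrt_two : √2 ≤ 3 / 2 := by
  rw [Real.sqrt_le_iff]
  norm_num

theorem gauss_exp (y : ℝ) : Real.exp (-y) * (1 + y) ≤ 1 := by
  have := Real.add_one_le_exp y
  rw [Real.exp_neg, inv_mul_le_iff₀ (Real.exp_pos _)]
  linarith

theorem g_le_g_two {t : ℝ} (ht : 0 < t) (x : ℝ) : g t x ≤ √2 * g (2 * t) x := by
  rw [gauss_two ht]
  refine mul_le_of_le_one_right (mul_nonneg (by positivity) (g_nonneg _ _))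
    (Real.exp_le_one_iff.2 (neg_nonpos.2 (by positivity)))

/-- `|y| exp (-y²/4) ≤ √2` (indeed `≤ √(2/e)`). -/
theorem abs_g1_le {t : ℝ} (ht : 0 < t) (x : ℝ) : |√t / 2 * g1 t x| ≤ g (2 * t) x := by
  have hs : 0 < √t := Real.sqrt_pos.2 ht
  have hg := g_nonneg (2 * t) x
  have h1 : √t / 2 * g1 t x =
      -(x / √t) * (√2 / 2 * Real.exp (-((x / √t) ^ 2 / 4))) * g (2 * t) x := by
    rw [g1, gauss_two ht, div_pow, Real.sq_sqrt ht.le]
    have h2 : √t / t = 1 / √t := by
      rw [div_eq_div_iff ht.ne' hs.ne', Real.mul_self_sqrt ht.le, one_mul]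
    calc _ = -x * (√t / t) * (√2 / 2 * Real.exp (-(x ^ 2 / t / 4))) * g (2 * t) x := by ring
      _ = _ := by rw [h2]; ring
  rw [h1, abs_mul, abs_of_nonneg hg, abs_mul, abs_neg, abs_of_nonneg (a := _ * _) (by positivity)]
  refine mul_le_of_le_one_left hg ?_
  generalize x / √t = y
  have h3 := gauss_exp (y ^ 2 / 4)
  have h4 := Real.exp_pos (-(y ^ 2 / 4))
  have h5 : |y| ≤ 1 + y ^ 2 / 4 := by nlinarith [sq_nonneg (|y| - 2), sq_abs y]
  have h6 := mul_le_mul_of_nonneg_left h5 h4.le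
  have h7 : 0 ≤ Real.exp (-(y ^ 2 / 4)) * |y| := by positivity
  have h8 := mul_le_mul_of_nonneg_right gauss_sqrt_two h7
  nlinarith

theorem abs_pv_le {ι : Type} (y : ι → ℝ) {t : ℝ} (ht : 0 < t) (r : ℝ) (a : ι) :
    |pv y t r a| ≤ wv y (2 * t) r a :=
  abs_g1_le ht _

theorem abs_g2_le {t : ℝ} (ht : 0 < t) (x : ℝ) : |g2 t x| ≤ 6 / t * g (2 * t) x := by
  have hg := g_nonneg (2 * t) x
  have h1 : g2 t x = (x ^ 2 / t - 1) * (√2 * Real.exp (-(x ^ 2 / t / 4))) * (g (2 * t) x / t) := by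
    rw [g2, gauss_two ht]
    field_simp
  have hy : 0 ≤ x ^ 2 / t := by positivity
  rw [h1, abs_mul, abs_of_nonneg (div_nonneg hg ht.le), abs_mul,
    abs_of_nonneg (a := _ * _) (by positivity), show 6 / t * g (2 * t) x = 6 * (g (2 * t) x / t) by ring]
  refine mul_le_mul_of_nonneg_right ?_ (div_nonneg hg ht.le)
  generalize x ^ 2 / t = y at hy
  have h3 := gauss_exp (y / 4)
  have h4 := Real.exp_pos (-(y / 4))
  have h5 : |y - 1| ≤ 4 * (1 + y / 4) := abs_le.2 ⟨by linarith, by linarith⟩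
  have h6 := mul_le_mul_of_nonneg_left h5 h4.le
  have h7 : 0 ≤ Real.exp (-(y / 4)) * |y - 1| := by positivity
  have h8 := mul_le_mul_of_nonneg_right gauss_sqrt_two h7
  nlinarith

/-- uniform Gaussian decay on a compact range of variances, around finitely many centres. -/
theorem exists_decay {ι : Type} [Fintype ι] (y : ι → ℝ) {τ₁ τ₂ : ℝ} (h₁ : 0 < τ₁) :
    ∃ C κ : ℝ, 0 < κ ∧ 0 ≤ C ∧ ∀ τ ∈ Set.Icc τ₁ τ₂, ∀ (a : ι) (r : ℝ),
      |g τ (y a - r)| ≤ C * Real.exp (-κ * r ^ 2) ∧ |g1 τ (y a - r)| ≤ C * Real.exp (-κ * r ^ 2) ∧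
        |g2 τ (y a - r)| ≤ C * Real.exp (-κ * r ^ 2) := by
  have hπ := Real.pi_pos
  have hT : 0 < max τ₁ τ₂ := lt_max_of_lt_left h₁
  set T := max τ₁ τ₂ with hTdef
  set A := (√(2 * Real.pi * (2 * τ₁)))⁻¹ * Real.exp ((∑ a, y a ^ 2) / (4 * T)) with hA
  have hA0 : 0 ≤ A := by positivity
  refine ⟨(√2 + 2 / √τ₁ + 6 / τ₁) * A, 1 / (8 * T), by positivity, by positivity,
    fun τ hτ a r => ?_⟩
  have hτ0 : 0 < τ := h₁.trans_le hτ.1
  have hτT : τ ≤ T := hτ.2.trans (le_max_right _ _)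
  have hg : g (2 * τ) (y a - r) ≤ A * Real.exp (-(1 / (8 * T)) * r ^ 2) := by
    rw [hA, mul_assoc, ← Real.exp_add]
    refine mul_le_mul (inv_anti₀ (by positivity) (Real.sqrt_le_sqrt (by gcongr; exact hτ.1)))
      (Real.exp_le_exp.2 ?_) (by positivity) (by positivity)
    have e1 : y a ^ 2 ≤ ∑ a, y a ^ 2 :=
      Finset.single_le_sum (f := fun a => y a ^ 2) (fun _ _ => sq_nonneg _) (Finset.mem_univ a)
    have e2 : (y a - r) ^ 2 / (4 * T) ≤ (y a - r) ^ 2 / (2 * (2 * τ)) :=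
      div_le_div_of_nonneg_left (sq_nonneg _) (by positivity) (by linarith)
    have e3 : (r ^ 2 / 2 - ∑ a, y a ^ 2) / (4 * T) ≤ (y a - r) ^ 2 / (4 * T) :=
      div_le_div_of_nonneg_right (by nlinarith [sq_nonneg (2 * y a - r)]) (by positivity)
    have e4 : (∑ a, y a ^ 2) / (4 * T) + -(1 / (8 * T)) * r ^ 2 =
        -((r ^ 2 / 2 - ∑ a, y a ^ 2) / (4 * T)) := by
      field_simp
      ring
    rw [e4, neg_div]
    linarith
  have hg0 := g_nonneg (2 * τ) (y a - r)
  have key : ∀ u c : ℝ, c ≤ √2 + 2 / √τ₁ + 6 / τ₁ → u ≤ c * g (2 * τ) (y a - r) →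
      u ≤ (√2 + 2 / √τ₁ + 6 / τ₁) * A * Real.exp (-(1 / (8 * T)) * r ^ 2) := by
    intro u c hc hu
    rw [mul_assoc]
    exact hu.trans (mul_le_mul hc hg hg0 (by positivity))
  have p1 : 0 ≤ √2 := by positivity
  have p2 : 0 ≤ 2 / √τ₁ := by positivity
  have p3 : 0 ≤ 6 / τ₁ := by positivity
  refine ⟨key _ √2 (by linarith) ?_, key _ (2 / √τ) ?_ ?_, key _ (6 / τ) ?_ (abs_g2_le hτ0 _)⟩
  · rw [abs_of_nonneg (g_nonneg _ _)]
    exact g_le_g_two hτ0 _
  · have : 2 / √τ ≤ 2 / √τ₁ :=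
      div_le_div_of_nonneg_left zero_le_two (Real.sqrt_pos.2 h₁) (Real.sqrt_le_sqrt hτ.1)
    linarith
  · have hs : 0 < √τ := Real.sqrt_pos.2 hτ0
    have := abs_g1_le hτ0 (y a - r)
    rw [abs_mul, abs_of_pos (by positivity)] at this
    rw [div_mul_eq_mul_div, le_div_iff₀ hs]
    linarith
  · have : 6 / τ ≤ 6 / τ₁ := div_le_div_of_nonneg_left (by norm_num) h₁ hτ.1
    linarith

theorem gauss_cell {τ z s : ℝ} (hτ : 1 ≤ τ) (h : |s - z| ≤ 1 / 2) : g τ z ≤ 2 * g (2 * τ) s := by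
  have hτ0 : 0 < τ := by linarith
  have h1 : -z ^ 2 / (2 * τ) ≤ 1 / 8 + -s ^ 2 / (2 * (2 * τ)) := by
    have e1 : (s - z) ^ 2 ≤ (1 / 2) ^ 2 := sq_le_sq' (abs_le.1 h).1 (abs_le.1 h).2
    have e2 : 1 / 8 + -s ^ 2 / (2 * (2 * τ)) = (τ / 4 - s ^ 2 / 2) / (2 * τ) := by
      field_simp
      ring
    rw [e2]
    exact div_le_div_of_nonneg_right (by nlinarith [sq_nonneg (s - 2 * z)]) (by positivity)
  have h2 := Real.exp_le_exp.2 h1
  rw [Real.exp_add] at h2
  have h3 := Real.exp_bound_div_one_sub_of_interval (x := 1 / 8) (by norm_num) (by norm_num)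
  have h4 := Real.exp_pos (-s ^ 2 / (2 * (2 * τ)))
  have h5 := h2.trans (mul_le_mul_of_nonneg_right h3 h4.le)
  have h6 := mul_le_mul gauss_sqrt_two h5 (Real.exp_pos _).le (by norm_num)
  unfold g
  rw [gauss_const hτ0, mul_right_comm, mul_left_comm 2, mul_comm]
  refine mul_le_mul_of_nonneg_left ?_ (by positivity)
  linarith

/-- lattice sums.  Recipe: split the sum into the points left and right of `p` and use monotonicity of
`g τ` on each side (`AntitoneOn.sum_le_integral`, or `g τ (a + θ - p) ≤ ∫ over the adjacent unit cell towards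
`p`): each half is at most `g τ 0 + 1/2 ≤ 1`. -/
theorem sum_g_lat_le (N : ℕ) (θ p : ℝ) {τ : ℝ} (hτ : 1 ≤ τ) : ∑ a : Fin N, g τ (lat N θ a - p) ≤ 2 := by
  have hτ0 : 0 < τ := by linarith
  have hint := integrable_g (t := 2 * τ) (by positivity)
  let c : ℕ → ℝ := fun k => k + θ - p - 1 / 2
  have h1 : ∀ k : ℕ, g τ (k + θ - p) ≤ 2 * ∫ s in c k..c (k + 1), g (2 * τ) s := by
    intro k
    have hc : c (k + 1) = c k + 1 := by simp only [c]; push_cast; ring
    have h2 := intervalIntegral.integral_mono_on (μ := volume) (a := c k) (b := c (k + 1))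
      (f := fun _ => g τ (k + θ - p)) (g := fun s => 2 * g (2 * τ) s) (by linarith)
      intervalIntegrable_const (hint.const_mul 2).intervalIntegrable fun s hs =>
        gauss_cell hτ (by
          have e1 := hs.1
          have e2 := hs.2
          rw [hc] at e2
          simp only [c] at e1 e2
          exact abs_le.2 ⟨by linarith, by linarith⟩)
    rw [intervalIntegral.integral_const, intervalIntegral.integral_const_mul, hc,
      add_sub_cancel_left, one_smul] at h2
    rwa [hc]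
  have h2 : ∑ a : Fin N, g τ (lat N θ a - p) = ∑ k ∈ Finset.range N, g τ (k + θ - p) :=
    Fin.sum_univ_eq_sum_range (fun k => g τ (k + θ - p)) N
  rw [h2]
  refine (Finset.sum_le_sum fun k _ => h1 k).trans ?_
  rw [← Finset.mul_sum,
    intervalIntegral.sum_integral_adjacent_intervals fun _ _ => hint.intervalIntegrable]
  have h3 : c 0 ≤ c N := by
    simp only [c]
    have : (0 : ℝ) ≤ N := Nat.cast_nonneg N
    push_cast
    linarith
  rw [intervalIntegral.integral_of_le h3]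
  have h4 := setIntegral_le_integral (s := Set.Ioc (c 0) (c N)) hint
    (Filter.Eventually.of_forall (g_nonneg _))
  rw [integral_g (by positivity)] at h4
  linarith

end Crest.Agent.R72
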