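/-
R72/Gauss2: convolutions of derivatives of the heat kernel, and products on the plane.
Skeleton by helper40; keep the statements unchanged (add any helper lemmas you like).
-/
import Crest.Agent.R72.Gauss

set_option autoImplicit false
set_option linter.unusedSectionVars false

namespace Crest.Agent.R72

open MeasureTheory

theorem gauss2_poly {c : ℝ} (hc : 0 < c) (μ u v s₀ s₁ s₂ s₃ : ℝ) :
    ∫ p, (u + v * (p - μ)) * (s₀ + s₁ * (p - μ) + s₂ * (p - μ) ^ 2 + s₃ * (p - μ) ^ 3) *
      g c (p - μ) = u * s₀ + (u * s₂ + v * s₁) * c + 3 * (v * s₃) * c ^ 2 := by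
  rw [integral_sub_right_eq_self
    (fun q => (u + v * q) * (s₀ + s₁ * q + s₂ * q ^ 2 + s₃ * q ^ 3) * g c q) μ]
  have m0 : ∫ x, x ^ 0 * g c x = 1 := by simpa using integral_g hc
  have m1 : ∫ x, x ^ 1 * g c x = 0 := by simpa using moment_one hc
  have m2 := moment_succ hc 0
  have m3 := moment_succ hc 1
  have m4 := moment_succ hc 2
  rw [m0] at m2
  rw [m1] at m3
  rw [show (2 : ℕ) = 0 + 2 from rfl, m2] at m4
  have h : ∀ q, (u + v * q) * (s₀ + s₁ * q + s₂ * q ^ 2 + s₃ * q ^ 3) * g c q =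
      ∑ k ∈ Finset.range 5, ![u * s₀, u * s₁ + v * s₀, u * s₂ + v * s₁, u * s₃ + v * s₂, v * s₃]
        (Fin.ofNat 5 k) * (q ^ k * g c q) := by
    intro q
    simp [Finset.sum_range_succ, Fin.ofNat]
    ring
  simp only [h]
  rw [integral_finsetSum _ fun k _ => (integrable_pow_mul_g hc k).const_mul _]
  simp only [integral_const_mul, Finset.sum_range_succ, Finset.sum_range_zero, m0, m1]
  erw [m2, m3, m4]
  simp [Fin.ofNat]
  ring

/-- Recipe for the three convolutions: by `g_mul_g` the integrand is a polynomial in `p - μ` times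
`g (a+b) (x+y) * g c (p - μ)`; translate, expand, use the moments `1, 0, c, 0, 3c²`
(`integral_g`, `moment_one`, `moment_succ`), finish with `field_simp; ring`. -/
theorem conv_g1_g1 {a b : ℝ} (ha : 0 < a) (hb : 0 < b) (x y : ℝ) :
    ∫ p, g1 a (x - p) * g1 b (y + p) = g2 (a + b) (x + y) := by
  have hab : 0 < a + b := by positivity
  have h := gauss2_poly (c := a * b / (a + b)) (by positivity) ((b * x - a * y) / (a + b))
    (-(x + y) / (a + b)) (1 / a) (-((x + y) / (a + b))) (-(1 / b)) (0) (0)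
  have h1 : ∀ p, g1 a (x - p) * g1 b (y + p) = g (a + b) (x + y) *
      ((-(x + y) / (a + b) + 1 / a * (p - (b * x - a * y) / (a + b))) *
        ((-((x + y) / (a + b))) + (-(1 / b)) * (p - (b * x - a * y) / (a + b)) +
          (0) * (p - (b * x - a * y) / (a + b)) ^ 2 +
          (0) * (p - (b * x - a * y) / (a + b)) ^ 3) *
        g (a * b / (a + b)) (p - (b * x - a * y) / (a + b))) := by
    intro p
    simp only [g1]
    rw [mul_mul_mul_comm, g_mul_g ha hb]
    generalize g (a + b) (x + y) = G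
    generalize g (a * b / (a + b)) (p - (b * x - a * y) / (a + b)) = H
    field_simp
    ring
  simp only [h1]
  rw [integral_const_mul, h, g2]
  field_simp
  ring

theorem conv_g1_g2 {a b : ℝ} (ha : 0 < a) (hb : 0 < b) (x y : ℝ) :
    ∫ p, g1 a (x - p) * g2 b (y + p) = g3 (a + b) (x + y) := by
  have hab : 0 < a + b := by positivity
  have h := gauss2_poly (c := a * b / (a + b)) (by positivity) ((b * x - a * y) / (a + b))
    (-(x + y) / (a + b)) (1 / a) (((x + y) / (a + b)) ^ 2 - 1 / b) (2 * ((x + y) / (a + b)) / b) (1 / b ^ 2) (0)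
  have h1 : ∀ p, g1 a (x - p) * g2 b (y + p) = g (a + b) (x + y) *
      ((-(x + y) / (a + b) + 1 / a * (p - (b * x - a * y) / (a + b))) *
        ((((x + y) / (a + b)) ^ 2 - 1 / b) + (2 * ((x + y) / (a + b)) / b) * (p - (b * x - a * y) / (a + b)) +
          (1 / b ^ 2) * (p - (b * x - a * y) / (a + b)) ^ 2 +
          (0) * (p - (b * x - a * y) / (a + b)) ^ 3) *
        g (a * b / (a + b)) (p - (b * x - a * y) / (a + b))) := by
    intro p
    simp only [g1, g2]
    rw [mul_mul_mul_comm, g_mul_g ha hb]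
    generalize g (a + b) (x + y) = G
    generalize g (a * b / (a + b)) (p - (b * x - a * y) / (a + b)) = H
    field_simp
    ring
  simp only [h1]
  rw [integral_const_mul, h, g3]
  field_simp
  ring

theorem conv_g1_g3 {a b : ℝ} (ha : 0 < a) (hb : 0 < b) (x y : ℝ) :
    ∫ p, g1 a (x - p) * g3 b (y + p) = g4 (a + b) (x + y) := by
  have hab : 0 < a + b := by positivity
  have h := gauss2_poly (c := a * b / (a + b)) (by positivity) ((b * x - a * y) / (a + b))
    (-(x + y) / (a + b)) (1 / a) (-((x + y) / (a + b)) ^ 3 + 3 * ((x + y) / (a + b)) / b) (-3 * ((x + y) / (a + b)) ^ 2 / b + 3 / b ^ 2) (-3 * ((x + y) / (a + b)) / b ^ 2) (-(1 / b ^ 3))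
  have h1 : ∀ p, g1 a (x - p) * g3 b (y + p) = g (a + b) (x + y) *
      ((-(x + y) / (a + b) + 1 / a * (p - (b * x - a * y) / (a + b))) *
        ((-((x + y) / (a + b)) ^ 3 + 3 * ((x + y) / (a + b)) / b) + (-3 * ((x + y) / (a + b)) ^ 2 / b + 3 / b ^ 2) * (p - (b * x - a * y) / (a + b)) +
          (-3 * ((x + y) / (a + b)) / b ^ 2) * (p - (b * x - a * y) / (a + b)) ^ 2 +
          (-(1 / b ^ 3)) * (p - (b * x - a * y) / (a + b)) ^ 3) *
        g (a * b / (a + b)) (p - (b * x - a * y) / (a + b))) := by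
    intro p
    simp only [g1, g3]
    rw [mul_mul_mul_comm, g_mul_g ha hb]
    generalize g (a + b) (x + y) = G
    generalize g (a * b / (a + b)) (p - (b * x - a * y) / (a + b)) = H
    field_simp
    ring
  simp only [h1]
  rw [integral_const_mul, h, g4]
  field_simp
  ring

theorem integrable_g1 {t : ℝ} (ht : 0 < t) : Integrable (g1 t) := by
  refine ((integrable_pow_mul_g ht 1).const_mul (-t⁻¹)).congr
    (Filter.Eventually.of_forall fun x => ?_)
  simp only [g1]
  ring

/-- the product of three first derivatives is integrable on `ℝ³` (`Integrable.mul_prod`). -/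
theorem integrable_g1_prod {t : ℝ} (ht : 0 < t) (x₀ x₁ x₂ : ℝ) :
    Integrable fun p : ℝ × ℝ × ℝ => g1 t (x₀ - p.1) * g1 t (x₁ - p.2.1) * g1 t (x₂ - p.2.2) := by
  have h := ((integrable_g1 ht).comp_sub_left x₀).mul_prod
    (((integrable_g1 ht).comp_sub_left x₁).mul_prod ((integrable_g1 ht).comp_sub_left x₂))
  simp only [mul_assoc]
  exact h

theorem gauss2_g1_bdd {t : ℝ} (ht : 0 < t) : ∃ C, ∀ x, ‖g1 t x‖ ≤ C := by
  refine ⟨(√(2 * Real.pi * (2 * t)))⁻¹ / (√t / 2), fun x => ?_⟩
  have hs : 0 < √t := Real.sqrt_pos.2 ht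
  have h := (abs_g1_le ht x).trans (g_le _ _ (by positivity))
  rw [abs_mul, abs_of_pos (by positivity)] at h
  rw [Real.norm_eq_abs, le_div_iff₀ (by positivity), mul_comm]
  exact h

/-- the fourfold convolution (`integral_prod` twice; `g1 t` is bounded). -/
theorem conv4 {t : ℝ} (ht : 0 < t) (x₀ x₁ x₂ s : ℝ) :
    ∫ p : ℝ × ℝ × ℝ, g1 t (s3 p - s) * (g1 t (x₀ - p.1) * g1 t (x₁ - p.2.1) * g1 t (x₂ - p.2.2)) =
      g4 (4 * t) (x₀ + x₁ + x₂ - s) := by
  obtain ⟨C, hC⟩ := gauss2_g1_bdd ht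
  have hI : Integrable fun p : ℝ × ℝ × ℝ =>
      g1 t (s3 p - s) * (g1 t (x₀ - p.1) * g1 t (x₁ - p.2.1) * g1 t (x₂ - p.2.2)) := by
    refine (integrable_g1_prod ht x₀ x₁ x₂).bdd_mul (c := C) ?_
      (Filter.Eventually.of_forall fun p => hC _)
    refine ((continuous_g1 t).comp ?_).aestronglyMeasurable
    unfold s3
    fun_prop
  rw [Measure.volume_eq_prod] at hI ⊢
  rw [integral_prod _ hI]
  have h1 : ∀ p : ℝ, ∫ q : ℝ × ℝ,
      g1 t (s3 (p, q) - s) * (g1 t (x₀ - p) * g1 t (x₁ - q.1) * g1 t (x₂ - q.2)) =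
      g1 t (x₀ - p) * g3 (t + (t + t)) (x₁ + x₂ - s + p) := by
    intro p
    have hJ : Integrable (fun q : ℝ × ℝ =>
        g1 t (p + q.1 + q.2 - s) * (g1 t (x₁ - q.1) * g1 t (x₂ - q.2))) (volume.prod volume) := by
      refine (((integrable_g1 ht).comp_sub_left x₁).mul_prod
        ((integrable_g1 ht).comp_sub_left x₂)).bdd_mul (c := C) ?_
        (Filter.Eventually.of_forall fun p => hC _)
      refine ((continuous_g1 t).comp ?_).aestronglyMeasurable
      fun_prop
    have h2 : ∀ q : ℝ × ℝ,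
        g1 t (s3 (p, q) - s) * (g1 t (x₀ - p) * g1 t (x₁ - q.1) * g1 t (x₂ - q.2)) =
        g1 t (x₀ - p) * (g1 t (p + q.1 + q.2 - s) * (g1 t (x₁ - q.1) * g1 t (x₂ - q.2))) := by
      intro q
      simp only [s3]
      ring
    simp only [h2]
    rw [integral_const_mul, Measure.volume_eq_prod, integral_prod _ hJ]
    congr 1
    have h3 : ∀ q : ℝ, ∫ r : ℝ, g1 t (p + q + r - s) * (g1 t (x₁ - q) * g1 t (x₂ - r)) =
        g1 t (x₁ - q) * g2 (t + t) (x₂ + p - s + q) := by
      intro q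
      rw [show x₂ + p - s + q = x₂ + (p + q - s) by ring, ← conv_g1_g1 ht ht, ← integral_const_mul]
      refine integral_congr_ae (Filter.Eventually.of_forall fun r => ?_)
      simp only
      rw [show p + q + r - s = p + q - s + r by ring]
      ring
    simp only [h3]
    rw [conv_g1_g2 ht (by positivity)]
    congr 1
    ring
  simp only [h1]
  rw [conv_g1_g3 ht (by positivity)]
  congr 1 <;> ring

/-- `d/dt (eta t x) = -4 t g4 (4 t) x`. -/
theorem hasDerivAt_eta {t : ℝ} (ht : 0 < t) (x : ℝ) :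
    HasDerivAt (fun s => eta s x) (-(4 * t * g4 (4 * t) x)) t := by
  have h4 : HasDerivAt (fun s : ℝ => 4 * s) (4 * 1) t := (hasDerivAt_id' t).const_mul 4
  have h1 := (hasDerivAt_g_time (t := 4 * t) (by positivity) x).comp t h4
  have h2 := (hasDerivAt_g2_time (t := 4 * t) (by positivity) x).comp t h4
  refine HasDerivAt.congr_deriv (h1.sub (((hasDerivAt_id' t).const_mul 2).mul h2)) ?_
  change g2 (4 * t) x / 2 * (4 * 1) -
    (2 * 1 * g2 (4 * t) x + 2 * t * (g4 (4 * t) x / 2 * (4 * 1))) = _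
  ring

/-! ### Gaussian integrals over the plane `z = (q, p)` -/

theorem plane_1 {a b : ℝ} (ha : 0 < a) (hb : 0 < b) (y x : ℝ) :
    Integrable (fun z : ℝ × ℝ => g a (y - z.1) * g b (x - z.2)) ∧
      ∫ z : ℝ × ℝ, g a (y - z.1) * g b (x - z.2) = 1 := by
  refine ⟨((integrable_g ha).comp_sub_left y).mul_prod ((integrable_g hb).comp_sub_left x), ?_⟩
  rw [Measure.volume_eq_prod, integral_prod_mul (fun u => g a (y - u)) fun u => g b (x - u),
    integral_sub_left_eq_self (g a), integral_sub_left_eq_self (g b), integral_g ha, integral_g hb,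
    mul_one]

theorem gauss2_shear {f h : ℝ → ℝ} (hf : Integrable f) (hh : Integrable h) :
    Integrable (fun z : ℝ × ℝ => f (z.1 + z.2) * h z.2) ∧
      ∫ z : ℝ × ℝ, f (z.1 + z.2) * h z.2 = (∫ x, f x) * ∫ x, h x := by
  have hI : Integrable (fun z : ℝ × ℝ => f (z.1 + z.2) * h z.2) (volume.prod volume) :=
    (measurePreserving_add_prod (volume : Measure ℝ) volume).integrable_comp_of_integrable
      (hf.mul_prod hh)
  refine ⟨hI, ?_⟩
  rw [Measure.volume_eq_prod, integral_prod_symm _ hI]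
  have h1 : ∀ y : ℝ, ∫ x : ℝ, f (x + y) * h y = (∫ x, f x) * h y := fun y => by
    rw [integral_mul_const, integral_add_right_eq_self f y]
  rw [← integral_const_mul]
  exact integral_congr_ae (Filter.Eventually.of_forall h1)

theorem gauss2_arg (y u v : ℝ) : y - (-u - v) = y + (u + v) := by ring

theorem plane_2 {a b : ℝ} (ha : 0 < a) (hb : 0 < b) (y x : ℝ) :
    Integrable (fun z : ℝ × ℝ => g a (y - (-z.1 - z.2)) * g b (x - z.2)) ∧
      ∫ z : ℝ × ℝ, g a (y - (-z.1 - z.2)) * g b (x - z.2) = 1 := by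
  have h := gauss2_shear ((integrable_g ha).comp_add_left y) ((integrable_g hb).comp_sub_left x)
  rw [integral_add_left_eq_self (g a), integral_sub_left_eq_self (g b), integral_g ha,
    integral_g hb, mul_one] at h
  simp only [gauss2_arg]
  exact h

theorem plane_3 {a b c : ℝ} (ha : 0 < a) (hb : 0 < b) (hc : 0 < c) (y x y' : ℝ) :
    Integrable (fun z : ℝ × ℝ => g a (y - (-z.1 - z.2)) * g b (x - z.2) * g c (y' - z.1)) ∧
      ∫ z : ℝ × ℝ, g a (y - (-z.1 - z.2)) * g b (x - z.2) * g c (y' - z.1) =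
        g (a + b + c) (y + x + y') := by
  have hI : Integrable (fun z : ℝ × ℝ =>
      g a (y - (-z.1 - z.2)) * g b (x - z.2) * g c (y' - z.1)) (volume.prod volume) := by
    refine (plane_2 ha hb y x).1.mul_bdd (c := (√(2 * Real.pi * c))⁻¹) ?_
      (Filter.Eventually.of_forall fun z => ?_)
    · exact ((continuous_g c).comp (by fun_prop)).aestronglyMeasurable
    · rw [Real.norm_of_nonneg (g_nonneg _ _)]
      exact g_le _ _ hc
  refine ⟨hI, ?_⟩
  rw [Measure.volume_eq_prod, integral_prod_symm _ hI]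
  have h1 : ∀ v : ℝ, ∫ u : ℝ, g a (y - (-u - v)) * g b (x - v) * g c (y' - u) =
      g b (x - v) * g (c + a) (y' + y + v) := by
    intro v
    rw [add_assoc, ← conv_g hc ha, ← integral_const_mul]
    refine integral_congr_ae (Filter.Eventually.of_forall fun u => ?_)
    simp only
    rw [show y - (-u - v) = y + v + u by ring]
    ring
  simp only [h1]
  rw [conv_g hb (by positivity)]
  congr 1 <;> ring

theorem plane_4 {a b c : ℝ} (ha : 0 < a) (hb : 0 < b) (hc : 0 < c) (y x y' : ℝ) :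
    Integrable (fun z : ℝ × ℝ => g a (y - (-z.1 - z.2)) * g b (x - z.2) * g c (y' - (-z.1 - z.2))) ∧
      ∫ z : ℝ × ℝ, g a (y - (-z.1 - z.2)) * g b (x - z.2) * g c (y' - (-z.1 - z.2)) =
        g (a + c) (y - y') := by
  have h := gauss2_shear (integrable_g_mul_g ha hc (-y) y') ((integrable_g hb).comp_sub_left x)
  rw [conv_g ha hc, integral_sub_left_eq_self (g b), integral_g hb, mul_one, ← g_neg, neg_add,
    neg_neg, ← sub_eq_add_neg] at h
  have h1 : ∀ z : ℝ × ℝ, g a (y - (-z.1 - z.2)) * g b (x - z.2) * g c (y' - (-z.1 - z.2)) =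
      g a (-y - (z.1 + z.2)) * g c (y' + (z.1 + z.2)) * g b (x - z.2) := by
    intro z
    rw [gauss2_arg, gauss2_arg, ← g_neg a, neg_add, ← sub_eq_add_neg]
    ring
  simp only [h1]
  exact h

theorem plane_5 {a b c : ℝ} (ha : 0 < a) (hb : 0 < b) (hc : 0 < c) (y x x' : ℝ) :
    Integrable (fun z : ℝ × ℝ => g a (y - (-z.1 - z.2)) * g b (x - z.2) * g c (x' - z.2)) ∧
      ∫ z : ℝ × ℝ, g a (y - (-z.1 - z.2)) * g b (x - z.2) * g c (x' - z.2) =
        g (b + c) (x - x') := by
  have hI : Integrable fun p => g b (x - p) * g c (x' - p) := by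
    refine (integrable_g_mul_g hb hc x (-x')).congr (Filter.Eventually.of_forall fun p => ?_)
    simp only
    rw [← g_neg c, neg_add, neg_neg, ← sub_eq_add_neg]
  have h := gauss2_shear ((integrable_g ha).comp_add_left y) hI
  rw [integral_add_left_eq_self (g a), integral_g ha, one_mul, conv_g' hb hc] at h
  simp only [gauss2_arg, mul_assoc]
  exact h

end Crest.Agent.R72
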