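/-
R72/Kern1: size of the coefficient functions.
Skeleton by helper40; keep the statements unchanged (add any helper lemmas you like).
-/
import Crest.Agent.R72.Gauss2

set_option autoImplicit false
set_option linter.unusedSectionVars false

namespace Crest.Agent.R72

open MeasureTheory

theorem measurable_bk : Measurable fun w : (ℝ × ℝ) × ℝ => bk w.1.1 w.1.2 w.2 := by
  unfold bk
  have h1 : Measurable fun w : (ℝ × ℝ) × ℝ => g1 w.1.1 (w.1.2 - w.2) :=
    measurable_g1.comp (f := fun w : (ℝ × ℝ) × ℝ => (w.1.1, w.1.2 - w.2)) (by fun_prop)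
  have h2 : Measurable fun w : (ℝ × ℝ) × ℝ => g1 w.1.1 (w.1.2 + w.2) :=
    measurable_g1.comp (f := fun w : (ℝ × ℝ) × ℝ => (w.1.1, w.1.2 + w.2)) (by fun_prop)
  exact (((measurable_fst.fst.sqrt).const_mul 4).mul (h1.sub h2)).div measurable_snd

lemma kern1_meas (S : Set ℝ) : Measurable fun w : ℝ × ℝ => ∫ s in S, bk w.1 w.2 s :=
  (measurable_bk.stronglyMeasurable.integral_prod_right' (ν := volume.restrict S)).measurable

lemma kern1_meas_s (t u : ℝ) : Measurable (bk t u) :=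
  measurable_bk.comp (f := fun s : ℝ => ((t, u), s)) (by fun_prop)

/-- `StronglyMeasurable.integral_prod_right`. -/
theorem measurable_ak (ε R : ℝ) : Measurable fun w : ℝ × ℝ => ak ε R w.1 w.2 := by
  exact kern1_meas _

theorem measurable_al : Measurable fun w : ℝ × ℝ => al w.1 w.2 := by
  exact kern1_meas _

theorem measurable_rr (ε : ℝ) : Measurable fun w : ℝ × ℝ => rr ε w.1 w.2 := by
  unfold rr
  exact Measurable.ite (measurableSet_lt measurable_const measurable_fst) (kern1_meas _).neg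
    (kern1_meas _)

theorem measurable_om : Measurable fun w : ℝ × ℝ => om w.1 w.2 := by
  unfold om
  exact (measurable_fst.sqrt.inv).mul
    (((measurable_snd.abs.div measurable_fst.sqrt).const_add 1).pow_const _)

theorem om_pos {t : ℝ} (ht : 0 < t) (u : ℝ) : 0 < om t u := by
  unfold om
  have := Real.sqrt_pos.2 ht
  positivity

lemma kern1_sqrt_two : √2 ≤ 23 / 16 := Real.sqrt_le_iff.2 ⟨by norm_num, by norm_num⟩

lemma kern1_g_eq {t : ℝ} (ht : 0 < t) (x y : ℝ) :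
    g t x = √2 * Real.exp (y ^ 2 / (4 * t) - x ^ 2 / (2 * t)) * g (2 * t) y := by
  unfold g
  have h1 : √(2 * Real.pi * (2 * t)) = √2 * √(2 * Real.pi * t) := by
    rw [← Real.sqrt_mul (by norm_num)]; congr 1; ring
  have h2 : Real.exp (-x ^ 2 / (2 * t)) =
      Real.exp (y ^ 2 / (4 * t) - x ^ 2 / (2 * t)) * Real.exp (-y ^ 2 / (2 * (2 * t))) := by
    rw [← Real.exp_add]; congr 1; field_simp; ring
  have h3 : 0 < √2 := by positivity
  rw [h1, h2]
  field_simp

lemma kern1_exp {r : ℝ} (hr : 0 < r) (x : ℝ) :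
    (r + |x|) ^ 2 * Real.exp (-x ^ 2 / (8 * r ^ 2)) ≤ 16 * r ^ 2 := by
  rw [neg_div, Real.exp_neg, mul_inv_le_iff₀ (Real.exp_pos _)]
  have h1 := Real.add_one_le_exp (x ^ 2 / (8 * r ^ 2))
  have h2 : 16 * r ^ 2 * (x ^ 2 / (8 * r ^ 2) + 1) = 2 * x ^ 2 + 16 * r ^ 2 := by
    field_simp; ring
  calc (r + |x|) ^ 2 ≤ 2 * x ^ 2 + 16 * r ^ 2 := by
        nlinarith [sq_abs x, sq_nonneg (r - |x|), sq_nonneg r]
    _ ≤ _ := by rw [← h2]; gcongr

/-- absorbing a quadratic weight -/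
lemma kern1_weight {t : ℝ} (ht : 0 < t) (x : ℝ) :
    (√t + |x|) ^ 2 * g t x ≤ 23 * t * g (2 * t) x := by
  have hr := Real.sqrt_pos.2 ht
  have h1 := kern1_exp hr x
  rw [Real.sq_sqrt ht.le] at h1
  have h2 : Real.exp (x ^ 2 / (4 * t) - x ^ 2 / (2 * t)) ≤ Real.exp (-x ^ 2 / (8 * t)) := by
    refine Real.exp_le_exp.2 ?_
    have : x ^ 2 / (4 * t) - x ^ 2 / (2 * t) = -x ^ 2 / (8 * t) - x ^ 2 / (8 * t) := by
      field_simp; ring
    rw [this]
    have : 0 ≤ x ^ 2 / (8 * t) := by positivity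
    linarith
  have h3 := g_nonneg (2 * t) x
  rw [kern1_g_eq ht x x]
  calc _ = √2 * ((√t + |x|) ^ 2 * Real.exp (x ^ 2 / (4 * t) - x ^ 2 / (2 * t))) * g (2 * t) x := by
        ring
    _ ≤ 23 / 16 * ((√t + |x|) ^ 2 * Real.exp (-x ^ 2 / (8 * t))) * g (2 * t) x := by
        gcongr; exact kern1_sqrt_two
    _ ≤ 23 / 16 * (16 * t) * g (2 * t) x := by gcongr
    _ = _ := by ring

lemma kern1_weight2 {t : ℝ} (ht : 0 < t) (x : ℝ) :
    (√t + |x|) ^ 2 * g (2 * t) x ≤ 46 * t * g (4 * t) x := by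
  have h := kern1_weight (t := 2 * t) (by positivity) x
  rw [show 2 * (2 * t) = 4 * t by ring] at h
  have h1 : √t ≤ √(2 * t) := Real.sqrt_le_sqrt (by linarith)
  have h2 := g_nonneg (2 * t) x
  calc _ ≤ (√(2 * t) + |x|) ^ 2 * g (2 * t) x := by gcongr
    _ ≤ _ := h
    _ = _ := by ring

lemma kern1_inv_le {t c : ℝ} (ht : 0 < t) (hc : 1 ≤ c) :
    (√(2 * Real.pi * (c * t)))⁻¹ ≤ (√t)⁻¹ := by
  have hr := Real.sqrt_pos.2 ht
  refine inv_anti₀ hr (Real.sqrt_le_sqrt ?_)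
  have h1 : t ≤ c * t := le_mul_of_one_le_left ht.le hc
  nlinarith [Real.pi_gt_three]

lemma kern1_g4_le {t : ℝ} (ht : 0 < t) (u : ℝ) : g (4 * t) u ≤ 16 * √t / (√t + |u|) ^ 2 := by
  have hr := Real.sqrt_pos.2 ht
  have h1 := kern1_exp hr u
  rw [le_div_iff₀ (by positivity)]
  unfold g
  have h2 : 2 * (4 * t) = 8 * √t ^ 2 := by rw [Real.sq_sqrt ht.le]; ring
  rw [h2]
  calc _ = (√(2 * Real.pi * (4 * t)))⁻¹ * ((√t + |u|) ^ 2 * Real.exp (-u ^ 2 / (8 * √t ^ 2))) := by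
        ring
    _ ≤ (√t)⁻¹ * (16 * √t ^ 2) :=
        mul_le_mul (kern1_inv_le ht (by norm_num)) h1 (by positivity) (by positivity)
    _ = _ := by field_simp

/-- Peetre's inequality -/
lemma kern1_peetre {r s x u : ℝ} (hr : 0 < r) (hs : r ≤ s) (h : |u| ≤ |x| + s) :
    1 / s ≤ 2 * (r + |x|) / (r * (r + |u|)) := by
  have hs0 : 0 < s := by linarith
  rw [div_le_div_iff₀ hs0 (by positivity)]
  nlinarith [abs_nonneg x, mul_le_mul_of_nonneg_left h hr.le,
    mul_le_mul_of_nonneg_left hs (abs_nonneg x)]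

lemma kern1_abs_sub (u : ℝ) {s : ℝ} (hs : 0 ≤ s) : |u| ≤ |u - s| + s := by
  have := abs_add_le (u - s) s
  rwa [sub_add_cancel, abs_of_nonneg hs] at this

lemma kern1_abs_add (u : ℝ) {s : ℝ} (hs : 0 ≤ s) : |u| ≤ |u + s| + s := by
  have := abs_sub (u + s) s
  rwa [add_sub_cancel_right, abs_of_nonneg hs] at this

lemma kern1_div1 {t s x u : ℝ} (ht : 0 < t) (hs : √t ≤ s) (h : |u| ≤ |x| + s) :
    g (2 * t) x / s ≤ 92 / (√t + |u|) * g (4 * t) x := by
  have hr := Real.sqrt_pos.2 ht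
  have h1 := kern1_peetre hr hs h
  have h2 := kern1_weight2 ht x
  have h3 := g_nonneg (2 * t) x
  have h4 : √t * √t = t := Real.mul_self_sqrt ht.le
  have h5 : 2 * (√t + |x|) / (√t * (√t + |u|)) ≤ 2 * (√t + |x|) ^ 2 / (t * (√t + |u|)) := by
    calc _ = 2 * ((√t + |x|) * √t) / (√t * √t * (√t + |u|)) := by field_simp
      _ ≤ 2 * ((√t + |x|) * (√t + |x|)) / (√t * √t * (√t + |u|)) := by
          gcongr; linarith [abs_nonneg x]
      _ = _ := by rw [h4, sq]
  calc g (2 * t) x / s = 1 / s * g (2 * t) x := by ring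
    _ ≤ 2 * (√t + |x|) ^ 2 / (t * (√t + |u|)) * g (2 * t) x :=
        mul_le_mul_of_nonneg_right (h1.trans h5) h3
    _ = 2 / (t * (√t + |u|)) * ((√t + |x|) ^ 2 * g (2 * t) x) := by ring
    _ ≤ 2 / (t * (√t + |u|)) * (46 * t * g (4 * t) x) := by gcongr
    _ = _ := by field_simp; ring

lemma kern1_div2 {t s x u : ℝ} (ht : 0 < t) (hs : √t ≤ s) (h : |u| ≤ |x| + s) :
    g t x / s ^ 2 ≤ 92 / (√t + |u|) ^ 2 * g (2 * t) x := by
  have hr := Real.sqrt_pos.2 ht
  have hs0 : 0 < s := by linarith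
  have h1 := kern1_peetre hr hs h
  have h2 := kern1_weight ht x
  have h3 := g_nonneg t x
  calc g t x / s ^ 2 = (1 / s) ^ 2 * g t x := by ring
    _ ≤ (2 * (√t + |x|) / (√t * (√t + |u|))) ^ 2 * g t x := by gcongr
    _ = 4 / (t * (√t + |u|) ^ 2) * ((√t + |x|) ^ 2 * g t x) := by
        rw [div_pow, mul_pow, mul_pow, Real.sq_sqrt ht.le]; ring
    _ ≤ 4 / (t * (√t + |u|) ^ 2) * (23 * t * g (2 * t) x) := by gcongr
    _ = _ := by field_simp; ring

lemma kern1_int_two {τ : ℝ} (hτ : 0 < τ) (u : ℝ) :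
    Integrable fun s => g τ (u - s) + g τ (u + s) :=
  ((integrable_g hτ).comp_sub_left u).add ((integrable_g hτ).comp_add_left u)

lemma kern1_integral_two {τ : ℝ} (hτ : 0 < τ) (u c : ℝ) (hc : 0 ≤ c) (S : Set ℝ) :
    ∫ s in S, c * (g τ (u - s) + g τ (u + s)) ≤ 2 * c := by
  rw [integral_const_mul]
  have h1 : ∫ s in S, (g τ (u - s) + g τ (u + s)) ≤ ∫ s, (g τ (u - s) + g τ (u + s)) :=
    setIntegral_le_integral (kern1_int_two hτ u)
      (Filter.Eventually.of_forall fun s => add_nonneg (g_nonneg _ _) (g_nonneg _ _))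
  rw [integral_add ((integrable_g hτ).comp_sub_left u) ((integrable_g hτ).comp_add_left u),
    integral_sub_left_eq_self, integral_add_left_eq_self, integral_g hτ] at h1
  nlinarith

lemma kern1_small {t : ℝ} (ht : 0 < t) (u : ℝ) {s : ℝ} (hs : 0 < s) (hst : s ≤ √t) :
    |bk t u s| ≤ 96 / √t * g (4 * t) u := by
  have hr := Real.sqrt_pos.2 ht
  obtain ⟨c, hc, he⟩ := exists_hasDerivAt_eq_slope (g1 t) (g2 t) (show u - s < u + s by linarith)
    (continuous_g1 t).continuousOn (fun x _ => hasDerivAt_g1 ht x)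
  have h1 : bk t u s = -(8 * √t * g2 t c) := by
    unfold bk
    rw [he, show u + s - (u - s) = 2 * s by ring]
    field_simp; ring
  have h2 : (c - u) ^ 2 ≤ t := by
    rw [← Real.sq_sqrt ht.le]
    exact sq_le_sq' (by linarith [hc.1]) (by linarith [hc.2])
  have h3 : g (2 * t) c ≤ 2 * g (4 * t) u := by
    rw [kern1_g_eq (t := 2 * t) (by positivity) c u, show 2 * (2 * t) = 4 * t by ring]
    have h4 : u ^ 2 / (4 * (2 * t)) - c ^ 2 / (4 * t) ≤ 1 / 4 := by
      rw [show u ^ 2 / (4 * (2 * t)) - c ^ 2 / (4 * t) = (u ^ 2 - 2 * c ^ 2) / (8 * t) by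
        field_simp; ring, div_le_iff₀ (by positivity)]
      nlinarith [sq_nonneg (2 * c - u)]
    have h5 : Real.exp (1 / 4) ≤ 4 / 3 := by
      have := Real.add_one_le_exp (-(1 / 4))
      rw [Real.exp_neg, le_inv_comm₀ (by norm_num) (Real.exp_pos _)] at this
      exact this.trans (by norm_num)
    have h6 := g_nonneg (4 * t) u
    calc _ ≤ 23 / 16 * (4 / 3) * g (4 * t) u := by
          gcongr
          · exact kern1_sqrt_two
          · exact (Real.exp_le_exp.2 h4).trans h5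
      _ ≤ _ := by gcongr; norm_num
  rw [h1, abs_neg, abs_mul, abs_of_pos (by positivity : 0 < 8 * √t)]
  calc 8 * √t * |g2 t c| ≤ 8 * √t * (6 / t * (2 * g (4 * t) u)) := by
        gcongr
        exact (abs_g2_le ht c).trans (by gcongr)
    _ = _ := by
        field_simp
        rw [Real.sq_sqrt ht.le]
        ring

lemma kern1_large {t : ℝ} (ht : 0 < t) (u : ℝ) {s : ℝ} (hst : √t ≤ s) :
    |bk t u s| ≤ 736 / (√t + |u|) * (g (4 * t) (u - s) + g (4 * t) (u + s)) := by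
  have hr := Real.sqrt_pos.2 ht
  have hs : 0 < s := by linarith
  have h1 : bk t u s = 8 * (√t / 2 * g1 t (u - s) - √t / 2 * g1 t (u + s)) / s := by
    unfold bk; ring
  have h2 := kern1_div1 ht hst (kern1_abs_sub u hs.le)
  have h3 := kern1_div1 ht hst (kern1_abs_add u hs.le)
  rw [h1, abs_div, abs_mul, abs_of_pos hs, abs_of_pos (by norm_num : (0 : ℝ) < 8)]
  calc _ ≤ 8 * (g (2 * t) (u - s) + g (2 * t) (u + s)) / s := by
        gcongr
        exact (abs_sub _ _).trans (add_le_add (abs_g1_le ht _) (abs_g1_le ht _))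
    _ = 8 * (g (2 * t) (u - s) / s + g (2 * t) (u + s) / s) := by ring
    _ ≤ 8 * (92 / (√t + |u|) * g (4 * t) (u - s) + 92 / (√t + |u|) * g (4 * t) (u + s)) := by
        gcongr
    _ = _ := by ring

lemma kern1_int_small {t : ℝ} (ht : 0 < t) (u : ℝ) :
    IntegrableOn (bk t u) (Set.Ioc 0 √t) ∧
      ∫ s in Set.Ioc 0 √t, |bk t u s| ≤ 1536 * √t / (√t + |u|) ^ 2 := by
  have hr := Real.sqrt_pos.2 ht
  have hc : IntegrableOn (fun _ : ℝ => 96 / √t * g (4 * t) u) (Set.Ioc 0 √t) :=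
    integrableOn_const (by simp)
  have hi : IntegrableOn (bk t u) (Set.Ioc 0 √t) :=
    Integrable.mono' hc (kern1_meas_s t u).aestronglyMeasurable
      ((ae_restrict_iff' measurableSet_Ioc).2 (Filter.Eventually.of_forall fun s hs =>
        kern1_small ht u hs.1 hs.2))
  refine ⟨hi, ?_⟩
  calc _ ≤ ∫ _s in Set.Ioc 0 √t, 96 / √t * g (4 * t) u :=
        setIntegral_mono_on hi.abs hc measurableSet_Ioc fun s hs => kern1_small ht u hs.1 hs.2
    _ = 96 * g (4 * t) u := by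
        rw [setIntegral_const, Real.volume_real_Ioc_of_le hr.le, smul_eq_mul]
        field_simp; ring
    _ ≤ 96 * (16 * √t / (√t + |u|) ^ 2) := by gcongr; exact kern1_g4_le ht u
    _ = _ := by ring

lemma kern1_int_large {t : ℝ} (ht : 0 < t) (u : ℝ) :
    IntegrableOn (bk t u) (Set.Ioi √t) ∧
      ∫ s in Set.Ioi √t, |bk t u s| ≤ 1472 / (√t + |u|) := by
  have hr := Real.sqrt_pos.2 ht
  have hc : IntegrableOn (fun s : ℝ => 736 / (√t + |u|) * (g (4 * t) (u - s) + g (4 * t) (u + s)))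
      (Set.Ioi √t) := ((kern1_int_two (by positivity) u).const_mul _).integrableOn
  have hi : IntegrableOn (bk t u) (Set.Ioi √t) :=
    Integrable.mono' hc (kern1_meas_s t u).aestronglyMeasurable
      ((ae_restrict_iff' measurableSet_Ioi).2 (Filter.Eventually.of_forall fun s hs =>
        kern1_large ht u (le_of_lt hs)))
  refine ⟨hi, ?_⟩
  calc _ ≤ ∫ s in Set.Ioi √t, 736 / (√t + |u|) * (g (4 * t) (u - s) + g (4 * t) (u + s)) :=
        setIntegral_mono_on hi.abs hc measurableSet_Ioi fun s hs => kern1_large ht u (le_of_lt hs)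
    _ ≤ 2 * (736 / (√t + |u|)) := kern1_integral_two (by positivity) u _ (by positivity) _
    _ = _ := by ring

lemma kern1_split {f : ℝ → ℝ} {a b : ℝ} (hab : a ≤ b) (h : IntegrableOn f (Set.Ioi a)) :
    ∫ s in Set.Ioi a, f s = (∫ s in Set.Ioc a b, f s) + ∫ s in Set.Ioi b, f s := by
  rw [← setIntegral_union Set.Ioc_disjoint_Ioi_same measurableSet_Ioi
    (h.mono_set Set.Ioc_subset_Ioi_self) (h.mono_set (Set.Ioi_subset_Ioi hab)),
    Set.Ioc_union_Ioi_eq_Ioi hab]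

lemma kern1_int {t : ℝ} (ht : 0 < t) (u : ℝ) : IntegrableOn (bk t u) (Set.Ioi 0) := by
  rw [← Set.Ioc_union_Ioi_eq_Ioi (Real.sqrt_nonneg t)]
  exact (kern1_int_small ht u).1.union (kern1_int_large ht u).1

/-- small radii: mean value theorem, `abs_g2_le`, and `(u + ξ)² ≥ u²/2 - t` for `|ξ| ≤ √t`. -/
theorem abs_bk_le_small : ∃ C : ℝ, 0 ≤ C ∧ ∀ t : ℝ, 0 < t → ∀ u s : ℝ, 0 < s → s ≤ √t →
    |bk t u s| ≤ C / √t * g (4 * t) u := by
  exact ⟨96, by norm_num, fun t ht u s hs hst => kern1_small ht u hs hst⟩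

/-- the tail after one integration by parts:
`∫_{s > e} g1 t (u - s) / s = g t (u - e) / e - ∫_{s > e} g t (u - s) / s²`, similarly for `u + s`. -/
theorem abs_tail_le {t e : ℝ} (ht : 0 < t) (he : 0 < e) (u : ℝ) :
    |∫ s in Set.Ioi e, bk t u s| ≤ 4 * √t * ((g t (u - e) + g t (u + e)) / e +
      ∫ s in Set.Ioi e, (g t (u - s) + g t (u + s)) / s ^ 2) := by
  have hr := Real.sqrt_pos.2 ht
  set G : ℝ → ℝ := fun s => g t (u - s) + g t (u + s) with hG
  have hG0 : ∀ s, 0 ≤ G s := fun s => add_nonneg (g_nonneg _ _) (g_nonneg _ _)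
  have hGm : Measurable G :=
    (((continuous_g t).comp (by fun_prop)).add ((continuous_g t).comp (by fun_prop))).measurable
  have i1 : IntegrableOn (bk t u) (Set.Ioi e) := (kern1_int ht u).mono_set (Set.Ioi_subset_Ioi he.le)
  have i2 : IntegrableOn (fun s => G s / s ^ 2) (Set.Ioi e) := by
    refine Integrable.mono' ((kern1_int_two ht u).div_const (e ^ 2)).integrableOn
      (hGm.div (by fun_prop)).aestronglyMeasurable
      ((ae_restrict_iff' measurableSet_Ioi).2 (Filter.Eventually.of_forall fun s hs => ?_))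
    have hs' : e < s := hs
    have := hG0 s
    rw [Real.norm_of_nonneg (by positivity)]
    show G s / s ^ 2 ≤ G s / e ^ 2
    gcongr
  have hd : ∀ s ∈ Set.Ici e, HasDerivAt (fun s => -(4 * √t) * (G s / s))
      (bk t u s + 4 * √t * (G s / s ^ 2)) s := by
    intro s hs
    have hs0 : 0 < s := he.trans_le hs
    have d1 : HasDerivAt (fun s => g t (u - s)) (g1 t (u - s) * (-1)) s :=
      (hasDerivAt_g ht (u - s)).comp s ((hasDerivAt_id s).const_sub u)
    have d2 : HasDerivAt (fun s => g t (u + s)) (g1 t (u + s) * 1) s :=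
      (hasDerivAt_g ht (u + s)).comp s ((hasDerivAt_id s).const_add u)
    have d3 := (((d1.add d2).div (hasDerivAt_id s) hs0.ne')).const_mul (-(4 * √t))
    refine d3.congr_deriv ?_
    simp only [bk, hG, Pi.add_apply, id]
    field_simp; ring
  have hl : Filter.Tendsto (fun s => -(4 * √t) * (G s / s)) Filter.atTop (nhds (-(4 * √t) * 0)) := by
    refine Filter.Tendsto.const_mul _ ?_
    refine squeeze_zero' (g := fun s : ℝ => (2 * (√(2 * Real.pi * t))⁻¹) / s) ?_ ?_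
      (Filter.Tendsto.div_atTop tendsto_const_nhds Filter.tendsto_id)
    · filter_upwards [Filter.eventually_gt_atTop 0] with s hs
      exact div_nonneg (hG0 s) hs.le
    · filter_upwards [Filter.eventually_gt_atTop 0] with s hs
      gcongr
      have h1 := g_le t (u - s) ht
      have h2 := g_le t (u + s) ht
      show g t (u - s) + g t (u + s) ≤ _
      linarith
  have key := integral_Ioi_of_hasDerivAt_of_tendsto' hd (i1.add (i2.const_mul _)) hl
  rw [integral_add i1 (i2.const_mul _), integral_const_mul] at key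
  have p1 : 0 ≤ G e / e := div_nonneg (hG0 e) he.le
  have p2 : 0 ≤ ∫ s in Set.Ioi e, G s / s ^ 2 :=
    integral_nonneg fun s => div_nonneg (hG0 s) (sq_nonneg _)
  show _ ≤ 4 * √t * (G e / e + ∫ s in Set.Ioi e, G s / s ^ 2)
  have q1 := mul_nonneg hr.le p1
  have q2 := mul_nonneg hr.le p2
  rw [abs_le]
  constructor <;> linarith

/-- Recipe: for `s ≤ √t` use `abs_bk_le_small`; for `s ≥ √t` use `abs_g1_le`, `1 / s ≤ 2 / (√t + s)` and
Peetre's inequality `√t + |u| ≤ (√t + s) (1 + |u ∓ s| / √t)`, with `∫ (1 + |x| / √t) g (2t) x ≤ c`. -/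
theorem integral_abs_bk_le : ∃ C : ℝ, 0 ≤ C ∧ ∀ t : ℝ, 0 < t → ∀ u : ℝ,
    IntegrableOn (bk t u) (Set.Ioi 0) ∧ ∫ s in Set.Ioi 0, |bk t u s| ≤ C / (√t + |u|) := by
  refine ⟨3008, by norm_num, fun t ht u => ⟨kern1_int ht u, ?_⟩⟩
  have hr := Real.sqrt_pos.2 ht
  rw [kern1_split hr.le (kern1_int ht u).abs]
  have h1 : 1536 * √t / (√t + |u|) ^ 2 ≤ 1536 / (√t + |u|) := by
    rw [div_le_div_iff₀ (by positivity) (by positivity)]
    have : 0 ≤ (√t + |u|) * |u| := by positivity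
    nlinarith
  calc _ ≤ 1536 / (√t + |u|) + 1472 / (√t + |u|) :=
        add_le_add ((kern1_int_small ht u).2.trans h1) (kern1_int_large ht u).2
    _ = _ := by ring

/-- Recipe: split at `√t`; `abs_bk_le_small`, `abs_tail_le` with `e = √t`, Peetre with exponent `2`:
`|al t u| ≤ c (√t)⁻¹ (1 + |u| / √t)^(-2)`. -/
theorem abs_al_le : ∃ C : ℝ, 0 ≤ C ∧ ∀ t : ℝ, 0 < t → ∀ u : ℝ, |al t u| ≤ C * om t u := by
  refine ⟨3008, by norm_num, fun t ht u => ?_⟩
  have hr := Real.sqrt_pos.2 ht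
  have h0 : √t / (√t + |u|) ^ 2 ≤ om t u := by
    unfold om
    have h1 : (1 : ℝ) ≤ 1 + |u| / √t := le_add_of_nonneg_right (by positivity)
    calc √t / (√t + |u|) ^ 2 = (√t)⁻¹ * (1 + |u| / √t) ^ (-(2 : ℝ)) := by
          rw [Real.rpow_neg (by positivity), Real.rpow_two]
          field_simp
      _ ≤ _ := by gcongr; norm_num
  have h1 : |∫ s in Set.Ioc 0 √t, bk t u s| ≤ 1536 * √t / (√t + |u|) ^ 2 :=
    abs_integral_le_integral_abs.trans (kern1_int_small ht u).2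
  have h2 : ∀ x, |u| ≤ |x| + √t → g t x ≤ 92 * √t / (√t + |u|) ^ 2 := by
    intro x hx
    have h3 := kern1_div2 ht le_rfl hx
    have h4 : g (2 * t) x ≤ (√t)⁻¹ :=
      (g_le _ _ (by positivity)).trans (kern1_inv_le ht (by norm_num))
    rw [div_le_iff₀ (by positivity)] at h3
    calc g t x ≤ 92 / (√t + |u|) ^ 2 * (√t)⁻¹ * √t ^ 2 := h3.trans (by gcongr)
      _ = _ := by field_simp
  have h3 : ∫ s in Set.Ioi √t, (g t (u - s) + g t (u + s)) / s ^ 2 ≤ 2 * (92 / (√t + |u|) ^ 2) := by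
    refine le_trans ?_ (kern1_integral_two (τ := 2 * t) (by positivity) u _ (by positivity)
      (Set.Ioi √t))
    refine integral_mono_of_nonneg (Filter.Eventually.of_forall fun s =>
      div_nonneg (add_nonneg (g_nonneg _ _) (g_nonneg _ _)) (sq_nonneg _))
      ((kern1_int_two (by positivity) u).const_mul _).integrableOn
      ((ae_restrict_iff' measurableSet_Ioi).2 (Filter.Eventually.of_forall fun s hs => ?_))
    have hs' : √t < s := hs
    have hs0 : 0 ≤ s := by linarith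
    beta_reduce
    rw [add_div, mul_add]
    exact add_le_add (kern1_div2 ht hs'.le (kern1_abs_sub u hs0))
      (kern1_div2 ht hs'.le (kern1_abs_add u hs0))
  have h4 : |∫ s in Set.Ioi √t, bk t u s| ≤ 1472 * √t / (√t + |u|) ^ 2 := by
    refine (abs_tail_le ht hr u).trans ?_
    have h5 := h2 _ (kern1_abs_sub u hr.le)
    have h6 := h2 _ (kern1_abs_add u hr.le)
    calc _ ≤ 4 * √t * ((92 * √t / (√t + |u|) ^ 2 + 92 * √t / (√t + |u|) ^ 2) / √t +
          2 * (92 / (√t + |u|) ^ 2)) := by gcongr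
      _ = _ := by field_simp; ring
  unfold al
  rw [kern1_split hr.le (kern1_int ht u)]
  calc _ ≤ 1536 * √t / (√t + |u|) ^ 2 + 1472 * √t / (√t + |u|) ^ 2 :=
        (abs_add_le _ _).trans (add_le_add h1 h4)
    _ = 3008 * (√t / (√t + |u|) ^ 2) := by ring
    _ ≤ _ := by gcongr

/-- Recipe: take the least `l` with `1 + |u| / √t ≤ 16^l`; that single term is
`≥ (2π)^(-1/2) e^(-1/2) (√t)⁻¹ 32^(-l)` and `32^(-l) = (16^l)^(-5/4) ≥ (1 + |u| / √t)^(-5/4) / 32`. -/
theorem om_le_tsum : ∃ C : ℝ, 0 ≤ C ∧ ∀ t : ℝ, 0 < t → ∀ u : ℝ,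
    ENNReal.ofReal (om t u) ≤
      ENNReal.ofReal C * ∑' l : ℕ, ENNReal.ofReal ((1 / 2) ^ l * g (256 ^ l * t) u) := by
  refine ⟨192, by norm_num, fun t ht u => ?_⟩
  have hr := Real.sqrt_pos.2 ht
  have hy : (1 : ℝ) ≤ 1 + |u| / √t := le_add_of_nonneg_right (by positivity)
  obtain ⟨n, hn1, hn2⟩ := exists_nat_pow_near hy (by norm_num : (1 : ℝ) < 16)
  refine le_trans ?_ (mul_le_mul_right (ENNReal.le_tsum (n + 1)) _)
  rw [← ENNReal.ofReal_mul (by norm_num)]
  refine ENNReal.ofReal_le_ofReal ?_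
  set q : ℝ := 2 ^ n with hq
  have hq0 : 0 < q := by positivity
  have e1 : (16 : ℝ) ^ n = q ^ 4 := by
    rw [hq, ← pow_mul, mul_comm, pow_mul]; norm_num
  have e2 : (256 : ℝ) ^ (n + 1) = (16 * q ^ 4) ^ 2 := by
    rw [← e1, ← pow_succ', ← pow_mul, mul_comm, pow_mul]; norm_num
  have e3 : (1 / 2 : ℝ) ^ (n + 1) = 1 / (2 * q) := by
    rw [one_div_pow, pow_succ']
  rw [pow_succ', e1] at hn2
  rw [e1] at hn1
  have h1 : om t u ≤ (√t)⁻¹ * (q ^ 5)⁻¹ := by
    unfold om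
    gcongr
    calc _ ≤ (q ^ 4) ^ (-(5 / 4) : ℝ) :=
          Real.rpow_le_rpow_of_nonpos (by positivity) hn1 (by norm_num)
      _ = _ := by
          rw [← Real.rpow_natCast q 4, ← Real.rpow_mul hq0.le, ← Real.rpow_natCast q 5,
            ← Real.rpow_neg hq0.le]
          norm_num
  have h2 : (3 * (16 * q ^ 4) * √t)⁻¹ * (1 / 2) ≤ g (256 ^ (n + 1) * t) u := by
    unfold g
    rw [e2]
    gcongr
    · rw [Real.sqrt_le_left (by positivity), mul_pow, mul_pow, Real.sq_sqrt ht.le]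
      have : 0 < (16 * q ^ 4) ^ 2 * t := by positivity
      nlinarith [Real.pi_lt_four]
    · have h3 : |u| ≤ 16 * q ^ 4 * √t := by
        rw [← div_le_iff₀ hr]; linarith
      have h4 : u ^ 2 ≤ (16 * q ^ 4) ^ 2 * t := by
        calc u ^ 2 = |u| ^ 2 := (sq_abs u).symm
          _ ≤ (16 * q ^ 4 * √t) ^ 2 := by gcongr
          _ = _ := by rw [mul_pow, Real.sq_sqrt ht.le]
      have h5 : -(1 / 2) ≤ -u ^ 2 / (2 * ((16 * q ^ 4) ^ 2 * t)) := by
        rw [le_div_iff₀ (by positivity)]; linarith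
      linarith [Real.add_one_le_exp (-u ^ 2 / (2 * ((16 * q ^ 4) ^ 2 * t)))]
  rw [e3]
  calc om t u ≤ (√t)⁻¹ * (q ^ 5)⁻¹ := h1
    _ = 192 * (1 / (2 * q) * ((3 * (16 * q ^ 4) * √t)⁻¹ * (1 / 2))) := by field_simp; ring
    _ ≤ _ := by gcongr

/-- additivity of the integral over `Ioc 0 ε`, `Ioc ε R`, `Ioi R`. -/
theorem ak_eq {ε R t : ℝ} (hε : 0 < ε) (hR : ε < R) (ht : 0 < t) (u : ℝ) :
    ak ε R t u = (sw ε t - sw R t) * al t u + (rr ε t u - rr R t u) := by
  have hi := kern1_int ht u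
  have h1 := kern1_split hε.le hi
  have h2 := kern1_split hR.le (hi.mono_set (Set.Ioi_subset_Ioi hε.le))
  have h3 := kern1_split (hε.trans hR).le hi
  have h4 : ε ^ 2 < R ^ 2 := by gcongr
  unfold ak sw al rr
  split_ifs <;> linarith

section sel
variable {κ : Type} {n : ℕ} {𝒜 : Finset κ} {ε R ϑ : κ → ℝ}

/-- at most one selected annulus has `ε² < t ≤ R²`. -/
theorem Sel.abs_sw_le (h : Sel n 𝒜 ε R ϑ) (hε : ∀ α ∈ 𝒜, 0 < ε α ∧ ε α < R α) (t : ℝ) :
    |∑ α ∈ 𝒜, ϑ α * (sw (ε α) t - sw (R α) t)| ≤ 1 := by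
  obtain ⟨h1, A, hA, -, h0, hd⟩ := h
  by_cases hex : ∃ α ∈ A, ε α ^ 2 < t ∧ ¬ R α ^ 2 < t
  · obtain ⟨α, hα, ha1, ha2⟩ := hex
    rw [Finset.sum_eq_single α]
    · simpa [sw, ha1, ha2] using h1 α
    · intro β hβ hne
      by_cases hβA : β ∈ A
      · have hb := hε β hβ
        have ha := hε α (hA hα)
        rcases hd β hβA α hα hne with h2 | h2
        · have h3 : R β ^ 2 < t := lt_of_le_of_lt (by gcongr; linarith) ha1
          have h4 : ε β ^ 2 < t := lt_trans (by gcongr; exacts [hb.1.le, hb.2]) h3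
          simp [sw, h3, h4]
        · have h3 : ¬ ε β ^ 2 < t := fun h' => ha2 (lt_of_le_of_lt (by gcongr; linarith) h')
          have h4 : ¬ R β ^ 2 < t := fun h' => h3 (lt_trans (by gcongr; exacts [hb.1.le, hb.2]) h')
          simp [sw, h3, h4]
      · rw [h0 β hβA, zero_mul]
    · intro h'
      exact absurd (hA hα) h'
  · rw [Finset.sum_eq_zero, abs_zero]
    · exact zero_le_one
    intro β hβ
    by_cases hβA : β ∈ A
    · have hb := hε β hβ
      by_cases h3 : R β ^ 2 < t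
      · have h4 : ε β ^ 2 < t := lt_trans (by gcongr; exacts [hb.1.le, hb.2]) h3
        simp [sw, h3, h4]
      · have h4 : ¬ ε β ^ 2 < t := fun h' => hex ⟨β, hβA, h', h3⟩
        simp [sw, h3, h4]
    · rw [h0 β hβA, zero_mul]

/-- the intervals `Ioc (ε α) (R α)` of the selected annuli are disjoint subsets of `Ioi 0`. -/
theorem Sel.abs_ak_le (h : Sel n 𝒜 ε R ϑ) (hε : ∀ α ∈ 𝒜, 0 < ε α ∧ ε α < R α) {t : ℝ} (ht : 0 < t)
    (u : ℝ) : |∑ α ∈ 𝒜, ϑ α * ak (ε α) (R α) t u| ≤ ∫ s in Set.Ioi 0, |bk t u s| := by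
  obtain ⟨h1, A, hA, -, h0, hd⟩ := h
  have hi := (kern1_int ht u).abs
  have hsub : ∀ α ∈ A, Set.Ioc (ε α) (R α) ⊆ Set.Ioi 0 := fun α hα s hs =>
    (hε α (hA hα)).1.trans hs.1
  rw [← Finset.sum_subset hA fun α _ hα => by rw [h0 α hα, zero_mul]]
  calc _ ≤ ∑ α ∈ A, |ϑ α * ak (ε α) (R α) t u| := Finset.abs_sum_le_sum_abs _ _
    _ ≤ ∑ α ∈ A, ∫ s in Set.Ioc (ε α) (R α), |bk t u s| := by
        refine Finset.sum_le_sum fun α _ => ?_
        rw [abs_mul]
        exact (mul_le_of_le_one_left (abs_nonneg _) (h1 α)).trans abs_integral_le_integral_abs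
    _ = ∫ s in ⋃ α ∈ A, Set.Ioc (ε α) (R α), |bk t u s| := by
        refine (integral_biUnion_finset A (fun α _ => measurableSet_Ioc) ?_
          fun α hα => IntegrableOn.mono_set hi (hsub α hα)).symm
        intro α hα β hβ hne
        rcases hd α hα β hβ hne with h2 | h2
        · exact Set.disjoint_left.2 fun s hs hs' => absurd (hs.2.trans h2) (not_le.2 hs'.1)
        · exact Set.disjoint_left.2 fun s hs hs' => absurd (hs'.2.trans h2) (not_le.2 hs.1)
    _ ≤ _ := setIntegral_mono_set hi (Filter.Eventually.of_forall fun s => abs_nonneg _)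
        (Set.iUnion₂_subset hsub).eventuallyLE

/-- each switch is monotone in time with values in `{0, 1}`. -/
theorem Sel.var_sw_le (h : Sel n 𝒜 ε R ϑ) {t : ℕ → ℝ} (ht : Monotone t) (K : ℕ) :
    ∑ i ∈ Finset.range K, |∑ α ∈ 𝒜, ϑ α * (sw (ε α) (t (i + 1)) - sw (R α) (t (i + 1))) -
      ∑ α ∈ 𝒜, ϑ α * (sw (ε α) (t i) - sw (R α) (t i))| ≤ 2 * n := by
  obtain ⟨h1, A, hA, hn, h0, -⟩ := h
  have hm : ∀ (e : ℝ) (i : ℕ), 0 ≤ sw e (t (i + 1)) - sw e (t i) := by
    intro e i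
    have := ht (Nat.le_succ i)
    unfold sw
    split_ifs with h2 h3 h3 <;> first | (norm_num; done) | exact absurd (h3.trans_le this) h2
  have hs : ∀ e : ℝ, ∑ i ∈ Finset.range K, (sw e (t (i + 1)) - sw e (t i)) ≤ 1 := by
    intro e
    rw [Finset.sum_range_sub fun i => sw e (t i)]
    unfold sw
    split_ifs <;> norm_num
  calc _ ≤ ∑ i ∈ Finset.range K, ∑ α ∈ A, ((sw (ε α) (t (i + 1)) - sw (ε α) (t i)) +
        (sw (R α) (t (i + 1)) - sw (R α) (t i))) := by
        refine Finset.sum_le_sum fun i _ => ?_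
        rw [← Finset.sum_sub_distrib,
          ← Finset.sum_subset hA fun α _ hα => by rw [h0 α hα, zero_mul, zero_mul, sub_zero]]
        refine (Finset.abs_sum_le_sum_abs _ _).trans (Finset.sum_le_sum fun α _ => ?_)
        rw [← mul_sub, abs_mul]
        refine (mul_le_of_le_one_left (abs_nonneg _) (h1 α)).trans ?_
        have h2 := hm (ε α) i
        have h3 := hm (R α) i
        rw [abs_le]
        constructor <;> linarith
    _ ≤ ∑ _α ∈ A, (2 : ℝ) := by
        rw [Finset.sum_comm]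
        refine Finset.sum_le_sum fun α _ => ?_
        rw [Finset.sum_add_distrib]
        linarith [hs (ε α), hs (R α)]
    _ ≤ 2 * n := by
        rw [Finset.sum_const, nsmul_eq_mul, mul_comm]
        gcongr

end sel

end Crest.Agent.R72
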