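/-
R72/Kern2: the square-function weight of the rough parts.
Skeleton by helper40; keep the statements unchanged (add any helper lemmas you like).
-/
import Crest.Agent.R72.Kern1

set_option autoImplicit false
set_option linter.unusedSectionVars false

namespace Crest.Agent.R72

open MeasureTheory

theorem kern2_ofReal_integral_le {X : Type} [MeasurableSpace X] (μ : Measure X) {f : X → ℝ}
    (hf : ∀ x, 0 ≤ f x) : ENNReal.ofReal (∫ x, f x ∂μ) ≤ ∫⁻ x, ENNReal.ofReal (f x) ∂μ := by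
  refine (Real.ofReal_le_enorm _).trans ((enorm_integral_le_lintegral_enorm f).trans_eq ?_)
  exact lintegral_congr fun x => Real.enorm_eq_ofReal (hf x)

theorem kern2_mom {τ t : ℝ} (hτ : 0 < τ) (ht : 0 < t) :
    ∫⁻ x, ENNReal.ofReal ((1 + |x| / √t) * g τ x) ≤ ENNReal.ofReal (2 + τ / t) := by
  have hs : 0 < √t := Real.sqrt_pos.2 ht
  have hi : Integrable fun x => 2 * g τ x + t⁻¹ * (x ^ 2 * g τ x) :=
    ((integrable_g hτ).const_mul 2).add ((integrable_pow_mul_g hτ 2).const_mul _)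
  have h1 : ∫ x, (2 * g τ x + t⁻¹ * (x ^ 2 * g τ x)) = 2 + τ / t := by
    have h2 := moment_succ hτ 0
    simp only [zero_add, pow_zero, one_mul, Nat.cast_zero, integral_g hτ, mul_one] at h2
    rw [integral_add ((integrable_g hτ).const_mul 2) ((integrable_pow_mul_g hτ 2).const_mul _),
      integral_const_mul, integral_const_mul, integral_g hτ, h2]
    ring
  rw [← h1, ofReal_integral_eq_lintegral_ofReal hi (Filter.Eventually.of_forall fun x => by
    have := g_nonneg τ x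
    positivity)]
  refine lintegral_mono fun x => ENNReal.ofReal_le_ofReal ?_
  have h2 : t⁻¹ * x ^ 2 = (|x| / √t) ^ 2 := by
    rw [div_pow, sq_abs, Real.sq_sqrt ht.le]
    ring
  have h3 : 1 + |x| / √t ≤ 2 + t⁻¹ * x ^ 2 := by
    rw [h2]
    nlinarith [sq_nonneg (|x| / √t - 1)]
  nlinarith [mul_le_mul_of_nonneg_right h3 (g_nonneg τ x)]

theorem kern2_w_le (t u : ℝ) : (1 + |u| / √t) ^ (3 / 4 : ℝ) ≤ 1 + |u| / √t := by
  have h : 1 ≤ 1 + |u| / √t := le_add_of_nonneg_right (by positivity)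
  exact (Real.rpow_le_rpow_of_exponent_le h (by norm_num)).trans_eq (Real.rpow_one _)

theorem kern2_shift {t s : ℝ} (ht : 0 < t) (hs : √t ≤ |s|) :
    ∫⁻ u, ENNReal.ofReal ((1 + |u| / √t) ^ (3 / 4 : ℝ) * g t (u - s)) ≤
      ENNReal.ofReal (6 * (|s| / √t) ^ (3 / 4 : ℝ)) := by
  have hr : 0 < √t := Real.sqrt_pos.2 ht
  have h1 : ∀ u, (1 + |u| / √t) ^ (3 / 4 : ℝ) ≤
      2 * (|s| / √t) ^ (3 / 4 : ℝ) * (1 + |u - s| / √t) := fun u => by
    have a1 : 1 ≤ |s| / √t := (one_le_div hr).2 hs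
    have a2 : |u| / √t ≤ |u - s| / √t + |s| / √t := by
      rw [← add_div]
      refine div_le_div_of_nonneg_right ?_ hr.le
      simpa using abs_add_le (u - s) s
    have a3 : 0 ≤ |u - s| / √t := by positivity
    have a4 : 1 + |u| / √t ≤ 2 * (|s| / √t) * (1 + |u - s| / √t) := by nlinarith
    refine (Real.rpow_le_rpow (by positivity) a4 (by norm_num)).trans ?_
    rw [Real.mul_rpow (by positivity) (by positivity), Real.mul_rpow (by positivity) (by positivity)]
    refine mul_le_mul (mul_le_mul_of_nonneg_right ?_ (by positivity)) (kern2_w_le t _)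
      (by positivity) (by positivity)
    exact (Real.rpow_le_rpow_of_exponent_le one_le_two (by norm_num)).trans_eq (Real.rpow_one _)
  calc _ ≤ ∫⁻ u, ENNReal.ofReal (2 * (|s| / √t) ^ (3 / 4 : ℝ)) *
        ENNReal.ofReal ((1 + |u - s| / √t) * g t (u - s)) := by
        refine lintegral_mono fun u => ?_
        rw [← ENNReal.ofReal_mul (by positivity), ← mul_assoc]
        exact ENNReal.ofReal_le_ofReal (mul_le_mul_of_nonneg_right (h1 u) (g_nonneg _ _))
    _ = ENNReal.ofReal (2 * (|s| / √t) ^ (3 / 4 : ℝ)) *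
        ∫⁻ u, ENNReal.ofReal ((1 + |u| / √t) * g t u) := by
        rw [lintegral_const_mul' _ _ ENNReal.ofReal_ne_top,
          lintegral_sub_right_eq_self (fun u => ENNReal.ofReal ((1 + |u| / √t) * g t u))]
    _ ≤ ENNReal.ofReal (2 * (|s| / √t) ^ (3 / 4 : ℝ)) * ENNReal.ofReal (2 + t / t) := by
        gcongr
        exact kern2_mom ht ht
    _ = _ := by
        rw [← ENNReal.ofReal_mul (by positivity), div_self ht.ne']
        congr 1
        ring

theorem kern2_shift2 {t s : ℝ} (ht : 0 < t) (hs : √t ≤ s) :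
    ∫⁻ u, ENNReal.ofReal ((1 + |u| / √t) ^ (3 / 4 : ℝ) * (g t (u - s) + g t (u + s))) ≤
      ENNReal.ofReal (12 * (s / √t) ^ (3 / 4 : ℝ)) := by
  have hr : 0 < √t := Real.sqrt_pos.2 ht
  have hs0 : 0 < s := hr.trans_le hs
  have h1 := kern2_shift (s := s) ht (by rwa [abs_of_pos hs0])
  have h2 := kern2_shift (s := -s) ht (by rwa [abs_neg, abs_of_pos hs0])
  rw [abs_neg] at h2
  rw [abs_of_pos hs0] at h1 h2
  simp only [sub_neg_eq_add] at h2
  have hm : Measurable fun u => ENNReal.ofReal ((1 + |u| / √t) ^ (3 / 4 : ℝ) * g t (u - s)) := by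
    have := (continuous_g t).measurable
    fun_prop
  calc _ = ∫⁻ u, (ENNReal.ofReal ((1 + |u| / √t) ^ (3 / 4 : ℝ) * g t (u - s)) +
        ENNReal.ofReal ((1 + |u| / √t) ^ (3 / 4 : ℝ) * g t (u + s))) := by
        refine lintegral_congr fun u => ?_
        rw [mul_add, ENNReal.ofReal_add (mul_nonneg (by positivity) (g_nonneg _ _))
          (mul_nonneg (by positivity) (g_nonneg _ _))]
    _ ≤ ENNReal.ofReal (6 * (s / √t) ^ (3 / 4 : ℝ)) + ENNReal.ofReal (6 * (s / √t) ^ (3 / 4 : ℝ)) := by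
        rw [lintegral_add_left hm]
        exact add_le_add h1 h2
    _ = _ := by
        rw [← ENNReal.ofReal_add (by positivity) (by positivity)]
        congr 1
        ring

theorem kern2_small {C : ℝ} (hC : 0 ≤ C) (h : ∀ t : ℝ, 0 < t → ∀ u s : ℝ, 0 < s → s ≤ √t →
    |bk t u s| ≤ C / √t * g (4 * t) u) {ε t : ℝ} (hε : 0 < ε) (ht : 0 < t) (hlt : ε ^ 2 < t) :
    ∫⁻ u, ENNReal.ofReal ((1 + |u| / √t) ^ (3 / 4 : ℝ) * |rr ε t u|) ≤
      ENNReal.ofReal (6 * C * (ε / √t)) := by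
  have hr : 0 < √t := Real.sqrt_pos.2 ht
  have hεt : ε ≤ √t := Real.le_sqrt_of_sq_le hlt.le
  have h1 : ∀ u, |rr ε t u| ≤ C * (ε / √t) * g (4 * t) u := fun u => by
    have a1 := norm_setIntegral_le_of_norm_le_const (μ := volume) (s := Set.Ioc 0 ε)
      (f := bk t u) (C := C / √t * g (4 * t) u) measure_Ioc_lt_top
      fun s hs => h t ht u s hs.1 (hs.2.trans hεt)
    rw [Real.volume_real_Ioc_of_le hε.le, sub_zero, Real.norm_eq_abs] at a1
    rw [rr, if_pos hlt, abs_neg]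
    exact a1.trans_eq (by ring)
  calc _ ≤ ∫⁻ u, ENNReal.ofReal (C * (ε / √t)) *
        ENNReal.ofReal ((1 + |u| / √t) * g (4 * t) u) := by
        refine lintegral_mono fun u => ?_
        rw [← ENNReal.ofReal_mul (by positivity)]
        refine ENNReal.ofReal_le_ofReal ((mul_le_mul (kern2_w_le t u) (h1 u) (abs_nonneg _)
          (by positivity)).trans_eq (by ring))
    _ ≤ ENNReal.ofReal (C * (ε / √t)) * ENNReal.ofReal (2 + 4 * t / t) := by
        rw [lintegral_const_mul' _ _ ENNReal.ofReal_ne_top]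
        gcongr
        exact kern2_mom (by positivity) ht
    _ = _ := by
        rw [← ENNReal.ofReal_mul (by positivity), mul_div_assoc, div_self ht.ne']
        congr 1
        ring

theorem kern2_pow {r s : ℝ} (hr : 0 < r) (hs : 0 < s) :
    r * (s / r) ^ (3 / 4 : ℝ) = r ^ (1 / 4 : ℝ) * s ^ (3 / 4 : ℝ) := by
  rw [Real.div_rpow hs.le hr.le, show (1 / 4 : ℝ) = 1 - 3 / 4 by norm_num, Real.rpow_sub hr,
    Real.rpow_one]
  ring

theorem kern2_tail {ε t : ℝ} (ht : 0 < t) (hεt : √t ≤ ε) :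
    ∫⁻ u, ∫⁻ s in Set.Ioi ε, ENNReal.ofReal (4 * √t / s ^ 2 *
      ((1 + |u| / √t) ^ (3 / 4 : ℝ) * (g t (u - s) + g t (u + s)))) ≤
      ENNReal.ofReal (192 * (√t / ε) ^ (1 / 4 : ℝ)) := by
  have hr : 0 < √t := Real.sqrt_pos.2 ht
  have hε : 0 < ε := hr.trans_le hεt
  have hm : Measurable (Function.uncurry fun u s : ℝ => ENNReal.ofReal (4 * √t / s ^ 2 *
      ((1 + |u| / √t) ^ (3 / 4 : ℝ) * (g t (u - s) + g t (u + s))))) := by
    have := (continuous_g t).measurable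
    unfold Function.uncurry
    fun_prop
  rw [lintegral_lintegral_swap hm.aemeasurable]
  have hi : IntegrableOn (fun s : ℝ => 48 * √t ^ (1 / 4 : ℝ) * s ^ (-(5 / 4) : ℝ)) (Set.Ioi ε) :=
    (integrableOn_Ioi_rpow_of_lt (by norm_num) hε).const_mul _
  calc _ ≤ ∫⁻ s in Set.Ioi ε, ENNReal.ofReal (48 * √t ^ (1 / 4 : ℝ) * s ^ (-(5 / 4) : ℝ)) := by
        refine setLIntegral_mono' measurableSet_Ioi fun s hs => ?_
        have hs0 : 0 < s := hε.trans hs
        simp only [ENNReal.ofReal_mul (by positivity : 0 ≤ 4 * √t / s ^ 2)]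
        rw [lintegral_const_mul' _ _ ENNReal.ofReal_ne_top]
        refine (mul_le_mul_right (kern2_shift2 ht (hεt.trans (le_of_lt hs))) _).trans_eq ?_
        rw [← ENNReal.ofReal_mul (by positivity)]
        congr 1
        have a1 : s ^ (-(5 / 4) : ℝ) = s ^ (3 / 4 : ℝ) / s ^ 2 := by
          rw [show (-(5 / 4) : ℝ) = 3 / 4 - (2 : ℕ) by norm_num, Real.rpow_sub hs0,
            Real.rpow_natCast]
        rw [a1]
        linear_combination (48 / s ^ 2) * kern2_pow hr hs0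
    _ = ENNReal.ofReal (∫ s in Set.Ioi ε, 48 * √t ^ (1 / 4 : ℝ) * s ^ (-(5 / 4) : ℝ)) := by
        rw [ofReal_integral_eq_lintegral_ofReal hi]
        filter_upwards [ae_restrict_mem measurableSet_Ioi] with s hs
        have hs0 : 0 < s := hε.trans hs
        positivity
    _ = _ := by
        rw [integral_const_mul, integral_Ioi_rpow_of_lt (by norm_num) hε,
          Real.div_rpow hr.le hε.le, show (-(5 / 4) + 1 : ℝ) = -(1 / 4) by norm_num,
          Real.rpow_neg hε.le]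
        congr 1
        ring

theorem kern2_large {ε t : ℝ} (hε : 0 < ε) (ht : 0 < t) (hlt : ¬ ε ^ 2 < t) :
    ∫⁻ u, ENNReal.ofReal ((1 + |u| / √t) ^ (3 / 4 : ℝ) * |rr ε t u|) ≤
      ENNReal.ofReal (240 * (√t / ε) ^ (1 / 4 : ℝ)) := by
  have hr : 0 < √t := Real.sqrt_pos.2 ht
  have hεt : √t ≤ ε := Real.sqrt_le_iff.2 ⟨hε.le, not_lt.1 hlt⟩
  have hm : Measurable fun u => ENNReal.ofReal (4 * √t / ε) *
      ENNReal.ofReal ((1 + |u| / √t) ^ (3 / 4 : ℝ) * (g t (u - ε) + g t (u + ε))) := by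
    have := (continuous_g t).measurable
    fun_prop
  calc _ ≤ ∫⁻ u, (ENNReal.ofReal (4 * √t / ε) *
        ENNReal.ofReal ((1 + |u| / √t) ^ (3 / 4 : ℝ) * (g t (u - ε) + g t (u + ε))) +
        ∫⁻ s in Set.Ioi ε, ENNReal.ofReal (4 * √t / s ^ 2 *
          ((1 + |u| / √t) ^ (3 / 4 : ℝ) * (g t (u - s) + g t (u + s))))) := by
        refine lintegral_mono fun u => ?_
        have a0 : ∀ s, 0 ≤ g t (u - s) + g t (u + s) := fun s =>
          add_nonneg (g_nonneg _ _) (g_nonneg _ _)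
        have a1 := mul_le_mul_of_nonneg_left (abs_tail_le ht hε u)
          (by positivity : 0 ≤ (1 + |u| / √t) ^ (3 / 4 : ℝ))
        have a2 : ∫ s in Set.Ioi ε, 4 * √t / s ^ 2 *
            ((1 + |u| / √t) ^ (3 / 4 : ℝ) * (g t (u - s) + g t (u + s))) =
            4 * √t * (1 + |u| / √t) ^ (3 / 4 : ℝ) *
              ∫ s in Set.Ioi ε, (g t (u - s) + g t (u + s)) / s ^ 2 := by
          rw [← integral_const_mul]
          exact integral_congr_ae (Filter.Eventually.of_forall fun s => by ring)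
        refine le_trans ?_ (add_le_add_right (kern2_ofReal_integral_le _ fun s => by
          have := a0 s
          positivity) _)
        rw [← ENNReal.ofReal_mul (by positivity), rr, if_neg hlt, a2]
        refine (ENNReal.ofReal_le_ofReal (a1.trans_eq ?_)).trans ENNReal.ofReal_add_le
        ring
    _ ≤ ENNReal.ofReal (4 * √t / ε) * ENNReal.ofReal (12 * (ε / √t) ^ (3 / 4 : ℝ)) +
        ENNReal.ofReal (192 * (√t / ε) ^ (1 / 4 : ℝ)) := by
        rw [lintegral_add_left hm, lintegral_const_mul' _ _ ENNReal.ofReal_ne_top]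
        exact add_le_add (mul_le_mul_right (kern2_shift2 ht hεt) _) (kern2_tail ht hεt)
    _ = _ := by
        rw [← ENNReal.ofReal_mul (by positivity), ← ENNReal.ofReal_add (by positivity)
          (by positivity)]
        congr 1
        have a1 : (√t / ε) ^ (1 / 4 : ℝ) = √t ^ (1 / 4 : ℝ) * ε ^ (3 / 4 : ℝ) / ε := by
          rw [Real.div_rpow hr.le hε.le, show (3 / 4 : ℝ) = 1 - 1 / 4 by norm_num,
            Real.rpow_sub hε, Real.rpow_one]
          field_simp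
        rw [a1]
        linear_combination (48 / ε) * kern2_pow hr hε

/-- Recipe: if `ε² < t`, `|rr| ≤ ε C / √t * g (4t) u` (`abs_bk_le_small`) and
`∫ (1 + |u| / √t) g (4t) u ≤ c`.  Otherwise `abs_tail_le` with `e = ε ≥ √t`, Tonelli and
`∫ (1 + |u|/√t)^(3/4) g t (u ∓ s) du ≤ c (s / √t)^(3/4)` for `s ≥ √t`
(`1 + |u|/√t ≤ (1 + |u ∓ s|/√t) (1 + s/√t)`), `∫_{s > ε} s^(-5/4) = 4 ε^(-1/4)` (`integral_Ioi_rpow_of_lt`). -/
theorem lintegral_rr_le : ∃ C : ℝ, 0 ≤ C ∧ ∀ ε t : ℝ, 0 < ε → 0 < t →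
    ∫⁻ u, ENNReal.ofReal ((1 + |u| / √t) ^ (3 / 4 : ℝ) * |rr ε t u|) ≤
      ENNReal.ofReal (C * if ε ^ 2 < t then ε / √t else (√t / ε) ^ (1 / 4 : ℝ)) := by
  obtain ⟨C, hC, h⟩ := abs_bk_le_small
  refine ⟨6 * C + 240, by positivity, fun ε t hε ht => ?_⟩
  split_ifs with hlt
  · refine (kern2_small hC h hε ht hlt).trans (ENNReal.ofReal_le_ofReal ?_)
    exact mul_le_mul_of_nonneg_right (by linarith) (by positivity)
  · refine (kern2_large hε ht hlt).trans (ENNReal.ofReal_le_ofReal ?_)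
    exact mul_le_mul_of_nonneg_right (by linarith) (by positivity)

/-- Recipe: `lintegral_rr_le`; `∫_{t > ε²} ε t^(-3/2) = 2`, `∫_{t ≤ ε²} ε^(-1/4) t^(-7/8) = 8`. -/
theorem lintegral_rr_le' : ∃ C : ℝ, 0 ≤ C ∧ ∀ ε : ℝ, 0 < ε →
    ∫⁻ t in Set.Ioi 0, ∫⁻ u, ENNReal.ofReal (t⁻¹ * ((1 + |u| / √t) ^ (3 / 4 : ℝ) * |rr ε t u|)) ≤
      ENNReal.ofReal C := by
  obtain ⟨C, hC, h⟩ := lintegral_rr_le
  refine ⟨10 * C, by positivity, fun ε hε => ?_⟩
  have hε2 : 0 < ε ^ 2 := by positivity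
  have h1 : ∀ t, 0 < t → ∫⁻ u, ENNReal.ofReal (t⁻¹ * ((1 + |u| / √t) ^ (3 / 4 : ℝ) * |rr ε t u|)) ≤
      ENNReal.ofReal (t⁻¹ * (C * if ε ^ 2 < t then ε / √t else (√t / ε) ^ (1 / 4 : ℝ))) := by
    intro t ht
    simp only [ENNReal.ofReal_mul (inv_pos.2 ht).le]
    rw [lintegral_const_mul' _ _ ENNReal.ofReal_ne_top]
    exact mul_le_mul_right (h ε t hε ht) _
  have h2 : ∫⁻ t in Set.Ioc 0 (ε ^ 2),
      ∫⁻ u, ENNReal.ofReal (t⁻¹ * ((1 + |u| / √t) ^ (3 / 4 : ℝ) * |rr ε t u|)) ≤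
      ENNReal.ofReal (8 * C) := by
    have hi : IntegrableOn (fun t : ℝ => C / ε ^ (1 / 4 : ℝ) * t ^ (-(7 / 8) : ℝ))
        (Set.Ioc 0 (ε ^ 2)) :=
      (intervalIntegral.intervalIntegrable_rpow' (by norm_num)).1.const_mul _
    calc _ ≤ ∫⁻ t in Set.Ioc 0 (ε ^ 2),
          ENNReal.ofReal (C / ε ^ (1 / 4 : ℝ) * t ^ (-(7 / 8) : ℝ)) := by
          refine setLIntegral_mono' measurableSet_Ioc fun t ht => (h1 t ht.1).trans_eq ?_
          rw [if_neg (not_lt.2 ht.2), Real.div_rpow (Real.sqrt_nonneg _) hε.le, Real.sqrt_eq_rpow,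
            ← Real.rpow_mul ht.1.le, show (-(7 / 8) : ℝ) = 1 / 2 * (1 / 4) - 1 by norm_num,
            Real.rpow_sub ht.1, Real.rpow_one]
          congr 1
          ring
      _ = ENNReal.ofReal (∫ t in Set.Ioc 0 (ε ^ 2), C / ε ^ (1 / 4 : ℝ) * t ^ (-(7 / 8) : ℝ)) := by
          rw [ofReal_integral_eq_lintegral_ofReal hi]
          filter_upwards [ae_restrict_mem measurableSet_Ioc] with t ht
          have := ht.1
          positivity
      _ = _ := by
          rw [integral_const_mul, ← intervalIntegral.integral_of_le hε2.le,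
            integral_rpow (Or.inl (by norm_num)), Real.zero_rpow (by norm_num),
            ← Real.rpow_natCast, ← Real.rpow_mul hε.le,
            show ((2 : ℕ) : ℝ) * (-(7 / 8) + 1) = 1 / 4 by norm_num]
          congr 1
          have : 0 < ε ^ (1 / 4 : ℝ) := by positivity
          field_simp
          ring
  have h3 : ∫⁻ t in Set.Ioi (ε ^ 2),
      ∫⁻ u, ENNReal.ofReal (t⁻¹ * ((1 + |u| / √t) ^ (3 / 4 : ℝ) * |rr ε t u|)) ≤
      ENNReal.ofReal (2 * C) := by
    have hi : IntegrableOn (fun t : ℝ => C * ε * t ^ (-(3 / 2) : ℝ)) (Set.Ioi (ε ^ 2)) :=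
      (integrableOn_Ioi_rpow_of_lt (by norm_num) hε2).const_mul _
    calc _ ≤ ∫⁻ t in Set.Ioi (ε ^ 2), ENNReal.ofReal (C * ε * t ^ (-(3 / 2) : ℝ)) := by
          refine setLIntegral_mono' measurableSet_Ioi fun t ht => ?_
          have ht0 : 0 < t := hε2.trans ht
          refine (h1 t ht0).trans_eq ?_
          rw [if_pos (show ε ^ 2 < t from ht), Real.sqrt_eq_rpow,
            show (-(3 / 2) : ℝ) = -(1 / 2) - 1 by norm_num, Real.rpow_sub ht0, Real.rpow_one,
            Real.rpow_neg ht0.le]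
          congr 1
          ring
      _ = ENNReal.ofReal (∫ t in Set.Ioi (ε ^ 2), C * ε * t ^ (-(3 / 2) : ℝ)) := by
          rw [ofReal_integral_eq_lintegral_ofReal hi]
          filter_upwards [ae_restrict_mem measurableSet_Ioi] with t ht
          have : 0 < t := hε2.trans ht
          positivity
      _ = _ := by
          rw [integral_const_mul, integral_Ioi_rpow_of_lt (by norm_num) hε2,
            ← Real.rpow_natCast, ← Real.rpow_mul hε.le,
            show ((2 : ℕ) : ℝ) * (-(3 / 2) + 1) = -1 by norm_num, Real.rpow_neg_one]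
          congr 1
          field_simp
          ring
  rw [← Set.Ioc_union_Ioi_eq_Ioi hε2.le]
  refine (lintegral_union_le _ _ _).trans ((add_le_add h2 h3).trans_eq ?_)
  rw [← ENNReal.ofReal_add (by positivity) (by positivity)]
  congr 1
  ring

/-- Recipe: `c = ∑ ϑ (rr ε - rr R) = ∑ ϑ ak - (∑ ϑ (sw - sw)) al` (`ak_eq`), so
`|c| ≤ 2 ∫ |bk| ≤ 2 C / (√t + |u|)` (`Sel.abs_ak_le`, `Sel.abs_sw_le`, `integral_abs_bk_le`); hence the integrand
is `≤ 2 C t⁻¹ (1 + |u|/√t)^(3/4) |c|`, and `|c| ≤ ∑_{α ∈ A} (|rr (ε α)| + |rr (R α)|)` with `A.card ≤ n`;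
`lintegral_finset_sum`, `lintegral_rr_le'`. -/
theorem Sel.sq_weight_le : ∃ C : ℝ, 1 ≤ C ∧ ∀ (κ : Type) (n : ℕ) (𝒜 : Finset κ) (ε R ϑ : κ → ℝ),
    Sel n 𝒜 ε R ϑ → (∀ α ∈ 𝒜, 0 < ε α ∧ ε α < R α) →
    ∫⁻ t in Set.Ioi 0, ∫⁻ u, ENNReal.ofReal (t⁻¹ * √(1 + |u| / √t) *
        (∑ α ∈ 𝒜, ϑ α * (rr (ε α) t u - rr (R α) t u)) ^ 2 / om t u) ≤
      ENNReal.ofReal (C * n) := by
  obtain ⟨C, hC, h⟩ := integral_abs_bk_le
  obtain ⟨D, hD, h'⟩ := lintegral_rr_le'
  refine ⟨4 * C * D + 1, le_add_of_nonneg_left (by positivity), fun κ n 𝒜 ε R ϑ hS hε => ?_⟩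
  obtain ⟨A, hA, hn, h0, -⟩ := hS.2
  set F : ℝ → ℝ → ℝ → ENNReal := fun e t u =>
    ENNReal.ofReal (t⁻¹ * ((1 + |u| / √t) ^ (3 / 4 : ℝ) * |rr e t u|)) with hF
  have hFm : ∀ e, Measurable fun w : ℝ × ℝ => F e w.1 w.2 := fun e => by
    have := measurable_rr e
    simp only [hF]
    fun_prop
  have hFu : ∀ e t, Measurable (F e t) := fun e t => (hFm e).comp measurable_prodMk_left
  have hFt : ∀ e, Measurable fun t => ∫⁻ u, F e t u := fun e => (hFm e).lintegral_prod_right'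
  have key : ∀ t, 0 < t → ∀ u, ENNReal.ofReal (t⁻¹ * √(1 + |u| / √t) *
      (∑ α ∈ 𝒜, ϑ α * (rr (ε α) t u - rr (R α) t u)) ^ 2 / om t u) ≤
      ENNReal.ofReal (2 * C) * ∑ α ∈ A, (F (ε α) t u + F (R α) t u) := by
    intro t ht u
    have hr : 0 < √t := Real.sqrt_pos.2 ht
    set c := ∑ α ∈ 𝒜, ϑ α * (rr (ε α) t u - rr (R α) t u) with hc
    set q := 1 + |u| / √t with hq
    have hq0 : 0 < q := by positivity
    have a1 : c = ∑ α ∈ 𝒜, ϑ α * ak (ε α) (R α) t u -
        (∑ α ∈ 𝒜, ϑ α * (sw (ε α) t - sw (R α) t)) * al t u := by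
      rw [Finset.sum_mul, ← Finset.sum_sub_distrib]
      refine Finset.sum_congr rfl fun α hα => ?_
      rw [ak_eq (hε α hα).1 (hε α hα).2 ht]
      ring
    have a2 : |al t u| ≤ ∫ s in Set.Ioi 0, |bk t u s| := abs_integral_le_integral_abs
    have a3 : |c| ≤ 2 * C / (√t * q) := by
      have b1 : √t * q = √t + |u| := by
        rw [hq]
        field_simp
      have b2 := hS.abs_ak_le hε ht u
      have b3 := mul_le_mul (hS.abs_sw_le hε t) a2 (abs_nonneg _) zero_le_one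
      have b4 := (h t ht u).2
      rw [a1, b1, mul_div_assoc]
      refine (abs_sub _ _).trans ?_
      rw [abs_mul]
      linarith
    have a4 : |c| ≤ ∑ α ∈ A, (|rr (ε α) t u| + |rr (R α) t u|) := by
      rw [hc, ← Finset.sum_subset hA fun α _ hα => by rw [h0 α hα, zero_mul]]
      refine (Finset.abs_sum_le_sum_abs _ _).trans (Finset.sum_le_sum fun α _ => ?_)
      rw [abs_mul]
      exact (mul_le_mul (hS.1 α) (abs_sub _ _) (abs_nonneg _) zero_le_one).trans_eq (one_mul _)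
    have a5 : t⁻¹ * √q * c ^ 2 / om t u = t⁻¹ * q ^ (3 / 4 : ℝ) * (√t * q) * (|c| * |c|) := by
      have b1 : √q * q ^ (5 / 4 : ℝ) = q ^ (3 / 4 : ℝ) * q := by
        rw [Real.sqrt_eq_rpow, ← Real.rpow_add hq0, ← Real.rpow_add_one hq0.ne']
        norm_num
      have b2 : 0 < q ^ (5 / 4 : ℝ) := by positivity
      rw [om, ← hq, Real.rpow_neg hq0.le, abs_mul_abs_self, ← mul_inv, div_inv_eq_mul]
      linear_combination (t⁻¹ * c ^ 2 * √t) * b1
    have a6 : t⁻¹ * √q * c ^ 2 / om t u ≤ 2 * C * ∑ α ∈ A,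
        (t⁻¹ * (q ^ (3 / 4 : ℝ) * |rr (ε α) t u|) + t⁻¹ * (q ^ (3 / 4 : ℝ) * |rr (R α) t u|)) := by
      rw [a5]
      refine (mul_le_mul_of_nonneg_left (mul_le_mul a3 a4 (abs_nonneg _) (by positivity))
        (by positivity)).trans_eq ?_
      simp only [← mul_add, ← Finset.mul_sum]
      field_simp
    refine (ENNReal.ofReal_le_ofReal a6).trans_eq ?_
    rw [ENNReal.ofReal_mul (by positivity), ENNReal.ofReal_sum_of_nonneg fun α _ => by positivity]
    congr 1
    exact Finset.sum_congr rfl fun α _ => ENNReal.ofReal_add (by positivity) (by positivity)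
  calc _ ≤ ∫⁻ t in Set.Ioi 0, ∫⁻ u,
        ENNReal.ofReal (2 * C) * ∑ α ∈ A, (F (ε α) t u + F (R α) t u) :=
        setLIntegral_mono' measurableSet_Ioi fun t ht => lintegral_mono fun u => key t ht u
    _ = ENNReal.ofReal (2 * C) * ∑ α ∈ A, ((∫⁻ t in Set.Ioi 0, ∫⁻ u, F (ε α) t u) +
        ∫⁻ t in Set.Ioi 0, ∫⁻ u, F (R α) t u) := by
        have b1 : ∀ t, ∫⁻ u, ENNReal.ofReal (2 * C) * ∑ α ∈ A, (F (ε α) t u + F (R α) t u) =
            ENNReal.ofReal (2 * C) * ∑ α ∈ A, ((∫⁻ u, F (ε α) t u) + ∫⁻ u, F (R α) t u) := by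
          intro t
          rw [lintegral_const_mul' _ _ ENNReal.ofReal_ne_top,
            lintegral_finsetSum _ fun α _ => (hFu (ε α) t).fun_add (hFu (R α) t)]
          congr 1
          exact Finset.sum_congr rfl fun α _ => lintegral_add_left (hFu _ t) _
        simp only [b1]
        rw [lintegral_const_mul' _ _ ENNReal.ofReal_ne_top,
          lintegral_finsetSum _ fun α _ => (hFt (ε α)).fun_add (hFt (R α))]
        congr 1
        exact Finset.sum_congr rfl fun α _ => lintegral_add_left (hFt _) _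
    _ ≤ ENNReal.ofReal (2 * C) * ∑ α ∈ A, (ENNReal.ofReal D + ENNReal.ofReal D) := by
        refine mul_le_mul_right (Finset.sum_le_sum fun α hα => ?_) _
        have b1 := hε α (hA hα)
        exact add_le_add (h' _ b1.1) (h' _ (b1.1.trans b1.2))
    _ ≤ _ := by
        rw [← ENNReal.ofReal_add hD hD, ← ENNReal.ofReal_sum_of_nonneg fun _ _ => by positivity,
          ← ENNReal.ofReal_mul (by positivity), Finset.sum_const, nsmul_eq_mul]
        refine ENNReal.ofReal_le_ofReal ?_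
        have b1 : (A.card : ℝ) ≤ n := by exact_mod_cast hn
        have b2 : 0 ≤ C * D := by positivity
        have b3 : (0 : ℝ) ≤ n := Nat.cast_nonneg n
        nlinarith [mul_le_mul_of_nonneg_left b1 b2]

end Crest.Agent.R72
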