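/-
R72/Kern3: the reproducing formula.
Skeleton by helper40; keep the statements unchanged (add any helper lemmas you like).
-/
import Crest.Agent.R72.Kern1
import Crest.Agent.R72.Mat1

set_option autoImplicit false
set_option linter.unusedSectionVars false

namespace Crest.Agent.R72

open MeasureTheory

theorem Kern3.g1_le {t T : ℝ} (ht : t ∈ Set.Ioc 1 T) (x : ℝ) :
    |g1 t x| ≤ 2 * √T * g (2 * T) x := by
  have hπ := Real.pi_pos
  have ht0 : 0 < t := by linarith [ht.1]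
  have hT : 0 < T := by linarith [ht.2]
  have hs : 1 ≤ √t := Real.one_le_sqrt.2 ht.1.le
  have h1 := abs_g1_le ht0 x
  rw [abs_mul, abs_of_nonneg (by positivity)] at h1
  have h2 : g (2 * t) x ≤ √T * g (2 * T) x := by
    unfold g
    rw [← mul_assoc √T]
    refine mul_le_mul ?_ (Real.exp_le_exp.2 ?_) (Real.exp_pos _).le (by positivity)
    · rw [show 2 * Real.pi * (2 * T) = T * (2 * Real.pi * 2) by ring, Real.sqrt_mul hT.le, mul_inv,
        ← mul_assoc √T, mul_inv_cancel₀ (Real.sqrt_pos.2 hT).ne', one_mul]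
      refine inv_anti₀ (Real.sqrt_pos.2 (by positivity)) (Real.sqrt_le_sqrt ?_)
      nlinarith [ht.1]
    · rw [neg_div, neg_div, neg_le_neg_iff]
      exact div_le_div_of_nonneg_left (sq_nonneg _) (by positivity) (by linarith [ht.2])
  nlinarith [abs_nonneg (g1 t x)]

theorem Kern3.prod_le {t T : ℝ} (ht : t ∈ Set.Ioc 1 T) (a b c : ℝ) :
    |g1 t a * g1 t b * g1 t c| ≤ (2 * √T) ^ 3 * (g (2 * T) a * (g (2 * T) b * g (2 * T) c)) := by
  have h1 := Kern3.g1_le ht a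
  have h2 := Kern3.g1_le ht b
  have h3 := Kern3.g1_le ht c
  have := g_nonneg (2 * T) a
  have := g_nonneg (2 * T) b
  rw [abs_mul, abs_mul]
  calc _ ≤ 2 * √T * g (2 * T) a * (2 * √T * g (2 * T) b) * (2 * √T * g (2 * T) c) := by gcongr
    _ = _ := by ring

theorem Kern3.bk_le {t T ε s : ℝ} (ht : t ∈ Set.Ioc 1 T) (hε : 0 < ε) (hs : ε < s) (u : ℝ) :
    |√t * bk t u s| ≤ 16 * T * √T * (√(2 * Real.pi * (2 * T)))⁻¹ / ε := by
  have ht0 : 0 < t := by linarith [ht.1]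
  have hT : 0 < T := by linarith [ht.2]
  have hb : ∀ x, |g1 t x| ≤ 2 * √T * (√(2 * Real.pi * (2 * T)))⁻¹ := fun x =>
    (Kern3.g1_le ht x).trans (mul_le_mul_of_nonneg_left (g_le _ _ (by positivity)) (by positivity))
  have e : √t * bk t u s = 4 * t * (g1 t (u - s) - g1 t (u + s)) / s := by
    unfold bk
    conv_rhs => rw [← Real.mul_self_sqrt ht0.le]
    rw [Real.mul_self_sqrt ht0.le]
    have := Real.mul_self_sqrt ht0.le
    linear_combination (4 * (g1 t (u - s) - g1 t (u + s)) / s) * this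
  rw [e, abs_div, abs_mul, abs_of_pos (by positivity : 0 < 4 * t), abs_of_pos (hε.trans hs)]
  have h1 : |g1 t (u - s) - g1 t (u + s)| ≤ 2 * (2 * √T * (√(2 * Real.pi * (2 * T)))⁻¹) :=
    (abs_sub _ _).trans (by linarith [hb (u - s), hb (u + s)])
  calc _ ≤ 4 * T * (2 * (2 * √T * (√(2 * Real.pi * (2 * T)))⁻¹)) / ε := by
        gcongr
        exact ht.2
    _ = _ := by ring

theorem Kern3.ae_fst (T : ℝ) : ∀ᵐ w : ℝ × (ℝ × ℝ × ℝ) ∂((volume.restrict (Set.Ioc 1 T)).prod volume),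
    w.1 ∈ Set.Ioc 1 T :=
  Measure.quasiMeasurePreserving_fst.ae (ae_restrict_mem measurableSet_Ioc)

theorem Kern3.integrable_Q {T : ℝ} (hT : 1 ≤ T) (x₀ x₁ x₂ : ℝ) :
    Integrable (fun w : ℝ × (ℝ × ℝ × ℝ) =>
      g (2 * T) (x₀ - w.2.1) * (g (2 * T) (x₁ - w.2.2.1) * g (2 * T) (x₂ - w.2.2.2)))
      ((volume.restrict (Set.Ioc 1 T)).prod volume) := by
  have hg := integrable_g (t := 2 * T) (by linarith)
  have h : Integrable (fun p : ℝ × ℝ × ℝ =>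
      g (2 * T) (x₀ - p.1) * (g (2 * T) (x₁ - p.2.1) * g (2 * T) (x₂ - p.2.2))) :=
    (hg.comp_sub_left x₀).mul_prod ((hg.comp_sub_left x₁).mul_prod (hg.comp_sub_left x₂))
  exact h.comp_snd _

theorem Kern3.meas (x₀ x₁ x₂ : ℝ) : Measurable fun q : (ℝ × (ℝ × ℝ × ℝ)) × ℝ =>
    √q.1.1 * bk q.1.1 (s3 q.1.2) q.2 *
      (g1 q.1.1 (x₀ - q.1.2.1) * g1 q.1.1 (x₁ - q.1.2.2.1) * g1 q.1.1 (x₂ - q.1.2.2.2)) := by
  unfold bk s3 g1 g
  fun_prop

theorem Kern3.bound {ε T s : ℝ} (hε : 0 < ε) (hs : ε < s) (x₀ x₁ x₂ : ℝ) {w : ℝ × (ℝ × ℝ × ℝ)}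
    (hw : w.1 ∈ Set.Ioc 1 T) :
    ‖√w.1 * bk w.1 (s3 w.2) s *
      (g1 w.1 (x₀ - w.2.1) * g1 w.1 (x₁ - w.2.2.1) * g1 w.1 (x₂ - w.2.2.2))‖ ≤
      16 * T * √T * (√(2 * Real.pi * (2 * T)))⁻¹ / ε * (2 * √T) ^ 3 *
        (g (2 * T) (x₀ - w.2.1) * (g (2 * T) (x₁ - w.2.2.1) * g (2 * T) (x₂ - w.2.2.2))) := by
  rw [Real.norm_eq_abs, abs_mul, mul_assoc _ ((2 * √T) ^ 3)]
  exact mul_le_mul (Kern3.bk_le hw hε hs _) (Kern3.prod_le hw _ _ _) (abs_nonneg _)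
    ((abs_nonneg _).trans (Kern3.bk_le hw hε hs 0))

theorem Kern3.ftc {T : ℝ} (hT : 1 ≤ T) (x : ℝ) :
    IntegrableOn (fun t => 4 * t * g4 (4 * t) x) (Set.Ioc 1 T) ∧
      ∫ t in Set.Ioc 1 T, 4 * t * g4 (4 * t) x = eta 1 x - eta T x := by
  have hπ := Real.pi_pos
  have hc : ContinuousOn (fun t => 4 * t * g4 (4 * t) x) (Set.Icc 1 T) := by
    intro t ht
    have ht0 : 0 < t := by linarith [ht.1]
    have h1 : √(2 * Real.pi * (4 * t)) ≠ 0 := (Real.sqrt_pos.2 (by positivity)).ne'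
    refine ContinuousAt.continuousWithinAt ?_
    unfold g4 g
    fun_prop (disch := first | exact h1 | positivity)
  have hi : IntervalIntegrable (fun t => 4 * t * g4 (4 * t) x) volume 1 T :=
    hc.intervalIntegrable_of_Icc hT
  refine ⟨hi.1, ?_⟩
  rw [← intervalIntegral.integral_of_le hT,
    intervalIntegral.integral_eq_sub_of_hasDerivAt (f := fun s => -eta s x) (fun t ht => ?_) hi]
  · ring
  · rw [Set.uIcc_of_le hT] at ht
    simpa using (hasDerivAt_eta (t := t) (by linarith [ht.1]) x).fun_neg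

theorem Kern3.inner {t : ℝ} (ht : 0 < t) (x₀ x₁ x₂ s : ℝ) :
    ∫ p : ℝ × ℝ × ℝ, √t * bk t (s3 p) s *
      (g1 t (x₀ - p.1) * g1 t (x₁ - p.2.1) * g1 t (x₂ - p.2.2)) =
      (4 * t * g4 (4 * t) (x₀ + x₁ + x₂ - s) - 4 * t * g4 (4 * t) (x₀ + x₁ + x₂ + s)) / s := by
  have hs : 0 < √t := Real.sqrt_pos.2 ht
  have hb : ∀ x, ‖g1 t x‖ ≤ 2 / √t * (√(2 * Real.pi * (2 * t)))⁻¹ := fun x => by
    have h1 := (abs_g1_le ht x).trans (g_le _ x (by positivity))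
    rw [abs_mul, abs_of_nonneg (by positivity)] at h1
    rw [Real.norm_eq_abs, div_mul_eq_mul_div, le_div_iff₀ hs]
    linarith
  have hi : ∀ r : ℝ, Integrable fun p : ℝ × ℝ × ℝ => g1 t (s3 p - r) *
      (g1 t (x₀ - p.1) * g1 t (x₁ - p.2.1) * g1 t (x₂ - p.2.2)) := fun r =>
    (integrable_g1_prod ht x₀ x₁ x₂).bdd_mul
      (((continuous_g1 t).comp (by unfold s3; fun_prop)).aestronglyMeasurable)
      (Filter.Eventually.of_forall fun p => hb _)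
  have e : ∀ p : ℝ × ℝ × ℝ, √t * bk t (s3 p) s *
      (g1 t (x₀ - p.1) * g1 t (x₁ - p.2.1) * g1 t (x₂ - p.2.2)) = 4 * t / s *
      (g1 t (s3 p - s) * (g1 t (x₀ - p.1) * g1 t (x₁ - p.2.1) * g1 t (x₂ - p.2.2)) -
        g1 t (s3 p - -s) * (g1 t (x₀ - p.1) * g1 t (x₁ - p.2.1) * g1 t (x₂ - p.2.2))) := fun p => by
    have := Real.mul_self_sqrt ht.le
    rw [bk, sub_neg_eq_add]
    linear_combination (4 * (g1 t (s3 p - s) - g1 t (s3 p + s)) / s *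
      (g1 t (x₀ - p.1) * g1 t (x₁ - p.2.1) * g1 t (x₂ - p.2.2))) * this
  simp only [e]
  rw [integral_const_mul, integral_sub (hi s) (hi (-s)), conv4 ht, conv4 ht, sub_neg_eq_add]
  ring

/-- Recipe: `eta 1 x - eta T x = ∫_{1}^{T} 4 t g4 (4t) x` (`hasDerivAt_eta`), `conv4`; Fubini on
`Ioc ε R × (Ioc 1 T × ℝ³)`: `|g1 t| ≤ c` for `t ≥ 1`, `1 / s ≤ 1 / ε`, and the triple product is integrable
on `Ioc 1 T × ℝ³` (`abs_g1_le`, total mass of `g`). -/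
theorem kern_eq {ε R T : ℝ} (hε : 0 < ε) (hR : ε < R) (hT : 1 ≤ T) (x₀ x₁ x₂ : ℝ) :
    Integrable (fun w : ℝ × (ℝ × ℝ × ℝ) => √w.1 * ak ε R w.1 (s3 w.2) *
        (g1 w.1 (x₀ - w.2.1) * g1 w.1 (x₁ - w.2.2.1) * g1 w.1 (x₂ - w.2.2.2)))
      ((volume.restrict (Set.Ioc 1 T)).prod volume) ∧
    kern ε R T (x₀ + x₁ + x₂) = ∫ w : ℝ × (ℝ × ℝ × ℝ), √w.1 * ak ε R w.1 (s3 w.2) *
        (g1 w.1 (x₀ - w.2.1) * g1 w.1 (x₁ - w.2.2.1) * g1 w.1 (x₂ - w.2.2.2))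
      ∂((volume.restrict (Set.Ioc 1 T)).prod volume) := by
  have hQ := (Kern3.integrable_Q hT x₀ x₁ x₂).const_mul
    (16 * T * √T * (√(2 * Real.pi * (2 * T)))⁻¹ / ε * (2 * √T) ^ 3)
  have hΦ : Integrable (fun q : (ℝ × (ℝ × ℝ × ℝ)) × ℝ => √q.1.1 * bk q.1.1 (s3 q.1.2) q.2 *
      (g1 q.1.1 (x₀ - q.1.2.1) * g1 q.1.1 (x₁ - q.1.2.2.1) * g1 q.1.1 (x₂ - q.1.2.2.2)))
      (((volume.restrict (Set.Ioc 1 T)).prod volume).prod (volume.restrict (Set.Ioc ε R))) := by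
    refine (hQ.comp_fst _).mono' (Kern3.meas x₀ x₁ x₂).aestronglyMeasurable ?_
    filter_upwards [Measure.quasiMeasurePreserving_fst.ae (Kern3.ae_fst T),
      Measure.quasiMeasurePreserving_snd.ae (ae_restrict_mem (μ := volume)
        (measurableSet_Ioc (a := ε) (b := R)))] with q h1 h2
    exact Kern3.bound hε h2.1 x₀ x₁ x₂ h1
  have e : ∀ w : ℝ × (ℝ × ℝ × ℝ), √w.1 * ak ε R w.1 (s3 w.2) *
      (g1 w.1 (x₀ - w.2.1) * g1 w.1 (x₁ - w.2.2.1) * g1 w.1 (x₂ - w.2.2.2)) =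
      ∫ s in Set.Ioc ε R, √w.1 * bk w.1 (s3 w.2) s *
        (g1 w.1 (x₀ - w.2.1) * g1 w.1 (x₁ - w.2.2.1) * g1 w.1 (x₂ - w.2.2.2)) := fun w => by
    rw [integral_mul_const, integral_const_mul, ak]
  simp only [e]
  refine ⟨hΦ.integral_prod_left, ?_⟩
  rw [integral_integral_swap hΦ, kern]
  refine setIntegral_congr_fun measurableSet_Ioc fun s hs => ?_
  have hs' : Integrable (fun w : ℝ × (ℝ × ℝ × ℝ) => √w.1 * bk w.1 (s3 w.2) s *
      (g1 w.1 (x₀ - w.2.1) * g1 w.1 (x₁ - w.2.2.1) * g1 w.1 (x₂ - w.2.2.2)))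
      ((volume.restrict (Set.Ioc 1 T)).prod volume) := by
    refine hQ.mono' ((Kern3.meas x₀ x₁ x₂).comp measurable_prodMk_right).aestronglyMeasurable ?_
    filter_upwards [Kern3.ae_fst T] with w hw
    exact Kern3.bound hε hs.1 x₀ x₁ x₂ hw
  rw [integral_prod _ hs', setIntegral_congr_fun measurableSet_Ioc
    (fun t ht => Kern3.inner (t := t) (by linarith [ht.1]) x₀ x₁ x₂ s), integral_div,
    integral_sub (Kern3.ftc hT _).1 (Kern3.ftc hT _).1, (Kern3.ftc hT _).2, (Kern3.ftc hT _).2]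

/-- Recipe: `kern_eq`, `integral_finset_sum`, `ofReal_integral_norm_eq_lintegral_enorm`-type bound
(`enorm_integral_le_lintegral_enorm`), `lintegral_prod`. -/
theorem rep_le {κ : Type} {N : ℕ} (F₀ F₁ H : Matrix (Fin N) (Fin N) ℝ) (θ : ℝ) (𝒜 : Finset κ)
    (ε R : κ → ℝ) (hε : ∀ α ∈ 𝒜, 0 < ε α ∧ ε α < R α) (ϑ : Fin N → Fin N → κ → ℝ) {T : ℝ}
    (hT : 1 ≤ T) :
    ENNReal.ofReal |∑ a, ∑ b, ∑ c, F₀ a b * F₁ b c * H c a *
        ∑ α ∈ 𝒜, ϑ c a α * kern (ε α) (R α) T (lat N 0 a + lat N 0 b + lat N θ c)| ≤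
      ∫⁻ t in Set.Ioc 1 T, ∫⁻ p : ℝ × ℝ × ℝ, ENNReal.ofReal (√t *
        |loc F₀ F₁ (Matrix.of fun c a => H c a * ∑ α ∈ 𝒜, ϑ c a α * ak (ε α) (R α) t (s3 p)) θ t p|) := by
  have hk := fun (a b c : Fin N) (α : κ) (hα : α ∈ 𝒜) =>
    kern_eq (hε α hα).1 (hε α hα).2 hT (lat N 0 a) (lat N 0 b) (lat N θ c)
  set μ : Measure (ℝ × (ℝ × ℝ × ℝ)) := (volume.restrict (Set.Ioc 1 T)).prod volume with hμ
  set Ψ : Fin N → Fin N → Fin N → κ → ℝ × (ℝ × ℝ × ℝ) → ℝ := fun a b c α w =>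
    √w.1 * ak (ε α) (R α) w.1 (s3 w.2) * (g1 w.1 (lat N 0 a - w.2.1) * g1 w.1 (lat N 0 b - w.2.2.1) *
      g1 w.1 (lat N θ c - w.2.2.2)) with hΨ
  have i1 : ∀ a b c, Integrable (fun w => F₀ a b * F₁ b c * H c a *
      ∑ α ∈ 𝒜, ϑ c a α * Ψ a b c α w) μ := fun a b c =>
    (integrable_finsetSum _ fun α hα => (hk a b c α hα).1.const_mul _).const_mul _
  have i2 : ∀ a b, Integrable (fun w => ∑ c, F₀ a b * F₁ b c * H c a *
      ∑ α ∈ 𝒜, ϑ c a α * Ψ a b c α w) μ := fun a b => integrable_finsetSum _ fun c _ => i1 a b c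
  have i3 : ∀ a, Integrable (fun w => ∑ b, ∑ c, F₀ a b * F₁ b c * H c a *
      ∑ α ∈ 𝒜, ϑ c a α * Ψ a b c α w) μ := fun a => integrable_finsetSum _ fun b _ => i2 a b
  have i4 : Integrable (fun w => ∑ a, ∑ b, ∑ c, F₀ a b * F₁ b c * H c a *
      ∑ α ∈ 𝒜, ϑ c a α * Ψ a b c α w) μ := integrable_finsetSum _ fun a _ => i3 a
  have e1 : ∑ a, ∑ b, ∑ c, F₀ a b * F₁ b c * H c a *
      ∑ α ∈ 𝒜, ϑ c a α * kern (ε α) (R α) T (lat N 0 a + lat N 0 b + lat N θ c) =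
      ∫ w, ∑ a, ∑ b, ∑ c, F₀ a b * F₁ b c * H c a * ∑ α ∈ 𝒜, ϑ c a α * Ψ a b c α w ∂μ := by
    rw [integral_finsetSum _ fun a _ => i3 a]
    refine Finset.sum_congr rfl fun a _ => ?_
    rw [integral_finsetSum _ fun b _ => i2 a b]
    refine Finset.sum_congr rfl fun b _ => ?_
    rw [integral_finsetSum _ fun c _ => i1 a b c]
    refine Finset.sum_congr rfl fun c _ => ?_
    rw [integral_const_mul, integral_finsetSum _ fun α hα => (hk a b c α hα).1.const_mul _]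
    congr 1
    refine Finset.sum_congr rfl fun α hα => ?_
    rw [integral_const_mul, (hk a b c α hα).2]
  rw [e1, ← Real.enorm_eq_ofReal_abs]
  refine (enorm_integral_le_lintegral_enorm _).trans (le_of_eq ?_)
  rw [hμ, lintegral_prod _ i4.aestronglyMeasurable.enorm]
  refine lintegral_congr fun t => lintegral_congr fun p => ?_
  rw [Real.enorm_eq_ofReal_abs, ← abs_of_nonneg (Real.sqrt_nonneg t), ← abs_mul]
  congr 2
  simp only [loc, tri, hΨ, Matrix.of_apply, Finset.mul_sum, Finset.sum_mul]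
  refine Finset.sum_congr rfl fun a _ => Finset.sum_congr rfl fun b _ =>
    Finset.sum_congr rfl fun c _ => Finset.sum_congr rfl fun α _ => ?_
  ring

end Crest.Agent.R72
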