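/-
R72/Flow: the abstract flow lemma (fundamental theorem of calculus in time, divergence terms vanish).
Skeleton by helper40; keep the statements unchanged (add any helper lemmas you like).
-/
import Crest.Agent.R72.Defs

set_option autoImplicit false
set_option linter.unusedSectionVars false

namespace Crest.Agent.R72

open MeasureTheory

theorem Flow_int {Γ f : ℝ × ℝ → ℝ} (hΓ : Integrable Γ) (mf : Measurable f)
    (h : ∀ z, |f z| ≤ Γ z) : Integrable f :=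
  hΓ.mono' mf.aestronglyMeasurable (Filter.Eventually.of_forall h)

theorem Flow_div_fst {A Aq : ℝ × ℝ → ℝ} (hA : Integrable A) (hAq : Integrable Aq)
    (dq : ∀ z : ℝ × ℝ, HasDerivAt (fun q => A (q, z.2)) (Aq z) z.1) : ∫ z, Aq z = 0 := by
  rw [Measure.volume_eq_prod] at hA hAq ⊢
  rw [integral_prod_symm _ hAq]
  refine integral_eq_zero_of_ae ?_
  filter_upwards [hA.prod_left_ae, hAq.prod_left_ae] with y h1 h2
  exact integral_eq_zero_of_hasDerivAt_of_integrable (fun x => dq (x, y)) h2 h1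

theorem Flow_div_snd {B Bp : ℝ × ℝ → ℝ} (hB : Integrable B) (hBp : Integrable Bp)
    (dp : ∀ z : ℝ × ℝ, HasDerivAt (fun p => B (z.1, p)) (Bp z) z.2) : ∫ z, Bp z = 0 := by
  rw [Measure.volume_eq_prod] at hB hBp ⊢
  rw [integral_prod _ hBp]
  refine integral_eq_zero_of_ae ?_
  filter_upwards [hB.prod_right_ae, hBp.prod_right_ae] with x h1 h2
  exact integral_eq_zero_of_hasDerivAt_of_integrable (fun y => dp (x, y)) h2 h1

/-- the abstract flow lemma.  Recipe: for each `z` the fundamental theorem of calculus in `t`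
(`intervalIntegral.integral_eq_sub_of_hasDerivAt`; `ℓt · z` is measurable and bounded), Fubini on
`Ioc t₁ t₂ × ℝ²` (`integral_integral_swap`, dominated by `Γ`); for each `t`, `∫ Aq t = 0 = ∫ Bp t` by
`integral_prod`, `Integrable.prod_left_ae`/`prod_right_ae` and
`integral_eq_zero_of_hasDerivAt_of_integrable`; `0 ≤ e ≤ 4 Γ`; `ofReal_integral_eq_lintegral_ofReal`. -/
theorem flow_le {ℓ ℓt A Aq B Bp e : ℝ → ℝ × ℝ → ℝ} {t₁ t₂ : ℝ} (h12 : t₁ ≤ t₂) {Γ : ℝ × ℝ → ℝ}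
    (hΓ : Integrable Γ) (mℓ : ∀ t, Measurable (ℓ t)) (mℓt : Measurable (Function.uncurry ℓt))
    (mA : ∀ t, Measurable (A t)) (mAq : ∀ t, Measurable (Aq t)) (mB : ∀ t, Measurable (B t))
    (mBp : ∀ t, Measurable (Bp t)) (me : Measurable (Function.uncurry e))
    (hb : ∀ t ∈ Set.Icc t₁ t₂, ∀ z, |ℓ t z| ≤ Γ z ∧ |ℓt t z| ≤ Γ z ∧ |A t z| ≤ Γ z ∧
      |Aq t z| ≤ Γ z ∧ |B t z| ≤ Γ z ∧ |Bp t z| ≤ Γ z)
    (dt : ∀ t ∈ Set.Icc t₁ t₂, ∀ z, HasDerivAt (fun s => ℓ s z) (ℓt t z) t)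
    (dq : ∀ t ∈ Set.Icc t₁ t₂, ∀ z : ℝ × ℝ, HasDerivAt (fun q => A t (q, z.2)) (Aq t z) z.1)
    (dp : ∀ t ∈ Set.Icc t₁ t₂, ∀ z : ℝ × ℝ, HasDerivAt (fun p => B t (z.1, p)) (Bp t z) z.2)
    (he : ∀ t ∈ Set.Icc t₁ t₂, ∀ z, 0 ≤ e t z ∧ Aq t z + Bp t z + e t z ≤ 2 * ℓt t z) :
    ∫ z, ℓ t₁ z ≤ ∫ z, ℓ t₂ z ∧
      ∫⁻ t in Set.Ioc t₁ t₂, ∫⁻ z, ENNReal.ofReal (e t z) ≤
        ENNReal.ofReal (2 * ((∫ z, ℓ t₂ z) - ∫ z, ℓ t₁ z)) := by
  have m1 : ∀ t, Measurable (ℓt t) := fun t => mℓt.of_uncurry_left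
  have m2 : ∀ t, Measurable (e t) := fun t => me.of_uncurry_left
  have iℓt : ∀ t ∈ Set.Icc t₁ t₂, Integrable (ℓt t) := fun t ht =>
    Flow_int hΓ (m1 t) fun z => (hb t ht z).2.1
  have ie : ∀ t ∈ Set.Icc t₁ t₂, Integrable (e t) := fun t ht =>
    Flow_int (hΓ.const_mul 4) (m2 t) fun z => by
      obtain ⟨-, b1, -, b2, -, b3⟩ := hb t ht z
      obtain ⟨c1, c2⟩ := he t ht z
      rw [abs_of_nonneg c1]
      linarith [(abs_le.1 b1).2, (abs_le.1 b2).1, (abs_le.1 b3).1]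
  have key : ∀ t ∈ Set.Icc t₁ t₂, ∫ z, e t z ≤ 2 * ∫ z, ℓt t z := by
    intro t ht
    have iAq : Integrable (Aq t) := Flow_int hΓ (mAq t) fun z => (hb t ht z).2.2.2.1
    have iBp : Integrable (Bp t) := Flow_int hΓ (mBp t) fun z => (hb t ht z).2.2.2.2.2
    have z1 := Flow_div_fst (Flow_int hΓ (mA t) fun z => (hb t ht z).2.2.1) iAq (dq t ht)
    have z2 := Flow_div_snd (Flow_int hΓ (mB t) fun z => (hb t ht z).2.2.2.2.1) iBp (dp t ht)
    have h1 : ∫ z, (Aq t z + Bp t z + e t z) ≤ ∫ z, 2 * ℓt t z :=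
      integral_mono ((iAq.add iBp).add (ie t ht)) ((iℓt t ht).const_mul 2) fun z => (he t ht z).2
    have iS : Integrable (fun z => Aq t z + Bp t z) := iAq.add iBp
    rw [integral_add iS (ie t ht), integral_add iAq iBp, z1, z2,
      integral_const_mul] at h1
    linarith
  have hprod : Integrable (Function.uncurry ℓt)
      ((volume.restrict (Set.Ioc t₁ t₂)).prod (volume : Measure (ℝ × ℝ))) := by
    refine (hΓ.comp_snd (volume.restrict (Set.Ioc t₁ t₂))).mono' mℓt.aestronglyMeasurable ?_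
    have : ∀ᵐ p : ℝ × (ℝ × ℝ) ∂((volume.restrict (Set.Ioc t₁ t₂)).prod volume),
        p.1 ∈ Set.Ioc t₁ t₂ :=
      Measure.quasiMeasurePreserving_fst.ae (ae_restrict_mem measurableSet_Ioc)
    filter_upwards [this] with p hp
    exact (hb p.1 (Set.Ioc_subset_Icc_self hp) p.2).2.1
  have hftc : ∀ z, ∫ t in Set.Ioc t₁ t₂, ℓt t z = ℓ t₂ z - ℓ t₁ z := by
    intro z
    rw [← intervalIntegral.integral_of_le h12]
    refine intervalIntegral.integral_eq_sub_of_hasDerivAt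
      (fun t ht => dt t (by rwa [Set.uIcc_of_le h12] at ht) z) ?_
    rw [intervalIntegrable_iff_integrableOn_Ioc_of_le h12]
    refine Measure.integrableOn_of_bounded (M := Γ z) measure_Ioc_lt_top.ne
      (mℓt.of_uncurry_right (y := z)).aestronglyMeasurable ?_
    filter_upwards [ae_restrict_mem measurableSet_Ioc] with t ht
    exact (hb t (Set.Ioc_subset_Icc_self ht) z).2.1
  have hD : ∫ t in Set.Ioc t₁ t₂, ∫ z, ℓt t z = (∫ z, ℓ t₂ z) - ∫ z, ℓ t₁ z := by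
    rw [integral_integral_swap hprod]
    simp only [hftc]
    exact integral_sub (Flow_int hΓ (mℓ t₂) fun z => (hb t₂ ⟨h12, le_rfl⟩ z).1)
      (Flow_int hΓ (mℓ t₁) fun z => (hb t₁ ⟨le_rfl, h12⟩ z).1)
  have hpos : ∀ t ∈ Set.Icc t₁ t₂, 0 ≤ ∫ z, ℓt t z := fun t ht => by
    have h1 : 0 ≤ ∫ z, e t z := integral_nonneg fun z => (he t ht z).1
    linarith [key t ht]
  have hpos' : 0 ≤ᵐ[volume.restrict (Set.Ioc t₁ t₂)] fun t => 2 * ∫ z, ℓt t z := by
    filter_upwards [ae_restrict_mem measurableSet_Ioc] with t ht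
    have := hpos t (Set.Ioc_subset_Icc_self ht)
    simp only [Pi.zero_apply]
    linarith
  constructor
  · have := integral_nonneg_of_ae hpos'
    rw [integral_const_mul, hD] at this
    linarith
  · have hI : Integrable (fun t => 2 * ∫ z, ℓt t z) (volume.restrict (Set.Ioc t₁ t₂)) :=
      hprod.integral_prod_left.const_mul 2
    rw [← hD, ← integral_const_mul, ofReal_integral_eq_lintegral_ofReal hI hpos']
    refine lintegral_mono_ae ?_
    filter_upwards [ae_restrict_mem measurableSet_Ioc] with t ht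
    have ht' := Set.Ioc_subset_Icc_self ht
    rw [← ofReal_integral_eq_lintegral_ofReal (ie t ht')
      (Filter.Eventually.of_forall fun z => (he t ht' z).1)]
    exact ENNReal.ofReal_le_ofReal (key t ht')

end Crest.Agent.R72
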