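/-
R72/Mat2: inequalities for `log det`.
Skeleton by helper40; keep the statements unchanged (add any helper lemmas you like).
-/
import Crest.Agent.R72.Mat1

set_option autoImplicit false
set_option linter.unusedSectionVars false

namespace Crest.Agent.R72

open Matrix

variable {ι : Type} [Fintype ι] [DecidableEq ι]

open scoped MatrixOrder in
theorem mat2_sq {R : Matrix ι ι ℝ} (hR : R.PosSemidef) : ∃ G : Matrix ι ι ℝ, R = Gᵀ * G := by
  obtain ⟨G, rfl⟩ := CStarAlgebra.nonneg_iff_eq_star_mul_self.mp hR.nonneg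
  exact ⟨G, by rw [star_eq_conjTranspose, conjTranspose_eq_transpose_of_trivial]⟩

theorem mat2_P {S E : Matrix ι ι ℝ} (hS : S.PosDef) (hE : Eᵀ = E) :
    ∃ (P : Matrix ι ι ℝ) (lam : ι → ℝ), IsUnit P ∧ Pᵀ * S * P = 1 ∧ Pᵀ * E * P = diagonal lam := by
  obtain ⟨B, rfl⟩ := mat2_sq hS.posSemidef
  have hB : IsUnit B.det := by
    have := hS.det_pos
    rw [det_mul, det_transpose] at this
    exact (mul_self_pos.mp this).isUnit
  have hK : (B⁻¹ᵀ * E * B⁻¹).IsHermitian := by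
    rw [IsHermitian, conjTranspose_eq_transpose_of_trivial, transpose_mul, transpose_mul,
      transpose_transpose, hE, Matrix.mul_assoc]
  have h1 := hK.conjStarAlgAut_star_eigenvectorUnitary
  rw [Unitary.conjStarAlgAut_star_apply, star_eq_conjTranspose,
    conjTranspose_eq_transpose_of_trivial] at h1
  have h2 := Unitary.coe_star_mul_self hK.eigenvectorUnitary
  rw [star_eq_conjTranspose, conjTranspose_eq_transpose_of_trivial] at h2
  generalize (hK.eigenvectorUnitary : Matrix ι ι ℝ) = U at h1 h2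
  have h3 : (B⁻¹ * U)ᵀ * (Bᵀ * B) * (B⁻¹ * U) = 1 := by
    rw [transpose_mul, Matrix.mul_assoc, Matrix.mul_assoc, Matrix.mul_assoc Bᵀ,
      mul_nonsing_inv_cancel_left _ _ hB, ← Matrix.mul_assoc B⁻¹ᵀ, ← transpose_mul,
      mul_nonsing_inv _ hB, transpose_one, Matrix.one_mul, h2]
  refine ⟨B⁻¹ * U, _, IsUnit.of_mul_eq_one_right _ h3, h3, Eq.trans ?_ h1⟩
  simp only [transpose_mul, Matrix.mul_assoc]

theorem mat2_push (A B : Matrix ι ι ℝ) (h : IsUnit (1 + A * B).det) :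
    A * (1 + B * A)⁻¹ = (1 + A * B)⁻¹ * A := by
  have h' : IsUnit (1 + B * A).det := by rwa [det_one_add_mul_comm]
  have e : (1 + A * B) * A = A * (1 + B * A) := by noncomm_ring
  calc _ = (1 + A * B)⁻¹ * ((1 + A * B) * A) * (1 + B * A)⁻¹ := by
        rw [nonsing_inv_mul_cancel_left _ _ h]
    _ = _ := by rw [e, Matrix.mul_assoc, mul_nonsing_inv_cancel_right _ _ h']

theorem mat2_log {S : Matrix ι ι ℝ} (hS : S.PosDef) {d : ℝ} {x : ι → ℝ} (h : d = S.det * ∏ i, x i)
    (hx : ∀ i, 0 < x i) : Real.log d = Real.log S.det + ∑ i, Real.log (x i) := by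
  rw [h, Real.log_mul hS.det_pos.ne' (Finset.prod_pos fun i _ => hx i).ne',
    Real.log_prod fun i _ => (hx i).ne']

theorem mat2_symm {S : Matrix ι ι ℝ} (hS : S.PosSemidef) : Sᵀ = S := by
  rw [← conjTranspose_eq_transpose_of_trivial]; exact hS.1

theorem mat2_conj {R : Matrix ι ι ℝ} (hR : R.PosSemidef) (G : Matrix ι ι ℝ) :
    (G * R * Gᵀ).PosSemidef := by
  rw [← conjTranspose_eq_transpose_of_trivial]; exact hR.mul_mul_conjTranspose_same G

theorem mat2_conj' {R : Matrix ι ι ℝ} (hR : R.PosSemidef) (d : ι → ℝ) :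
    (diagonal d * R * diagonal d).PosSemidef := by
  simpa only [diagonal_transpose] using mat2_conj hR (diagonal d)

theorem mat2_sqrt {w : ι → ℝ} (hw : ∀ b, 0 ≤ w b) :
    diagonal (fun b => √(w b)) * diagonal (fun b => √(w b)) = diagonal w := by
  rw [diagonal_mul_diagonal]
  exact congrArg diagonal (funext fun b => Real.mul_self_sqrt (hw b))

theorem mat2_trace (R : Matrix ι ι ℝ) {w : ι → ℝ} (hw : ∀ b, 0 ≤ w b) :
    (diagonal (fun b => √(w b)) * R * diagonal (fun b => √(w b))).trace =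
      (R * diagonal w).trace := by
  rw [Matrix.mul_assoc, trace_mul_comm, Matrix.mul_assoc, mat2_sqrt hw]

theorem mat2_prod (s : Finset ι) {x : ι → ℝ} (hx : ∀ i, 0 ≤ x i) :
    1 + ∑ i ∈ s, x i ≤ ∏ i ∈ s, (1 + x i) := by
  induction s using Finset.induction_on with
  | empty => simp
  | insert a s ha ih =>
    rw [Finset.sum_insert ha, Finset.prod_insert ha]
    have : 0 ≤ ∑ i ∈ s, x i := Finset.sum_nonneg fun i _ => hx i
    nlinarith [hx a, mul_le_mul_of_nonneg_left ih (hx a), mul_nonneg (hx a) this]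

/-- simultaneous diagonalisation.  Recipe: write `S = Bᵀ B` with `B` invertible (e.g. the PSD square
root, or from the spectral theorem), `K = B⁻ᵀ E B⁻¹` is symmetric, `K = U diag(lam) Uᵀ`;
`S + r E = Bᵀ U (1 + r lam) Uᵀ B`; `S⁻¹ E` is conjugate to `K`. -/
theorem exists_pencil {S E : Matrix ι ι ℝ} (hS : S.PosDef) (hE : Eᵀ = E) :
    ∃ lam : ι → ℝ, (∀ r : ℝ, (S + r • E).det = S.det * ∏ i, (1 + r * lam i)) ∧
      (∀ r : ℝ, (S + r • E).PosDef → ∀ i, 0 < 1 + r * lam i) ∧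
      (S⁻¹ * E).trace = ∑ i, lam i ∧ (S⁻¹ * E * S⁻¹ * E).trace = ∑ i, lam i ^ 2 := by
  obtain ⟨P, lam, hP, h1, h2⟩ := mat2_P hS hE
  have h3 : ∀ r : ℝ, Pᵀ * (S + r • E) * P = diagonal fun i => 1 + r * lam i := fun r => by
    rw [Matrix.mul_add, Matrix.add_mul, Matrix.mul_smul, Matrix.smul_mul, h1, h2, ← diagonal_one,
      ← diagonal_smul, diagonal_add]
    rfl
  have h4 : S⁻¹ = P * Pᵀ := by
    refine Matrix.inv_eq_right_inv ?_
    rw [← Matrix.mul_assoc]
    exact mul_eq_one_comm.mp (by rw [← Matrix.mul_assoc]; exact h1)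
  refine ⟨lam, fun r => ?_, fun r hr => ?_, ?_, ?_⟩
  · have e1 := congrArg det h1
    have e2 := congrArg det (h3 r)
    rw [det_mul, det_mul, det_transpose] at e1 e2
    rw [det_diagonal] at e2
    rw [det_one] at e1
    rw [← e2]
    linear_combination (-(S + r • E).det) * e1
  · have e := (hP.posDef_star_left_conjugate_iff (x := S + r • E)).mpr hr
    rw [star_eq_conjTranspose, conjTranspose_eq_transpose_of_trivial, h3] at e
    exact posDef_diagonal_iff.mp e
  · rw [h4, Matrix.mul_assoc, trace_mul_comm, h2, trace_diagonal]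
  · have e : P * Pᵀ * E * (P * Pᵀ) * E = P * (Pᵀ * E * P * (Pᵀ * E)) := by
      simp only [Matrix.mul_assoc]
    rw [h4, e, trace_mul_comm, Matrix.mul_assoc (Pᵀ * E * P), h2, diagonal_mul_diagonal,
      trace_diagonal]
    simp only [sq]

/-- concavity of `log det` (`Real.log_le_sub_one_of_pos`). -/
theorem logdet_tangent {S S' : Matrix ι ι ℝ} (hS : S.PosDef) (hS' : S'.PosDef) :
    Real.log S'.det ≤ Real.log S.det + (S⁻¹ * (S' - S)).trace := by
  obtain ⟨lam, h1, h2, h3, -⟩ := exists_pencil hS (E := S' - S)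
    (by rw [transpose_sub, mat2_symm hS.posSemidef, mat2_symm hS'.posSemidef])
  have e : S + (1 : ℝ) • (S' - S) = S' := by simp
  have h4 := h2 1 (by rwa [e])
  have h5 := mat2_log hS (h1 1) h4
  rw [e] at h5
  rw [h5, h3]
  refine add_le_add le_rfl (Finset.sum_le_sum fun i _ => ?_)
  linarith [Real.log_le_sub_one_of_pos (h4 i)]

/-- second-order deficit: `log (1 + x) + log (1 - x) = log (1 - x²) ≤ -x²`. -/
theorem logdet_deficit {S E : Matrix ι ι ℝ} (hS : S.PosDef) (hE : Eᵀ = E) (h₁ : (S + E).PosDef)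
    (h₂ : (S - E).PosDef) :
    Real.log (S + E).det + Real.log (S - E).det + (S⁻¹ * E * S⁻¹ * E).trace ≤
      2 * Real.log S.det := by
  obtain ⟨lam, h1, h2, -, h3⟩ := exists_pencil hS hE
  have e1 : S + (1 : ℝ) • E = S + E := by simp
  have e2 : S + (-1 : ℝ) • E = S - E := by simp [sub_eq_add_neg]
  have k1 := h2 1 (by rwa [e1])
  have k2 := h2 (-1) (by rwa [e2])
  have l1 := mat2_log hS (h1 1) k1
  have l2 := mat2_log hS (h1 (-1)) k2
  rw [e1] at l1
  rw [e2] at l2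
  have h : ∑ i, (Real.log (1 + 1 * lam i) + Real.log (1 + -1 * lam i) + lam i ^ 2) ≤ 0 :=
    Finset.sum_nonpos fun i _ => by
      rw [← Real.log_mul (k1 i).ne' (k2 i).ne']
      linarith [Real.log_le_sub_one_of_pos (mul_pos (k1 i) (k2 i))]
  rw [Finset.sum_add_distrib, Finset.sum_add_distrib] at h
  linarith

theorem LL_nonneg {R : Matrix ι ι ℝ} {w : ι → ℝ} (hR : R.PosSemidef) (hw : ∀ b, 0 ≤ w b) :
    0 ≤ LL R w :=
  Real.log_nonneg (one_le_det hR hw)

/-- `logdet_tangent` at `S = 1` after `det_X_eq`. -/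
theorem Phi_nonneg {R : Matrix ι ι ℝ} {w : ι → ℝ} (hR : R.PosSemidef) (hw : ∀ b, 0 ≤ w b) :
    0 ≤ Phi R w := by
  have h := logdet_tangent PosDef.one (PosDef.one.add_posSemidef (mat2_conj' hR fun b => √(w b)))
  rw [det_one, Real.log_one, inv_one, Matrix.one_mul, add_sub_cancel_left, mat2_trace R hw,
    ← det_X_eq R hw] at h
  unfold Phi LL
  linarith

theorem Phi_zero (w : ι → ℝ) : Phi (0 : Matrix ι ι ℝ) w = 0 := by
  simp [Phi, LL]

/-- Recipe: `det (1 + D) = ∏ (1 + lam i) ≥ 1 + ∑ lam i = 1 + tr D` for PSD `D`, and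
`2 x / (x + 2) ≤ log (1 + x)` (`Real.le_log_one_add_of_nonneg`). -/
theorem Phi_le {R : Matrix ι ι ℝ} {w : ι → ℝ} (hR : R.PosSemidef) (hw : ∀ b, 0 ≤ w b) :
    Phi R w ≤ (R * diagonal w).trace ^ 2 / (2 + (R * diagonal w).trace) := by
  have hD := mat2_conj' hR fun b => √(w b)
  obtain ⟨lam, h1, h2, h3, -⟩ := exists_pencil PosDef.one (mat2_symm hD)
  have h0 : ∀ i, 0 ≤ lam i := fun i => by
    by_contra hn
    have hn := not_le.mp hn
    have := h2 (-(lam i)⁻¹) (PosDef.one.add_posSemidef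
      (hD.smul (neg_nonneg.mpr (inv_nonpos.mpr hn.le)))) i
    rw [neg_mul, inv_mul_cancel₀ hn.ne] at this
    simp at this
  have h4 := h1 1
  simp only [one_smul, one_mul, det_one] at h4
  rw [inv_one, Matrix.one_mul, mat2_trace R hw] at h3
  have h5 : 0 ≤ ∑ i, lam i := Finset.sum_nonneg fun i _ => h0 i
  have h6 := (Real.le_log_one_add_of_nonneg h5).trans
    (Real.log_le_log (by linarith) (mat2_prod Finset.univ h0))
  rw [Phi, LL, det_X_eq R hw, h4, h3]
  have e : (∑ i, lam i) ^ 2 / (2 + ∑ i, lam i) =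
      ∑ i, lam i - 2 * (∑ i, lam i) / (∑ i, lam i + 2) := by field_simp; ring
  rw [e]
  linarith

theorem trace_Rw_nonneg {R : Matrix ι ι ℝ} {w : ι → ℝ} (hR : R.PosSemidef) (hw : ∀ b, 0 ≤ w b) :
    0 ≤ (R * diagonal w).trace := by
  exact trace_mul_nonneg hR (PosSemidef.diagonal hw)

/-- concavity in `R`.  Recipe: `det_X_eq`, `logdet_tangent` with `S = 1 + √w R √w`, and
`NN R w = √w S⁻¹ √w` (`NN_eq`, `MM_conj`). -/
theorem LL_tangent {R R' : Matrix ι ι ℝ} {w : ι → ℝ} (hR : R.PosSemidef) (hR' : R'.PosSemidef)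
    (hw : ∀ b, 0 ≤ w b) : LL R' w ≤ LL R w + (NN R w * (R' - R)).trace := by
  have hS := PosDef.one.add_posSemidef (mat2_conj' hR fun b => √(w b))
  have h := logdet_tangent hS (PosDef.one.add_posSemidef (mat2_conj' hR' fun b => √(w b)))
  rw [← det_X_eq R hw, ← det_X_eq R' hw] at h
  refine h.trans (le_of_eq (congrArg (LL R w + ·) ?_))
  rw [NN, ← mat2_sqrt hw]
  rw [Matrix.mul_assoc] at hS
  generalize (diagonal fun b => √(w b)) = D at hS
  have e := mat2_push D (R * D) ((isUnit_iff_isUnit_det _).mp hS.isUnit)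
  rw [← Matrix.mul_assoc R, Matrix.mul_assoc D D, e, add_sub_add_left_eq_sub, Matrix.mul_assoc D,
    Matrix.mul_assoc D, Matrix.mul_assoc D, trace_mul_comm D]
  congr 1
  noncomm_ring

/-- two-point concavity in `R` (add `LL_tangent` at the midpoint twice). -/
theorem LL_mid {R R' : Matrix ι ι ℝ} {w : ι → ℝ} (hR : R.PosSemidef) (hR' : R'.PosSemidef)
    (hw : ∀ b, 0 ≤ w b) : LL R w + LL R' w ≤ 2 * LL ((1 / 2 : ℝ) • (R + R')) w := by
  have hM : ((1 / 2 : ℝ) • (R + R')).PosSemidef := (hR.add hR').smul (by norm_num)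
  have h1 := LL_tangent hM hR hw
  have h2 := LL_tangent hM hR' hw
  have e : R' - (1 / 2 : ℝ) • (R + R') = -(R - (1 / 2 : ℝ) • (R + R')) := by module
  rw [e, Matrix.mul_neg, trace_neg] at h2
  linarith

/-- second-order deficit in `w`.  Recipe: `R = Gᵀ G`; `det (1 + R w) = det (1 + G w Gᵀ)`;
`logdet_deficit` with `S = 1 + G w Gᵀ`, `E = G ψ Gᵀ`, and `Gᵀ S⁻¹ G = MM R w` (push-through). -/
theorem LL_deficit {R : Matrix ι ι ℝ} {w ψ : ι → ℝ} (hR : R.PosSemidef) (h : ∀ b, |ψ b| ≤ w b) :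
    LL R (w + ψ) + LL R (w - ψ) + qf (MM R w) (MM R w) ψ ≤ 2 * LL R w := by
  obtain ⟨G, rfl⟩ := mat2_sq hR
  have hL : ∀ v : ι → ℝ, LL (Gᵀ * G) v = Real.log (1 + G * diagonal v * Gᵀ).det := fun v => by
    rw [LL, Matrix.mul_assoc, det_one_add_mul_comm]
  have hpd : ∀ v : ι → ℝ, (∀ b, 0 ≤ v b) → (1 + G * diagonal v * Gᵀ).PosDef := fun v hv =>
    PosDef.one.add_posSemidef (mat2_conj (PosSemidef.diagonal hv) G)
  have hw : ∀ b, 0 ≤ w b := fun b => (abs_nonneg _).trans (h b)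
  have e1 : 1 + G * diagonal w * Gᵀ + G * diagonal ψ * Gᵀ = 1 + G * diagonal (w + ψ) * Gᵀ := by
    rw [show diagonal (w + ψ) = diagonal w + diagonal ψ from (diagonal_add _ _).symm]
    noncomm_ring
  have e2 : 1 + G * diagonal w * Gᵀ - G * diagonal ψ * Gᵀ = 1 + G * diagonal (w - ψ) * Gᵀ := by
    rw [show diagonal (w - ψ) = diagonal w - diagonal ψ from (diagonal_sub _ _).symm]
    noncomm_ring
  have k := logdet_deficit (hpd w hw) (E := G * diagonal ψ * Gᵀ)
    (by rw [transpose_mul, transpose_mul, transpose_transpose, diagonal_transpose, Matrix.mul_assoc])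
    (by rw [e1]; exact hpd _ fun b => by simp only [Pi.add_apply]; linarith [(abs_le.mp (h b)).1])
    (by rw [e2]; exact hpd _ fun b => by simp only [Pi.sub_apply]; linarith [(abs_le.mp (h b)).2])
  rw [e1, e2, ← hL, ← hL, ← hL] at k
  refine le_trans (add_le_add le_rfl (le_of_eq ?_)) k
  have e := mat2_push Gᵀ (G * diagonal w) (by
    rw [← Matrix.mul_assoc]; exact isUnit_det_X hR hw)
  rw [qf, MM, ← Matrix.mul_assoc _ Gᵀ G, Matrix.mul_assoc Gᵀ G, ← e]
  simp only [Matrix.mul_assoc]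
  rw [trace_mul_comm Gᵀ]
  simp only [Matrix.mul_assoc]

end Crest.Agent.R72
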