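/-
R72/HeatAux: the pointwise identity behind the heat flow monotonicity (derivatives, bounds).
-/
import Crest.Agent.R72.Deriv
import Crest.Agent.R72.Mat2
import Crest.Agent.R72.Gauss2

set_option autoImplicit false
set_option linter.unusedSectionVars false

namespace Crest.Agent.R72.HeatAux

open Matrix MeasureTheory

variable {ι : Type} [Fintype ι] [DecidableEq ι] (y₁ x y₂ : ι → ℝ) (Z₁ Z₂ : Matrix ι ι ℝ) (v : ℝ)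

/-- Gram sum. -/
noncomputable def hR (t : ℝ) (z : ℝ × ℝ) : Matrix ι ι ℝ :=
  gram Z₁ (wv y₁ (v * t) z.1) + gram Z₂ (wv y₂ (v * t) (-z.1 - z.2))
noncomputable def hN (t : ℝ) (z : ℝ × ℝ) : Matrix ι ι ℝ := NN (hR y₁ y₂ Z₁ Z₂ v t z) (wv x t z.2)
noncomputable def hM (t : ℝ) (z : ℝ × ℝ) : Matrix ι ι ℝ := MM (hR y₁ y₂ Z₁ Z₂ v t z) (wv x t z.2)
noncomputable def hE₁ (t : ℝ) (z : ℝ × ℝ) : Matrix ι ι ℝ :=
  gram Z₁ fun a => -g1 (v * t) (y₁ a - z.1)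
noncomputable def hE₂ (t : ℝ) (z : ℝ × ℝ) : Matrix ι ι ℝ :=
  gram Z₂ fun a => g1 (v * t) (y₂ a - (-z.1 - z.2))
noncomputable def hG₁ (t : ℝ) (z : ℝ × ℝ) : Matrix ι ι ℝ :=
  gram Z₁ fun a => g2 (v * t) (y₁ a - z.1)
noncomputable def hG₂ (t : ℝ) (z : ℝ × ℝ) : Matrix ι ι ℝ :=
  gram Z₂ fun a => g2 (v * t) (y₂ a - (-z.1 - z.2))
noncomputable def hW₁ (t : ℝ) (z : ℝ × ℝ) : Matrix ι ι ℝ := diagonal fun b => -g1 t (x b - z.2)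
noncomputable def hW₂ (t : ℝ) (z : ℝ × ℝ) : Matrix ι ι ℝ := diagonal fun b => g2 t (x b - z.2)

noncomputable def hl (t : ℝ) (z : ℝ × ℝ) : ℝ := LL (hR y₁ y₂ Z₁ Z₂ v t z) (wv x t z.2)
noncomputable def n₁ (t : ℝ) (z : ℝ × ℝ) : ℝ := (hN y₁ x y₂ Z₁ Z₂ v t z * hE₁ y₁ Z₁ v t z).trace
noncomputable def n₂ (t : ℝ) (z : ℝ × ℝ) : ℝ := (hN y₁ x y₂ Z₁ Z₂ v t z * hE₂ y₂ Z₂ v t z).trace
noncomputable def m₁ (t : ℝ) (z : ℝ × ℝ) : ℝ := (hM y₁ x y₂ Z₁ Z₂ v t z * hW₁ x t z).trace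
noncomputable def nG₁ (t : ℝ) (z : ℝ × ℝ) : ℝ := (hN y₁ x y₂ Z₁ Z₂ v t z * hG₁ y₁ Z₁ v t z).trace
noncomputable def nG₂ (t : ℝ) (z : ℝ × ℝ) : ℝ := (hN y₁ x y₂ Z₁ Z₂ v t z * hG₂ y₂ Z₂ v t z).trace
noncomputable def m₂ (t : ℝ) (z : ℝ × ℝ) : ℝ := (hM y₁ x y₂ Z₁ Z₂ v t z * hW₂ x t z).trace
noncomputable def p₁₁ (t : ℝ) (z : ℝ × ℝ) : ℝ :=
  (hN y₁ x y₂ Z₁ Z₂ v t z * hE₁ y₁ Z₁ v t z * hN y₁ x y₂ Z₁ Z₂ v t z * hE₁ y₁ Z₁ v t z).trace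
noncomputable def p₁₂ (t : ℝ) (z : ℝ × ℝ) : ℝ :=
  (hN y₁ x y₂ Z₁ Z₂ v t z * hE₁ y₁ Z₁ v t z * hN y₁ x y₂ Z₁ Z₂ v t z * hE₂ y₂ Z₂ v t z).trace
noncomputable def p₂₂ (t : ℝ) (z : ℝ × ℝ) : ℝ :=
  (hN y₁ x y₂ Z₁ Z₂ v t z * hE₂ y₂ Z₂ v t z * hN y₁ x y₂ Z₁ Z₂ v t z * hE₂ y₂ Z₂ v t z).trace
noncomputable def pww (t : ℝ) (z : ℝ × ℝ) : ℝ :=
  (hM y₁ x y₂ Z₁ Z₂ v t z * hW₁ x t z * hM y₁ x y₂ Z₁ Z₂ v t z * hW₁ x t z).trace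

noncomputable def hlt (t : ℝ) (z : ℝ × ℝ) : ℝ :=
  (v * nG₁ y₁ x y₂ Z₁ Z₂ v t z + v * nG₂ y₁ x y₂ Z₁ Z₂ v t z + m₂ y₁ x y₂ Z₁ Z₂ v t z) / 2
noncomputable def hA (t : ℝ) (z : ℝ × ℝ) : ℝ :=
  v * n₁ y₁ x y₂ Z₁ Z₂ v t z + (v + 1) * n₂ y₁ x y₂ Z₁ Z₂ v t z
noncomputable def hAq (t : ℝ) (z : ℝ × ℝ) : ℝ :=
  v * (nG₁ y₁ x y₂ Z₁ Z₂ v t z - p₁₁ y₁ x y₂ Z₁ Z₂ v t z - p₁₂ y₁ x y₂ Z₁ Z₂ v t z) +
    (v + 1) * (nG₂ y₁ x y₂ Z₁ Z₂ v t z - p₁₂ y₁ x y₂ Z₁ Z₂ v t z - p₂₂ y₁ x y₂ Z₁ Z₂ v t z)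
noncomputable def hB (t : ℝ) (z : ℝ × ℝ) : ℝ :=
  m₁ y₁ x y₂ Z₁ Z₂ v t z - n₂ y₁ x y₂ Z₁ Z₂ v t z
noncomputable def hBp (t : ℝ) (z : ℝ × ℝ) : ℝ :=
  m₂ y₁ x y₂ Z₁ Z₂ v t z - pww y₁ x y₂ Z₁ Z₂ v t z - nG₂ y₁ x y₂ Z₁ Z₂ v t z +
    p₂₂ y₁ x y₂ Z₁ Z₂ v t z

theorem identity (t : ℝ) (z : ℝ × ℝ) :
    2 * hlt y₁ x y₂ Z₁ Z₂ v t z = hAq y₁ x y₂ Z₁ Z₂ v t z + hBp y₁ x y₂ Z₁ Z₂ v t z +
      (v * p₁₁ y₁ x y₂ Z₁ Z₂ v t z + v * p₂₂ y₁ x y₂ Z₁ Z₂ v t z +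
        (2 * v + 1) * p₁₂ y₁ x y₂ Z₁ Z₂ v t z + pww y₁ x y₂ Z₁ Z₂ v t z) := by
  simp only [hlt, hAq, hBp]; ring

theorem wv_nonneg (y : ι → ℝ) (τ r : ℝ) (a : ι) : 0 ≤ wv y τ r a := g_nonneg _ _

theorem hR_psd (t : ℝ) (z : ℝ × ℝ) : (hR y₁ y₂ Z₁ Z₂ v t z).PosSemidef :=
  (gram_psd _ (wv_nonneg _ _ _)).add (gram_psd _ (wv_nonneg _ _ _))

theorem hN_psd (t : ℝ) (z : ℝ × ℝ) : (hN y₁ x y₂ Z₁ Z₂ v t z).PosSemidef :=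
  NN_psd (hR_psd y₁ y₂ Z₁ Z₂ v t z) (wv_nonneg _ _ _)

theorem hM_psd (t : ℝ) (z : ℝ × ℝ) : (hM y₁ x y₂ Z₁ Z₂ v t z).PosSemidef :=
  MM_psd (hR_psd y₁ y₂ Z₁ Z₂ v t z) (wv_nonneg _ _ _)

/-! ### derivatives -/

variable {v}

theorem d_g_time {t : ℝ} (hv : 0 < v) (ht : 0 < t) (r : ℝ) :
    HasDerivAt (fun s => g (v * s) r) (v / 2 * g2 (v * t) r) t := by
  have h := (hasDerivAt_g_time (mul_pos hv ht) r).comp t ((hasDerivAt_id t).const_mul v)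
  exact h.congr_deriv (by ring)

theorem d_sub {f : ℝ → ℝ} {f' c q : ℝ} (h : HasDerivAt f f' (c - q)) :
    HasDerivAt (fun r => f (c - r)) (-f') q := by
  have h2 := h.comp q ((hasDerivAt_id q).const_sub c)
  exact h2.congr_deriv (by ring)

theorem d_q {f : ℝ → ℝ} {f' c q p : ℝ} (h : HasDerivAt f f' (c - (-q - p))) :
    HasDerivAt (fun r => f (c - (-r - p))) f' q := by
  have h1 : HasDerivAt (fun r : ℝ => c - (-r - p)) 1 q :=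
    (((hasDerivAt_id q).neg.sub_const p).const_sub c).congr_deriv (by ring)
  exact (h.comp q h1).congr_deriv (by ring)

theorem d_p {f : ℝ → ℝ} {f' c q p : ℝ} (h : HasDerivAt f f' (c - (-q - p))) :
    HasDerivAt (fun r => f (c - (-q - r))) f' p := by
  have h1 : HasDerivAt (fun r : ℝ => c - (-q - r)) 1 p :=
    (((hasDerivAt_id p).const_sub (-q)).const_sub c).congr_deriv (by ring)
  exact (h.comp p h1).congr_deriv (by ring)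

theorem d_sub_neg {f : ℝ → ℝ} {f' c q : ℝ} (h : HasDerivAt f f' (c - q)) :
    HasDerivAt (fun r => -f (c - r)) f' q :=
  (d_sub h).neg.congr_deriv (by ring)

theorem dt_hl {t : ℝ} (hv : 0 < v) (ht : 0 < t) (z : ℝ × ℝ) :
    HasDerivAt (fun s => hl y₁ x y₂ Z₁ Z₂ v s z) (hlt y₁ x y₂ Z₁ Z₂ v t z) t := by
  have hRd : ∀ i j, HasDerivAt (fun s => hR y₁ y₂ Z₁ Z₂ v s z i j)
      (((v / 2) • hG₁ y₁ Z₁ v t z + (v / 2) • hG₂ y₂ Z₂ v t z) i j) t := by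
    intro i j
    have h1 := hasDerivAt_gram_apply Z₁ (α := fun s => wv y₁ (v * s) z.1)
      (α' := (v / 2) • fun a => g2 (v * t) (y₁ a - z.1)) (fun a => d_g_time hv ht _) i j
    have h2 := hasDerivAt_gram_apply Z₂ (α := fun s => wv y₂ (v * s) (-z.1 - z.2))
      (α' := (v / 2) • fun a => g2 (v * t) (y₂ a - (-z.1 - z.2))) (fun a => d_g_time hv ht _) i j
    rw [gram_smul_w] at h1 h2
    exact h1.add h2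
  have hwd : ∀ i, HasDerivAt (fun s => wv x s z.2 i) (g2 t (x i - z.2) / 2) t :=
    fun i => hasDerivAt_g_time ht _
  have h := hasDerivAt_LL hRd hwd (hR_psd y₁ y₂ Z₁ Z₂ v t z) (wv_nonneg _ _ _)
  refine h.congr_deriv ?_
  have e : (diagonal fun i => g2 t (x i - z.2) / 2) = (1 / 2 : ℝ) • hW₂ x t z := by
    rw [hW₂, ← diagonal_smul]; congr 1; funext i; simp only [Pi.smul_apply, smul_eq_mul]; ring
  rw [e]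
  simp only [hlt, nG₁, nG₂, m₂, hN, hM, Matrix.mul_add, Matrix.mul_smul, trace_add, trace_smul,
    smul_eq_mul]
  ring

theorem tr_cyc (N E E' : Matrix ι ι ℝ) : (N * E * N * E').trace = (N * E' * N * E).trace := by
  rw [Matrix.mul_assoc (N * E), trace_mul_comm, ← Matrix.mul_assoc]

theorem dq_hR {t : ℝ} (hv : 0 < v) (ht : 0 < t) (z : ℝ × ℝ) (i j : ι) :
    HasDerivAt (fun q => hR y₁ y₂ Z₁ Z₂ v t (q, z.2) i j)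
      ((hE₁ y₁ Z₁ v t z + hE₂ y₂ Z₂ v t z) i j) z.1 :=
  (hasDerivAt_gram_apply Z₁ (α := fun q => wv y₁ (v * t) q)
      (fun _ => d_sub (hasDerivAt_g (mul_pos hv ht) _)) i j).add
    (hasDerivAt_gram_apply Z₂ (α := fun q => wv y₂ (v * t) (-q - z.2))
      (fun _ => d_q (hasDerivAt_g (mul_pos hv ht) _)) i j)

theorem dq_hN {t : ℝ} (hv : 0 < v) (ht : 0 < t) (z : ℝ × ℝ) (i j : ι) :
    HasDerivAt (fun q => hN y₁ x y₂ Z₁ Z₂ v t (q, z.2) i j)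
      ((-(hN y₁ x y₂ Z₁ Z₂ v t z * (hE₁ y₁ Z₁ v t z + hE₂ y₂ Z₂ v t z) *
        hN y₁ x y₂ Z₁ Z₂ v t z)) i j) z.1 := by
  have h := hasDerivAt_NN_apply (R := fun q => hR y₁ y₂ Z₁ Z₂ v t (q, z.2))
    (w := fun _ => wv x t z.2) (w' := 0) (dq_hR y₁ y₂ Z₁ Z₂ hv ht z)
    (fun _ => hasDerivAt_const _ _) (hR_psd y₁ y₂ Z₁ Z₂ v t z) (wv_nonneg _ _ _) i j
  have e : diagonal (0 : ι → ℝ) = 0 := diagonal_zero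
  rw [e, Matrix.mul_zero, Matrix.zero_mul, zero_sub] at h
  exact h

theorem dq_hA {t : ℝ} (hv : 0 < v) (ht : 0 < t) (z : ℝ × ℝ) :
    HasDerivAt (fun q => hA y₁ x y₂ Z₁ Z₂ v t (q, z.2)) (hAq y₁ x y₂ Z₁ Z₂ v t z) z.1 := by
  have hE1 : ∀ i j, HasDerivAt (fun q => hE₁ y₁ Z₁ v t (q, z.2) i j) (hG₁ y₁ Z₁ v t z i j) z.1 :=
    hasDerivAt_gram_apply Z₁ (α := fun q a => -g1 (v * t) (y₁ a - q))
      (fun _ => d_sub_neg (hasDerivAt_g1 (mul_pos hv ht) _))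
  have hE2 : ∀ i j, HasDerivAt (fun q => hE₂ y₂ Z₂ v t (q, z.2) i j) (hG₂ y₂ Z₂ v t z i j) z.1 :=
    hasDerivAt_gram_apply Z₂ (α := fun q a => g1 (v * t) (y₂ a - (-q - z.2)))
      (fun _ => d_q (hasDerivAt_g1 (mul_pos hv ht) _))
  have h1 := hasDerivAt_trace (hasDerivAt_mul_apply (dq_hN y₁ x y₂ Z₁ Z₂ hv ht z) hE1)
  have h2 := hasDerivAt_trace (hasDerivAt_mul_apply (dq_hN y₁ x y₂ Z₁ Z₂ hv ht z) hE2)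
  have h := (h1.const_mul v).add (h2.const_mul (v + 1))
  refine h.congr_deriv ?_
  simp only [hAq, nG₁, nG₂, p₁₁, p₁₂, p₂₂, Matrix.mul_add, Matrix.add_mul, Matrix.neg_mul,
    trace_add, trace_neg, neg_add, Prod.mk.eta]
  rw [tr_cyc _ (hE₂ y₂ Z₂ v t z) (hE₁ y₁ Z₁ v t z)]
  ring

theorem dp_hR {t : ℝ} (hv : 0 < v) (ht : 0 < t) (z : ℝ × ℝ) (i j : ι) :
    HasDerivAt (fun p => hR y₁ y₂ Z₁ Z₂ v t (z.1, p) i j) (hE₂ y₂ Z₂ v t z i j) z.2 := by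
  have h := (hasDerivAt_gram_apply Z₂ (α := fun p => wv y₂ (v * t) (-z.1 - p)) (r := z.2)
      (fun _ => d_p (hasDerivAt_g (mul_pos hv ht) _)) i j).const_add
    (gram Z₁ (wv y₁ (v * t) z.1) i j)
  exact h

theorem dp_hB {t : ℝ} (hv : 0 < v) (ht : 0 < t) (z : ℝ × ℝ) :
    HasDerivAt (fun p => hB y₁ x y₂ Z₁ Z₂ v t (z.1, p)) (hBp y₁ x y₂ Z₁ Z₂ v t z) z.2 := by
  have hw : ∀ i, HasDerivAt (fun p => wv x t p i) (-g1 t (x i - z.2)) z.2 :=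
    fun _ => d_sub (hasDerivAt_g ht _)
  have hM' := hasDerivAt_MM_apply (R := fun p => hR y₁ y₂ Z₁ Z₂ v t (z.1, p))
    (w := fun p => wv x t p) (dp_hR y₁ y₂ Z₁ Z₂ hv ht z) hw (hR_psd y₁ y₂ Z₁ Z₂ v t z)
    (wv_nonneg _ _ _)
  have hN' := hasDerivAt_NN_apply (R := fun p => hR y₁ y₂ Z₁ Z₂ v t (z.1, p))
    (w := fun p => wv x t p) (dp_hR y₁ y₂ Z₁ Z₂ hv ht z) hw (hR_psd y₁ y₂ Z₁ Z₂ v t z)
    (wv_nonneg _ _ _)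
  have hW : ∀ i j, HasDerivAt (fun p => hW₁ x t (z.1, p) i j) (hW₂ x t z i j) z.2 :=
    hasDerivAt_diagonal_apply (w := fun p b => -g1 t (x b - p))
      (fun _ => d_sub_neg (hasDerivAt_g1 ht _))
  have hE2 : ∀ i j, HasDerivAt (fun p => hE₂ y₂ Z₂ v t (z.1, p) i j) (hG₂ y₂ Z₂ v t z i j) z.2 :=
    hasDerivAt_gram_apply Z₂ (α := fun p a => g1 (v * t) (y₂ a - (-z.1 - p)))
      (fun _ => d_p (hasDerivAt_g1 (mul_pos hv ht) _))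
  have h1 := hasDerivAt_trace (hasDerivAt_mul_apply hM' hW)
  have h2 := hasDerivAt_trace (hasDerivAt_mul_apply hN' hE2)
  have h := h1.sub h2
  refine h.congr_deriv ?_
  simp only [hBp, nG₂, p₂₂, pww, m₂, hM, hN, hW₁, Matrix.sub_mul, trace_add, trace_sub,
    Prod.mk.eta]
  generalize (1 + hR y₁ y₂ Z₁ Z₂ v t z * diagonal (wv x t z.2))⁻¹ = X
  generalize NN (hR y₁ y₂ Z₁ Z₂ v t z) (wv x t z.2) * hR y₁ y₂ Z₁ Z₂ v t z = P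
  generalize (diagonal fun b => -g1 t (x b - z.2)) = W
  generalize hE₂ y₂ Z₂ v t z = E
  have e : (X * E * (1 - P) * W).trace = (1 * W * X * E).trace - (P * W * X * E).trace := by
    rw [← trace_sub, ← Matrix.sub_mul, ← Matrix.sub_mul, ← Matrix.sub_mul,
      Matrix.mul_assoc (X * E), trace_mul_comm, Matrix.mul_assoc _ X]
  rw [e]
  ring

/-! ### domination -/

/-- `s` is dominated by a multiple of `f`, uniformly for `t ∈ [t₁, t₂]`. -/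
def Dom (t₁ t₂ : ℝ) (s : ℝ → ℝ × ℝ → ℝ) (f : ℝ × ℝ → ℝ) : Prop :=
  ∃ C : ℝ, 0 ≤ C ∧ ∀ t ∈ Set.Icc t₁ t₂, ∀ z, |s t z| ≤ C * f z

/-- entrywise domination. -/
def DomM (t₁ t₂ : ℝ) (X : ℝ → ℝ × ℝ → Matrix ι ι ℝ) (f : ℝ × ℝ → ℝ) : Prop :=
  ∀ i j, Dom t₁ t₂ (fun t z => X t z i j) f

section dom
variable {t₁ t₂ : ℝ} {s s' : ℝ → ℝ × ℝ → ℝ} {f f' : ℝ × ℝ → ℝ}
  {X Y : ℝ → ℝ × ℝ → Matrix ι ι ℝ}

theorem Dom.add (h : Dom t₁ t₂ s f) (h' : Dom t₁ t₂ s' f) :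
    Dom t₁ t₂ (fun t z => s t z + s' t z) f := by
  obtain ⟨C, hC, h⟩ := h
  obtain ⟨C', hC', h'⟩ := h'
  refine ⟨C + C', add_nonneg hC hC', fun t ht z => (abs_add_le _ _).trans ?_⟩
  rw [add_mul]; exact add_le_add (h t ht z) (h' t ht z)

theorem Dom.mul (h : Dom t₁ t₂ s f) (h' : Dom t₁ t₂ s' f') :
    Dom t₁ t₂ (fun t z => s t z * s' t z) (fun z => f z * f' z) := by
  obtain ⟨C, hC, h⟩ := h
  obtain ⟨C', hC', h'⟩ := h'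
  refine ⟨C * C', mul_nonneg hC hC', fun t ht z => ?_⟩
  rw [abs_mul]
  calc |s t z| * |s' t z| ≤ (C * f z) * (C' * f' z) :=
        mul_le_mul (h t ht z) (h' t ht z) (abs_nonneg _) ((abs_nonneg _).trans (h t ht z))
    _ = C * C' * (f z * f' z) := by ring

theorem Dom.const_mul (h : Dom t₁ t₂ s f) (c : ℝ) : Dom t₁ t₂ (fun t z => c * s t z) f := by
  obtain ⟨C, hC, h⟩ := h
  refine ⟨|c| * C, mul_nonneg (abs_nonneg _) hC, fun t ht z => ?_⟩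
  rw [abs_mul, mul_assoc]
  exact mul_le_mul_of_nonneg_left (h t ht z) (abs_nonneg _)

theorem Dom.of_abs_le (h : Dom t₁ t₂ s f) (h' : ∀ t z, |s' t z| ≤ |s t z|) : Dom t₁ t₂ s' f := by
  obtain ⟨C, hC, h⟩ := h
  exact ⟨C, hC, fun t ht z => (h' t z).trans (h t ht z)⟩

theorem Dom.sub (h : Dom t₁ t₂ s f) (h' : Dom t₁ t₂ s' f) :
    Dom t₁ t₂ (fun t z => s t z - s' t z) f :=
  (h.add (h'.const_mul (-1))).of_abs_le fun t z => le_of_eq (by congr 1; ring)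

theorem Dom.zero : Dom t₁ t₂ (fun _ _ => 0) f := ⟨0, le_rfl, fun _ _ _ => by simp⟩

theorem Dom.sum {κ : Type} (S : Finset κ) {u : κ → ℝ → ℝ × ℝ → ℝ}
    (h : ∀ k ∈ S, Dom t₁ t₂ (u k) f) : Dom t₁ t₂ (fun t z => ∑ k ∈ S, u k t z) f := by
  classical
  induction S using Finset.induction_on with
  | empty => simpa using Dom.zero
  | insert a S ha ih =>
    simp only [Finset.sum_insert ha]
    exact (h a (Finset.mem_insert_self _ _)).add (ih fun k hk => h k (Finset.mem_insert_of_mem hk))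

theorem Dom.mono (h : Dom t₁ t₂ s f) {c : ℝ} (hc : 0 ≤ c) (h' : ∀ z, f z ≤ c * f' z) :
    Dom t₁ t₂ s f' := by
  obtain ⟨C, hC, h⟩ := h
  refine ⟨C * c, mul_nonneg hC hc, fun t ht z => (h t ht z).trans ?_⟩
  rw [mul_assoc]; exact mul_le_mul_of_nonneg_left (h' z) hC

theorem DomM.mul (h : DomM t₁ t₂ X f) (h' : DomM t₁ t₂ Y f') :
    DomM t₁ t₂ (fun t z => X t z * Y t z) (fun z => f z * f' z) := fun i j => by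
  simp only [Matrix.mul_apply]
  exact Dom.sum _ fun k _ => (h i k).mul (h' k j)

theorem DomM.add (h : DomM t₁ t₂ X f) (h' : DomM t₁ t₂ Y f) :
    DomM t₁ t₂ (fun t z => X t z + Y t z) f := fun i j => (h i j).add (h' i j)

theorem DomM.mono (h : DomM t₁ t₂ X f) {c : ℝ} (hc : 0 ≤ c) (h' : ∀ z, f z ≤ c * f' z) :
    DomM t₁ t₂ X f' := fun i j => (h i j).mono hc h'

theorem DomM.trace (h : DomM t₁ t₂ X f) : Dom t₁ t₂ (fun t z => (X t z).trace) f :=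
  Dom.sum _ fun k _ => h k k

theorem domM_diagonal {w : ℝ → ℝ × ℝ → ι → ℝ} (h : ∀ i, Dom t₁ t₂ (fun t z => w t z i) f) :
    DomM t₁ t₂ (fun t z => diagonal (w t z)) f := fun i j => by
  by_cases e : i = j
  · subst e; simpa using h i
  · simpa [diagonal_apply_ne _ e] using Dom.zero

theorem domM_gram (Z : Matrix ι ι ℝ) {α : ℝ → ℝ × ℝ → ι → ℝ}
    (h : ∀ i, Dom t₁ t₂ (fun t z => α t z i) f) :
    DomM t₁ t₂ (fun t z => gram Z (α t z)) f := fun i j => by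
  simp only [gram_apply]
  exact Dom.sum _ fun k _ => ((h k).const_mul (Z k i * Z k j)).of_abs_le
    fun t z => le_of_eq (by congr 1; ring)

theorem domM_of_psd (h : DomM t₁ t₂ Y f) (h₁ : ∀ t z, (X t z).PosSemidef)
    (h₂ : ∀ t z, (Y t z - X t z).PosSemidef) : DomM t₁ t₂ X f := fun i j =>
  h.trace.of_abs_le fun t z => (psd_entry_le (h₁ t z) (h₂ t z) i j).trans (le_abs_self _)

end dom

theorem decay_g (y : ι → ℝ) {τ₁ : ℝ} (τ₂ : ℝ) (h₁ : 0 < τ₁) :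
    ∃ C τ : ℝ, 0 < τ ∧ 0 ≤ C ∧ ∀ σ ∈ Set.Icc τ₁ τ₂, ∀ (a : ι) (r : ℝ),
      |g σ (y a - r)| ≤ C * g τ (0 - r) ∧ |g1 σ (y a - r)| ≤ C * g τ (0 - r) ∧
        |g2 σ (y a - r)| ≤ C * g τ (0 - r) := by
  obtain ⟨C, κ, hκ, hC, h⟩ := exists_decay y (τ₂ := τ₂) h₁
  have hτ : 0 < 1 / (2 * κ) := by positivity
  have hs : 0 < √(2 * Real.pi * (1 / (2 * κ))) := Real.sqrt_pos.2 (by positivity)
  refine ⟨C * √(2 * Real.pi * (1 / (2 * κ))), 1 / (2 * κ), hτ, by positivity, fun σ hσ a r => ?_⟩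
  have e : C * √(2 * Real.pi * (1 / (2 * κ))) * g (1 / (2 * κ)) (0 - r) =
      C * Real.exp (-κ * r ^ 2) := by
    have e2 : -(0 - r) ^ 2 / (2 * (1 / (2 * κ))) = -κ * r ^ 2 := by field_simp; ring
    rw [g, e2]; field_simp
  rw [e]
  exact h σ hσ a r

section abs
variable {t₁ t₂ B : ℝ} {P Q : ℝ × ℝ → ℝ}

theorem dom2 {X Y : ℝ → ℝ × ℝ → Matrix ι ι ℝ} (hX : DomM t₁ t₂ X P) (hY : DomM t₁ t₂ Y Q) :
    Dom t₁ t₂ (fun t z => (X t z * Y t z).trace) fun z => P z * Q z := (hX.mul hY).trace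

theorem dom2' {X Y : ℝ → ℝ × ℝ → Matrix ι ι ℝ} (hX : DomM t₁ t₂ X Q) (hY : DomM t₁ t₂ Y P) :
    Dom t₁ t₂ (fun t z => (X t z * Y t z).trace) fun z => P z * Q z :=
  (hX.mul hY).trace.mono zero_le_one fun z => le_of_eq (by ring)

theorem dom4 {X Y X' Y' : ℝ → ℝ × ℝ → Matrix ι ι ℝ} (hB0 : 0 ≤ B) (hBd : ∀ z, P z * Q z ≤ B)
    (h0 : ∀ z, 0 ≤ P z * Q z) (hX : DomM t₁ t₂ X P) (hY : DomM t₁ t₂ Y Q) (hX' : DomM t₁ t₂ X' P)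
    (hY' : DomM t₁ t₂ Y' Q) :
    Dom t₁ t₂ (fun t z => (X t z * Y t z * X' t z * Y' t z).trace) fun z => P z * Q z :=
  (((hX.mul hY).mul hX').mul hY').trace.mono hB0 fun z => by
    rw [mul_assoc (P z * Q z)]
    exact mul_le_mul_of_nonneg_right (hBd z) (h0 z)

theorem dom4' {X Y X' Y' : ℝ → ℝ × ℝ → Matrix ι ι ℝ} (hB0 : 0 ≤ B) (hBd : ∀ z, P z * Q z ≤ B)
    (h0 : ∀ z, 0 ≤ P z * Q z) (hX : DomM t₁ t₂ X Q) (hY : DomM t₁ t₂ Y P) (hX' : DomM t₁ t₂ X' Q)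
    (hY' : DomM t₁ t₂ Y' P) :
    Dom t₁ t₂ (fun t z => (X t z * Y t z * X' t z * Y' t z).trace) fun z => P z * Q z :=
  (((hX.mul hY).mul hX').mul hY').trace.mono hB0 fun z => by
    have e : Q z * P z * Q z * P z = P z * Q z * (P z * Q z) := by ring
    rw [e]
    exact mul_le_mul_of_nonneg_right (hBd z) (h0 z)

theorem dom_abs (hB0 : 0 ≤ B) (hBd : ∀ z, P z * Q z ≤ B) (h0 : ∀ z, 0 ≤ P z * Q z)
    (dW : DomM t₁ t₂ (fun t z => diagonal (wv x t z.2)) P) (dW₁ : DomM t₁ t₂ (hW₁ x) P)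
    (dW₂ : DomM t₁ t₂ (hW₂ x) P) (dR : DomM t₁ t₂ (hR y₁ y₂ Z₁ Z₂ v) Q)
    (dE₁ : DomM t₁ t₂ (hE₁ y₁ Z₁ v) Q) (dE₂ : DomM t₁ t₂ (hE₂ y₂ Z₂ v) Q)
    (dG₁ : DomM t₁ t₂ (hG₁ y₁ Z₁ v) Q) (dG₂ : DomM t₁ t₂ (hG₂ y₂ Z₂ v) Q) :
    Dom t₁ t₂ (hl y₁ x y₂ Z₁ Z₂ v) (fun z => P z * Q z) ∧
      Dom t₁ t₂ (hlt y₁ x y₂ Z₁ Z₂ v) (fun z => P z * Q z) ∧
      Dom t₁ t₂ (hA y₁ x y₂ Z₁ Z₂ v) (fun z => P z * Q z) ∧
      Dom t₁ t₂ (hAq y₁ x y₂ Z₁ Z₂ v) (fun z => P z * Q z) ∧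
      Dom t₁ t₂ (hB y₁ x y₂ Z₁ Z₂ v) (fun z => P z * Q z) ∧
      Dom t₁ t₂ (hBp y₁ x y₂ Z₁ Z₂ v) (fun z => P z * Q z) := by
  have dN : DomM t₁ t₂ (hN y₁ x y₂ Z₁ Z₂ v) P :=
    domM_of_psd dW (hN_psd y₁ x y₂ Z₁ Z₂ v)
      fun t z => NN_le (hR_psd y₁ y₂ Z₁ Z₂ v t z) (wv_nonneg _ _ _)
  have dM : DomM t₁ t₂ (hM y₁ x y₂ Z₁ Z₂ v) Q :=
    domM_of_psd dR (hM_psd y₁ x y₂ Z₁ Z₂ v)
      fun t z => MM_le (hR_psd y₁ y₂ Z₁ Z₂ v t z) (wv_nonneg _ _ _)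
  have b₁ : Dom t₁ t₂ (n₁ y₁ x y₂ Z₁ Z₂ v) fun z => P z * Q z := dom2 dN dE₁
  have b₂ : Dom t₁ t₂ (n₂ y₁ x y₂ Z₁ Z₂ v) fun z => P z * Q z := dom2 dN dE₂
  have b₃ : Dom t₁ t₂ (m₁ y₁ x y₂ Z₁ Z₂ v) fun z => P z * Q z := dom2' dM dW₁
  have b₄ : Dom t₁ t₂ (nG₁ y₁ x y₂ Z₁ Z₂ v) fun z => P z * Q z := dom2 dN dG₁
  have b₅ : Dom t₁ t₂ (nG₂ y₁ x y₂ Z₁ Z₂ v) fun z => P z * Q z := dom2 dN dG₂
  have b₆ : Dom t₁ t₂ (m₂ y₁ x y₂ Z₁ Z₂ v) fun z => P z * Q z := dom2' dM dW₂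
  have c₁ : Dom t₁ t₂ (p₁₁ y₁ x y₂ Z₁ Z₂ v) fun z => P z * Q z := dom4 hB0 hBd h0 dN dE₁ dN dE₁
  have c₂ : Dom t₁ t₂ (p₁₂ y₁ x y₂ Z₁ Z₂ v) fun z => P z * Q z := dom4 hB0 hBd h0 dN dE₁ dN dE₂
  have c₃ : Dom t₁ t₂ (p₂₂ y₁ x y₂ Z₁ Z₂ v) fun z => P z * Q z := dom4 hB0 hBd h0 dN dE₂ dN dE₂
  have c₄ : Dom t₁ t₂ (pww y₁ x y₂ Z₁ Z₂ v) fun z => P z * Q z := dom4' hB0 hBd h0 dM dW₁ dM dW₁
  refine ⟨?_, ?_, ?_, ?_, ?_, ?_⟩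
  · refine (dom2' dR dW).of_abs_le fun t z => ?_
    have h0 := LL_nonneg (hR_psd y₁ y₂ Z₁ Z₂ v t z) (wv_nonneg x t z.2)
    have h1 := Phi_nonneg (hR_psd y₁ y₂ Z₁ Z₂ v t z) (wv_nonneg x t z.2)
    rw [Phi] at h1
    rw [hl, abs_of_nonneg h0]
    exact le_trans (by linarith) (le_abs_self _)
  · exact ((((b₄.const_mul v).add (b₅.const_mul v)).add b₆).const_mul (1 / 2)).of_abs_le
      fun t z => le_of_eq (by rw [hlt]; congr 1; ring)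
  · exact ((b₁.const_mul v).add (b₂.const_mul (v + 1))).of_abs_le fun t z => le_of_eq (by rw [hA])
  · exact ((((b₄.sub c₁).sub c₂).const_mul v).add
      (((b₅.sub c₂).sub c₃).const_mul (v + 1))).of_abs_le fun t z => le_of_eq (by rw [hAq])
  · exact (b₃.sub b₂).of_abs_le fun t z => le_of_eq (by rw [hB])
  · exact (((b₆.sub c₄).sub b₅).add c₃).of_abs_le fun t z => le_of_eq (by rw [hBp])

end abs

theorem dom_gram {t₁ t₂ C : ℝ} {f Q : ℝ × ℝ → ℝ} (Z : Matrix ι ι ℝ) {α : ℝ → ℝ × ℝ → ι → ℝ}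
    (hC : 0 ≤ C) (h : ∀ t ∈ Set.Icc t₁ t₂, ∀ z i, |α t z i| ≤ C * f z) (hq : ∀ z, f z ≤ 1 * Q z) :
    DomM t₁ t₂ (fun t z => gram Z (α t z)) Q :=
  (domM_gram Z fun i => ⟨C, hC, fun t ht z => h t ht z i⟩).mono zero_le_one hq

theorem dom_diag {t₁ t₂ C : ℝ} {f : ℝ × ℝ → ℝ} {α : ℝ → ℝ × ℝ → ι → ℝ}
    (hC : 0 ≤ C) (h : ∀ t ∈ Set.Icc t₁ t₂, ∀ z i, |α t z i| ≤ C * f z) :
    DomM t₁ t₂ (fun t z => diagonal (α t z)) f :=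
  domM_diagonal fun i => ⟨C, hC, fun t ht z => h t ht z i⟩

/-- all the bounds needed for the flow lemma. -/
theorem exists_dom {t₁ t₂ : ℝ} (hv : 0 < v) (h₁ : 0 < t₁) : ∃ Γ : ℝ × ℝ → ℝ, Integrable Γ ∧
    (∀ z, 0 ≤ Γ z) ∧ ∀ Z₁ Z₂ : Matrix ι ι ℝ, Dom t₁ t₂ (hl y₁ x y₂ Z₁ Z₂ v) Γ ∧
      Dom t₁ t₂ (hlt y₁ x y₂ Z₁ Z₂ v) Γ ∧ Dom t₁ t₂ (hA y₁ x y₂ Z₁ Z₂ v) Γ ∧
      Dom t₁ t₂ (hAq y₁ x y₂ Z₁ Z₂ v) Γ ∧ Dom t₁ t₂ (hB y₁ x y₂ Z₁ Z₂ v) Γ ∧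
      Dom t₁ t₂ (hBp y₁ x y₂ Z₁ Z₂ v) Γ := by
  obtain ⟨C₁, τ₁, hτ₁, hC₁, d₁⟩ := decay_g y₁ (v * t₂) (mul_pos hv h₁)
  obtain ⟨C, τ, hτ, hC, d⟩ := decay_g x t₂ h₁
  obtain ⟨C₂, τ₂, hτ₂, hC₂, d₂⟩ := decay_g y₂ (v * t₂) (mul_pos hv h₁)
  have hmem : ∀ t ∈ Set.Icc t₁ t₂, v * t ∈ Set.Icc (v * t₁) (v * t₂) := fun t ht =>
    ⟨mul_le_mul_of_nonneg_left ht.1 hv.le, mul_le_mul_of_nonneg_left ht.2 hv.le⟩
  obtain ⟨P, hP⟩ : ∃ P : ℝ × ℝ → ℝ, ∀ z, P z = g τ (0 - z.2) := ⟨_, fun _ => rfl⟩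
  obtain ⟨Q₁, hQ₁⟩ : ∃ Q₁ : ℝ × ℝ → ℝ, ∀ z, Q₁ z = g τ₁ (0 - z.1) := ⟨_, fun _ => rfl⟩
  obtain ⟨Q₂, hQ₂⟩ : ∃ Q₂ : ℝ × ℝ → ℝ, ∀ z, Q₂ z = g τ₂ (0 - (-z.1 - z.2)) := ⟨_, fun _ => rfl⟩
  obtain ⟨Q, hQ⟩ : ∃ Q : ℝ × ℝ → ℝ, ∀ z, Q z = Q₁ z + Q₂ z := ⟨_, fun _ => rfl⟩
  have P0 : ∀ z, 0 ≤ P z := fun z => by rw [hP]; exact g_nonneg _ _
  have Q10 : ∀ z, 0 ≤ Q₁ z := fun z => by rw [hQ₁]; exact g_nonneg _ _
  have Q20 : ∀ z, 0 ≤ Q₂ z := fun z => by rw [hQ₂]; exact g_nonneg _ _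
  have Q0 : ∀ z, 0 ≤ Q z := fun z => by rw [hQ]; exact add_nonneg (Q10 z) (Q20 z)
  obtain ⟨B, hB0, hBd⟩ : ∃ B : ℝ, 0 ≤ B ∧ ∀ z, P z * Q z ≤ B := by
    refine ⟨(√(2 * Real.pi * τ))⁻¹ * ((√(2 * Real.pi * τ₁))⁻¹ + (√(2 * Real.pi * τ₂))⁻¹),
      by positivity, fun z => ?_⟩
    refine mul_le_mul ?_ ?_ (Q0 z) (by positivity)
    · rw [hP]; exact g_le _ _ hτ
    · rw [hQ, hQ₁, hQ₂]; exact add_le_add (g_le _ _ hτ₁) (g_le _ _ hτ₂)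
  have q₁ : ∀ z : ℝ × ℝ, Q₁ z ≤ 1 * Q z := fun z => by
    rw [one_mul, hQ]; exact le_add_of_nonneg_right (Q20 z)
  have q₂ : ∀ z : ℝ × ℝ, Q₂ z ≤ 1 * Q z := fun z => by
    rw [one_mul, hQ]; exact le_add_of_nonneg_left (Q10 z)
  refine ⟨fun z => P z * Q z, ?_, fun z => mul_nonneg (P0 z) (Q0 z), fun Z₁ Z₂ => ?_⟩
  · refine ((plane_1 hτ₁ hτ 0 0).1.add (plane_2 hτ₂ hτ 0 0).1).congr (ae_of_all _ fun z => ?_)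
    simp only [hP, hQ, hQ₁, hQ₂, Pi.add_apply]; ring
  refine dom_abs y₁ x y₂ Z₁ Z₂ hB0 hBd (fun z => mul_nonneg (P0 z) (Q0 z)) ?_ ?_ ?_ ?_ ?_ ?_ ?_ ?_
  · exact dom_diag (α := fun t z => wv x t z.2) hC fun t ht z i => by
      rw [hP]; exact (d t ht i z.2).1
  · exact dom_diag (α := fun t z b => -g1 t (x b - z.2)) hC fun t ht z i => by
      rw [hP, abs_neg]; exact (d t ht i z.2).2.1
  · exact dom_diag (α := fun t z b => g2 t (x b - z.2)) hC fun t ht z i => by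
      rw [hP]; exact (d t ht i z.2).2.2
  · exact (dom_gram Z₁ (α := fun t z => wv y₁ (v * t) z.1) hC₁ (fun t ht z i => by
      rw [hQ₁]; exact (d₁ _ (hmem t ht) i z.1).1) q₁).add
      (dom_gram Z₂ (α := fun t z => wv y₂ (v * t) (-z.1 - z.2)) hC₂ (fun t ht z i => by
        rw [hQ₂]; exact (d₂ _ (hmem t ht) i _).1) q₂)
  · exact dom_gram Z₁ (α := fun t z a => -g1 (v * t) (y₁ a - z.1)) hC₁ (fun t ht z i => by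
      rw [hQ₁, abs_neg]; exact (d₁ _ (hmem t ht) i z.1).2.1) q₁
  · exact dom_gram Z₂ (α := fun t z a => g1 (v * t) (y₂ a - (-z.1 - z.2))) hC₂ (fun t ht z i => by
      rw [hQ₂]; exact (d₂ _ (hmem t ht) i _).2.1) q₂
  · exact dom_gram Z₁ (α := fun t z a => g2 (v * t) (y₁ a - z.1)) hC₁ (fun t ht z i => by
      rw [hQ₁]; exact (d₁ _ (hmem t ht) i z.1).2.2) q₁
  · exact dom_gram Z₂ (α := fun t z a => g2 (v * t) (y₂ a - (-z.1 - z.2))) hC₂ (fun t ht z i => by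
      rw [hQ₂]; exact (d₂ _ (hmem t ht) i _).2.2) q₂

/-! ### measurability -/

section meas
variable (v)

theorem ms_g {f h : ℝ × (ℝ × ℝ) → ℝ} (hf : Measurable f) (hh : Measurable h) :
    Measurable fun u => g (f u) (h u) := measurable_g.comp (hf.prodMk hh)

theorem ms_g1 {f h : ℝ × (ℝ × ℝ) → ℝ} (hf : Measurable f) (hh : Measurable h) :
    Measurable fun u => g1 (f u) (h u) := measurable_g1.comp (hf.prodMk hh)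

theorem ms_g2 {f h : ℝ × (ℝ × ℝ) → ℝ} (hf : Measurable f) (hh : Measurable h) :
    Measurable fun u => g2 (f u) (h u) := measurable_g2.comp (hf.prodMk hh)

theorem ms_w (i : ι) : Measurable fun u : ℝ × (ℝ × ℝ) => wv x u.1 u.2.2 i :=
  ms_g measurable_fst (by fun_prop)

theorem ms_α (i : ι) : Measurable fun u : ℝ × (ℝ × ℝ) => wv y₁ (v * u.1) u.2.1 i :=
  ms_g (by fun_prop) (by fun_prop)

theorem ms_γ (i : ι) : Measurable fun u : ℝ × (ℝ × ℝ) => wv y₂ (v * u.1) (-u.2.1 - u.2.2) i :=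
  ms_g (by fun_prop) (by fun_prop)

theorem ms_R (i j : ι) : Measurable fun u : ℝ × (ℝ × ℝ) => hR y₁ y₂ Z₁ Z₂ v u.1 u.2 i j :=
  (measurable_gram_apply Z₁ (ms_α y₁ v) i j).add (measurable_gram_apply Z₂ (ms_γ y₂ v) i j)

theorem ms_N (i j : ι) : Measurable fun u : ℝ × (ℝ × ℝ) => hN y₁ x y₂ Z₁ Z₂ v u.1 u.2 i j :=
  measurable_NN_apply (ms_R y₁ y₂ Z₁ Z₂ v) (ms_w x) i j

theorem ms_M (i j : ι) : Measurable fun u : ℝ × (ℝ × ℝ) => hM y₁ x y₂ Z₁ Z₂ v u.1 u.2 i j :=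
  measurable_MM_apply (ms_R y₁ y₂ Z₁ Z₂ v) (ms_w x) i j

theorem ms_E₁ (i j : ι) : Measurable fun u : ℝ × (ℝ × ℝ) => hE₁ y₁ Z₁ v u.1 u.2 i j :=
  measurable_gram_apply Z₁ (fun _ => (ms_g1 (by fun_prop) (by fun_prop)).neg) i j

theorem ms_E₂ (i j : ι) : Measurable fun u : ℝ × (ℝ × ℝ) => hE₂ y₂ Z₂ v u.1 u.2 i j :=
  measurable_gram_apply Z₂ (fun _ => ms_g1 (by fun_prop) (by fun_prop)) i j

theorem ms_G₁ (i j : ι) : Measurable fun u : ℝ × (ℝ × ℝ) => hG₁ y₁ Z₁ v u.1 u.2 i j :=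
  measurable_gram_apply Z₁ (fun _ => ms_g2 (by fun_prop) (by fun_prop)) i j

theorem ms_G₂ (i j : ι) : Measurable fun u : ℝ × (ℝ × ℝ) => hG₂ y₂ Z₂ v u.1 u.2 i j :=
  measurable_gram_apply Z₂ (fun _ => ms_g2 (by fun_prop) (by fun_prop)) i j

theorem ms_W₁ (i j : ι) : Measurable fun u : ℝ × (ℝ × ℝ) => hW₁ x u.1 u.2 i j :=
  measurable_diagonal_apply (fun _ => (ms_g1 (by fun_prop) (by fun_prop)).neg) i j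

theorem ms_W₂ (i j : ι) : Measurable fun u : ℝ × (ℝ × ℝ) => hW₂ x u.1 u.2 i j :=
  measurable_diagonal_apply (fun _ => ms_g2 (by fun_prop) (by fun_prop)) i j

theorem ms_all : Measurable (Function.uncurry (hl y₁ x y₂ Z₁ Z₂ v)) ∧
    Measurable (Function.uncurry (hlt y₁ x y₂ Z₁ Z₂ v)) ∧
    Measurable (Function.uncurry (hA y₁ x y₂ Z₁ Z₂ v)) ∧
    Measurable (Function.uncurry (hAq y₁ x y₂ Z₁ Z₂ v)) ∧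
    Measurable (Function.uncurry (hB y₁ x y₂ Z₁ Z₂ v)) ∧
    Measurable (Function.uncurry (hBp y₁ x y₂ Z₁ Z₂ v)) := by
  have N := ms_N y₁ x y₂ Z₁ Z₂ v
  have M := ms_M y₁ x y₂ Z₁ Z₂ v
  have E₁ := ms_E₁ y₁ Z₁ v
  have E₂ := ms_E₂ y₂ Z₂ v
  have b₁ : Measurable fun u : ℝ × (ℝ × ℝ) => n₁ y₁ x y₂ Z₁ Z₂ v u.1 u.2 :=
    measurable_trace (measurable_mul_apply N E₁)
  have b₂ : Measurable fun u : ℝ × (ℝ × ℝ) => n₂ y₁ x y₂ Z₁ Z₂ v u.1 u.2 :=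
    measurable_trace (measurable_mul_apply N E₂)
  have b₃ : Measurable fun u : ℝ × (ℝ × ℝ) => m₁ y₁ x y₂ Z₁ Z₂ v u.1 u.2 :=
    measurable_trace (measurable_mul_apply M (ms_W₁ x))
  have b₄ : Measurable fun u : ℝ × (ℝ × ℝ) => nG₁ y₁ x y₂ Z₁ Z₂ v u.1 u.2 :=
    measurable_trace (measurable_mul_apply N (ms_G₁ y₁ Z₁ v))
  have b₅ : Measurable fun u : ℝ × (ℝ × ℝ) => nG₂ y₁ x y₂ Z₁ Z₂ v u.1 u.2 :=
    measurable_trace (measurable_mul_apply N (ms_G₂ y₂ Z₂ v))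
  have b₆ : Measurable fun u : ℝ × (ℝ × ℝ) => m₂ y₁ x y₂ Z₁ Z₂ v u.1 u.2 :=
    measurable_trace (measurable_mul_apply M (ms_W₂ x))
  have c₁ : Measurable fun u : ℝ × (ℝ × ℝ) => p₁₁ y₁ x y₂ Z₁ Z₂ v u.1 u.2 :=
    measurable_trace (measurable_mul_apply (measurable_mul_apply (measurable_mul_apply N E₁) N) E₁)
  have c₂ : Measurable fun u : ℝ × (ℝ × ℝ) => p₁₂ y₁ x y₂ Z₁ Z₂ v u.1 u.2 :=
    measurable_trace (measurable_mul_apply (measurable_mul_apply (measurable_mul_apply N E₁) N) E₂)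
  have c₃ : Measurable fun u : ℝ × (ℝ × ℝ) => p₂₂ y₁ x y₂ Z₁ Z₂ v u.1 u.2 :=
    measurable_trace (measurable_mul_apply (measurable_mul_apply (measurable_mul_apply N E₂) N) E₂)
  have c₄ : Measurable fun u : ℝ × (ℝ × ℝ) => pww y₁ x y₂ Z₁ Z₂ v u.1 u.2 :=
    measurable_trace (measurable_mul_apply (measurable_mul_apply
      (measurable_mul_apply M (ms_W₁ x)) M) (ms_W₁ x))
  exact ⟨measurable_LL (ms_R y₁ y₂ Z₁ Z₂ v) (ms_w x),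
    (((b₄.const_mul v).add (b₅.const_mul v)).add b₆).div_const 2,
    (b₁.const_mul v).add (b₂.const_mul (v + 1)),
    (((b₄.sub c₁).sub c₂).const_mul v).add (((b₅.sub c₂).sub c₃).const_mul (v + 1)),
    b₃.sub b₂, ((b₆.sub c₄).sub b₅).add c₃⟩

end meas

/-! ### the pointwise inequality -/

theorem hR_left (t : ℝ) (z : ℝ × ℝ) : hR y₁ y₂ Z₁ 0 v t z = gram Z₁ (wv y₁ (v * t) z.1) := by
  rw [hR, gram_zero, add_zero]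

theorem hR_right (t : ℝ) (z : ℝ × ℝ) :
    hR y₁ y₂ 0 Z₂ v t z = gram Z₂ (wv y₂ (v * t) (-z.1 - z.2)) := by
  rw [hR, gram_zero, zero_add]

theorem pww_eq (t : ℝ) (z : ℝ × ℝ) : pww y₁ x y₂ Z₁ Z₂ v t z = en y₁ x y₂ Z₁ Z₂ v t z := by
  have e : hW₁ x t z = -diagonal fun b => g1 t (x b - z.2) := by
    rw [hW₁, diagonal_neg]
  simp only [pww, en, qf, e, hM, hR, Matrix.mul_neg, Matrix.neg_mul, neg_neg]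

theorem pww_nonneg (t : ℝ) (z : ℝ × ℝ) : 0 ≤ pww y₁ x y₂ Z₁ Z₂ v t z :=
  tr4_nonneg (hM_psd y₁ x y₂ Z₁ Z₂ v t z) (diagonal_transpose _)

theorem pointwise (hv : 1 ≤ v) (t : ℝ) (z : ℝ × ℝ) :
    (hAq y₁ x y₂ Z₁ Z₂ v t z + hAq y₁ x y₂ Z₁ 0 v t z + hAq y₁ x y₂ 0 Z₂ v t z) +
      (hBp y₁ x y₂ Z₁ Z₂ v t z + hBp y₁ x y₂ Z₁ 0 v t z + hBp y₁ x y₂ 0 Z₂ v t z) +
      en y₁ x y₂ Z₁ Z₂ v t z ≤
    2 * (hlt y₁ x y₂ Z₁ Z₂ v t z + hlt y₁ x y₂ Z₁ 0 v t z + hlt y₁ x y₂ 0 Z₂ v t z) := by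
  have i₀ := identity y₁ x y₂ Z₁ Z₂ v t z
  have i₁ := identity y₁ x y₂ Z₁ 0 v t z
  have i₂ := identity y₁ x y₂ 0 Z₂ v t z
  have z₁ : p₁₂ y₁ x y₂ Z₁ 0 v t z = 0 := by simp [p₁₂, hE₂, gram_zero]
  have z₂ : p₂₂ y₁ x y₂ Z₁ 0 v t z = 0 := by simp [p₂₂, hE₂, gram_zero]
  have z₃ : p₁₂ y₁ x y₂ 0 Z₂ v t z = 0 := by simp [p₁₂, hE₁, gram_zero]
  have z₄ : p₁₁ y₁ x y₂ 0 Z₂ v t z = 0 := by simp [p₁₁, hE₁, gram_zero]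
  have w₁ := pww_nonneg y₁ x y₂ Z₁ 0 (v := v) t z
  have w₂ := pww_nonneg y₁ x y₂ 0 Z₂ (v := v) t z
  have hN0 := hN_psd y₁ x y₂ Z₁ Z₂ v t z
  have a₁ : p₁₁ y₁ x y₂ Z₁ Z₂ v t z ≤ p₁₁ y₁ x y₂ Z₁ 0 v t z := by
    refine tr4_mono hN0 (NN_anti (hR_psd y₁ y₂ Z₁ 0 v t z) ?_ (wv_nonneg _ _ _))
      (gram_transpose _ _)
    rw [hR_left, hR, add_sub_cancel_left]
    exact gram_psd _ (wv_nonneg _ _ _)
  have a₂ : p₂₂ y₁ x y₂ Z₁ Z₂ v t z ≤ p₂₂ y₁ x y₂ 0 Z₂ v t z := by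
    refine tr4_mono hN0 (NN_anti (hR_psd y₁ y₂ 0 Z₂ v t z) ?_ (wv_nonneg _ _ _))
      (gram_transpose _ _)
    rw [hR_right, hR, add_sub_cancel_right]
    exact gram_psd _ (wv_nonneg _ _ _)
  have n₁ : 0 ≤ p₁₁ y₁ x y₂ Z₁ Z₂ v t z := tr4_nonneg hN0 (gram_transpose _ _)
  have n₂ : 0 ≤ p₂₂ y₁ x y₂ Z₁ Z₂ v t z := tr4_nonneg hN0 (gram_transpose _ _)
  have cs : 2 * |p₁₂ y₁ x y₂ Z₁ Z₂ v t z| ≤ p₁₁ y₁ x y₂ Z₁ Z₂ v t z + p₂₂ y₁ x y₂ Z₁ Z₂ v t z :=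
    tr4_cs hN0 (gram_transpose _ _) (gram_transpose _ _)
  have cs' := neg_abs_le (p₁₂ y₁ x y₂ Z₁ Z₂ v t z)
  rw [← pww_eq]
  rw [z₁, z₂] at i₁
  rw [z₃, z₄] at i₂
  nlinarith [mul_nonneg (sub_nonneg.2 hv) (sub_nonneg.2 a₁), mul_nonneg (sub_nonneg.2 hv) (sub_nonneg.2 a₂),
    mul_nonneg (sub_nonneg.2 hv) n₁, mul_nonneg (sub_nonneg.2 hv) n₂,
    mul_nonneg (sub_nonneg.2 hv) (sub_nonneg.2 cs), mul_nonneg (sub_nonneg.2 hv) (sub_nonneg.2 cs')]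

end Crest.Agent.R72.HeatAux
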