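/-
R72/Heat: the Bellman functional decreases along the heat flow, the loss controls the energy.
Skeleton by helper40; keep the statements unchanged (add any helper lemmas you like).
-/
import Crest.Agent.R72.Deriv
import Crest.Agent.R72.Flow
import Crest.Agent.R72.Mat2
import Crest.Agent.R72.Gauss2
import Crest.Agent.R72.HeatAux

set_option autoImplicit false
set_option linter.unusedSectionVars false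

namespace Crest.Agent.R72

open Matrix MeasureTheory

variable {ι : Type} [Fintype ι] [DecidableEq ι] (y₁ x y₂ : ι → ℝ) (Z₁ Z₂ : Matrix ι ι ℝ)

namespace HeatAux

/-- the linear part of the Bellman density. -/
noncomputable def hT (v t : ℝ) (z : ℝ × ℝ) : ℝ :=
  (hR y₁ y₂ Z₁ Z₂ v t z * diagonal (wv x t z.2)).trace

theorem hT_eq (v t : ℝ) : hT y₁ x y₂ Z₁ Z₂ v t = fun z =>
    (∑ a, ∑ b, Z₁ a b ^ 2 * (g (v * t) (y₁ a - z.1) * g t (x b - z.2))) +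
      ∑ a, ∑ b, Z₂ a b ^ 2 * (g (v * t) (y₂ a - (-z.1 - z.2)) * g t (x b - z.2)) := by
  funext z
  rw [hT, hR, Matrix.add_mul, trace_add, trace_gram_mul, trace_gram_mul, hs, hs]
  congr 1 <;> exact Finset.sum_congr rfl fun a _ => Finset.sum_congr rfl fun b _ => by
    rw [wv, wv]; ring

theorem hT_int {v t : ℝ} (hv : 0 < v) (ht : 0 < t) : Integrable (hT y₁ x y₂ Z₁ Z₂ v t) ∧
    ∫ z, hT y₁ x y₂ Z₁ Z₂ v t z = (∑ a, ∑ b, Z₁ a b ^ 2) + ∑ a, ∑ b, Z₂ a b ^ 2 := by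
  have hvt := mul_pos hv ht
  have i₁ : ∀ a b, Integrable fun z : ℝ × ℝ =>
      Z₁ a b ^ 2 * (g (v * t) (y₁ a - z.1) * g t (x b - z.2)) :=
    fun a b => (plane_1 hvt ht (y₁ a) (x b)).1.const_mul _
  have i₂ : ∀ a b, Integrable fun z : ℝ × ℝ =>
      Z₂ a b ^ 2 * (g (v * t) (y₂ a - (-z.1 - z.2)) * g t (x b - z.2)) :=
    fun a b => (plane_2 hvt ht (y₂ a) (x b)).1.const_mul _
  have j₁ := integrable_finsetSum Finset.univ fun a _ =>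
    integrable_finsetSum Finset.univ fun b _ => i₁ a b
  have j₂ := integrable_finsetSum Finset.univ fun a _ =>
    integrable_finsetSum Finset.univ fun b _ => i₂ a b
  rw [hT_eq]
  refine ⟨j₁.add j₂, ?_⟩
  rw [integral_add j₁ j₂, integral_finsetSum _ fun a _ => integrable_finsetSum _ fun b _ => i₁ a b,
    integral_finsetSum _ fun a _ => integrable_finsetSum _ fun b _ => i₂ a b]
  congr 1
  · refine Finset.sum_congr rfl fun a _ => ?_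
    rw [integral_finsetSum _ fun b _ => i₁ a b]
    refine Finset.sum_congr rfl fun b _ => ?_
    rw [integral_const_mul, (plane_1 hvt ht (y₁ a) (x b)).2, mul_one]
  · refine Finset.sum_congr rfl fun a _ => ?_
    rw [integral_finsetSum _ fun b _ => i₂ a b]
    refine Finset.sum_congr rfl fun b _ => ?_
    rw [integral_const_mul, (plane_2 hvt ht (y₂ a) (x b)).2, mul_one]

theorem hl_int {v t : ℝ} (hv : 0 < v) (ht : 0 < t) : Integrable (hl y₁ x y₂ Z₁ Z₂ v t) := by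
  refine (hT_int y₁ x y₂ Z₁ Z₂ hv ht).1.mono'
    (ms_all y₁ x y₂ Z₁ Z₂ v).1.of_uncurry_left.aestronglyMeasurable (ae_of_all _ fun z => ?_)
  have h0 := LL_nonneg (hR_psd y₁ y₂ Z₁ Z₂ v t z) (wv_nonneg x t z.2)
  have h1 := Phi_nonneg (hR_psd y₁ y₂ Z₁ Z₂ v t z) (wv_nonneg x t z.2)
  rw [Phi] at h1
  rw [Real.norm_eq_abs, hl, abs_of_nonneg h0, hT]
  linarith

theorem be_eq (v t : ℝ) : be y₁ x y₂ Z₁ Z₂ v t = fun z =>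
    (hT y₁ x y₂ Z₁ Z₂ v t z + hT y₁ x y₂ Z₁ 0 v t z + hT y₁ x y₂ 0 Z₂ v t z) -
      (hl y₁ x y₂ Z₁ Z₂ v t z + hl y₁ x y₂ Z₁ 0 v t z + hl y₁ x y₂ 0 Z₂ v t z) := by
  funext z
  simp only [be, hT, hl, hR_left, hR_right, Phi]
  rw [hR]
  ring

theorem Th_eq {v t : ℝ} (hv : 0 < v) (ht : 0 < t) : Th y₁ x y₂ Z₁ Z₂ v t =
    2 * ((∑ a, ∑ b, Z₁ a b ^ 2) + ∑ a, ∑ b, Z₂ a b ^ 2) -
      ∫ z, (hl y₁ x y₂ Z₁ Z₂ v t z + hl y₁ x y₂ Z₁ 0 v t z + hl y₁ x y₂ 0 Z₂ v t z) := by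
  have a₀ := hT_int y₁ x y₂ Z₁ Z₂ hv ht
  have a₁ := hT_int y₁ x y₂ Z₁ 0 hv ht
  have a₂ := hT_int y₁ x y₂ 0 Z₂ hv ht
  have b : Integrable fun z =>
      hl y₁ x y₂ Z₁ Z₂ v t z + hl y₁ x y₂ Z₁ 0 v t z + hl y₁ x y₂ 0 Z₂ v t z :=
    ((hl_int y₁ x y₂ Z₁ Z₂ hv ht).add (hl_int y₁ x y₂ Z₁ 0 hv ht)).add
      (hl_int y₁ x y₂ 0 Z₂ hv ht)
  have c₁ : Integrable fun z => hT y₁ x y₂ Z₁ Z₂ v t z + hT y₁ x y₂ Z₁ 0 v t z := a₀.1.add a₁.1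
  have c₂ : Integrable fun z =>
      hT y₁ x y₂ Z₁ Z₂ v t z + hT y₁ x y₂ Z₁ 0 v t z + hT y₁ x y₂ 0 Z₂ v t z := c₁.add a₂.1
  rw [Th, be_eq, integral_sub c₂ b, integral_add c₁ a₂.1, integral_add a₀.1 a₁.1, a₀.2, a₁.2, a₂.2]
  simp only [Matrix.zero_apply, ne_eq, OfNat.ofNat_ne_zero, not_false_eq_true, zero_pow,
    Finset.sum_const_zero]
  ring

theorem Dom.sum3 {t₁ t₂ : ℝ} {f : ℝ × ℝ → ℝ} {a b c : ℝ → ℝ × ℝ → ℝ} (ha : Dom t₁ t₂ a f)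
    (hb : Dom t₁ t₂ b f) (hc : Dom t₁ t₂ c f) :
    Dom t₁ t₂ (fun t z => a t z + b t z + c t z) f := (ha.add hb).add hc

end HeatAux

open HeatAux

theorem measurable_en (v : ℝ) : Measurable (Function.uncurry (en y₁ x y₂ Z₁ Z₂ v)) :=
  measurable_qf (ms_M y₁ x y₂ Z₁ Z₂ v) (ms_M y₁ x y₂ Z₁ Z₂ v)
    (ψ := fun u : ℝ × (ℝ × ℝ) => fun b => g1 u.1 (x b - u.2.2))
    fun _ => ms_g1 (by fun_prop) (by fun_prop)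

theorem en_nonneg (v t : ℝ) (z : ℝ × ℝ) : 0 ≤ en y₁ x y₂ Z₁ Z₂ v t z :=
  qf_nonneg (hM_psd y₁ x y₂ Z₁ Z₂ v t z) (hM_psd y₁ x y₂ Z₁ Z₂ v t z) _

theorem be_nonneg (v t : ℝ) (z : ℝ × ℝ) : 0 ≤ be y₁ x y₂ Z₁ Z₂ v t z :=
  add_nonneg (add_nonneg (Phi_nonneg (hR_psd y₁ y₂ Z₁ Z₂ v t z) (wv_nonneg _ _ _))
    (Phi_nonneg (gram_psd _ (wv_nonneg _ _ _)) (wv_nonneg _ _ _)))
    (Phi_nonneg (gram_psd _ (wv_nonneg _ _ _)) (wv_nonneg _ _ _))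

/-- `0 ≤ Phi R w ≤ tr (R w) = hs`, and `plane_1`, `plane_2`. -/
theorem integrable_be {v t : ℝ} (hv : 0 < v) (ht : 0 < t) : Integrable (be y₁ x y₂ Z₁ Z₂ v t) := by
  rw [be_eq]
  exact (((hT_int y₁ x y₂ Z₁ Z₂ hv ht).1.add (hT_int y₁ x y₂ Z₁ 0 hv ht).1).add
    (hT_int y₁ x y₂ 0 Z₂ hv ht).1).sub
    (((hl_int y₁ x y₂ Z₁ Z₂ hv ht).add (hl_int y₁ x y₂ Z₁ 0 hv ht)).add
      (hl_int y₁ x y₂ 0 Z₂ hv ht))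

/-- Recipe.  For a pair `(Z₁, Z₂)` write, at `z = (q, p)`: `α = g (v t) (y₁ - q)`, `w = g t (x - p)`,
`γ = g (v t) (y₂ + q + p)`, `R = gram Z₁ α + gram Z₂ γ`, `N = NN R w`, `M = MM R w`, `L = LL R w`,
`E₁ = gram Z₁ (-g1 (v t) (y₁ - q)) = ∂_q gram Z₁ α`, `E₂ = gram Z₂ (g1 (v t) (y₂ + q + p))` (`= ∂_q = ∂_p` of
`gram Z₂ γ`), `w' = -g1 t (x - p) = ∂_p w`.  With `A = v tr (N E₁) + (v + 1) tr (N E₂)` and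
`B = tr (M w') - tr (N E₂)` the lemmas of `Deriv` and the heat equation give the exact identity
`2 ∂_t L = ∂_q A + ∂_p B + v tr (N E₁ N E₁) + v tr (N E₂ N E₂) + (2 v + 1) tr (N E₁ N E₂) + tr (M w' M w')`
(`2 ∂_t L = v tr (N gram Z₁ g2) + v tr (N gram Z₂ g2) + tr (M g2)`; the mixed terms in `∂_p B` cancel by
cyclicity of the trace).  Add the identities for `(Z₁, Z₂)`, `(Z₁, 0)`, `(0, Z₂)`; by `tr4_cs`, `tr4_mono`,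
`NN_anti`, `tr4_nonneg`, `qf_nonneg` and `1 ≤ v` the sum is `≥ ∂_q A + ∂_p B + en`.  Apply `flow_le` to the sum of
the three `L`.  Bounds: by `exists_decay` let `φ r = exp (-κ r²)`; uniformly in `t ∈ [t₁, t₂]` entries of
`w, w', g2-weights at x, N` are `O(φ p)` (`psd_entry_le`, `NN_le`), entries of `R, E₁, E₂, M` and of the `g2`-Gram
matrices are `O(φ q + φ (q + p))` (`MM_le`), `(1 + R w)⁻¹ = 1 - R N` is bounded; every term is the trace of a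
product containing one factor of each kind, so it is `O(φ p (φ q + φ (q + p)))`, which is integrable; and
`0 ≤ L ≤ tr (R w)`.  Finally `Th = 2 ∑ Z₁² + 2 ∑ Z₂² - ∫ (sum of the three L)` (`trace_gram_mul`, `plane_1`,
`plane_2`). -/
theorem heat_flow {v t₁ t₂ : ℝ} (hv : 1 ≤ v) (h₁ : 0 < t₁) (h12 : t₁ ≤ t₂) :
    Th y₁ x y₂ Z₁ Z₂ v t₂ ≤ Th y₁ x y₂ Z₁ Z₂ v t₁ ∧
      EE y₁ x y₂ Z₁ Z₂ v t₁ t₂ ≤
        ENNReal.ofReal (2 * (Th y₁ x y₂ Z₁ Z₂ v t₁ - Th y₁ x y₂ Z₁ Z₂ v t₂)) := by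
  have hv0 : 0 < v := lt_of_lt_of_le one_pos hv
  obtain ⟨Γ, hΓ, hΓ0, hd⟩ := exists_dom y₁ x y₂ (t₂ := t₂) hv0 h₁
  obtain ⟨a₁, a₂, a₃, a₄, a₅, a₆⟩ := hd Z₁ Z₂
  obtain ⟨b₁, b₂, b₃, b₄, b₅, b₆⟩ := hd Z₁ 0
  obtain ⟨c₁, c₂, c₃, c₄, c₅, c₆⟩ := hd 0 Z₂
  obtain ⟨C₁, p₁, d₁⟩ := a₁.sum3 b₁ c₁
  obtain ⟨C₂, p₂, d₂⟩ := a₂.sum3 b₂ c₂
  obtain ⟨C₃, p₃, d₃⟩ := a₃.sum3 b₃ c₃
  obtain ⟨C₄, p₄, d₄⟩ := a₄.sum3 b₄ c₄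
  obtain ⟨C₅, p₅, d₅⟩ := a₅.sum3 b₅ c₅
  obtain ⟨C₆, p₆, d₆⟩ := a₆.sum3 b₆ c₆
  obtain ⟨m₁, m₂, m₃, m₄, m₅, m₆⟩ := ms_all y₁ x y₂ Z₁ Z₂ v
  obtain ⟨n₁, n₂, n₃, n₄, n₅, n₆⟩ := ms_all y₁ x y₂ Z₁ 0 v
  obtain ⟨o₁, o₂, o₃, o₄, o₅, o₆⟩ := ms_all y₁ x y₂ 0 Z₂ v
  have hpos : ∀ t ∈ Set.Icc t₁ t₂, 0 < t := fun t ht => lt_of_lt_of_le h₁ ht.1
  have up : ∀ {C : ℝ} (z : ℝ × ℝ), C ≤ C₁ + C₂ + C₃ + C₄ + C₅ + C₆ →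
      C * Γ z ≤ (C₁ + C₂ + C₃ + C₄ + C₅ + C₆) * Γ z :=
    fun z h => mul_le_mul_of_nonneg_right h (hΓ0 z)
  have key := flow_le
    (ℓ := fun t z => hl y₁ x y₂ Z₁ Z₂ v t z + hl y₁ x y₂ Z₁ 0 v t z + hl y₁ x y₂ 0 Z₂ v t z)
    (ℓt := fun t z => hlt y₁ x y₂ Z₁ Z₂ v t z + hlt y₁ x y₂ Z₁ 0 v t z + hlt y₁ x y₂ 0 Z₂ v t z)
    (A := fun t z => hA y₁ x y₂ Z₁ Z₂ v t z + hA y₁ x y₂ Z₁ 0 v t z + hA y₁ x y₂ 0 Z₂ v t z)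
    (Aq := fun t z => hAq y₁ x y₂ Z₁ Z₂ v t z + hAq y₁ x y₂ Z₁ 0 v t z + hAq y₁ x y₂ 0 Z₂ v t z)
    (B := fun t z => hB y₁ x y₂ Z₁ Z₂ v t z + hB y₁ x y₂ Z₁ 0 v t z + hB y₁ x y₂ 0 Z₂ v t z)
    (Bp := fun t z => hBp y₁ x y₂ Z₁ Z₂ v t z + hBp y₁ x y₂ Z₁ 0 v t z + hBp y₁ x y₂ 0 Z₂ v t z)
    (e := en y₁ x y₂ Z₁ Z₂ v) h12 (Γ := fun z => (C₁ + C₂ + C₃ + C₄ + C₅ + C₆) * Γ z)
    (hΓ.const_mul _)
    (fun t => (m₁.of_uncurry_left.add n₁.of_uncurry_left).add o₁.of_uncurry_left)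
    ((m₂.add n₂).add o₂)
    (fun t => (m₃.of_uncurry_left.add n₃.of_uncurry_left).add o₃.of_uncurry_left)
    (fun t => (m₄.of_uncurry_left.add n₄.of_uncurry_left).add o₄.of_uncurry_left)
    (fun t => (m₅.of_uncurry_left.add n₅.of_uncurry_left).add o₅.of_uncurry_left)
    (fun t => (m₆.of_uncurry_left.add n₆.of_uncurry_left).add o₆.of_uncurry_left)
    (measurable_en y₁ x y₂ Z₁ Z₂ v)
    (fun t ht z => ⟨(d₁ t ht z).trans (up z (by linarith)), (d₂ t ht z).trans (up z (by linarith)),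
      (d₃ t ht z).trans (up z (by linarith)), (d₄ t ht z).trans (up z (by linarith)),
      (d₅ t ht z).trans (up z (by linarith)), (d₆ t ht z).trans (up z (by linarith))⟩)
    (fun t ht z => ((dt_hl y₁ x y₂ Z₁ Z₂ hv0 (hpos t ht) z).add
      (dt_hl y₁ x y₂ Z₁ 0 hv0 (hpos t ht) z)).add (dt_hl y₁ x y₂ 0 Z₂ hv0 (hpos t ht) z))
    (fun t ht z => ((dq_hA y₁ x y₂ Z₁ Z₂ hv0 (hpos t ht) z).add
      (dq_hA y₁ x y₂ Z₁ 0 hv0 (hpos t ht) z)).add (dq_hA y₁ x y₂ 0 Z₂ hv0 (hpos t ht) z))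
    (fun t ht z => ((dp_hB y₁ x y₂ Z₁ Z₂ hv0 (hpos t ht) z).add
      (dp_hB y₁ x y₂ Z₁ 0 hv0 (hpos t ht) z)).add (dp_hB y₁ x y₂ 0 Z₂ hv0 (hpos t ht) z))
    (fun t _ z => ⟨en_nonneg y₁ x y₂ Z₁ Z₂ v t z, pointwise y₁ x y₂ Z₁ Z₂ hv t z⟩)
  rw [Th_eq y₁ x y₂ Z₁ Z₂ hv0 h₁, Th_eq y₁ x y₂ Z₁ Z₂ hv0 (lt_of_lt_of_le h₁ h12)]
  refine ⟨by linarith [key.1], key.2.trans (le_of_eq ?_)⟩
  congr 1
  ring

end Crest.Agent.R72
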