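/-
R72/Scal: scalar inequalities (sums over dyadic scales, powers 3/2).
Skeleton by helper40; keep the statements unchanged (add any helper lemmas you like).
-/
import Crest.Agent.R72.Defs

set_option autoImplicit false
set_option linter.unusedSectionVars false

namespace Crest.Agent.R72

lemma Scal_four (m : ℤ) : (4 : ℝ) ^ m = ((2 : ℝ) ^ m) ^ 2 := by
  rw [sq, ← mul_zpow]; norm_num

lemma Scal_eight (m : ℤ) : (8 : ℝ) ^ m = ((2 : ℝ) ^ m) ^ 3 := by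
  rw [pow_succ, ← Scal_four, ← mul_zpow]; norm_num

lemma Scal_rpow32 {x : ℝ} (hx : 0 ≤ x) : x ^ (3 / 2 : ℝ) = √x ^ 3 := by
  rw [Real.sqrt_eq_rpow, ← Real.rpow_natCast, ← Real.rpow_mul hx]
  norm_num

lemma Scal_term {a b t c : ℝ} (ha : 0 < a) (hb : 0 ≤ b) (hba : b ≤ a) (ht : 0 < t)
    (h : c * (t ^ 2 + a ^ 2) ^ 2 ≤ a * t ^ 3) :
    c * (a * b ^ 2) ≤ t ^ 3 * (a ^ 2 / (t ^ 2 + a ^ 2) * (b ^ 2 / (t ^ 2 + b ^ 2))) := by
  have h1 : b ^ 2 / (t ^ 2 + a ^ 2) ≤ b ^ 2 / (t ^ 2 + b ^ 2) := by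
    have := pow_le_pow_left₀ hb hba 2
    exact div_le_div_of_nonneg_left (by positivity) (by positivity) (by linarith)
  have h2 : c ≤ a * t ^ 3 / (t ^ 2 + a ^ 2) ^ 2 := by
    rw [le_div_iff₀ (by positivity)]; exact h
  calc c * (a * b ^ 2) ≤ a * t ^ 3 / (t ^ 2 + a ^ 2) ^ 2 * (a * b ^ 2) :=
        mul_le_mul_of_nonneg_right h2 (by positivity)
    _ = t ^ 3 * (a ^ 2 / (t ^ 2 + a ^ 2) * (b ^ 2 / (t ^ 2 + a ^ 2))) := by
        field_simp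
    _ ≤ _ := by gcongr

lemma Scal_f1 {r : ℝ} (h1 : 1 ≤ r) (h2 : r ≤ 2) : 1 / 4 * (r ^ 2 + 1) ^ 2 ≤ r ^ 3 := by
  have h3 : 0 ≤ (r - 1) * (r ^ 2 * (3 - r) + r + 1) :=
    mul_nonneg (by linarith) (by have := mul_nonneg (sq_nonneg r) (by linarith : 0 ≤ 3 - r); linarith)
  nlinarith

lemma Scal_f2 {r : ℝ} (h1 : 2 ≤ r) (h2 : r ≤ 4) : 13 / 60 * (r ^ 2 + 1) ^ 2 ≤ r ^ 3 := by
  have h3 : 0 ≤ r ^ 2 * ((4 - r) * (r - 2)) :=
    mul_nonneg (sq_nonneg r) (mul_nonneg (by linarith) (by linarith))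
  have h4 : 0 ≤ (4 - r) * (r - 2) := mul_nonneg (by linarith) (by linarith)
  have h5 : 0 ≤ r * ((4 - r) * (r - 2)) := mul_nonneg (by linarith) h4
  nlinarith

lemma Scal_f3 {r : ℝ} (h1 : 4 ≤ r) (h2 : r ≤ 8) : 7 / 60 * (r ^ 2 + 1) ^ 2 ≤ r ^ 3 := by
  have h3 : 0 ≤ r ^ 2 * ((8 - r) * (r - 4)) :=
    mul_nonneg (sq_nonneg r) (mul_nonneg (by linarith) (by linarith))
  have h4 : 0 ≤ (8 - r) * (r - 4) := mul_nonneg (by linarith) (by linarith)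
  have h5 : 0 ≤ r * ((8 - r) * (r - 4)) := mul_nonneg (by linarith) h4
  nlinarith

lemma Scal_scale {a r c : ℝ} (ha : 0 < a) (h : c * (r ^ 2 + 1) ^ 2 ≤ r ^ 3) :
    c * ((r * a) ^ 2 + a ^ 2) ^ 2 ≤ a * (r * a) ^ 3 := by
  have := mul_le_mul_of_nonneg_right h (by positivity : 0 ≤ a ^ 4)
  nlinarith

lemma Scal_lower {a b : ℝ} (ha : 0 ≤ a) (hb : 0 ≤ b) (hba : b ≤ a) :
    ∃ 𝓜₀ : Finset ℤ, ∀ 𝓜 : Finset ℤ, 𝓜₀ ⊆ 𝓜 → 7 / 12 * (a * b ^ 2) ≤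
      ∑ m ∈ 𝓜, (8 : ℝ) ^ m * (a ^ 2 / ((4 : ℝ) ^ m + a ^ 2) * (b ^ 2 / ((4 : ℝ) ^ m + b ^ 2))) := by
  rcases ha.eq_or_lt with rfl | ha
  · exact ⟨∅, fun B _ => by simp⟩
  obtain ⟨k, hk1, hk2⟩ := exists_mem_Ioc_zpow ha (by norm_num : (1 : ℝ) < 2)
  refine ⟨{k + 1, k + 2, k + 3}, fun B hB => ?_⟩
  refine le_trans ?_ (Finset.sum_le_sum_of_subset_of_nonneg hB fun m _ _ => by positivity)
  rw [Finset.sum_insert (by simp), Finset.sum_pair (by simp)]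
  simp only [Scal_four, Scal_eight]
  set r : ℝ := (2 : ℝ) ^ (k + 1) / a with hr
  have e1 : (2 : ℝ) ^ (k + 1) = r * a := by rw [hr]; field_simp
  have e2 : (2 : ℝ) ^ (k + 2) = 2 * r * a := by
    rw [show k + 2 = k + 1 + 1 by ring, zpow_add_one₀ two_ne_zero, e1]; ring
  have e3 : (2 : ℝ) ^ (k + 3) = 4 * r * a := by
    rw [show k + 3 = k + 2 + 1 by ring, zpow_add_one₀ two_ne_zero, e2]; ring
  have hr1 : 1 ≤ r := by rw [hr, le_div_iff₀ ha]; linarith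
  have hr2 : r ≤ 2 := by
    rw [hr, div_le_iff₀ ha, zpow_add_one₀ two_ne_zero]; linarith
  rw [e1, e2, e3]
  have t1 := Scal_term ha hb hba (by positivity) (Scal_scale ha (Scal_f1 hr1 hr2))
  have t2 := Scal_term ha hb hba (by positivity)
    (Scal_scale ha (Scal_f2 (r := 2 * r) (by linarith) (by linarith)))
  have t3 := Scal_term ha hb hba (by positivity)
    (Scal_scale ha (Scal_f3 (r := 4 * r) (by linarith) (by linarith)))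
  linarith

/-- telescoping: if `f m ≤ h (m+1) - h m` with `f ≥ 0`, `0 ≤ h ≤ c`, then every finite sum of `f` is `≤ c`
(enlarge the finset to an interval `Finset.Ico (-M) M`). -/
theorem sum_le_of_telescope {f h : ℤ → ℝ} {c : ℝ} (hf : ∀ m, 0 ≤ f m)
    (hfh : ∀ m, f m ≤ h (m + 1) - h m) (h0 : ∀ m, 0 ≤ h m) (hc : ∀ m, h m ≤ c) (𝓜 : Finset ℤ) :
    ∑ m ∈ 𝓜, f m ≤ c := by
  have hmono : Monotone h := monotone_int_of_le_succ fun m => by linarith [hf m, hfh m]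
  have key : ∀ (A : Finset ℤ) (b : ℤ), (∀ m ∈ A, m < b) → ∑ m ∈ A, f m ≤ h b := by
    intro A
    induction A using Finset.induction_on_max with
    | empty => intro b _; simpa using h0 b
    | insert a A ha ih =>
      intro b hb
      have hna : a ∉ A := fun h' => lt_irrefl a (ha a h')
      rw [Finset.sum_insert hna]
      have h1 := ih a ha
      have h2 : h (a + 1) ≤ h b := hmono (by have := hb a (Finset.mem_insert_self a A); omega)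
      linarith [hfh a]
  obtain ⟨b, hb⟩ := 𝓜.bddAbove
  exact (key 𝓜 (b + 1) fun m hm => by have := hb (Finset.mem_coe.2 hm); omega).trans (hc _)

/-- Recipe: for `x > 0` put `ρ = 2^m / √x`; the term is `√x ρ / (1 + ρ²)`, and with `h ρ = ρ / (1 + ρ)`,
`h (2ρ) - h ρ = ρ / ((1 + ρ)(1 + 2ρ))`, `(1 + ρ)(1 + 2ρ) ≤ 4 (1 + ρ²)`. -/
theorem sum_rho_le (𝓜 : Finset ℤ) {x : ℝ} (hx : 0 ≤ x) :
    ∑ m ∈ 𝓜, (2 : ℝ) ^ m * (x / ((4 : ℝ) ^ m + x)) ≤ 4 * √x := by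
  obtain ⟨s, hs, rfl⟩ : ∃ s : ℝ, 0 ≤ s ∧ x = s ^ 2 := ⟨√x, Real.sqrt_nonneg x, (Real.sq_sqrt hx).symm⟩
  rw [Real.sqrt_sq hs]
  refine sum_le_of_telescope (h := fun m => 4 * s * ((2 : ℝ) ^ m / (s + (2 : ℝ) ^ m)))
    (fun m => by positivity) (fun m => ?_) (fun m => by positivity) (fun m => ?_) 𝓜
  · rw [Scal_four, zpow_add_one₀ (two_ne_zero)]
    have ht : 0 < (2 : ℝ) ^ m := by positivity
    generalize (2 : ℝ) ^ m = t at ht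
    have e : 4 * s * (t * 2 / (s + t * 2)) - 4 * s * (t / (s + t)) =
        4 * (t * s ^ 2) / ((s + t * 2) * (s + t)) := by
      field_simp
      ring
    rw [e, ← mul_div_assoc, div_le_div_iff₀ (by positivity) (by positivity)]
    have h1 : (s + t * 2) * (s + t) ≤ 4 * (t ^ 2 + s ^ 2) := by nlinarith [sq_nonneg (s - t)]
    have h2 : 0 ≤ t * s ^ 2 := by positivity
    nlinarith [mul_le_mul_of_nonneg_left h1 h2]
  · have ht : 0 < (2 : ℝ) ^ m := by positivity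
    have h1 : (2 : ℝ) ^ m / (s + (2 : ℝ) ^ m) ≤ 1 := by
      rw [div_le_one (by positivity)]; linarith
    have := mul_le_mul_of_nonneg_left h1 (by positivity : 0 ≤ 4 * s)
    linarith

/-- Recipe: the term is `x^{3/2} ρ / (1 + 2ρ²)` and `(1 + ρ)(1 + 2ρ) ≤ (5/2)(1 + 2ρ²)`. -/
theorem sum_theta_le (𝓜 : Finset ℤ) {x : ℝ} (hx : 0 ≤ x) :
    ∑ m ∈ 𝓜, (8 : ℝ) ^ m * (((4 : ℝ) ^ (-m) * x) ^ 2 / (2 + (4 : ℝ) ^ (-m) * x)) ≤
      5 / 2 * x ^ (3 / 2 : ℝ) := by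
  rw [Scal_rpow32 hx]
  obtain ⟨s, hs, rfl⟩ : ∃ s : ℝ, 0 ≤ s ∧ x = s ^ 2 := ⟨√x, Real.sqrt_nonneg x, (Real.sq_sqrt hx).symm⟩
  rw [Real.sqrt_sq hs]
  refine sum_le_of_telescope (h := fun m => 5 / 2 * s ^ 3 * ((2 : ℝ) ^ m / (s + (2 : ℝ) ^ m)))
    (fun m => by positivity) (fun m => ?_) (fun m => by positivity) (fun m => ?_) 𝓜
  · rw [zpow_neg, Scal_four, Scal_eight, zpow_add_one₀ (two_ne_zero)]
    have ht : 0 < (2 : ℝ) ^ m := by positivity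
    generalize (2 : ℝ) ^ m = t at ht
    have e : 5 / 2 * s ^ 3 * (t * 2 / (s + t * 2)) - 5 / 2 * s ^ 3 * (t / (s + t)) =
        5 / 2 * (t * s ^ 4) / ((s + t * 2) * (s + t)) := by
      field_simp
      ring
    have e' : t ^ 3 * (((t ^ 2)⁻¹ * s ^ 2) ^ 2 / (2 + (t ^ 2)⁻¹ * s ^ 2)) =
        t * s ^ 4 / (2 * t ^ 2 + s ^ 2) := by
      field_simp
    rw [e, e', div_le_div_iff₀ (by positivity) (by positivity)]
    have h1 : (s + t * 2) * (s + t) ≤ 5 / 2 * (2 * t ^ 2 + s ^ 2) := by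
      nlinarith [sq_nonneg (s - t)]
    have h2 : 0 ≤ t * s ^ 4 := by positivity
    nlinarith [mul_le_mul_of_nonneg_left h1 h2]
  · have ht : 0 < (2 : ℝ) ^ m := by positivity
    have h1 : (2 : ℝ) ^ m / (s + (2 : ℝ) ^ m) ≤ 1 := by
      rw [div_le_one (by positivity)]; linarith
    have := mul_le_mul_of_nonneg_left h1 (by positivity : 0 ≤ 5 / 2 * s ^ 3)
    linarith

/-- Recipe: WLOG `b ≤ a`, `0 < a`.  The term is at least `a b² f ρ`, `ρ = 2^m / a`,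
`f ρ = ρ³ / (1 + ρ²)²`.  Choose `m₀` with `ρ ∈ [1, 2)` (`exists_mem_Ico_zpow`), `𝓜₀ = {m₀, m₀+1, m₀+2}`;
`f ≥ 1/4` on `[1,2]`, `f ≥ 0.22` on `[2,4]`, `f ≥ 0.12` on `[4,8]`. -/
theorem exists_lower {a b : ℝ} (ha : 0 ≤ a) (hb : 0 ≤ b) : ∃ 𝓜₀ : Finset ℤ, ∀ 𝓜 : Finset ℤ, 𝓜₀ ⊆ 𝓜 →
    7 / 12 * (max a b * min a b ^ 2) ≤
      ∑ m ∈ 𝓜, (8 : ℝ) ^ m * (a ^ 2 / ((4 : ℝ) ^ m + a ^ 2) * (b ^ 2 / ((4 : ℝ) ^ m + b ^ 2))) := by
  rcases le_total b a with h | h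
  · obtain ⟨A, hA⟩ := Scal_lower ha hb h
    refine ⟨A, fun B hB => ?_⟩
    rw [max_eq_left h, min_eq_right h]
    exact hA B hB
  · obtain ⟨A, hA⟩ := Scal_lower hb ha h
    refine ⟨A, fun B hB => ?_⟩
    rw [max_eq_right h, min_eq_left h]
    refine (hA B hB).trans (le_of_eq (Finset.sum_congr rfl fun m _ => ?_))
    ring

theorem rpow32_eq {x : ℝ} (hx : 0 ≤ x) : x ^ (3 / 2 : ℝ) = x * √x := by
  rw [Scal_rpow32 hx, pow_succ, Real.sq_sqrt hx]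

theorem rpow32_eq' {x : ℝ} (hx : 0 ≤ x) : x ^ (3 / 2 : ℝ) = √x ^ 3 := by
  exact Scal_rpow32 hx

theorem sq_rpow32 (x : ℝ) : (x ^ 2) ^ (3 / 2 : ℝ) = |x| ^ 3 := by
  rw [Scal_rpow32 (sq_nonneg x), Real.sqrt_sq_eq_abs]

theorem add_rpow32_le {x y : ℝ} (hx : 0 ≤ x) (hy : 0 ≤ y) :
    (x + y) ^ (3 / 2 : ℝ) ≤ 3 / 2 * (x ^ (3 / 2 : ℝ) + y ^ (3 / 2 : ℝ)) := by
  rw [Scal_rpow32 hx, Scal_rpow32 hy, Scal_rpow32 (add_nonneg hx hy)]
  have hw := Real.sq_sqrt (add_nonneg hx hy)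
  have hu := Real.sq_sqrt hx
  have hv := Real.sq_sqrt hy
  have hu0 := Real.sqrt_nonneg x
  have hv0 := Real.sqrt_nonneg y
  generalize √(x + y) = w at hw
  generalize √x = u at hu hu0
  generalize √y = v at hv hv0
  have h1 : (w ^ 3) ^ 2 = (u ^ 2 + v ^ 2) ^ 3 := by
    rw [hu, hv, ← hw]; ring
  have h2 : 0 ≤ (u - v) ^ 2 * (u ^ 4 + 2 * u ^ 3 * v + 2 * u * v ^ 3 + v ^ 4) := by positivity
  refine le_of_sq_le_sq ?_ (by positivity)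
  rw [h1]
  nlinarith [sq_nonneg (u ^ 3 + v ^ 3)]

theorem amgm3 {x y z : ℝ} (hx : 0 ≤ x) (hy : 0 ≤ y) (hz : 0 ≤ z) :
    x * y * z ≤ (x ^ 3 + y ^ 3 + z ^ 3) / 3 := by
  have h : 0 ≤ (x + y + z) * ((x - y) ^ 2 + (y - z) ^ 2 + (z - x) ^ 2) := by positivity
  nlinarith

/-- Jensen / Hoelder with total weight at most `4`
(`Real.inner_le_weight_mul_Lp_of_nonneg` or `NNReal.rpow_arith_mean_le_arith_mean_rpow`). -/
theorem hs_rpow32_le {ι : Type} [Fintype ι] (F : Matrix ι ι ℝ) {α β : ι → ℝ} (hα : ∀ a, 0 ≤ α a)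
    (hβ : ∀ b, 0 ≤ β b) (hα2 : ∑ a, α a ≤ 2) (hβ2 : ∑ b, β b ≤ 2) :
    hs F α β ^ (3 / 2 : ℝ) ≤ 2 * ∑ a, ∑ b, α a * β b * |F a b| ^ 3 := by
  have hH : 0 ≤ hs F α β :=
    Finset.sum_nonneg fun a _ => Finset.sum_nonneg fun b _ =>
      mul_nonneg (mul_nonneg (hα a) (hβ b)) (sq_nonneg _)
  rw [Scal_rpow32 hH]
  have hs2 := Real.sq_sqrt hH
  have hs0 := Real.sqrt_nonneg (hs F α β)
  generalize √(hs F α β) = s at hs2 hs0
  have hW : ∑ a, ∑ b, α a * β b ≤ 4 := by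
    rw [← Finset.sum_mul_sum]
    have := mul_le_mul hα2 hβ2 (Finset.sum_nonneg fun b _ => hβ b) (by norm_num)
    linarith
  have h1 : 3 * s * hs F α β ≤
      s ^ 3 / 4 * ∑ a, ∑ b, α a * β b + 4 * ∑ a, ∑ b, α a * β b * |F a b| ^ 3 := by
    simp only [hs, Finset.mul_sum, ← Finset.sum_add_distrib]
    refine Finset.sum_le_sum fun a _ => Finset.sum_le_sum fun b _ => ?_
    have hw := mul_nonneg (hα a) (hβ b)
    have hy := abs_nonneg (F a b)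
    rw [← sq_abs (F a b)]
    generalize |F a b| = y at hy
    generalize α a * β b = w at hw
    have h2 : 0 ≤ w * ((y - s / 2) ^ 2 * (2 * y + s / 2)) := by positivity
    nlinarith
  have h2 : s ^ 3 / 4 * ∑ a, ∑ b, α a * β b ≤ s ^ 3 / 4 * 4 :=
    mul_le_mul_of_nonneg_left hW (by positivity)
  rw [← hs2] at h1
  nlinarith

/-- homogenisation: a bound by sums of cubes that is stable under scaling gives the product bound.
Recipe: for `η > 0` use `l_j = ((X+η)(Y+η)(Z+η))^{1/9} / (·+η)^{1/3}`, then let `η → 0`. -/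
theorem le_prod_of_forall_scale {S c X Y Z : ℝ} (hc : 0 ≤ c) (hX : 0 ≤ X) (hY : 0 ≤ Y) (hZ : 0 ≤ Z)
    (h : ∀ l₀ l₁ l₂ : ℝ, 0 < l₀ → 0 < l₁ → 0 < l₂ →
      l₀ * l₁ * l₂ * S ≤ c * (l₀ ^ 3 * X + l₁ ^ 3 * Y + l₂ ^ 3 * Z)) :
    S ≤ 3 * c * X ^ (1 / 3 : ℝ) * Y ^ (1 / 3 : ℝ) * Z ^ (1 / 3 : ℝ) := by
  have hcube : ∀ {W : ℝ}, 0 ≤ W → (W ^ (1 / 3 : ℝ)) ^ 3 = W := by
    intro W hW
    rw [← Real.rpow_natCast, ← Real.rpow_mul hW]
    norm_num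
  have hx3 := hcube hX
  have hy3 := hcube hY
  have hz3 := hcube hZ
  have hx0 := Real.rpow_nonneg hX (1 / 3 : ℝ)
  have hy0 := Real.rpow_nonneg hY (1 / 3 : ℝ)
  have hz0 := Real.rpow_nonneg hZ (1 / 3 : ℝ)
  generalize X ^ (1 / 3 : ℝ) = x at hx3 hx0
  generalize Y ^ (1 / 3 : ℝ) = y at hy3 hy0
  generalize Z ^ (1 / 3 : ℝ) = z at hz3 hz0
  subst hx3 hy3 hz3
  have hone : ∀ {w η : ℝ}, 0 ≤ w → 0 < η → (w + η)⁻¹ ^ 3 * w ^ 3 ≤ 1 := by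
    intro w η hw hη
    rw [← mul_pow]
    refine pow_le_one₀ (by positivity) ?_
    rw [inv_mul_le_iff₀ (by positivity)]
    linarith
  have hη : ∀ η : ℝ, 0 < η → S ≤ 3 * c * (x + η) * (y + η) * (z + η) := by
    intro η hη
    have h1 := h (x + η)⁻¹ (y + η)⁻¹ (z + η)⁻¹ (by positivity) (by positivity) (by positivity)
    have h2 : c * ((x + η)⁻¹ ^ 3 * x ^ 3 + (y + η)⁻¹ ^ 3 * y ^ 3 + (z + η)⁻¹ ^ 3 * z ^ 3) ≤ c * 3 :=
      mul_le_mul_of_nonneg_left (by linarith [hone hx0 hη, hone hy0 hη, hone hz0 hη]) hc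
    have h3 := h1.trans h2
    rw [← mul_inv, ← mul_inv, inv_mul_le_iff₀ (by positivity)] at h3
    linarith
  have hcont : Continuous fun η : ℝ => 3 * c * (x + η) * (y + η) * (z + η) := by fun_prop
  have ht : Filter.Tendsto (fun η : ℝ => 3 * c * (x + η) * (y + η) * (z + η))
      (nhdsWithin 0 (Set.Ioi 0)) (nhds (3 * c * x * y * z)) := by
    have := (hcont.tendsto 0).mono_left (nhdsWithin_le_nhds (s := Set.Ioi (0 : ℝ)))
    simpa using this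
  exact ge_of_tendsto ht (Filter.eventually_of_mem self_mem_nhdsWithin fun η h' => hη η h')

end Crest.Agent.R72
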