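/-
R72/Jump: pointwise terminal bound and pointwise jump bound, summed over scales.
Skeleton by helper40; keep the statements unchanged (add any helper lemmas you like).
-/
import Crest.Agent.R72.Mat2
import Crest.Agent.R72.Scal

set_option autoImplicit false
set_option linter.unusedSectionVars false

namespace Crest.Agent.R72

open Matrix

variable {ι : Type} [Fintype ι] [DecidableEq ι]

/-- `Phi_le` and `sum_theta_le`. -/
theorem sum_Phi_le {R : Matrix ι ι ℝ} {w : ι → ℝ} (hR : R.PosSemidef) (hw : ∀ b, 0 ≤ w b)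
    (𝓜 : Finset ℤ) :
    ∑ m ∈ 𝓜, (8 : ℝ) ^ m * Phi ((4 : ℝ) ^ (-m) • R) w ≤
      5 / 2 * (R * diagonal w).trace ^ (3 / 2 : ℝ) := by
  refine le_trans (Finset.sum_le_sum fun m _ => ?_) (sum_theta_le 𝓜 (trace_Rw_nonneg hR hw))
  have h := Phi_le (hR.smul (zpow_nonneg (by norm_num : (0 : ℝ) ≤ 4) (-m))) hw
  rw [smul_mul_assoc, trace_smul, smul_eq_mul] at h
  exact mul_le_mul_of_nonneg_left h (by positivity)

theorem jump_spectral {D : Matrix ι ι ℝ} (hD : D.PosSemidef) :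
    ∃ (U : Matrix ι ι ℝ) (lam : ι → ℝ), U * Uᵀ = 1 ∧ Uᵀ * U = 1 ∧ (∀ i, 0 ≤ lam i) ∧
      D = U * diagonal lam * Uᵀ := by
  refine ⟨hD.1.eigenvectorUnitary, hD.1.eigenvalues, ?_, ?_, hD.eigenvalues_nonneg, ?_⟩
  · rw [← conjTranspose_eq_transpose_of_trivial]
    exact hD.1.eigenvectorUnitary.2.2
  · rw [← conjTranspose_eq_transpose_of_trivial]
    exact hD.1.eigenvectorUnitary.2.1
  · rw [← conjTranspose_eq_transpose_of_trivial]
    exact hD.1.spectral_theorem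

/-- the operator `J = ∑ 2^m (1 - (1 + 4^(-m) D)⁻¹)` satisfies `J² ≤ 16 D` on the diagonal.
Recipe: spectral theorem for `D`, `sum_rho_le` for each eigenvalue. -/
theorem J_col_le {D : Matrix ι ι ℝ} (hD : D.PosSemidef) (𝓜 : Finset ℤ) (c : ι) :
    ∑ c', (∑ m ∈ 𝓜, (2 : ℝ) ^ m • (1 - (1 + (4 : ℝ) ^ (-m) • D)⁻¹)) c' c ^ 2 ≤ 16 * D c c := by
  obtain ⟨U, lam, h1, h2, h3, rfl⟩ := jump_spectral hD
  have hmul : ∀ f g : ι → ℝ, U * diagonal f * Uᵀ * (U * diagonal g * Uᵀ) =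
      U * diagonal (fun i => f i * g i) * Uᵀ := fun f g => by
    rw [← diagonal_mul_diagonal]
    simp only [Matrix.mul_assoc]
    rw [← Matrix.mul_assoc Uᵀ U, h2, Matrix.one_mul]
  have hone : U * diagonal (fun _ => (1 : ℝ)) * Uᵀ = 1 := by
    rw [diagonal_one, Matrix.mul_one, h1]
  have hent : ∀ (f : ι → ℝ) (a b : ι), (U * diagonal f * Uᵀ) a b = ∑ i, U a i * f i * U b i :=
    fun f a b => by simp [Matrix.mul_apply, diagonal_apply]
  have hinv : ∀ m : ℤ, (1 + (4 : ℝ) ^ (-m) • (U * diagonal lam * Uᵀ))⁻¹ =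
      U * diagonal (fun i => 1 - lam i / (4 ^ m + lam i)) * Uᵀ := fun m => by
    have e : 1 + (4 : ℝ) ^ (-m) • (U * diagonal lam * Uᵀ) =
        U * diagonal (fun i => 1 + 4 ^ (-m) * lam i) * Uᵀ := by
      ext a b
      rw [← hone, Matrix.add_apply, Matrix.smul_apply, hent, hent, hent, smul_eq_mul, Finset.mul_sum,
        ← Finset.sum_add_distrib]
      exact Finset.sum_congr rfl fun i _ => by ring
    refine Matrix.inv_eq_right_inv ?_
    rw [e, hmul, ← hone]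
    congr 3
    funext i
    have := h3 i
    have h4 : (0 : ℝ) < 4 ^ m := by positivity
    rw [_root_.zpow_neg]
    field_simp
    ring
  set j : ι → ℝ := fun i => ∑ m ∈ 𝓜, (2 : ℝ) ^ m * (lam i / (4 ^ m + lam i)) with hj
  have hJ : ∑ m ∈ 𝓜, (2 : ℝ) ^ m • (1 - (1 + (4 : ℝ) ^ (-m) • (U * diagonal lam * Uᵀ))⁻¹) =
      U * diagonal j * Uᵀ := by
    ext a b
    simp only [hinv, Matrix.sum_apply, Matrix.smul_apply, Matrix.sub_apply, smul_eq_mul]
    rw [← hone]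
    simp only [hent, hj, ← Finset.sum_sub_distrib, Finset.mul_sum, Finset.sum_mul]
    rw [Finset.sum_comm]
    exact Finset.sum_congr rfl fun i _ => Finset.sum_congr rfl fun m _ => by ring
  have hsq : ∑ c', (U * diagonal j * Uᵀ) c' c ^ 2 = (U * diagonal (fun i => j i * j i) * Uᵀ) c c := by
    rw [← hmul, Matrix.mul_apply]
    refine Finset.sum_congr rfl fun c' _ => ?_
    rw [sq]
    congr 1
    rw [hent, hent]
    exact Finset.sum_congr rfl fun i _ => by ring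
  rw [hJ, hsq, hent, hent, Finset.mul_sum]
  refine Finset.sum_le_sum fun i _ => ?_
  have a1 : j i ≤ 4 * √(lam i) := sum_rho_le 𝓜 (h3 i)
  have a2 : 0 ≤ j i := Finset.sum_nonneg fun m _ => by
    have := h3 i
    positivity
  have a3 : j i * j i ≤ 16 * lam i := by
    have := mul_self_le_mul_self a2 a1
    have := Real.mul_self_sqrt (h3 i)
    nlinarith
  nlinarith [mul_le_mul_of_nonneg_left a3 (mul_self_nonneg (U c i))]

/-- Recipe: put `R = R₁ + gram Z γ`, `R' = R₁ + gram Z' γ`, `s = 4^(-m)`, `Δ = Z' - Z`.  By `LL_tangent` at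
`s R'`: `Phi (s R') w - Phi (s R) w ≤ s tr ((w - N') (R' - R))`, `w - N' = w M' w = √w μ √w` with
`μ = 1 - (1 + s D')⁻¹` PSD, `D' = √w R' √w` (`NN_eq`, `MM_conj`).
`R' - R = Z'ᵀ γ Δ + Δᵀ γ Z' - Δᵀ γ Δ`, the last term has the good sign (`trace_mul_nonneg`).  Summing,
the left side is `≤ 2 ∑ a c, γ a * Δ a c * √(w c) * ∑ c', Z' a c' * √(w c') * J c' c`; Cauchy-Schwarz in `c'`
and `J_col_le` (`D' c c = w c * R' c c`). -/
theorem jump_le {R₁ : Matrix ι ι ℝ} (hR : R₁.PosSemidef) (Z Z' : Matrix ι ι ℝ) {γ w : ι → ℝ}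
    (hγ : ∀ a, 0 ≤ γ a) (hw : ∀ b, 0 ≤ w b) (𝓜 : Finset ℤ) :
    ∑ m ∈ 𝓜, (8 : ℝ) ^ m * (Phi ((4 : ℝ) ^ (-m) • (R₁ + gram Z' γ)) w -
        Phi ((4 : ℝ) ^ (-m) • (R₁ + gram Z γ)) w) ≤
      8 * ∑ a, ∑ c, |Z' a c - Z a c| * (γ a * w c) * √((R₁ + gram Z' γ) c c) *
        √(∑ c', w c' * Z' a c' ^ 2) := by
  have hRZ := hR.add (gram_psd Z hγ)
  have hRZ' := hR.add (gram_psd Z' hγ)
  have hdiff : R₁ + gram Z' γ - (R₁ + gram Z γ) = ((Z' - Z)ᵀ * diagonal γ * Z')ᵀ +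
      (Z' - Z)ᵀ * diagonal γ * Z' - gram (Z' - Z) γ := by
    simp only [gram, transpose_mul, transpose_sub, transpose_transpose, diagonal_transpose,
      Matrix.mul_sub, Matrix.sub_mul, Matrix.mul_assoc]
    abel
  generalize R₁ + gram Z' γ = R' at hRZ' hdiff ⊢
  generalize R₁ + gram Z γ = R at hRZ hdiff ⊢
  set W : Matrix ι ι ℝ := diagonal fun b => √(w b) with hW
  have hWW : W * W = diagonal w := by
    rw [hW, diagonal_mul_diagonal]
    congr 1
    funext b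
    exact Real.mul_self_sqrt (hw b)
  have hD : (W * R' * W).PosSemidef := by
    have := hRZ'.conjTranspose_mul_mul_same W
    rwa [conjTranspose_eq_transpose_of_trivial, hW, diagonal_transpose] at this
  set A : Matrix ι ι ℝ := (Z' - Z)ᵀ * diagonal γ * Z' with hA
  have step : ∀ m : ℤ, (8 : ℝ) ^ m * (Phi ((4 : ℝ) ^ (-m) • R') w - Phi ((4 : ℝ) ^ (-m) • R) w) ≤
      2 * (W * ((2 : ℝ) ^ m • (1 - (1 + (4 : ℝ) ^ (-m) • (W * R' * W))⁻¹)) * W * A).trace := by
    intro m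
    have hs : (0 : ℝ) ≤ 4 ^ (-m) := by positivity
    have h1 := LL_tangent (hRZ'.smul hs) (hRZ.smul hs) hw
    have h2 := NN_le (hRZ'.smul hs) hw
    have h3 : diagonal w - NN ((4 : ℝ) ^ (-m) • R') w =
        W * (1 - (1 + (4 : ℝ) ^ (-m) • (W * R' * W))⁻¹) * W := by
      have := MM_conj (hRZ'.smul hs) hw
      rw [← hW, Matrix.mul_smul, Matrix.smul_mul] at this
      rw [NN_eq (hRZ'.smul hs) hw, sub_sub_cancel, ← this, ← hWW]
      simp only [Matrix.mul_assoc]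
    have h4 : (diagonal w - NN ((4 : ℝ) ^ (-m) • R') w)ᵀ = diagonal w - NN ((4 : ℝ) ^ (-m) • R') w := by
      rw [transpose_sub, diagonal_transpose, NN_transpose (hRZ'.smul hs) hw]
    have h5 := trace_mul_nonneg h2 (gram_psd (Z' - Z) hγ)
    have h6 : Phi ((4 : ℝ) ^ (-m) • R') w - Phi ((4 : ℝ) ^ (-m) • R) w ≤
        4 ^ (-m) * ((diagonal w - NN ((4 : ℝ) ^ (-m) • R') w) * (R' - R)).trace := by
      unfold Phi
      simp only [Matrix.mul_sub, Matrix.sub_mul, trace_sub, Matrix.mul_smul, Matrix.smul_mul,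
        trace_smul, smul_eq_mul, trace_mul_comm (diagonal w)] at h1 ⊢
      linarith
    rw [Matrix.mul_smul, Matrix.smul_mul, Matrix.smul_mul, trace_smul, ← h3]
    generalize diagonal w - NN ((4 : ℝ) ^ (-m) • R') w = Q at h4 h5 h6
    have h7 : (Q * Aᵀ).trace = (Q * A).trace := by
      rw [← trace_transpose, transpose_mul, transpose_transpose, h4, trace_mul_comm]
    rw [hdiff, Matrix.mul_sub, Matrix.mul_add, trace_sub, trace_add, h7] at h6
    have h8 : (8 : ℝ) ^ m * 4 ^ (-m) = 2 ^ m := by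
      rw [_root_.zpow_neg, ← div_eq_mul_inv, ← div_zpow]
      norm_num
    have h9 : (0 : ℝ) < 2 ^ m := by positivity
    refine (mul_le_mul_of_nonneg_left h6 (by positivity)).trans ?_
    rw [← mul_assoc, h8, smul_eq_mul]
    nlinarith
  refine (Finset.sum_le_sum fun m _ => step m).trans ?_
  rw [← Finset.mul_sum, ← trace_sum, ← Finset.sum_mul, ← Finset.sum_mul, ← Finset.mul_sum]
  have hJ := J_col_le hD 𝓜
  generalize ∑ m ∈ 𝓜, (2 : ℝ) ^ m • (1 - (1 + (4 : ℝ) ^ (-m) • (W * R' * W))⁻¹) = J at hJ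
  have e : (W * J * W * A).trace = ∑ a, ∑ c, (Z' a c - Z a c) * (γ a * √(w c)) *
      ∑ c', √(w c') * Z' a c' * J c' c := by
    have e1 : ∀ c' c, (W * J * W) c' c = √(w c') * J c' c * √(w c) := fun c' c => by
      rw [hW, mul_diagonal, diagonal_mul]
    have e2 : ∀ c c', A c c' = ∑ a, (Z' a c - Z a c) * γ a * Z' a c' := fun c c' => by
      rw [hA, Matrix.mul_apply]
      exact Finset.sum_congr rfl fun a _ => by rw [mul_diagonal, transpose_apply, Matrix.sub_apply]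
    simp only [Matrix.trace, diag_apply]
    simp only [Matrix.mul_apply (M := W * J * W), e1, e2, Finset.mul_sum]
    rw [Finset.sum_comm]
    refine (Finset.sum_congr rfl fun c _ => Finset.sum_comm).trans (Finset.sum_comm.trans ?_)
    exact Finset.sum_congr rfl fun a _ => Finset.sum_congr rfl fun c _ =>
      Finset.sum_congr rfl fun c' _ => by ring
  rw [e, Finset.mul_sum, Finset.mul_sum]
  refine Finset.sum_le_sum fun a _ => ?_
  rw [Finset.mul_sum, Finset.mul_sum]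
  refine Finset.sum_le_sum fun c _ => ?_
  have b1 : |∑ c', √(w c') * Z' a c' * J c' c| ≤
      √(∑ c', w c' * Z' a c' ^ 2) * (4 * (√(w c) * √(R' c c))) := by
    have c0 : 0 ≤ R' c c := hRZ'.diag_nonneg
    refine abs_le_of_sq_le_sq' ?_ (by positivity) |> abs_le.2
    refine (Finset.sum_mul_sq_le_sq_mul_sq _ _ _).trans ?_
    have c1 : ∑ c', (√(w c') * Z' a c') ^ 2 = ∑ c', w c' * Z' a c' ^ 2 :=
      Finset.sum_congr rfl fun c' _ => by rw [mul_pow, Real.sq_sqrt (hw c')]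
    have c2 : 0 ≤ ∑ c', w c' * Z' a c' ^ 2 :=
      Finset.sum_nonneg fun c' _ => mul_nonneg (hw c') (sq_nonneg _)
    rw [c1, mul_pow, Real.sq_sqrt c2]
    refine mul_le_mul_of_nonneg_left ((hJ c).trans (le_of_eq ?_)) c2
    rw [hW, mul_diagonal, diagonal_mul, mul_pow, mul_pow, Real.sq_sqrt c0]
    ring
  have b2 : 0 ≤ γ a * √(w c) := mul_nonneg (hγ a) (Real.sqrt_nonneg _)
  calc 2 * ((Z' a c - Z a c) * (γ a * √(w c)) * ∑ c', √(w c') * Z' a c' * J c' c)
      ≤ 2 * (|Z' a c - Z a c| * (γ a * √(w c)) * |∑ c', √(w c') * Z' a c' * J c' c|) := by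
        refine mul_le_mul_of_nonneg_left ((le_abs_self _).trans (le_of_eq ?_)) (by norm_num)
        rw [abs_mul, abs_mul, abs_of_nonneg b2]
    _ ≤ 2 * (|Z' a c - Z a c| * (γ a * √(w c)) *
        (√(∑ c', w c' * Z' a c' ^ 2) * (4 * (√(w c) * √(R' c c))))) := by gcongr
    _ = 8 * (|Z' a c - Z a c| * (γ a * (√(w c) * √(w c))) * √(R' c c) *
        √(∑ c', w c' * Z' a c' ^ 2)) := by ring
    _ = _ := by rw [Real.mul_self_sqrt (hw c)]

end Crest.Agent.R72
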