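/-
R72/JV: total energy for a second matrix that is piecewise constant in time.
Skeleton by helper40; keep the statements unchanged (add any helper lemmas you like).
-/
import Crest.Agent.R72.Heat
import Crest.Agent.R72.Jump

set_option autoImplicit false
set_option linter.unusedSectionVars false

namespace Crest.Agent.R72

open Matrix MeasureTheory

variable {ι : Type} [Fintype ι] [DecidableEq ι] (y₁ x y₂ : ι → ℝ)

theorem jv_int_sum2 {α : Type} [MeasurableSpace α] {μ : Measure α} (f : ι → ι → α → ℝ)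
    (hf : ∀ a b, Integrable (f a b) μ) :
    Integrable (fun z => ∑ a, ∑ b, f a b z) μ ∧
      ∫ z, ∑ a, ∑ b, f a b z ∂μ = ∑ a, ∑ b, ∫ z, f a b z ∂μ := by
  refine ⟨integrable_finsetSum _ fun a _ => integrable_finsetSum _ fun b _ => hf a b, ?_⟩
  rw [integral_finsetSum _ fun a _ => integrable_finsetSum _ fun b _ => hf a b]
  exact Finset.sum_congr rfl fun a _ => integral_finsetSum _ fun b _ => hf a b

theorem jv_sqrt_mul_le {X Y η : ℝ} (hX : 0 ≤ X) (hY : 0 ≤ Y) (hη : 0 < η) :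
    √X * √Y ≤ η / 2 * X + η⁻¹ / 2 * Y := by
  have h1 := Real.mul_self_sqrt hX
  have h2 := Real.mul_self_sqrt hY
  have h3 : 0 ≤ η⁻¹ * (η * √X - √Y) ^ 2 := by positivity
  have h4 : η⁻¹ * (η * √X - √Y) ^ 2 =
      η * (√X * √X) - 2 * (√X * √Y) + η⁻¹ * (√Y * √Y) := by
    field_simp
    ring
  rw [h4, h1, h2] at h3
  linarith

theorem jv_opt {A B δ : ℝ} (hA : 0 ≤ A) (hB : 0 ≤ B) (hδ : 0 < δ) :
    √(B + δ) / √(A + δ) / 2 * A + (√(B + δ) / √(A + δ))⁻¹ / 2 * B ≤ √(A + δ) * √(B + δ) := by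
  have hA' : 0 < √(A + δ) := Real.sqrt_pos.2 (by linarith)
  have hB' : 0 < √(B + δ) := Real.sqrt_pos.2 (by linarith)
  have h1 := Real.mul_self_sqrt (show 0 ≤ A + δ by linarith)
  have h2 := Real.mul_self_sqrt (show 0 ≤ B + δ by linarith)
  calc _ ≤ √(B + δ) / √(A + δ) / 2 * (√(A + δ) * √(A + δ)) +
        (√(B + δ) / √(A + δ))⁻¹ / 2 * (√(B + δ) * √(B + δ)) := by
        rw [h1, h2]
        gcongr <;> linarith
    _ = _ := by
        field_simp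
        ring

/-- terminal bound.  Recipe: exchange sum and integral (`integrable_be`), `gram_scale`, `sum_Phi_le` three
times, `trace_gram_mul`, `add_rpow32_le`, `hs_rpow32_le`, then `plane_1`, `plane_2`:
`5/2 * (3/2 + 1) * 2 = 25/2`. -/
theorem sum_Th_le (Z₁ Z₂ : Matrix ι ι ℝ) {v t : ℝ} (hv : 1 ≤ v) (ht : 1 ≤ t)
    (k₁ : ∀ τ, 1 ≤ τ → ∀ p, ∑ a, g τ (y₁ a - p) ≤ 2) (k : ∀ τ, 1 ≤ τ → ∀ p, ∑ a, g τ (x a - p) ≤ 2)
    (k₂ : ∀ τ, 1 ≤ τ → ∀ p, ∑ a, g τ (y₂ a - p) ≤ 2) (𝓜 : Finset ℤ) :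
    ∑ m ∈ 𝓜, (8 : ℝ) ^ m * Th y₁ x y₂ ((2 : ℝ) ^ (-m) • Z₁) ((2 : ℝ) ^ (-m) • Z₂) v t ≤
      13 * (cube Z₁ + cube Z₂) := by
  have hv0 : 0 < v := by linarith
  have ht0 : 0 < t := by linarith
  have hvt : 1 ≤ v * t := one_le_mul_of_one_le_of_one_le hv ht
  have hvt0 : 0 < v * t := by linarith
  have I1 := jv_int_sum2 (μ := volume) (fun a b (z : ℝ × ℝ) =>
    g (v * t) (y₁ a - z.1) * g t (x b - z.2) * |Z₁ a b| ^ 3)
    fun a b => (plane_1 hvt0 ht0 (y₁ a) (x b)).1.mul_const _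
  have I2 := jv_int_sum2 (μ := volume) (fun a b (z : ℝ × ℝ) =>
    g (v * t) (y₂ a - (-z.1 - z.2)) * g t (x b - z.2) * |Z₂ a b| ^ 3)
    fun a b => (plane_2 hvt0 ht0 (y₂ a) (x b)).1.mul_const _
  simp only [integral_mul_const, (plane_1 hvt0 ht0 _ _).2, (plane_2 hvt0 ht0 _ _).2, one_mul]
    at I1 I2
  have hc1 : 0 ≤ cube Z₁ := by unfold cube; positivity
  have hc2 : 0 ≤ cube Z₂ := by unfold cube; positivity
  simp only [Th, ← integral_const_mul]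
  rw [← integral_finsetSum _ fun m _ => (integrable_be y₁ x y₂ _ _ hv0 ht0).const_mul _]
  refine (integral_mono (integrable_finsetSum _ fun m _ =>
    (integrable_be y₁ x y₂ _ _ hv0 ht0).const_mul _) ((I1.1.add I2.1).const_mul (25 / 2))
    fun z => ?_).trans ?_
  · have hα : ∀ a, 0 ≤ wv y₁ (v * t) z.1 a := fun a => g_nonneg _ _
    have hγ : ∀ a, 0 ≤ wv y₂ (v * t) (-z.1 - z.2) a := fun a => g_nonneg _ _
    have hw : ∀ a, 0 ≤ wv x t z.2 a := fun a => g_nonneg _ _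
    have b1 := sum_Phi_le ((gram_psd Z₁ hα).add (gram_psd Z₂ hγ)) hw 𝓜
    have b2 := sum_Phi_le (gram_psd Z₁ hα) hw 𝓜
    have b3 := sum_Phi_le (gram_psd Z₂ hγ) hw 𝓜
    rw [add_mul, trace_add] at b1
    rw [trace_gram_mul] at b1 b1 b2 b3
    have b4 := add_rpow32_le (hs_nonneg Z₁ hα hw) (hs_nonneg Z₂ hγ hw)
    have b5 := hs_rpow32_le Z₁ hα hw (k₁ _ hvt _) (k _ ht _)
    have b6 := hs_rpow32_le Z₂ hγ hw (k₂ _ hvt _) (k _ ht _)
    simp only [be, gram_scale, ← smul_add, mul_add, Finset.sum_add_distrib, Pi.add_apply]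
    simp only [wv] at b5 b6
    linarith
  · rw [integral_const_mul, integral_add' I1.1 I2.1, I1.2, I2.2]
    change 25 / 2 * (cube Z₁ + cube Z₂) ≤ _
    linarith

/-- one jump.  Recipe: `jump_le` pointwise in `z` for `R₁ = gram Z₁ α` and for `R₁ = 0` (the middle term of
`be` cancels); `(R₁ + gram Z' γ) c c = ∑ b, α b Z₁ b c² + ∑ a', γ a' Z' a' c²` (`gram_apply`), `Z'² ≤ h²`.
For each `(a, c)`: `∫ γ a w c √X √Y ≤ √(∫ γ a w c X) √(∫ γ a w c Y)` (Cauchy-Schwarz, or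
`√X √Y ≤ (η X + Y / η) / 2` and optimise), and the integrals are `plane_3`, `plane_4`, `plane_5`
(variances `(2 v + 1) t`, `2 v t`, `2 t`, all `≥ 1`). -/
theorem sum_Th_jump (Z₁ Z Z' h U₁ U₂ U₃ : Matrix ι ι ℝ) {v t : ℝ} (hv : 1 ≤ v) (ht : 1 ≤ t)
    (hZ' : ∀ a c, |Z' a c| ≤ h a c)
    (u₁ : ∀ τ, 1 ≤ τ → ∀ a c, ∑ b, g τ (y₂ a + x c + y₁ b) * Z₁ b c ^ 2 ≤ U₁ a c)
    (u₂ : ∀ τ, 1 ≤ τ → ∀ a c, ∑ a', g τ (y₂ a - y₂ a') * h a' c ^ 2 ≤ U₂ a c)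
    (u₃ : ∀ τ, 1 ≤ τ → ∀ a c, ∑ c', g τ (x c - x c') * h a c' ^ 2 ≤ U₃ a c) (𝓜 : Finset ℤ) :
    ∑ m ∈ 𝓜, (8 : ℝ) ^ m * (Th y₁ x y₂ ((2 : ℝ) ^ (-m) • Z₁) ((2 : ℝ) ^ (-m) • Z') v t -
        Th y₁ x y₂ ((2 : ℝ) ^ (-m) • Z₁) ((2 : ℝ) ^ (-m) • Z) v t) ≤
      16 * ∑ a, ∑ c, |Z' a c - Z a c| * √(U₁ a c + U₂ a c) * √(U₃ a c) := by
  have hv0 : 0 < v := by linarith
  have ht0 : 0 < t := by linarith
  have hvt : 1 ≤ v * t := one_le_mul_of_one_le_of_one_le hv ht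
  have hvt0 : 0 < v * t := by linarith
  have hA : ∀ a c, 0 ≤ U₁ a c + U₂ a c := fun a c => add_nonneg
    ((Finset.sum_nonneg fun b _ => mul_nonneg (g_nonneg _ _) (sq_nonneg _)).trans (u₁ 1 le_rfl a c))
    ((Finset.sum_nonneg fun b _ => mul_nonneg (g_nonneg _ _) (sq_nonneg _)).trans (u₂ 1 le_rfl a c))
  have hB : ∀ a c, 0 ≤ U₃ a c := fun a c =>
    (Finset.sum_nonneg fun b _ => mul_nonneg (g_nonneg _ _) (sq_nonneg _)).trans (u₃ 1 le_rfl a c)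
  have hsq : ∀ a c, Z' a c ^ 2 ≤ h a c ^ 2 := fun a c => by
    rw [← sq_abs]
    exact pow_le_pow_left₀ (abs_nonneg _) (hZ' a c) 2
  let f : ι → ι → ℝ × ℝ → ℝ := fun a c z => g (v * t) (y₂ a - (-z.1 - z.2)) * g t (x c - z.2)
  let X : ι → ℝ × ℝ → ℝ := fun c z => ∑ b, g (v * t) (y₁ b - z.1) * Z₁ b c ^ 2 +
    ∑ a', g (v * t) (y₂ a' - (-z.1 - z.2)) * h a' c ^ 2
  let Y : ι → ℝ × ℝ → ℝ := fun a z => ∑ c', g t (x c' - z.2) * h a c' ^ 2
  have hf : ∀ a c z, 0 ≤ f a c z := fun a c z => mul_nonneg (g_nonneg _ _) (g_nonneg _ _)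
  have hX0 : ∀ c z, 0 ≤ X c z := fun c z => add_nonneg
    (Finset.sum_nonneg fun b _ => mul_nonneg (g_nonneg _ _) (sq_nonneg _))
    (Finset.sum_nonneg fun b _ => mul_nonneg (g_nonneg _ _) (sq_nonneg _))
  have hY0 : ∀ a z, 0 ≤ Y a z := fun a z =>
    Finset.sum_nonneg fun b _ => mul_nonneg (g_nonneg _ _) (sq_nonneg _)
  have IX : ∀ a c, Integrable (fun z => f a c z * X c z) ∧
      ∫ z, f a c z * X c z ≤ U₁ a c + U₂ a c := by
    intro a c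
    have i1 : ∀ b ∈ Finset.univ, Integrable fun z : ℝ × ℝ =>
        f a c z * g (v * t) (y₁ b - z.1) * Z₁ b c ^ 2 :=
      fun b _ => (plane_3 hvt0 ht0 hvt0 (y₂ a) (x c) (y₁ b)).1.mul_const _
    have i2 : ∀ b ∈ Finset.univ, Integrable fun z : ℝ × ℝ =>
        f a c z * g (v * t) (y₂ b - (-z.1 - z.2)) * h b c ^ 2 :=
      fun b _ => (plane_4 hvt0 ht0 hvt0 (y₂ a) (x c) (y₂ b)).1.mul_const _
    simp only [X, mul_add, Finset.mul_sum, ← mul_assoc]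
    refine ⟨(integrable_finsetSum _ i1).add (integrable_finsetSum _ i2), ?_⟩
    rw [integral_add (integrable_finsetSum _ i1) (integrable_finsetSum _ i2),
      integral_finsetSum _ i1, integral_finsetSum _ i2]
    simp only [f, integral_mul_const, (plane_3 hvt0 ht0 hvt0 _ _ _).2,
      (plane_4 hvt0 ht0 hvt0 _ _ _).2]
    exact add_le_add (u₁ _ (by linarith) a c) (u₂ _ (by linarith) a c)
  have IY : ∀ a c, Integrable (fun z => f a c z * Y a z) ∧ ∫ z, f a c z * Y a z ≤ U₃ a c := by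
    intro a c
    have i1 : ∀ b ∈ Finset.univ, Integrable fun z : ℝ × ℝ =>
        f a c z * g t (x b - z.2) * h a b ^ 2 :=
      fun b _ => (plane_5 hvt0 ht0 ht0 (y₂ a) (x c) (x b)).1.mul_const _
    simp only [Y, Finset.mul_sum, ← mul_assoc]
    refine ⟨integrable_finsetSum _ i1, ?_⟩
    rw [integral_finsetSum _ i1]
    simp only [f, integral_mul_const, (plane_5 hvt0 ht0 ht0 _ _ _).2]
    exact u₃ _ (by linarith) a c
  have Ibe : ∀ (m : ℤ) (W : Matrix ι ι ℝ),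
      Integrable (be y₁ x y₂ ((2 : ℝ) ^ (-m) • Z₁) ((2 : ℝ) ^ (-m) • W) v t) :=
    fun m W => integrable_be y₁ x y₂ _ _ hv0 ht0
  have key : ∀ η : ι → ι → ℝ, (∀ a c, 0 < η a c) →
      ∑ m ∈ 𝓜, (8 : ℝ) ^ m * (Th y₁ x y₂ ((2 : ℝ) ^ (-m) • Z₁) ((2 : ℝ) ^ (-m) • Z') v t -
        Th y₁ x y₂ ((2 : ℝ) ^ (-m) • Z₁) ((2 : ℝ) ^ (-m) • Z) v t) ≤
      16 * ∑ a, ∑ c, |Z' a c - Z a c| *
        (η a c / 2 * (U₁ a c + U₂ a c) + (η a c)⁻¹ / 2 * U₃ a c) := by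
    intro η hη
    have I := jv_int_sum2 (μ := volume) (fun a c (z : ℝ × ℝ) => |Z' a c - Z a c| *
      (η a c / 2 * (f a c z * X c z) + (η a c)⁻¹ / 2 * (f a c z * Y a z)))
      fun a c => (((IX a c).1.const_mul _).add ((IY a c).1.const_mul _)).const_mul _
    simp only [Th, ← integral_sub (Ibe _ _) (Ibe _ _), ← integral_const_mul]
    rw [← integral_finsetSum _ fun m _ => ((Ibe m _).sub' (Ibe m _)).const_mul _]
    refine (integral_mono (integrable_finsetSum _ fun m _ =>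
      ((Ibe m _).sub' (Ibe m _)).const_mul _) (I.1.const_mul 16) fun z => ?_).trans ?_
    · have hα : ∀ a, 0 ≤ wv y₁ (v * t) z.1 a := fun a => g_nonneg _ _
      have hγ : ∀ a, 0 ≤ wv y₂ (v * t) (-z.1 - z.2) a := fun a => g_nonneg _ _
      have hw : ∀ a, 0 ≤ wv x t z.2 a := fun a => g_nonneg _ _
      have b1 := jump_le (gram_psd Z₁ hα) Z Z' hγ hw 𝓜
      have b2 := jump_le PosSemidef.zero Z Z' hγ hw 𝓜
      have b3 : ∀ R : Matrix ι ι ℝ, (∀ c, R c c ≤ ∑ b, g (v * t) (y₁ b - z.1) * Z₁ b c ^ 2) →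
          ∑ a, ∑ c, |Z' a c - Z a c| * (wv y₂ (v * t) (-z.1 - z.2) a * wv x t z.2 c) *
            √((R + gram Z' (wv y₂ (v * t) (-z.1 - z.2))) c c) *
            √(∑ c', wv x t z.2 c' * Z' a c' ^ 2) ≤
          ∑ a, ∑ c, |Z' a c - Z a c| *
            (η a c / 2 * (f a c z * X c z) + (η a c)⁻¹ / 2 * (f a c z * Y a z)) := by
        intro R hR
        refine Finset.sum_le_sum fun a _ => Finset.sum_le_sum fun c _ => ?_
        have c1 : (R + gram Z' (wv y₂ (v * t) (-z.1 - z.2))) c c ≤ X c z := by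
          rw [Matrix.add_apply, gram_apply]
          refine add_le_add (hR c) (Finset.sum_le_sum fun b _ => ?_)
          rw [← sq]
          exact mul_le_mul_of_nonneg_left (hsq b c) (hγ b)
        have c2 : ∑ c', wv x t z.2 c' * Z' a c' ^ 2 ≤ Y a z :=
          Finset.sum_le_sum fun b _ => mul_le_mul_of_nonneg_left (hsq a b) (hw b)
        have c3 := jv_sqrt_mul_le (hX0 c z) (hY0 a z) (hη a c)
        have c4 := hf a c z
        calc _ ≤ |Z' a c - Z a c| * f a c z * √(X c z) * √(Y a z) := by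
              change |Z' a c - Z a c| * f a c z * _ * _ ≤ _
              gcongr
          _ = |Z' a c - Z a c| * f a c z * (√(X c z) * √(Y a z)) := by ring
          _ ≤ |Z' a c - Z a c| * f a c z * (η a c / 2 * X c z + (η a c)⁻¹ / 2 * Y a z) := by
              gcongr
          _ = _ := by ring
      have b4 := b3 (gram Z₁ (wv y₁ (v * t) z.1)) fun c => by
        rw [gram_apply]
        exact le_of_eq (Finset.sum_congr rfl fun b _ => by rw [← sq]; rfl)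
      have b5 := b3 0 fun c =>
        Finset.sum_nonneg fun b _ => mul_nonneg (g_nonneg _ _) (sq_nonneg _)
      simp only [zero_add] at b2 b5
      simp only [mul_sub, Finset.sum_sub_distrib] at b1 b2
      simp only [be, gram_scale, ← smul_add, mul_add, mul_sub, Finset.sum_add_distrib,
        Finset.sum_sub_distrib]
      simp only [mul_add, Finset.sum_add_distrib] at b4 b5
      linarith
    · rw [integral_const_mul, I.2]
      refine mul_le_mul_of_nonneg_left (Finset.sum_le_sum fun a _ => Finset.sum_le_sum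
        fun c _ => ?_) (by norm_num)
      rw [integral_const_mul, integral_add ((IX a c).1.const_mul _) ((IY a c).1.const_mul _),
        integral_const_mul, integral_const_mul]
      have := hη a c
      have h1 := (IX a c).2
      have h2 := (IY a c).2
      gcongr
  have hc : Continuous fun δ : ℝ => 16 * ∑ a, ∑ c, |Z' a c - Z a c| * √(U₁ a c + U₂ a c + δ) *
      √(U₃ a c + δ) := by fun_prop
  have hlim := (hc.tendsto 0).mono_left (nhdsWithin_le_nhds (s := Set.Ioi 0))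
  simp only [add_zero] at hlim
  refine ge_of_tendsto hlim (eventually_nhdsWithin_of_forall fun δ hδ => ?_)
  have hδ' : 0 < δ := hδ
  refine (key (fun a c => √(U₃ a c + δ) / √(U₁ a c + U₂ a c + δ)) fun a c =>
    div_pos (Real.sqrt_pos.2 (by linarith [hB a c])) (Real.sqrt_pos.2 (by linarith [hA a c]))).trans
    (mul_le_mul_of_nonneg_left (Finset.sum_le_sum fun a _ => Finset.sum_le_sum fun c _ => ?_)
      (by norm_num))
  rw [mul_assoc]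
  exact mul_le_mul_of_nonneg_left (jv_opt (hA a c) (hB a c) hδ') (abs_nonneg _)

/-- Recipe: `heat_flow` on each piece; all differences are nonnegative, so `ENNReal.ofReal` commutes with
the sums; Abel summation
`∑_{i<K} (Θ_i (t i) - Θ_i (t (i+1))) ≤ Θ_0 (t 0) + ∑_{i<K} (Θ_{i+1} (t (i+1)) - Θ_i (t (i+1)))` (as
`Θ_K (t K) ≥ 0`), `sum_Th_le` (`cube (Z₂ 0) ≤ cube h`), `sum_Th_jump`. -/
theorem jv_le (Z₁ h U₁ U₂ U₃ : Matrix ι ι ℝ) (Z₂ : ℕ → Matrix ι ι ℝ) (t : ℕ → ℝ) (K : ℕ) {v Nn : ℝ}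
    (hv : 1 ≤ v) (ht0 : 1 ≤ t 0) (ht : Monotone t) (hZ : ∀ i a c, |Z₂ i a c| ≤ h a c)
    (hvar : ∀ a c, ∑ i ∈ Finset.range K, |Z₂ (i + 1) a c - Z₂ i a c| ≤ Nn * h a c)
    (k₁ : ∀ τ, 1 ≤ τ → ∀ p, ∑ a, g τ (y₁ a - p) ≤ 2) (k : ∀ τ, 1 ≤ τ → ∀ p, ∑ a, g τ (x a - p) ≤ 2)
    (k₂ : ∀ τ, 1 ≤ τ → ∀ p, ∑ a, g τ (y₂ a - p) ≤ 2)
    (u₁ : ∀ τ, 1 ≤ τ → ∀ a c, ∑ b, g τ (y₂ a + x c + y₁ b) * Z₁ b c ^ 2 ≤ U₁ a c)
    (u₂ : ∀ τ, 1 ≤ τ → ∀ a c, ∑ a', g τ (y₂ a - y₂ a') * h a' c ^ 2 ≤ U₂ a c)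
    (u₃ : ∀ τ, 1 ≤ τ → ∀ a c, ∑ c', g τ (x c - x c') * h a c' ^ 2 ≤ U₃ a c) (𝓜 : Finset ℤ) :
    ∑ m ∈ 𝓜, ∑ i ∈ Finset.range K, ENNReal.ofReal ((8 : ℝ) ^ m) *
        EE y₁ x y₂ ((2 : ℝ) ^ (-m) • Z₁) ((2 : ℝ) ^ (-m) • Z₂ i) v (t i) (t (i + 1)) ≤
      ENNReal.ofReal (26 * (cube Z₁ + cube h) +
        32 * Nn * ∑ a, ∑ c, h a c * √(U₁ a c + U₂ a c) * √(U₃ a c)) := by
  have ht1 : ∀ i, 1 ≤ t i := fun i => ht0.trans (ht (Nat.zero_le i))
  let Θ : ℤ → ℕ → ℝ → ℝ := fun m i s =>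
    Th y₁ x y₂ ((2 : ℝ) ^ (-m) • Z₁) ((2 : ℝ) ^ (-m) • Z₂ i) v s
  have hf := fun (m : ℤ) (i : ℕ) => heat_flow y₁ x y₂ ((2 : ℝ) ^ (-m) • Z₁)
    ((2 : ℝ) ^ (-m) • Z₂ i) hv (zero_lt_one.trans_le (ht1 i)) (ht (Nat.le_succ i))
  have h8 : ∀ m : ℤ, (0 : ℝ) ≤ 8 ^ m := fun m => by positivity
  have hn : ∀ m i, 0 ≤ (8 : ℝ) ^ m * (2 * (Θ m i (t i) - Θ m i (t (i + 1)))) := fun m i =>
    mul_nonneg (h8 m) (mul_nonneg zero_le_two (sub_nonneg.2 (hf m i).1))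
  calc _ ≤ ∑ m ∈ 𝓜, ∑ i ∈ Finset.range K,
        ENNReal.ofReal ((8 : ℝ) ^ m * (2 * (Θ m i (t i) - Θ m i (t (i + 1))))) := by
        refine Finset.sum_le_sum fun m _ => Finset.sum_le_sum fun i _ => ?_
        rw [ENNReal.ofReal_mul (h8 m)]
        exact mul_le_mul_right (hf m i).2 _
    _ = ENNReal.ofReal (∑ m ∈ 𝓜, ∑ i ∈ Finset.range K,
        (8 : ℝ) ^ m * (2 * (Θ m i (t i) - Θ m i (t (i + 1))))) := by
        rw [ENNReal.ofReal_sum_of_nonneg fun m _ => Finset.sum_nonneg fun i _ => hn m i]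
        exact Finset.sum_congr rfl fun m _ => (ENNReal.ofReal_sum_of_nonneg fun i _ => hn m i).symm
    _ ≤ _ := ENNReal.ofReal_le_ofReal ?_
  have abel : ∀ m, ∑ i ∈ Finset.range K, (8 : ℝ) ^ m * (2 * (Θ m i (t i) - Θ m i (t (i + 1)))) ≤
      2 * ((8 : ℝ) ^ m * Θ m 0 (t 0)) + 2 * ∑ i ∈ Finset.range K,
        (8 : ℝ) ^ m * (Θ m (i + 1) (t (i + 1)) - Θ m i (t (i + 1))) := by
    intro m
    have h1 := Finset.sum_range_sub' (fun i => (8 : ℝ) ^ m * Θ m i (t i)) K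
    have h2 : 0 ≤ (8 : ℝ) ^ m * Θ m K (t K) :=
      mul_nonneg (h8 m) (integral_nonneg fun z => be_nonneg y₁ x y₂ _ _ _ _ z)
    have h3 : ∑ i ∈ Finset.range K, (8 : ℝ) ^ m * (2 * (Θ m i (t i) - Θ m i (t (i + 1)))) =
        2 * ∑ i ∈ Finset.range K, ((8 : ℝ) ^ m * Θ m i (t i) - 8 ^ m * Θ m (i + 1) (t (i + 1))) +
        2 * ∑ i ∈ Finset.range K, (8 : ℝ) ^ m * (Θ m (i + 1) (t (i + 1)) - Θ m i (t (i + 1))) := by
      rw [← mul_add, ← Finset.sum_add_distrib, Finset.mul_sum]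
      exact Finset.sum_congr rfl fun i _ => by ring
    rw [h3, h1]
    linarith
  refine (Finset.sum_le_sum fun m _ => abel m).trans ?_
  rw [Finset.sum_add_distrib, ← Finset.mul_sum, ← Finset.mul_sum, Finset.sum_comm]
  have a1 := sum_Th_le y₁ x y₂ Z₁ (Z₂ 0) hv ht0 k₁ k k₂ 𝓜
  have a2 : cube (Z₂ 0) ≤ cube h := Finset.sum_le_sum fun a _ => Finset.sum_le_sum fun b _ =>
    pow_le_pow_left₀ (abs_nonneg _) ((hZ 0 a b).trans (le_abs_self _)) 3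
  have a3 := Finset.sum_le_sum fun i (_ : i ∈ Finset.range K) =>
    sum_Th_jump y₁ x y₂ Z₁ (Z₂ i) (Z₂ (i + 1)) h U₁ U₂ U₃ hv (ht1 (i + 1)) (hZ (i + 1)) u₁ u₂ u₃ 𝓜
  have a4 : ∑ i ∈ Finset.range K, ∑ a, ∑ c, |Z₂ (i + 1) a c - Z₂ i a c| * √(U₁ a c + U₂ a c) *
      √(U₃ a c) ≤ Nn * ∑ a, ∑ c, h a c * √(U₁ a c + U₂ a c) * √(U₃ a c) := by
    rw [Finset.sum_comm, Finset.mul_sum]
    refine Finset.sum_le_sum fun a _ => ?_
    rw [Finset.sum_comm, Finset.mul_sum]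
    refine Finset.sum_le_sum fun c _ => ?_
    rw [← Finset.sum_mul, ← Finset.sum_mul, ← mul_assoc, ← mul_assoc]
    have := hvar a c
    gcongr
  rw [← Finset.mul_sum] at a3
  simp only [Θ]
  linarith

end Crest.Agent.R72
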