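/-
R72/Lat: transfer of lattice estimates to the line by averaging over offsets.
Skeleton by helper40; keep the statements unchanged (add any helper lemmas you like).
-/
import Crest.Agent.R72.Defs

set_option autoImplicit false
set_option linter.unusedSectionVars false

namespace Crest.Agent.R72

open MeasureTheory

namespace LatAux

theorem cell {E : Type} [NormedAddCommGroup E] [NormedSpace ℝ E] [MeasurableSpace E] [BorelSpace E]
    [FiniteDimensional ℝ E] (μ : Measure E) [μ.IsAddHaarMeasure] {Φ : E → ℝ} (hΦ : Integrable Φ μ)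
    (v : E) {δ : ℝ} (hδ : 0 < δ) {U C : Set E} (hU : MeasurableSet U)
    (h : ∀ θ, v + δ • θ ∈ C ↔ θ ∈ U) :
    IntegrableOn (fun θ => Φ (v + δ • θ)) U μ ∧
      δ ^ Module.finrank ℝ E * ∫ θ in U, Φ (v + δ • θ) ∂μ = ∫ x, C.indicator Φ x ∂μ := by
  refine ⟨((hΦ.comp_add_left v).comp_smul hδ.ne').integrableOn, ?_⟩
  have e : U.indicator (fun θ => Φ (v + δ • θ)) = fun θ => C.indicator Φ (v + δ • θ) := by
    funext θ
    by_cases hθ : θ ∈ U
    · rw [Set.indicator_of_mem hθ, Set.indicator_of_mem ((h θ).2 hθ)]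
    · rw [Set.indicator_of_notMem hθ, Set.indicator_of_notMem fun h' => hθ ((h θ).1 h')]
  have hp : 0 < δ ^ Module.finrank ℝ E := pow_pos hδ _
  rw [← integral_indicator hU, e, Measure.integral_comp_smul μ (fun x => C.indicator Φ (v + x)) δ,
    integral_add_left_eq_self (C.indicator Φ) v, abs_of_pos (inv_pos.2 hp), smul_eq_mul,
    mul_inv_cancel_left₀ hp.ne']

/-- the `a`-th interval -/
def S (o δ : ℝ) (a : ℕ) : Set ℝ := Set.Ico (o + δ * a) (o + δ * (a + 1))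

theorem mem_S {o δ : ℝ} (hδ : 0 < δ) (a : ℕ) (θ : ℝ) :
    o + δ * a + δ * θ ∈ S o δ a ↔ θ ∈ Set.Ico (0 : ℝ) 1 := by
  simp only [S, Set.mem_Ico]
  refine and_congr ⟨fun h => ?_, fun h => ?_⟩ ⟨fun h => ?_, fun h => ?_⟩ <;> nlinarith

theorem sum_S {o δ : ℝ} (hδ : 0 < δ) (N : ℕ) (x : ℝ) :
    ∑ a : Fin N, (S o δ a).indicator (1 : ℝ → ℝ) x = (Set.Ico o (o + δ * N)).indicator 1 x := by
  induction N with
  | zero => simp
  | succ N ih =>
    have h0 : (0 : ℝ) ≤ N := Nat.cast_nonneg N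
    rw [Fin.sum_univ_castSucc, Nat.cast_succ, ← Set.Ico_union_Ico_eq_Ico (b := o + δ * N)
      (by nlinarith) (by nlinarith), Set.indicator_union_of_disjoint Set.Ico_disjoint_Ico_same]
    exact congrArg₂ (· + ·) ih rfl

theorem two {f : ℝ × ℝ → ℝ} (hf : Integrable f) (p : ∀ z, 0 ≤ f z) (o : ℝ) {δ : ℝ} (hδ : 0 < δ)
    (N : ℕ) :
    IntegrableOn (fun θ : ℝ × ℝ => ∑ a : Fin N, ∑ b : Fin N,
      f (o + δ * lat N θ.1 a, o + δ * lat N θ.2 b)) (Set.Ico 0 1 ×ˢ Set.Ico 0 1) ∧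
    δ ^ 2 * ∫ θ in Set.Ico (0 : ℝ) 1 ×ˢ Set.Ico (0 : ℝ) 1, ∑ a : Fin N, ∑ b : Fin N,
      f (o + δ * lat N θ.1 a, o + δ * lat N θ.2 b) ≤ ∫ z, f z := by
  have hc := fun a b : Fin N => cell volume hf (o + δ * a, o + δ * b) hδ
    (U := Set.Ico 0 1 ×ˢ Set.Ico 0 1) (C := S o δ a ×ˢ S o δ b)
    (measurableSet_Ico.prod measurableSet_Ico)
    fun θ => and_congr (mem_S hδ a θ.1) (mem_S hδ b θ.2)
  have e : ∀ (a b : Fin N) (θ : ℝ × ℝ), (o + δ * lat N θ.1 a, o + δ * lat N θ.2 b) =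
      (o + δ * a, o + δ * b) + δ • θ := fun a b θ => by
    simp only [lat, mul_add, ← add_assoc]
    rfl
  have hm : ∀ a b : Fin N, Integrable ((S o δ a ×ˢ S o δ b).indicator f) := fun a b =>
    hf.indicator (measurableSet_Ico.prod measurableSet_Ico)
  simp only [e]
  refine ⟨integrable_finsetSum _ fun a _ => integrable_finsetSum _ fun b _ => (hc a b).1, ?_⟩
  have hr : Module.finrank ℝ (ℝ × ℝ) = 2 := by simp
  rw [hr] at hc
  rw [integral_finsetSum _ fun a _ => integrable_finsetSum _ fun b _ => (hc a b).1]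
  simp only [fun a => integral_finsetSum Finset.univ fun b _ => (hc a b).1, Finset.mul_sum,
    fun a b => (hc a b).2, fun a => (integral_finsetSum Finset.univ fun b _ => hm a b).symm]
  rw [← integral_finsetSum _ fun a _ => integrable_finsetSum _ fun b _ => hm a b]
  refine integral_mono (integrable_finsetSum _ fun a _ => integrable_finsetSum _ fun b _ =>
    hm a b) hf fun z => ?_
  have e2 : ∀ a b : Fin N, (S o δ a ×ˢ S o δ b).indicator f z =
      (S o δ a).indicator (1 : ℝ → ℝ) z.1 * ((S o δ b).indicator (1 : ℝ → ℝ) z.2 * f z) := by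
    intro a b
    by_cases h1 : z.1 ∈ S o δ a <;> by_cases h2 : z.2 ∈ S o δ b <;>
      simp [Set.indicator, h1, h2]
  simp only [e2, ← Finset.mul_sum, ← Finset.sum_mul, sum_S hδ]
  by_cases h1 : z.1 ∈ Set.Ico o (o + δ * N) <;> by_cases h2 : z.2 ∈ Set.Ico o (o + δ * N) <;>
    simp only [Set.indicator, h1, h2, if_true, if_false, Pi.one_apply, one_mul, zero_mul, mul_zero,
      le_refl, p]

theorem mp {α β : Type} [MeasurableSpace α] [MeasurableSpace β] {μ : Measure α} {ν : Measure β}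
    {T : α → β} (hT : MeasurePreserving T μ ν) {G : β → ℝ} (hG : Integrable G ν) :
    Integrable (fun x => G (T x)) μ ∧ ∫ x, G (T x) ∂μ = ∫ y, G y ∂ν := by
  refine ⟨hT.integrable_comp_of_integrable hG, ?_⟩
  rw [← hT.map_eq] at hG ⊢
  exact (integral_map hT.measurable.aemeasurable hG.aestronglyMeasurable).symm

theorem measurableSet_ucube : MeasurableSet ucube :=
  measurableSet_Ico.prod (measurableSet_Ico.prod measurableSet_Ico)

end LatAux

open LatAux

/-- decomposition into cells.  Recipe: `Φ = ∑_{a,b,c} Φ · 1_{cell a b c}` (the cells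
`o + δ ((a,b,c) + ucube)` are disjoint and cover the box); on each cell change variables
`x = (o,o,o) + δ • ((a,b,c) + θ)` (`MeasureTheory.Measure.integral_comp_smul`, `integral_add_left_eq_self`;
`Module.finrank ℝ (ℝ × ℝ × ℝ) = 3`). -/
theorem integral_eq_cells {Φ : ℝ × ℝ × ℝ → ℝ} (hΦ : Integrable Φ) {o δ : ℝ} (hδ : 0 < δ) (N : ℕ)
    (hs : ∀ x, Φ x ≠ 0 → x.1 ∈ Set.Ico o (o + δ * N) ∧ x.2.1 ∈ Set.Ico o (o + δ * N) ∧
      x.2.2 ∈ Set.Ico o (o + δ * N)) :
    IntegrableOn (fun θ : ℝ × ℝ × ℝ => δ ^ 3 * ∑ a : Fin N, ∑ b : Fin N, ∑ c : Fin N,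
      Φ (o + δ * lat N θ.1 a, o + δ * lat N θ.2.1 b, o + δ * lat N θ.2.2 c)) ucube ∧
    ∫ x, Φ x = ∫ θ in ucube, δ ^ 3 * ∑ a : Fin N, ∑ b : Fin N, ∑ c : Fin N,
      Φ (o + δ * lat N θ.1 a, o + δ * lat N θ.2.1 b, o + δ * lat N θ.2.2 c) := by
  have : (volume : Measure (ℝ × ℝ × ℝ)).IsAddHaarMeasure :=
    Measure.prod.instIsAddHaarMeasure (volume : Measure ℝ) (volume : Measure (ℝ × ℝ))
  have hc := fun a b c : Fin N => cell volume hΦ (o + δ * a, o + δ * b, o + δ * c) hδ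
    (C := S o δ a ×ˢ S o δ b ×ˢ S o δ c) measurableSet_ucube
    fun θ => and_congr (mem_S hδ a θ.1) (and_congr (mem_S hδ b θ.2.1) (mem_S hδ c θ.2.2))
  have e : ∀ (a b c : Fin N) (θ : ℝ × ℝ × ℝ),
      (o + δ * lat N θ.1 a, o + δ * lat N θ.2.1 b, o + δ * lat N θ.2.2 c) =
      (o + δ * a, o + δ * b, o + δ * c) + δ • θ := fun a b c θ => by
    simp only [lat, mul_add, ← add_assoc]
    rfl
  have hm : ∀ a b c : Fin N, Integrable ((S o δ a ×ˢ S o δ b ×ˢ S o δ c).indicator Φ) :=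
    fun a b c => hΦ.indicator (measurableSet_Ico.prod (measurableSet_Ico.prod measurableSet_Ico))
  have hm2 := fun a b => integrable_finsetSum Finset.univ fun c _ => hm a b c
  have hm1 := fun a => integrable_finsetSum Finset.univ fun b _ => hm2 a b
  have hi2 := fun a b => integrable_finsetSum Finset.univ fun c _ => (hc a b c).1
  have hi1 := fun a => integrable_finsetSum Finset.univ fun b _ => hi2 a b
  simp only [e]
  refine ⟨(integrable_finsetSum _ fun a _ => hi1 a).const_mul _, ?_⟩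
  have hr : Module.finrank ℝ (ℝ × ℝ × ℝ) = 3 := by simp
  rw [hr] at hc
  rw [integral_const_mul, integral_finsetSum _ fun a _ => hi1 a]
  simp only [fun a => integral_finsetSum Finset.univ fun b _ => hi2 a b,
    fun a b => integral_finsetSum Finset.univ fun c _ => (hc a b c).1, Finset.mul_sum,
    fun a b c => (hc a b c).2,
    fun a b => (integral_finsetSum Finset.univ fun c _ => hm a b c).symm,
    fun a => (integral_finsetSum Finset.univ fun b _ => hm2 a b).symm]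
  rw [← integral_finsetSum _ fun a _ => hm1 a]
  refine integral_congr_ae (ae_of_all _ fun x => ?_)
  have e2 : ∀ a b c : Fin N, (S o δ a ×ˢ S o δ b ×ˢ S o δ c).indicator Φ x =
      (S o δ a).indicator (1 : ℝ → ℝ) x.1 * ((S o δ b).indicator (1 : ℝ → ℝ) x.2.1 *
        ((S o δ c).indicator (1 : ℝ → ℝ) x.2.2 * Φ x)) := by
    intro a b c
    by_cases h1 : x.1 ∈ S o δ a <;> by_cases h2 : x.2.1 ∈ S o δ b <;>
      by_cases h3 : x.2.2 ∈ S o δ c <;> simp [Set.indicator, h1, h2, h3]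
  simp only [e2, ← Finset.mul_sum, ← Finset.sum_mul, sum_S hδ]
  by_cases h0 : Φ x = 0
  · simp [h0]
  · obtain ⟨h1, h2, h3⟩ := hs x h0
    rw [Set.indicator_of_mem h1, Set.indicator_of_mem h2, Set.indicator_of_mem h3]
    simp

/-- Recipe: `integral_eq_cells` for `Φ`, and for the three functions such as
`x ↦ (1_box f₀)(x.1, x.2.1) * 1_{[o, o+δ)}(x.2.2) / δ` (if `N = 0` everything vanishes). -/
theorem lattice_bound {Φ : ℝ × ℝ × ℝ → ℝ} (hΦ : Integrable Φ) {f₀ f₁ f₂ : ℝ × ℝ → ℝ}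
    (h₀ : Integrable f₀) (h₁ : Integrable f₁) (h₂ : Integrable f₂) (p₀ : ∀ z, 0 ≤ f₀ z)
    (p₁ : ∀ z, 0 ≤ f₁ z) (p₂ : ∀ z, 0 ≤ f₂ z) {o δ : ℝ} (hδ : 0 < δ) (N : ℕ)
    (hs : ∀ x, Φ x ≠ 0 → x.1 ∈ Set.Ico o (o + δ * N) ∧ x.2.1 ∈ Set.Ico o (o + δ * N) ∧
      x.2.2 ∈ Set.Ico o (o + δ * N))
    (hb : ∀ θ ∈ ucube, |δ ^ 3 * ∑ a : Fin N, ∑ b : Fin N, ∑ c : Fin N,
        Φ (o + δ * lat N θ.1 a, o + δ * lat N θ.2.1 b, o + δ * lat N θ.2.2 c)| ≤
      δ ^ 2 * (∑ a : Fin N, ∑ b : Fin N, f₀ (o + δ * lat N θ.1 a, o + δ * lat N θ.2.1 b) +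
        ∑ b : Fin N, ∑ c : Fin N, f₁ (o + δ * lat N θ.2.1 b, o + δ * lat N θ.2.2 c) +
        ∑ c : Fin N, ∑ a : Fin N, f₂ (o + δ * lat N θ.2.2 c, o + δ * lat N θ.1 a))) :
    |∫ x, Φ x| ≤ (∫ z, f₀ z) + (∫ z, f₁ z) + ∫ z, f₂ z := by
  obtain ⟨-, h2⟩ := integral_eq_cells hΦ hδ N hs
  obtain ⟨a0, b0⟩ := two h₀ p₀ o hδ N
  obtain ⟨a1, b1⟩ := two h₁ p₁ o hδ N
  obtain ⟨a2, b2⟩ := two h₂ p₂ o hδ N
  have : IsProbabilityMeasure (volume.restrict (Set.Ico (0 : ℝ) 1)) := ⟨by simp⟩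
  have e2 : (volume : Measure (ℝ × ℝ)).restrict (Set.Ico 0 1 ×ˢ Set.Ico 0 1) =
      (volume.restrict (Set.Ico (0 : ℝ) 1)).prod (volume.restrict (Set.Ico (0 : ℝ) 1)) :=
    (Measure.prod_restrict _ _).symm
  have e3 : (volume : Measure (ℝ × ℝ × ℝ)).restrict ucube =
      (volume.restrict (Set.Ico (0 : ℝ) 1)).prod ((volume.restrict (Set.Ico (0 : ℝ) 1)).prod
        (volume.restrict (Set.Ico (0 : ℝ) 1))) := by
    rw [← e2]
    exact (Measure.prod_restrict _ _).symm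
  rw [IntegrableOn, e2] at a0 a1 a2
  rw [e2] at b0 b1 b2
  obtain ⟨c0, d0⟩ := mp ((MeasurePreserving.id (volume.restrict (Set.Ico (0 : ℝ) 1))).prod
    (measurePreserving_fst (ν := volume.restrict (Set.Ico (0 : ℝ) 1)))) a0
  obtain ⟨c1, d1⟩ := mp (measurePreserving_snd (μ := volume.restrict (Set.Ico (0 : ℝ) 1))) a1
  obtain ⟨c2, d2⟩ := mp (Measure.measurePreserving_swap.comp
    ((MeasurePreserving.id (volume.restrict (Set.Ico (0 : ℝ) 1))).prod
      (measurePreserving_snd (μ := volume.restrict (Set.Ico (0 : ℝ) 1))))) a2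
  rw [← e3] at c0 d0 c1 d1 c2 d2
  rw [h2, ← Real.norm_eq_abs]
  refine (norm_integral_le_of_norm_le (((c0.add c1).add c2).const_mul (δ ^ 2))
    ((ae_restrict_mem measurableSet_ucube).mono fun θ hθ => by exact hb θ hθ)).trans ?_
  rw [integral_const_mul, integral_add' (c0.add c1) c2, integral_add' c0 c1, d0, d1, d2]
  linarith

/-- the cyclic permutation of the coordinates preserves the volume. -/
theorem lintegral_cyc (f : ℝ × ℝ × ℝ → ENNReal) :
    ∫⁻ p : ℝ × ℝ × ℝ, f (p.2.1, p.2.2, p.1) = ∫⁻ p, f p := by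
  exact ((measurePreserving_prodAssoc (volume : Measure ℝ) volume volume).comp
    Measure.measurePreserving_swap).lintegral_comp_emb
      (MeasurableEquiv.prodComm.trans MeasurableEquiv.prodAssoc).measurableEmbedding f

/-- exchanging the first two coordinates preserves the volume. -/
theorem lintegral_swap12 (f : ℝ × ℝ × ℝ → ENNReal) :
    ∫⁻ p : ℝ × ℝ × ℝ, f (p.2.1, p.1, p.2.2) = ∫⁻ p, f p := by
  refine (lintegral_cyc fun q => f (q.1, q.2.2, q.2.1)).trans ?_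
  exact ((MeasurePreserving.id (volume : Measure ℝ)).prod
    (Measure.measurePreserving_swap (μ := (volume : Measure ℝ)) (ν := volume))).lintegral_comp_emb
      ((MeasurableEquiv.refl ℝ).prodCongr MeasurableEquiv.prodComm).measurableEmbedding f

end Crest.Agent.R72
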