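/-
R72/Max1: the discrete Hardy-Littlewood maximal inequality at exponent 3/2, Gaussian form.
Skeleton by helper40; keep the statements unchanged (add any helper lemmas you like).
-/
import Crest.Agent.R72.Gauss
import Crest.Agent.R72.Scal

set_option autoImplicit false
set_option linter.unusedSectionVars false

namespace Crest.Agent.R72

/-- weak type for one-sided averages.  Recipe: strong induction on `E.card`, generalising `S`: take the least
`n₀ ∈ E` with its `r`, remove from `E` the (at most `r`) points of `[n₀, n₀ + r)` and from `S` the points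
`< n₀ + r`. -/
theorem weak_right (f : ℤ → ℝ) (hf : ∀ b, 0 ≤ f b) {lam : ℝ} (hl : 0 ≤ lam) (S E : Finset ℤ)
    (hE : ∀ n ∈ E, ∃ r : ℕ, lam * r < ∑ b ∈ S with n ≤ b ∧ b < n + r, f b) :
    lam * E.card ≤ ∑ b ∈ S, f b := by
  induction hm : E.card using Nat.strong_induction_on generalizing S E with
  | _ m ih =>
    rcases E.eq_empty_or_nonempty with rfl | hne
    · subst hm
      simpa using Finset.sum_nonneg fun b _ => hf b
    obtain ⟨r, hr⟩ := hE _ (E.min'_mem hne)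
    set n₀ := E.min' hne with hn₀
    have hr0 : 0 < r := by
      rcases Nat.eq_zero_or_pos r with rfl | h
      · rw [Finset.filter_false_of_mem (fun b _ => by omega)] at hr
        simp at hr
      · exact h
    have hlt : (E.filter fun n => n₀ + r ≤ n).card < m := by
      rw [← hm]
      refine Finset.card_lt_card ⟨Finset.filter_subset _ _, fun h => ?_⟩
      have := (Finset.mem_filter.1 (h (E.min'_mem hne))).2
      omega
    have h1 := ih _ hlt (S.filter fun b => n₀ + r ≤ b) (E.filter fun n => n₀ + r ≤ n)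
      (fun n hn => ?_) rfl
    · have h2 : m ≤ (E.filter fun n => n₀ + r ≤ n).card + r := by
        rw [← hm, ← Finset.card_filter_add_card_filter_not (s := E) (fun n => n₀ + r ≤ n)]
        have : (E.filter fun n => ¬ n₀ + r ≤ n) ⊆ Finset.Ico n₀ (n₀ + r) := fun n hn => by
          rw [Finset.mem_filter] at hn
          have := E.min'_le n hn.1
          rw [Finset.mem_Ico]; omega
        have := Finset.card_le_card this
        simp only [Int.card_Ico, add_sub_cancel_left, Int.toNat_natCast] at this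
        omega
      have h3 : (m : ℝ) ≤ (E.filter fun n => n₀ + r ≤ n).card + r := by exact_mod_cast h2
      have h4 : ∑ b ∈ S with n₀ ≤ b ∧ b < n₀ + r, f b ≤ ∑ b ∈ S with ¬ n₀ + r ≤ b, f b :=
        Finset.sum_le_sum_of_subset_of_nonneg (fun b hb => by
          rw [Finset.mem_filter] at hb ⊢; exact ⟨hb.1, by omega⟩) fun b _ _ => hf b
      rw [← Finset.sum_filter_add_sum_filter_not S (fun b => n₀ + r ≤ b)]
      nlinarith [mul_le_mul_of_nonneg_left h3 hl]
    · rw [Finset.mem_filter] at hn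
      obtain ⟨r', hr'⟩ := hE n hn.1
      refine ⟨r', hr'.trans_eq ?_⟩
      rw [Finset.filter_filter]
      refine Finset.sum_congr (Finset.filter_congr fun b _ => ?_) fun _ _ => rfl
      have := hn.2
      omega

theorem max1_card_le (S : Finset ℤ) (n : ℤ) (r : ℕ) :
    ((S.filter fun b => n ≤ b ∧ b < n + r).card : ℝ) ≤ r := by
  have : (S.filter fun b => n ≤ b ∧ b < n + r) ⊆ Finset.Ico n (n + r) := fun b hb => by
    rw [Finset.mem_filter] at hb
    rw [Finset.mem_Ico]; exact hb.2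
  have := Finset.card_le_card this
  simp only [Int.card_Ico, add_sub_cancel_left, Int.toNat_natCast] at this
  exact_mod_cast this

theorem max1_level (f : ℤ → ℝ) (hf : ∀ b, 0 ≤ f b) {μ : ℝ} (hμ : 0 < μ) (S E : Finset ℤ)
    (hE : ∀ n ∈ E, ∃ r : ℕ, μ * r < ∑ b ∈ S with n ≤ b ∧ b < n + r, f b) :
    μ / 2 * E.card ≤ ∑ b ∈ S, if μ < 2 * f b then f b else 0 := by
  refine weak_right (fun b => if μ < 2 * f b then f b else 0) (fun b => ?_) (by positivity) S E
    fun n hn => ?_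
  · split_ifs
    exacts [hf b, le_rfl]
  · obtain ⟨r, hr⟩ := hE n hn
    refine ⟨r, ?_⟩
    have h1 : ∑ b ∈ S with n ≤ b ∧ b < n + r, f b ≤
        ∑ b ∈ S with n ≤ b ∧ b < n + r, ((if μ < 2 * f b then f b else 0) + μ / 2) :=
      Finset.sum_le_sum fun b _ => by split_ifs <;> linarith
    rw [Finset.sum_add_distrib, Finset.sum_const, nsmul_eq_mul] at h1
    nlinarith [max1_card_le S n r]

theorem max1_geom (𝓚 : Finset ℤ) {y : ℝ} (hy : 0 ≤ y) :
    ∑ k ∈ 𝓚, (if (4 : ℝ) ^ k < 2 * y then (2 : ℝ) ^ k else 0) ≤ 16 * √y := by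
  have h1 := sum_rho_le 𝓚 (x := 2 * y) (by positivity)
  have h2 : √(2 * y) ≤ 2 * √y := by
    rw [Real.sqrt_le_left (by positivity), mul_pow, Real.sq_sqrt hy]
    linarith
  have h3 : ∑ k ∈ 𝓚, (if (4 : ℝ) ^ k < 2 * y then (2 : ℝ) ^ k else 0) ≤
      ∑ k ∈ 𝓚, 2 * ((2 : ℝ) ^ k * (2 * y / ((4 : ℝ) ^ k + 2 * y))) := by
    refine Finset.sum_le_sum fun k _ => ?_
    have h4 : (0 : ℝ) < 4 ^ k := by positivity
    have h5 : (0 : ℝ) < 2 ^ k := by positivity
    split_ifs with h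
    · have : 1 / 2 ≤ 2 * y / ((4 : ℝ) ^ k + 2 * y) := by
        rw [le_div_iff₀ (by positivity)]; linarith
      nlinarith
    · positivity
  rw [← Finset.mul_sum] at h3
  linarith

theorem max1_exists_scale (x : ℝ) (hx : 0 ≤ x) : ∃ k : ℤ,
    x ^ (3 / 2 : ℝ) ≤ if (4 : ℝ) ^ k < x then 8 * ((4 : ℝ) ^ k * 2 ^ k) else 0 := by
  rcases hx.eq_or_lt with rfl | hx0
  · refine ⟨0, ?_⟩
    rw [Real.zero_rpow (by norm_num)]
    split_ifs <;> norm_num
  obtain ⟨k, h1, h2⟩ := exists_mem_Ioc_zpow hx0 (by norm_num : (1 : ℝ) < 4)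
  refine ⟨k, ?_⟩
  rw [if_pos h1, rpow32_eq hx]
  have e : (4 : ℝ) ^ k = ((2 : ℝ) ^ k) ^ 2 := by
    rw [sq, ← mul_zpow]; norm_num
  rw [zpow_add_one₀ (by norm_num)] at h2
  have h3 : √x ≤ 2 * 2 ^ k := by
    rw [Real.sqrt_le_left (by positivity), mul_pow, ← e]; linarith
  calc x * √x ≤ (4 ^ k * 4) * (2 * 2 ^ k) :=
        mul_le_mul h2 h3 (Real.sqrt_nonneg _) (by positivity)
    _ = _ := by ring

/-- strong type.  Recipe: `U n = sup_r (1/r) ∑_{b ∈ S, n ≤ b < n + r} f b` (a bounded family, `≤ ∑ f`; use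
`sSup`/`iSup`).  For `k : ℤ` apply `weak_right` to `f · 1_{f > 4^k / 2}` and `lam = 4^k / 2` to get
`4^k/2 * #{n ∈ T | U n > 4^k} ≤ ∑_{f b > 4^k / 2} f b`; `U n ^ (3/2) ≤ ∑_{k ∈ 𝓚, U n > 4^k} 8^(k+1)` for a suitable
finite `𝓚`; exchange the sums and use `∑_{k : 4^k < 2 f} 2^k ≤ 2 √(2 f)`. -/
theorem max_right : ∃ C : ℝ, 0 ≤ C ∧ ∀ (S : Finset ℤ) (f : ℤ → ℝ), (∀ b, 0 ≤ f b) → ∃ U : ℤ → ℝ,
    (∀ n, 0 ≤ U n) ∧ (∀ (n : ℤ) (r : ℕ), ∑ b ∈ S with n ≤ b ∧ b < n + r, f b ≤ r * U n) ∧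
    ∀ T : Finset ℤ, ∑ n ∈ T, U n ^ (3 / 2 : ℝ) ≤ C * ∑ b ∈ S, f b ^ (3 / 2 : ℝ) := by
  refine ⟨256, by norm_num, fun S f hf => ?_⟩
  let A : ℤ → ℕ → ℝ := fun n r => (∑ b ∈ S with n ≤ b ∧ b < n + r, f b) / r
  have hA0 : ∀ n r, 0 ≤ A n r := fun n r =>
    div_nonneg (Finset.sum_nonneg fun b _ => hf b) (Nat.cast_nonneg r)
  have hA : ∀ n, BddAbove (Set.range (A n)) := fun n => ⟨∑ b ∈ S, f b, by
    rintro _ ⟨r, rfl⟩
    have h1 : ∑ b ∈ S with n ≤ b ∧ b < n + r, f b ≤ ∑ b ∈ S, f b :=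
      Finset.sum_le_sum_of_subset_of_nonneg (Finset.filter_subset _ _) fun b _ _ => hf b
    rcases Nat.eq_zero_or_pos r with rfl | hr
    · simpa [A] using Finset.sum_nonneg fun b _ => hf b
    · exact (div_le_self (Finset.sum_nonneg fun b _ => hf b) (by exact_mod_cast hr)).trans h1⟩
  have hU0 : ∀ n, 0 ≤ ⨆ r, A n r := fun n => Real.iSup_nonneg (hA0 n)
  refine ⟨fun n => ⨆ r, A n r, hU0, fun n r => ?_, fun T => ?_⟩
  · rcases Nat.eq_zero_or_pos r with rfl | hr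
    · rw [Finset.filter_false_of_mem (fun b _ => by omega)]
      simp
    · have := le_ciSup (hA n) r
      rwa [div_le_iff₀' (by exact_mod_cast hr)] at this
  choose κ hκ using fun n => max1_exists_scale _ (hU0 n)
  have hlev : ∀ k : ℤ, (4 : ℝ) ^ k / 2 * (T.filter fun n => (4 : ℝ) ^ k < ⨆ r, A n r).card ≤
      ∑ b ∈ S, if (4 : ℝ) ^ k < 2 * f b then f b else 0 := fun k => by
    refine max1_level f hf (by positivity) S _ fun n hn => ?_
    obtain ⟨r, hr⟩ := exists_lt_of_lt_ciSup (Finset.mem_filter.1 hn).2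
    refine ⟨r, ?_⟩
    rcases Nat.eq_zero_or_pos r with rfl | hr0
    · have : (0 : ℝ) < 4 ^ k := by positivity
      simp only [A, Nat.cast_zero, div_zero] at hr
      linarith
    · rwa [lt_div_iff₀ (by exact_mod_cast hr0)] at hr
  calc ∑ n ∈ T, (⨆ r, A n r) ^ (3 / 2 : ℝ)
      ≤ ∑ n ∈ T, ∑ k ∈ T.image κ,
          (if (4 : ℝ) ^ k < ⨆ r, A n r then 8 * ((4 : ℝ) ^ k * 2 ^ k) else 0) := by
        refine Finset.sum_le_sum fun n hn => (hκ n).trans ?_
        refine Finset.single_le_sum (f := fun k : ℤ =>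
          if (4 : ℝ) ^ k < ⨆ r, A n r then 8 * ((4 : ℝ) ^ k * 2 ^ k) else 0) (fun k _ => ?_)
          (Finset.mem_image_of_mem κ hn)
        split_ifs <;> positivity
    _ = ∑ k ∈ T.image κ, 16 * 2 ^ k *
          ((4 : ℝ) ^ k / 2 * (T.filter fun n => (4 : ℝ) ^ k < ⨆ r, A n r).card) := by
        rw [Finset.sum_comm]
        refine Finset.sum_congr rfl fun k _ => ?_
        rw [← Finset.sum_filter, Finset.sum_const, nsmul_eq_mul]
        ring
    _ ≤ ∑ k ∈ T.image κ, 16 * 2 ^ k * ∑ b ∈ S, if (4 : ℝ) ^ k < 2 * f b then f b else 0 :=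
        Finset.sum_le_sum fun k _ => mul_le_mul_of_nonneg_left (hlev k) (by positivity)
    _ = ∑ b ∈ S, 16 * f b * ∑ k ∈ T.image κ,
          (if (4 : ℝ) ^ k < 2 * f b then (2 : ℝ) ^ k else 0) := by
        simp only [Finset.mul_sum]
        rw [Finset.sum_comm]
        refine Finset.sum_congr rfl fun b _ => Finset.sum_congr rfl fun k _ => ?_
        split_ifs <;> ring
    _ ≤ ∑ b ∈ S, 16 * f b * (16 * √(f b)) :=
        Finset.sum_le_sum fun b _ => mul_le_mul_of_nonneg_left (max1_geom _ (hf b))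
          (by have := hf b; positivity)
    _ = 256 * ∑ b ∈ S, f b ^ (3 / 2 : ℝ) := by
        rw [Finset.mul_sum]
        refine Finset.sum_congr rfl fun b _ => ?_
        rw [rpow32_eq (hf b)]; ring

/-- Abel summation against a decreasing profile -/
theorem max1_abel (S : Finset ℤ) (d : ℤ → ℕ) (f : ℤ → ℝ) {V : ℝ} (φ : ℕ → ℝ)
    (hφ : ∀ M, φ (M + 1) ≤ φ M) (hV : ∀ M : ℕ, ∑ b ∈ S with d b < M, f b ≤ M * V) (K : ℕ) :
    ∑ b ∈ S with d b < K, (φ (d b) - φ K) * f b ≤ V * (∑ M ∈ Finset.range K, φ M - K * φ K) := by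
  induction K with
  | zero => simp
  | succ K ih =>
    have e1 : ∑ b ∈ S with d b < K + 1, (φ (d b) - φ (K + 1)) * f b =
        ∑ b ∈ S with d b < K, (φ (d b) - φ K) * f b +
          (φ K - φ (K + 1)) * ∑ b ∈ S with d b < K + 1, f b := by
      rw [Finset.mul_sum, Finset.sum_filter, Finset.sum_filter, Finset.sum_filter,
        ← Finset.sum_add_distrib]
      refine Finset.sum_congr rfl fun b _ => ?_
      rcases lt_trichotomy (d b) K with h | h | h
      · rw [if_pos h, if_pos (by omega), if_pos (by omega)]; ring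
      · rw [if_pos (by omega), if_neg (by omega), if_pos (by omega), h]; ring
      · rw [if_neg (by omega), if_neg (by omega), if_neg (by omega)]; ring
    have h2 := mul_le_mul_of_nonneg_left (hV (K + 1)) (sub_nonneg.2 (hφ K))
    rw [e1, Finset.sum_range_succ]
    push_cast at h2 ⊢
    nlinarith

theorem max1_abel' (S : Finset ℤ) (d : ℤ → ℕ) (f : ℤ → ℝ) {V c : ℝ} (hV0 : 0 ≤ V) (φ : ℕ → ℝ)
    (hφ0 : ∀ M, 0 ≤ φ M) (hφ : ∀ M, φ (M + 1) ≤ φ M) (hc : ∀ K, ∑ M ∈ Finset.range K, φ M ≤ c)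
    (hV : ∀ M : ℕ, ∑ b ∈ S with d b < M, f b ≤ M * V) : ∑ b ∈ S, φ (d b) * f b ≤ c * V := by
  have hK : (S.filter fun b => d b < S.sup d + 1) = S :=
    Finset.filter_true_of_mem fun b hb => Nat.lt_succ_of_le (Finset.le_sup hb)
  have h1 := max1_abel S d f φ hφ hV (S.sup d + 1)
  have h2 := mul_le_mul_of_nonneg_left (hV (S.sup d + 1)) (hφ0 (S.sup d + 1))
  have h3 := mul_le_mul_of_nonneg_left (hc (S.sup d + 1)) hV0
  rw [hK] at h1 h2
  simp only [sub_mul, Finset.sum_sub_distrib, ← Finset.mul_sum] at h1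
  nlinarith

theorem max1_g_le {τ : ℝ} (hτ : 1 ≤ τ) {x d : ℝ} (hd0 : 0 ≤ d) (hd : d ≤ |x| + 1) :
    g τ x ≤ 18 * √τ / ((d + √τ) * (d + 1 + √τ)) := by
  have hL : 1 ≤ √τ := Real.one_le_sqrt.2 hτ
  have hL2 : √τ ^ 2 = τ := Real.sq_sqrt (by linarith)
  have h1 : (√(2 * Real.pi * τ))⁻¹ ≤ (√τ)⁻¹ :=
    inv_anti₀ (by linarith) (Real.sqrt_le_sqrt (by nlinarith [Real.two_le_pi]))
  have h2 : Real.exp (-x ^ 2 / (2 * τ)) ≤ 2 * τ / (2 * τ + x ^ 2) := by
    have h3 := Real.add_one_le_exp (x ^ 2 / (2 * τ))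
    rw [neg_div, Real.exp_neg]
    refine (inv_anti₀ (by positivity) h3).trans (le_of_eq ?_)
    field_simp
    ring
  refine (mul_le_mul h1 h2 (Real.exp_pos _).le (by positivity)).trans ?_
  have h4 : (d + √τ) * (d + 1 + √τ) ≤ 9 * (2 * τ + x ^ 2) := by
    have h5 : (d + √τ) * (d + 1 + √τ) ≤ (|x| + 3 * √τ) * (|x| + 3 * √τ) :=
      mul_le_mul (by linarith) (by linarith) (by positivity) (by positivity)
    nlinarith [sq_abs x, sq_nonneg (|x| - 3 * √τ), sq_nonneg x]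
  have e : (√τ)⁻¹ * (2 * τ / (2 * τ + x ^ 2)) = 18 * √τ / (9 * (2 * τ + x ^ 2)) := by
    have : √τ ≠ 0 := by positivity
    field_simp
    rw [hL2]; ring
  rw [e]
  gcongr

/-- Gaussian averages.  Recipe: `U = c (U⁺ + U⁻)` with `U⁻` from `max_right` for the reflected data.  With
`L = ⌈√τ⌉₊`, `g τ x ≤ c ∑_{k ∈ range K} 4^(-k) / √τ * 1_{|x| ≤ 2^k L}` for the finitely many `x = n - b + ϑ`
(`exp (-y²/2) ≤ c / (1 + y²)²`), and the sum of `f` over `|n - b| ≤ 2^k L + 1` is at most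
`(2^k L + 2) (U⁺ n + U⁻ n)`. -/
theorem max_gauss : ∃ C : ℝ, 0 ≤ C ∧ ∀ (S : Finset ℤ) (f : ℤ → ℝ), (∀ b, 0 ≤ f b) → ∃ U : ℤ → ℝ,
    (∀ n, 0 ≤ U n) ∧
    (∀ τ : ℝ, 1 ≤ τ → ∀ (n : ℤ) (ϑ : ℝ), |ϑ| ≤ 1 → ∑ b ∈ S, g τ ((n : ℝ) - b + ϑ) * f b ≤ U n) ∧
    ∀ T : Finset ℤ, ∑ n ∈ T, U n ^ (3 / 2 : ℝ) ≤ C * ∑ b ∈ S, f b ^ (3 / 2 : ℝ) := by
  obtain ⟨C, hC, H⟩ := max_right
  refine ⟨18 ^ (3 / 2 : ℝ) * (3 * C), by positivity, fun S f hf => ?_⟩
  obtain ⟨U, hU0, hU1, hU2⟩ := H S f hf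
  obtain ⟨W, hW0, hW1, hW2⟩ := H (S.image fun b => -b) (fun b => f (-b)) fun b => hf _
  have hinj : ∀ s : Finset ℤ, Set.InjOn (fun b : ℤ => -b) s := fun s a _ b _ h => neg_injective h
  refine ⟨fun n => 18 * (U n + W (-n)), fun n => by have := hU0 n; have := hW0 (-n); positivity,
    fun τ hτ n ϑ hϑ => ?_, fun T => ?_⟩
  · have hL : 1 ≤ √τ := Real.one_le_sqrt.2 hτ
    refine le_trans (Finset.sum_le_sum fun b _ => ?_) (max1_abel' S (fun b => (n - b).natAbs) f
      (add_nonneg (hU0 n) (hW0 (-n))) (fun M => 18 * √τ / ((M + √τ) * (M + 1 + √τ)))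
      (fun M => by positivity) (fun M => ?_) (fun K => ?_) fun M => ?_)
    · refine mul_le_mul_of_nonneg_right (max1_g_le hτ (Nat.cast_nonneg _) ?_) (hf b)
      rw [Nat.cast_natAbs]
      push_cast
      have := abs_sub ((n : ℝ) - b + ϑ) ϑ
      rw [add_sub_cancel_right] at this
      linarith
    · push_cast
      gcongr <;> linarith
    · have h : ∑ M ∈ Finset.range K, 18 * √τ / (((M : ℝ) + √τ) * (M + 1 + √τ)) =
          18 - 18 * √τ / (K + √τ) := by
        induction K with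
        | zero => simp; field_simp; ring
        | succ K ih =>
          rw [Finset.sum_range_succ, ih]
          push_cast
          field_simp
          ring
      rw [h]
      have : 0 ≤ 18 * √τ / (K + √τ) := by positivity
      linarith
    · have h1 := hU1 n M
      have h2 := hW1 (-n) M
      rw [Finset.sum_filter, Finset.sum_image (hinj S)] at h2
      rw [Finset.sum_filter] at h1 ⊢
      rw [mul_add]
      refine le_trans ?_ (add_le_add h1 h2)
      rw [← Finset.sum_add_distrib]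
      refine Finset.sum_le_sum fun b _ => ?_
      have := hf b
      simp only [neg_neg]
      split_ifs <;> first | linarith | omega
  · have h1 := hU2 T
    have h2 := hW2 (T.image fun n => -n)
    rw [Finset.sum_image (hinj T), Finset.sum_image (hinj S)] at h2
    simp only [neg_neg] at h2
    calc ∑ n ∈ T, (18 * (U n + W (-n))) ^ (3 / 2 : ℝ)
        ≤ ∑ n ∈ T, 18 ^ (3 / 2 : ℝ) * (3 / 2 * (U n ^ (3 / 2 : ℝ) + W (-n) ^ (3 / 2 : ℝ))) := by
          refine Finset.sum_le_sum fun n _ => ?_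
          rw [Real.mul_rpow (by norm_num) (add_nonneg (hU0 n) (hW0 _))]
          exact mul_le_mul_of_nonneg_left (add_rpow32_le (hU0 n) (hW0 _)) (by positivity)
      _ = 18 ^ (3 / 2 : ℝ) * (3 / 2 * (∑ n ∈ T, U n ^ (3 / 2 : ℝ) +
            ∑ n ∈ T, W (-n) ^ (3 / 2 : ℝ))) := by
          rw [← Finset.mul_sum, ← Finset.mul_sum, Finset.sum_add_distrib]
      _ ≤ _ := by
          rw [mul_assoc]
          exact mul_le_mul_of_nonneg_left (by linarith) (by positivity)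

end Crest.Agent.R72
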