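/-
R72/Max2: majorants for the Gaussian averages of a matrix on the lattice.
Skeleton by helper40; keep the statements unchanged (add any helper lemmas you like).
-/
import Crest.Agent.R72.Max1
import Crest.Agent.R72.Mat1

set_option autoImplicit false
set_option linter.unusedSectionVars false

namespace Crest.Agent.R72

open Matrix

theorem max2_g_neg (t x : ℝ) : g t (-x) = g t x := by simp [g]

theorem max2_g_nonneg (t x : ℝ) : 0 ≤ g t x := by unfold g; positivity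

theorem max2_sq (x : ℝ) : (x ^ 2) ^ (3 / 2 : ℝ) = |x| ^ 3 := by
  rw [← sq_abs, ← Real.rpow_natCast, ← Real.rpow_mul (abs_nonneg x), ← Real.rpow_natCast]
  norm_num

theorem max2_shear (N : ℕ) (θ₁ θ₂ θ₃ τ : ℝ) (a b c : Fin N) :
    g τ (lat N θ₁ a + lat N θ₂ c + lat N θ₃ b) =
      g τ (((-(a.val : ℤ) - (c.val : ℤ) - ⌊θ₁ + θ₂ + θ₃⌋ : ℤ) : ℝ) - (b.val : ℝ) +
        -Int.fract (θ₁ + θ₂ + θ₃)) := by
  rw [← max2_g_neg]
  congr 1
  simp only [lat, Int.fract]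
  push_cast
  ring

theorem max2_fract (x : ℝ) : |-Int.fract x| ≤ 1 := by
  rw [abs_neg, abs_of_nonneg (Int.fract_nonneg x)]
  exact (Int.fract_lt_one x).le

/-- `max_gauss` on `Fin N`: Recipe: extend `f` by zero to `ℤ`, `S` = image of `Fin N`. -/
theorem max_fin : ∃ C : ℝ, 0 ≤ C ∧ ∀ (N : ℕ) (f : Fin N → ℝ), (∀ b, 0 ≤ f b) → ∃ U : ℤ → ℝ,
    (∀ n, 0 ≤ U n) ∧
    (∀ τ : ℝ, 1 ≤ τ → ∀ (n : ℤ) (ϑ : ℝ), |ϑ| ≤ 1 →
      ∑ b : Fin N, g τ ((n : ℝ) - (b.val : ℝ) + ϑ) * f b ≤ U n) ∧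
    ∀ T : Finset ℤ, ∑ n ∈ T, U n ^ (3 / 2 : ℝ) ≤ C * ∑ b, f b ^ (3 / 2 : ℝ) := by
  obtain ⟨C, hC, h⟩ := max_gauss
  refine ⟨C, hC, fun N f hf => ?_⟩
  let F : ℤ → ℝ := fun z => if h : z.toNat < N then f ⟨z.toNat, h⟩ else 0
  have hF : ∀ b : Fin N, F (b.val : ℤ) = f b := by
    intro b
    simp [F]
  have hinj : Set.InjOn (fun b : Fin N => (b.val : ℤ)) (Finset.univ : Finset (Fin N)) :=
    fun b _ b' _ e => Fin.ext (Int.natCast_inj.1 e)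
  obtain ⟨U, h0, h1, h2⟩ := h (Finset.univ.image fun b : Fin N => (b.val : ℤ)) F (fun z => by
    simp only [F]
    split_ifs
    exacts [hf _, le_rfl])
  refine ⟨U, h0, fun τ hτ n ϑ hϑ => ?_, fun T => ?_⟩
  · have := h1 τ hτ n ϑ hϑ
    rw [Finset.sum_image hinj] at this
    simpa only [hF, Int.cast_natCast] using this
  · have := h2 T
    rw [Finset.sum_image hinj] at this
    simpa only [hF] using this

/-- averages along columns. -/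
theorem max_col : ∃ C : ℝ, 0 ≤ C ∧ ∀ (N : ℕ) (θ : ℝ) (Z : Matrix (Fin N) (Fin N) ℝ),
    ∃ U : Matrix (Fin N) (Fin N) ℝ, (∀ a c, 0 ≤ U a c) ∧
      (∀ τ : ℝ, 1 ≤ τ → ∀ a c, ∑ a', g τ (lat N θ a - lat N θ a') * Z a' c ^ 2 ≤ U a c) ∧
      ∑ a, ∑ c, U a c ^ (3 / 2 : ℝ) ≤ C * cube Z := by
  obtain ⟨C, hC, h⟩ := max_fin
  refine ⟨C, hC, fun N θ Z => ?_⟩
  choose V h0 h1 h2 using fun c : Fin N => h N (fun a => Z a c ^ 2) fun a => sq_nonneg _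
  have hinj : Set.InjOn (fun b : Fin N => (b.val : ℤ)) (Finset.univ : Finset (Fin N)) :=
    fun b _ b' _ e => Fin.ext (Int.natCast_inj.1 e)
  refine ⟨fun a c => V c a.val, fun a c => h0 _ _, fun τ hτ a c => ?_, ?_⟩
  · refine le_trans (le_of_eq ?_) (h1 c τ hτ a.val 0 (by simp))
    refine Finset.sum_congr rfl fun a' _ => ?_
    simp [lat]
  · rw [cube, Finset.sum_comm, Finset.sum_comm (f := fun a b => |Z a b| ^ 3), Finset.mul_sum]
    refine Finset.sum_le_sum fun c _ => ?_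
    have := h2 c (Finset.univ.image fun b : Fin N => (b.val : ℤ))
    rw [Finset.sum_image hinj] at this
    simpa only [max2_sq] using this

/-- averages along rows (`max_col` for the transpose). -/
theorem max_row : ∃ C : ℝ, 0 ≤ C ∧ ∀ (N : ℕ) (θ : ℝ) (Z : Matrix (Fin N) (Fin N) ℝ),
    ∃ U : Matrix (Fin N) (Fin N) ℝ, (∀ a c, 0 ≤ U a c) ∧
      (∀ τ : ℝ, 1 ≤ τ → ∀ a c, ∑ c', g τ (lat N θ c - lat N θ c') * Z a c' ^ 2 ≤ U a c) ∧
      ∑ a, ∑ c, U a c ^ (3 / 2 : ℝ) ≤ C * cube Z := by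
  obtain ⟨C, hC, h⟩ := max_col
  refine ⟨C, hC, fun N θ Z => ?_⟩
  obtain ⟨U, h0, h1, h2⟩ := h N θ Zᵀ
  refine ⟨Uᵀ, fun a c => h0 c a, fun τ hτ a c => h1 τ hτ c a, ?_⟩
  rw [Finset.sum_comm, cube, Finset.sum_comm (f := fun a b => |Z a b| ^ 3)]
  exact h2

/-- sheared averages.  Recipe: `g` is even; `-(a + c + b + θ) = n - b + ϑ` with `n = -a - c - ⌊θ⌋`,
`θ = θ₁ + θ₂ + θ₃`; for fixed `c` the map `a ↦ n` is injective. -/
theorem max_shear : ∃ C : ℝ, 0 ≤ C ∧ ∀ (N : ℕ) (θ₁ θ₂ θ₃ : ℝ) (Z : Matrix (Fin N) (Fin N) ℝ),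
    ∃ U : Matrix (Fin N) (Fin N) ℝ, (∀ a c, 0 ≤ U a c) ∧
      (∀ τ : ℝ, 1 ≤ τ → ∀ a c,
        ∑ b, g τ (lat N θ₁ a + lat N θ₂ c + lat N θ₃ b) * Z b c ^ 2 ≤ U a c) ∧
      ∑ a, ∑ c, U a c ^ (3 / 2 : ℝ) ≤ C * cube Z := by
  obtain ⟨C, hC, h⟩ := max_fin
  refine ⟨C, hC, fun N θ₁ θ₂ θ₃ Z => ?_⟩
  choose V h0 h1 h2 using fun c : Fin N => h N (fun a => Z a c ^ 2) fun a => sq_nonneg _
  refine ⟨fun a c => V c (-(a.val : ℤ) - (c.val : ℤ) - ⌊θ₁ + θ₂ + θ₃⌋), fun a c => h0 _ _,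
    fun τ hτ a c => ?_, ?_⟩
  · simp only [max2_shear]
    exact h1 c τ hτ _ _ (max2_fract _)
  · rw [cube, Finset.sum_comm, Finset.sum_comm (f := fun a b => |Z a b| ^ 3), Finset.mul_sum]
    refine Finset.sum_le_sum fun c _ => ?_
    have := h2 c (Finset.univ.image fun a : Fin N => -(a.val : ℤ) - (c.val : ℤ) - ⌊θ₁ + θ₂ + θ₃⌋)
    rw [Finset.sum_image fun b _ b' _ e => Fin.ext (by omega)] at this
    simpa only [max2_sq] using this

/-- two-dimensional sheared averages.  Recipe: `V c' n` from `max_fin` for column `c'`; for each `n` apply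
`max_fin` to `c' ↦ V c' n`, getting `W n`; `U a c = W (-a - c - ⌊θ⌋) c`; `(a, c) ↦ (n, c)` is injective with
values in `T × univ` for a finite `T`. -/
theorem max_two : ∃ C : ℝ, 0 ≤ C ∧ ∀ (N : ℕ) (θ₁ θ₂ θ₃ : ℝ) (Z : Matrix (Fin N) (Fin N) ℝ),
    ∃ U : Matrix (Fin N) (Fin N) ℝ, (∀ a c, 0 ≤ U a c) ∧
      (∀ τ τ' : ℝ, 1 ≤ τ → 1 ≤ τ' → ∀ a c, ∑ c', ∑ b, g τ' (lat N θ₂ c - lat N θ₂ c') *
        (g τ (lat N θ₁ a + lat N θ₂ c + lat N θ₃ b) * Z b c' ^ 2) ≤ U a c) ∧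
      ∑ a, ∑ c, U a c ^ (3 / 2 : ℝ) ≤ C * cube Z := by
  obtain ⟨C, hC, h⟩ := max_fin
  refine ⟨C * C, mul_nonneg hC hC, fun N θ₁ θ₂ θ₃ Z => ?_⟩
  choose V h0 h1 h2 using fun c : Fin N => h N (fun a => Z a c ^ 2) fun a => sq_nonneg _
  choose W k0 k1 k2 using fun n : ℤ => h N (fun c' => V c' n) fun c' => h0 c' n
  have hinj : Set.InjOn (fun b : Fin N => (b.val : ℤ)) (Finset.univ : Finset (Fin N)) :=
    fun b _ b' _ e => Fin.ext (Int.natCast_inj.1 e)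
  refine ⟨fun a c => W (-(a.val : ℤ) - (c.val : ℤ) - ⌊θ₁ + θ₂ + θ₃⌋) c.val, fun a c => k0 _ _,
    fun τ τ' hτ hτ' a c => ?_, ?_⟩
  · refine le_trans (Finset.sum_le_sum fun c' _ => ?_) (k1 _ τ' hτ' c.val 0 (by simp))
    rw [← Finset.mul_sum]
    have e : lat N θ₂ c - lat N θ₂ c' = ((c.val : ℤ) : ℝ) - (c'.val : ℝ) + 0 := by simp [lat]
    rw [e]
    refine mul_le_mul_of_nonneg_left ?_ (max2_g_nonneg _ _)
    simp only [max2_shear]
    exact h1 c' τ hτ _ _ (max2_fract _)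
  · set T : Finset ℤ := (Finset.univ : Finset (Fin N × Fin N)).image
      fun p => -(p.1.val : ℤ) - (p.2.val : ℤ) - ⌊θ₁ + θ₂ + θ₃⌋ with hT
    calc _ = ∑ c : Fin N, ∑ a : Fin N,
          W (-(a.val : ℤ) - (c.val : ℤ) - ⌊θ₁ + θ₂ + θ₃⌋) c.val ^ (3 / 2 : ℝ) := Finset.sum_comm
      _ ≤ ∑ c : Fin N, ∑ n ∈ T, W n c.val ^ (3 / 2 : ℝ) := by
          refine Finset.sum_le_sum fun c _ => ?_
          rw [← Finset.sum_image (s := Finset.univ)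
            (g := fun a : Fin N => -(a.val : ℤ) - (c.val : ℤ) - ⌊θ₁ + θ₂ + θ₃⌋)
            (f := fun n => W n c.val ^ (3 / 2 : ℝ))
            fun b _ b' _ e => Fin.ext (by simp only at e; omega)]
          refine Finset.sum_le_sum_of_subset_of_nonneg (fun n hn => ?_)
            fun n _ _ => Real.rpow_nonneg (k0 _ _) _
          obtain ⟨a, -, rfl⟩ := Finset.mem_image.1 hn
          exact Finset.mem_image.2 ⟨(a, c), Finset.mem_univ _, rfl⟩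
      _ = ∑ n ∈ T, ∑ c : Fin N, W n c.val ^ (3 / 2 : ℝ) := Finset.sum_comm
      _ ≤ ∑ n ∈ T, C * ∑ c' : Fin N, V c' n ^ (3 / 2 : ℝ) := by
          refine Finset.sum_le_sum fun n _ => ?_
          have := k2 n (Finset.univ.image fun b : Fin N => (b.val : ℤ))
          rwa [Finset.sum_image hinj] at this
      _ = C * ∑ c' : Fin N, ∑ n ∈ T, V c' n ^ (3 / 2 : ℝ) := by
          rw [← Finset.mul_sum, Finset.sum_comm]
      _ ≤ C * ∑ c' : Fin N, C * ∑ b : Fin N, |Z b c'| ^ 3 := by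
          refine mul_le_mul_of_nonneg_left (Finset.sum_le_sum fun c' _ => ?_) hC
          simpa only [max2_sq] using h2 c' T
      _ = _ := by
          rw [← Finset.mul_sum, cube, Finset.sum_comm, mul_assoc]

end Crest.Agent.R72
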