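/-
R72/Tri: the trilinear inequality.
Skeleton by helper40; keep the statements unchanged (add any helper lemmas you like).
-/
import Crest.Agent.R72.Mat1
import Crest.Agent.R72.Scal

set_option autoImplicit false
set_option linter.unusedSectionVars false

namespace Crest.Agent.R72

open Matrix

variable {ι : Type} [Fintype ι] [DecidableEq ι]

/-- a contraction for the Euclidean norm. -/
def Contr (K : Matrix ι ι ℝ) : Prop := ∀ y : ι → ℝ, (K *ᵥ y) ⬝ᵥ (K *ᵥ y) ≤ y ⬝ᵥ y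

theorem Tri.two_abs_dot_le (x y : ι → ℝ) : 2 * |x ⬝ᵥ y| ≤ x ⬝ᵥ x + y ⬝ᵥ y := by
  have h1 : 0 ≤ (x - y) ⬝ᵥ (x - y) := Finset.sum_nonneg fun i _ => mul_self_nonneg _
  have h2 : 0 ≤ (x + y) ⬝ᵥ (x + y) := Finset.sum_nonneg fun i _ => mul_self_nonneg _
  simp only [sub_dotProduct, dotProduct_sub, add_dotProduct, dotProduct_add] at h1 h2
  rw [dotProduct_comm y x] at h1 h2
  rcases abs_cases (x ⬝ᵥ y) with h | h <;> rw [h.1] <;> linarith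

theorem Contr.mul {K L : Matrix ι ι ℝ} (hK : Contr K) (hL : Contr L) : Contr (K * L) := by
  intro y
  rw [← mulVec_mulVec]
  exact (hK _).trans (hL y)

theorem Contr.transpose {K : Matrix ι ι ℝ} (hK : Contr K) : Contr Kᵀ := by
  intro y
  have h1 : (Kᵀ *ᵥ y) ⬝ᵥ (Kᵀ *ᵥ y) = y ⬝ᵥ (K *ᵥ (Kᵀ *ᵥ y)) := by
    rw [dotProduct_mulVec y K, ← mulVec_transpose]
  have h2 := Tri.two_abs_dot_le y (K *ᵥ (Kᵀ *ᵥ y))
  have h3 := hK (Kᵀ *ᵥ y)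
  have h4 := le_abs_self (y ⬝ᵥ (K *ᵥ (Kᵀ *ᵥ y)))
  linarith

theorem Contr.diagonal {k : ι → ℝ} (hk : ∀ i, |k i| ≤ 1) : Contr (diagonal k) := by
  intro y
  simp only [dotProduct, mulVec_diagonal]
  refine Finset.sum_le_sum fun i _ => ?_
  have h1 : k i * k i ≤ 1 := by
    have := abs_le.1 (hk i)
    nlinarith
  have h2 := mul_self_nonneg (y i)
  nlinarith

theorem Contr.bilin {K : Matrix ι ι ℝ} (hK : Contr K) (x y : ι → ℝ) :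
    2 * |∑ j, ∑ k, x j * K j k * y k| ≤ ∑ j, x j ^ 2 + ∑ k, y k ^ 2 := by
  have h1 : ∑ j, ∑ k, x j * K j k * y k = x ⬝ᵥ (K *ᵥ y) := by
    simp only [dotProduct, mulVec, Finset.mul_sum, mul_assoc]
  have h2 := Tri.two_abs_dot_le x (K *ᵥ y)
  have h3 := hK y
  have h4 : ∑ j, x j ^ 2 = x ⬝ᵥ x := by simp only [dotProduct, sq]
  have h5 : ∑ j, y j ^ 2 = y ⬝ᵥ y := by simp only [dotProduct, sq]
  rw [h1, h4, h5]
  linarith

theorem Contr.col {K : Matrix ι ι ℝ} (hK : Contr K) (k : ι) : ∑ j, K j k ^ 2 ≤ 1 := by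
  have h := hK (Pi.single k 1)
  simp only [mulVec_single_one, single_dotProduct, Pi.single_eq_same, mul_one] at h
  simpa only [dotProduct, sq, col_apply] using h

theorem Tri.contr_of {W : Matrix ι ι ℝ} {p : ι → ℝ} (hW : Wᵀ * W = diagonal p)
    (hp : ∀ i, p i ≤ 1) : Contr W := by
  intro y
  have h1 : (W *ᵥ y) ⬝ᵥ (W *ᵥ y) = y ⬝ᵥ ((Wᵀ * W) *ᵥ y) := by
    rw [← mulVec_mulVec, dotProduct_mulVec y Wᵀ, vecMul_transpose]
  rw [h1, hW]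
  simp only [dotProduct, mulVec_diagonal]
  refine Finset.sum_le_sum fun i _ => ?_
  have h2 := mul_self_nonneg (y i)
  have h3 := hp i
  nlinarith

theorem Tri.resolvent {W : Matrix ι ι ℝ} {p a : ι → ℝ} (hW : Wᵀ * W = diagonal p)
    (hp : ∀ i, a i ^ 2 * p i = a i ^ 2) {s : ℝ} (hs : 0 < s) :
    1 - (1 + s⁻¹ • (W * diagonal (fun i => a i ^ 2) * Wᵀ))⁻¹ =
      W * diagonal (fun i => a i ^ 2 / (s + a i ^ 2)) * Wᵀ := by
  have key : (1 + s⁻¹ • (W * diagonal (fun i => a i ^ 2) * Wᵀ)) *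
      (1 - W * diagonal (fun i => a i ^ 2 / (s + a i ^ 2)) * Wᵀ) = 1 := by
    have e1 : (W * diagonal (fun i => a i ^ 2) * Wᵀ) *
        (W * diagonal (fun i => a i ^ 2 / (s + a i ^ 2)) * Wᵀ) =
        W * (diagonal (fun i => a i ^ 2) * (Wᵀ * W) *
          diagonal (fun i => a i ^ 2 / (s + a i ^ 2))) * Wᵀ := by
      simp only [Matrix.mul_assoc]
    have e2 : diagonal (fun i => a i ^ 2 / (s + a i ^ 2)) +
        s⁻¹ • (diagonal (fun i => a i ^ 2) * diagonal p *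
          diagonal (fun i => a i ^ 2 / (s + a i ^ 2))) = s⁻¹ • diagonal (fun i => a i ^ 2) := by
      rw [diagonal_mul_diagonal, diagonal_mul_diagonal, ← diagonal_smul, ← diagonal_smul,
        diagonal_add]
      congr 1
      funext i
      have h0 : s + a i ^ 2 ≠ 0 := by positivity
      simp only [Pi.smul_apply, smul_eq_mul, hp i]
      field_simp
    have e3 : W * diagonal (fun i => a i ^ 2 / (s + a i ^ 2)) * Wᵀ +
        s⁻¹ • (W * (diagonal (fun i => a i ^ 2) * diagonal p *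
          diagonal (fun i => a i ^ 2 / (s + a i ^ 2))) * Wᵀ) =
        s⁻¹ • (W * diagonal (fun i => a i ^ 2) * Wᵀ) := by
      have := congrArg (fun M => W * M * Wᵀ) e2
      simpa only [Matrix.mul_add, Matrix.add_mul, Matrix.mul_smul, Matrix.smul_mul] using this
    rw [Matrix.add_mul, Matrix.mul_sub, Matrix.mul_sub, Matrix.one_mul, Matrix.one_mul,
      Matrix.mul_one, Matrix.smul_mul, e1, hW, ← e3]
    abel
  rw [Matrix.inv_eq_right_inv key]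
  abel

/-- a partial singular value decomposition.  Recipe: `V` = eigenvector matrix of `Aᵀ A`
(`Matrix.IsHermitian.spectral_theorem`), eigenvalues `a i ^ 2`; `U = A V diag (if a i = 0 then 0 else 1 / a i)`,
so `Uᵀ U = diag (if a i = 0 then 0 else 1)`; columns of `A V` with `a i = 0` vanish.  The two resolvent
formulas are checked by multiplying out (`Matrix.inv_eq_right_inv`). -/
theorem exists_svd (A : Matrix ι ι ℝ) : ∃ (U V : Matrix ι ι ℝ) (a : ι → ℝ), (∀ i, 0 ≤ a i) ∧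
    Contr U ∧ Contr V ∧ A = U * diagonal a * Vᵀ ∧ (∑ i, a i ^ 2 = ∑ i, ∑ j, A i j ^ 2) ∧
    ∀ s : ℝ, 0 < s →
      1 - (1 + s⁻¹ • (Aᵀ * A))⁻¹ = V * diagonal (fun i => a i ^ 2 / (s + a i ^ 2)) * Vᵀ ∧
      1 - (1 + s⁻¹ • (A * Aᵀ))⁻¹ = U * diagonal (fun i => a i ^ 2 / (s + a i ^ 2)) * Uᵀ := by
  have hH : (Aᵀ * A).PosSemidef := by
    simpa only [conjTranspose_eq_transpose_of_trivial] using posSemidef_conjTranspose_mul_self A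
  obtain ⟨V, lam, hlam, hV1, hV2, hspec⟩ : ∃ (V : Matrix ι ι ℝ) (lam : ι → ℝ), (∀ i, 0 ≤ lam i) ∧
      Vᵀ * V = 1 ∧ V * Vᵀ = 1 ∧ Aᵀ * A = V * diagonal lam * Vᵀ := by
    refine ⟨hH.1.eigenvectorUnitary, hH.1.eigenvalues, hH.eigenvalues_nonneg, ?_, ?_, ?_⟩
    · have := Unitary.coe_star_mul_self hH.1.eigenvectorUnitary
      simpa only [star_eq_conjTranspose, conjTranspose_eq_transpose_of_trivial] using this
    · have := Unitary.coe_mul_star_self hH.1.eigenvectorUnitary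
      simpa only [Unitary.coe_star, star_eq_conjTranspose, conjTranspose_eq_transpose_of_trivial]
        using this
    · have := hH.1.spectral_theorem
      rw [Unitary.conjStarAlgAut_apply] at this
      simpa only [star_eq_conjTranspose, conjTranspose_eq_transpose_of_trivial,
        RCLike.ofReal_real_eq_id, Function.id_comp] using this
  set a : ι → ℝ := fun i => √(lam i) with ha
  have ha2 : ∀ i, a i ^ 2 = lam i := fun i => Real.sq_sqrt (hlam i)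
  have hlam' : lam = fun i => a i ^ 2 := funext fun i => (ha2 i).symm
  have hAV : (A * V)ᵀ * (A * V) = diagonal (fun i => a i ^ 2) := by
    rw [← hlam', transpose_mul]
    calc Vᵀ * Aᵀ * (A * V) = Vᵀ * (Aᵀ * A) * V := by simp only [Matrix.mul_assoc]
      _ = (Vᵀ * V) * diagonal lam * (Vᵀ * V) := by rw [hspec]; simp only [Matrix.mul_assoc]
      _ = diagonal lam := by rw [hV1, Matrix.one_mul, Matrix.mul_one]
  have hconj : ∀ q : ι → ℝ, (A * V * diagonal q)ᵀ * (A * V * diagonal q) =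
      diagonal (fun i => q i * a i ^ 2 * q i) := by
    intro q
    rw [transpose_mul, diagonal_transpose]
    calc diagonal q * (A * V)ᵀ * (A * V * diagonal q)
        = diagonal q * ((A * V)ᵀ * (A * V)) * diagonal q := by simp only [Matrix.mul_assoc]
      _ = _ := by rw [hAV, diagonal_mul_diagonal, diagonal_mul_diagonal]
  set U : Matrix ι ι ℝ := A * V * diagonal (fun i => (a i)⁻¹) with hU
  have hUU : Uᵀ * U = diagonal (fun i => (a i)⁻¹ * a i ^ 2 * (a i)⁻¹) := hconj _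
  have hp1 : ∀ i, (a i)⁻¹ * a i ^ 2 * (a i)⁻¹ ≤ 1 := by
    intro i
    by_cases h : a i = 0
    · simp [h]
    · apply le_of_eq; field_simp
  have hp2 : ∀ i, a i ^ 2 * ((a i)⁻¹ * a i ^ 2 * (a i)⁻¹) = a i ^ 2 := by
    intro i
    by_cases h : a i = 0
    · simp [h]
    · field_simp
  have hz : A * V * diagonal (fun i => 1 - (a i)⁻¹ * a i) = 0 := by
    rw [← conjTranspose_mul_self_eq_zero, conjTranspose_eq_transpose_of_trivial, hconj,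
      ← diagonal_zero]
    congr 1
    funext i
    by_cases h : a i = 0
    · simp [h]
    · rw [inv_mul_cancel₀ h]; simp
  have hUa : U * diagonal a = A * V := by
    rw [hU, Matrix.mul_assoc (A * V), diagonal_mul_diagonal]
    have : diagonal (fun i => (a i)⁻¹ * a i) = 1 - diagonal (fun i => 1 - (a i)⁻¹ * a i) := by
      rw [← diagonal_one, diagonal_sub]
      congr 1
      funext i
      ring
    rw [this, Matrix.mul_sub, hz, Matrix.mul_one, sub_zero]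
  have hA : A = U * diagonal a * Vᵀ := by
    rw [hUa, Matrix.mul_assoc, hV2, Matrix.mul_one]
  have hVV : Vᵀ * V = diagonal (fun _ => (1 : ℝ)) := by rw [hV1, diagonal_one]
  refine ⟨U, V, a, fun i => Real.sqrt_nonneg _, Tri.contr_of hUU hp1,
    Tri.contr_of hVV fun _ => le_rfl, hA, ?_, fun s hs => ⟨?_, ?_⟩⟩
  · have h1 : (Aᵀ * A).trace = ∑ i, a i ^ 2 := by
      rw [hspec, trace_mul_cycle, hV1, Matrix.one_mul, trace_diagonal, hlam']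
    rw [← h1, trace_mul_comm]
    simp only [trace, diag_apply, mul_apply, transpose_apply, sq]
  · rw [hspec, hlam']
    exact Tri.resolvent hVV (fun i => mul_one _) hs
  · have h1 : A * Aᵀ = U * diagonal (fun i => a i ^ 2) * Uᵀ := by
      calc A * Aᵀ = (A * V) * (A * V)ᵀ := by
            rw [transpose_mul, Matrix.mul_assoc, ← Matrix.mul_assoc V, hV2, Matrix.one_mul]
        _ = U * diagonal a * (U * diagonal a)ᵀ := by rw [hUa]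
        _ = U * (diagonal a * diagonal a) * Uᵀ := by
            rw [transpose_mul, diagonal_transpose]; simp only [Matrix.mul_assoc]
        _ = _ := by rw [diagonal_mul_diagonal]; simp only [sq]
    rw [h1]
    exact Tri.resolvent hUU hp2 hs

theorem Tri.region {K : Matrix ι ι ℝ} (hK : Contr K) {a : ι → ℝ} (ha : ∀ i, 0 ≤ a i)
    (x y : ι → ι → ℝ) :
    2 * |∑ i, ∑ j, ∑ k, a i * (x i j * K j k * y i k)| ≤
      ∑ i, ∑ j, a i * x i j ^ 2 + ∑ i, ∑ k, a i * y i k ^ 2 := by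
  have h1 : |∑ i, ∑ j, ∑ k, a i * (x i j * K j k * y i k)| ≤
      ∑ i, |∑ j, ∑ k, a i * (x i j * K j k * y i k)| := Finset.abs_sum_le_sum_abs _ _
  have h2 : ∀ i, 2 * |∑ j, ∑ k, a i * (x i j * K j k * y i k)| ≤
      ∑ j, a i * x i j ^ 2 + ∑ k, a i * y i k ^ 2 := by
    intro i
    simp only [← Finset.mul_sum]
    rw [abs_mul, abs_of_nonneg (ha i), ← mul_add, mul_left_comm]
    exact mul_le_mul_of_nonneg_left (hK.bilin (x i) (y i)) (ha i)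
  calc 2 * |∑ i, ∑ j, ∑ k, a i * (x i j * K j k * y i k)|
      ≤ 2 * ∑ i, |∑ j, ∑ k, a i * (x i j * K j k * y i k)| := by linarith
    _ = ∑ i, 2 * |∑ j, ∑ k, a i * (x i j * K j k * y i k)| := Finset.mul_sum _ _ _
    _ ≤ ∑ i, (∑ j, a i * x i j ^ 2 + ∑ k, a i * y i k ^ 2) := Finset.sum_le_sum fun i _ => h2 i
    _ = _ := Finset.sum_add_distrib

theorem Tri.rot (f : ι → ι → ι → ℝ) : ∑ i, ∑ j, ∑ k, f i j k = ∑ j, ∑ k, ∑ i, f i j k := by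
  rw [Finset.sum_comm]
  exact Finset.sum_congr rfl fun j _ => Finset.sum_comm

theorem Tri.maxmin (a b K : ℝ) :
    a * (if b ≤ a then K * b else 0) ^ 2 + b * (if a < b then a * K else 0) ^ 2 =
      max a b * min a b ^ 2 * K ^ 2 := by
  rcases le_or_gt b a with h | h
  · rw [if_pos h, if_neg (not_lt.2 h), max_eq_left h, min_eq_right h]; ring
  · rw [if_neg (not_le.2 h), if_pos h, max_eq_right h.le, min_eq_left h.le]; ring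

theorem Tri.maxmin' (a c K : ℝ) :
    a * (if c ≤ a then K * c else 0) ^ 2 + c * (if a < c then K * a else 0) ^ 2 =
      max c a * min c a ^ 2 * K ^ 2 := by
  rcases le_or_gt c a with h | h
  · rw [if_pos h, if_neg (not_lt.2 h), max_eq_right h, min_eq_left h]; ring
  · rw [if_neg (not_le.2 h), if_pos h, max_eq_left h.le, min_eq_right h.le]; ring

/-- the scalar core: split the triple sum according to the largest of `a i`, `b j`, `c k`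
(regions `b j ≤ a i ∧ c k ≤ a i`; `a i < b j ∧ c k ≤ b j`; `a i < c k ∧ b j < c k`); in each region fix the
index of the largest value and use `Contr.bilin` for the opposite matrix. -/
theorem core_le {K₀ K₁ K₂ : Matrix ι ι ℝ} (h₀ : Contr K₀) (h₁ : Contr K₁) (h₂ : Contr K₂)
    {a b c : ι → ℝ} (ha : ∀ i, 0 ≤ a i) (hb : ∀ i, 0 ≤ b i) (hc : ∀ i, 0 ≤ c i) :
    2 * |∑ i, ∑ j, ∑ k, K₀ k i * a i * K₁ i j * b j * K₂ j k * c k| ≤
      ∑ i, ∑ j, max (a i) (b j) * min (a i) (b j) ^ 2 * K₁ i j ^ 2 +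
      ∑ j, ∑ k, max (b j) (c k) * min (b j) (c k) ^ 2 * K₂ j k ^ 2 +
      ∑ k, ∑ i, max (c k) (a i) * min (c k) (a i) ^ 2 * K₀ k i ^ 2 := by
  have r1 := Tri.region h₂ ha (fun i j => if b j ≤ a i then K₁ i j * b j else 0)
    (fun i k => if c k ≤ a i then K₀ k i * c k else 0)
  have r2 := Tri.region h₀ hb (fun j k => if c k ≤ b j then K₂ j k * c k else 0)
    (fun j i => if a i < b j then a i * K₁ i j else 0)
  have r3 := Tri.region h₁ hc (fun k i => if a i < c k then K₀ k i * a i else 0)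
    (fun k j => if b j < c k then b j * K₂ j k else 0)
  have hsplit : ∑ i, ∑ j, ∑ k, K₀ k i * a i * K₁ i j * b j * K₂ j k * c k =
      ∑ i, ∑ j, ∑ k, a i * ((if b j ≤ a i then K₁ i j * b j else 0) * K₂ j k *
        (if c k ≤ a i then K₀ k i * c k else 0)) +
      ∑ j, ∑ k, ∑ i, b j * ((if c k ≤ b j then K₂ j k * c k else 0) * K₀ k i *
        (if a i < b j then a i * K₁ i j else 0)) +
      ∑ k, ∑ i, ∑ j, c k * ((if a i < c k then K₀ k i * a i else 0) * K₁ i j *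
        (if b j < c k then b j * K₂ j k else 0)) := by
    rw [← Tri.rot (fun i j k => b j * ((if c k ≤ b j then K₂ j k * c k else 0) * K₀ k i *
        (if a i < b j then a i * K₁ i j else 0))),
      Tri.rot (fun k i j => c k * ((if a i < c k then K₀ k i * a i else 0) * K₁ i j *
        (if b j < c k then b j * K₂ j k else 0)))]
    simp only [← Finset.sum_add_distrib]
    refine Finset.sum_congr rfl fun i _ => Finset.sum_congr rfl fun j _ =>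
      Finset.sum_congr rfl fun k _ => ?_
    split_ifs <;> first | ring1 | (exfalso; linarith)
  have e1 : ∑ i, ∑ j, max (a i) (b j) * min (a i) (b j) ^ 2 * K₁ i j ^ 2 =
      ∑ i, ∑ j, a i * (if b j ≤ a i then K₁ i j * b j else 0) ^ 2 +
      ∑ j, ∑ i, b j * (if a i < b j then a i * K₁ i j else 0) ^ 2 := by
    rw [Finset.sum_comm (f := fun j i => b j * (if a i < b j then a i * K₁ i j else 0) ^ 2)]
    simp only [← Finset.sum_add_distrib, Tri.maxmin]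
  have e2 : ∑ j, ∑ k, max (b j) (c k) * min (b j) (c k) ^ 2 * K₂ j k ^ 2 =
      ∑ j, ∑ k, b j * (if c k ≤ b j then K₂ j k * c k else 0) ^ 2 +
      ∑ k, ∑ j, c k * (if b j < c k then b j * K₂ j k else 0) ^ 2 := by
    rw [Finset.sum_comm (f := fun k j => c k * (if b j < c k then b j * K₂ j k else 0) ^ 2)]
    simp only [← Finset.sum_add_distrib, Tri.maxmin]
  have e3 : ∑ k, ∑ i, max (c k) (a i) * min (c k) (a i) ^ 2 * K₀ k i ^ 2 =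
      ∑ i, ∑ k, a i * (if c k ≤ a i then K₀ k i * c k else 0) ^ 2 +
      ∑ k, ∑ i, c k * (if a i < c k then K₀ k i * a i else 0) ^ 2 := by
    rw [Finset.sum_comm (f := fun i k => a i * (if c k ≤ a i then K₀ k i * c k else 0) ^ 2)]
    simp only [← Finset.sum_add_distrib, Tri.maxmin']
  rw [hsplit, e1, e2, e3]
  have t := abs_add_three
    (∑ i, ∑ j, ∑ k, a i * ((if b j ≤ a i then K₁ i j * b j else 0) * K₂ j k *
        (if c k ≤ a i then K₀ k i * c k else 0)))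
    (∑ j, ∑ k, ∑ i, b j * ((if c k ≤ b j then K₂ j k * c k else 0) * K₀ k i *
        (if a i < b j then a i * K₁ i j else 0)))
    (∑ k, ∑ i, ∑ j, c k * ((if a i < c k then K₀ k i * a i else 0) * K₁ i j *
        (if b j < c k then b j * K₂ j k else 0)))
  linarith

/-- the square root of a weight, as a matrix. -/
noncomputable def Tri.sq (w : ι → ℝ) : Matrix ι ι ℝ := diagonal fun b => √(w b)

/-- the sign pattern. -/
noncomputable def Tri.kk (w ψ : ι → ℝ) : Matrix ι ι ℝ := diagonal fun b => ψ b / w b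

theorem Tri.sq_transpose (w : ι → ℝ) : (Tri.sq w)ᵀ = Tri.sq w := diagonal_transpose _

theorem Tri.kk_transpose (w ψ : ι → ℝ) : (Tri.kk w ψ)ᵀ = Tri.kk w ψ := diagonal_transpose _

theorem Tri.sq_mul_sq {w : ι → ℝ} (hw : ∀ a, 0 ≤ w a) : Tri.sq w * Tri.sq w = diagonal w := by
  rw [Tri.sq, diagonal_mul_diagonal]
  congr 1
  funext a
  exact Real.mul_self_sqrt (hw a)

theorem Tri.diag_eq {w ψ : ι → ℝ} (h : ∀ a, |ψ a| ≤ w a) :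
    diagonal ψ = Tri.sq w * Tri.kk w ψ * Tri.sq w := by
  rw [Tri.sq, Tri.kk, diagonal_mul_diagonal, diagonal_mul_diagonal]
  congr 1
  funext a
  have hw : 0 ≤ w a := (abs_nonneg _).trans (h a)
  by_cases h0 : w a = 0
  · have : ψ a = 0 := abs_nonpos_iff.1 (h0 ▸ h a)
    simp [this]
  · rw [mul_right_comm, Real.mul_self_sqrt hw]
    field_simp

theorem Tri.kk_contr {w ψ : ι → ℝ} (h : ∀ a, |ψ a| ≤ w a) : Contr (Tri.kk w ψ) := by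
  refine Contr.diagonal fun a => ?_
  have hw : 0 ≤ w a := (abs_nonneg _).trans (h a)
  rw [abs_div, abs_of_nonneg hw]
  exact div_le_one_of_le₀ (h a) hw

theorem Tri.trace_diag4 (r r' : ι → ℝ) (K : Matrix ι ι ℝ) :
    (diagonal r * K * diagonal r' * Kᵀ).trace = ∑ i, ∑ j, r i * r' j * K i j ^ 2 := by
  simp only [trace, diag_apply]
  refine Finset.sum_congr rfl fun i _ => ?_
  rw [mul_apply]
  refine Finset.sum_congr rfl fun j _ => ?_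
  rw [mul_diagonal, diagonal_mul, transpose_apply]
  ring

theorem Tri.trace_diag6 (a b c : ι → ℝ) (K₀ K₁ K₂ : Matrix ι ι ℝ) :
    (K₀ * diagonal a * K₁ * diagonal b * K₂ * diagonal c).trace =
      ∑ i, ∑ j, ∑ k, K₀ k i * a i * K₁ i j * b j * K₂ j k * c k := by
  rw [← Tri.rot (fun k i j => K₀ k i * a i * K₁ i j * b j * K₂ j k * c k)]
  simp only [trace, diag_apply]
  refine Finset.sum_congr rfl fun k _ => ?_
  rw [mul_diagonal, mul_apply, Finset.sum_comm, Finset.sum_mul]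
  refine Finset.sum_congr rfl fun j _ => ?_
  rw [mul_diagonal, mul_apply, Finset.sum_mul, Finset.sum_mul, Finset.sum_mul]
  refine Finset.sum_congr rfl fun i _ => ?_
  rw [mul_diagonal]

theorem Tri.TV_eq (m : ℤ) (F₀ F₁ : Matrix ι ι ℝ) {w₀ w₁ w₂ ψ₁ : ι → ℝ} (hw₀ : ∀ a, 0 ≤ w₀ a)
    (h₁ : ∀ a, |ψ₁ a| ≤ w₁ a) (hw₂ : ∀ a, 0 ≤ w₂ a) {V U : Matrix ι ι ℝ} {a b : ι → ℝ}
    (hV : ∀ s : ℝ, 0 < s → 1 - (1 + s⁻¹ • ((Tri.sq w₀ * F₀ * Tri.sq w₁)ᵀ *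
      (Tri.sq w₀ * F₀ * Tri.sq w₁)))⁻¹ = V * diagonal (fun i => a i ^ 2 / (s + a i ^ 2)) * Vᵀ)
    (hU : ∀ s : ℝ, 0 < s → 1 - (1 + s⁻¹ • ((Tri.sq w₁ * F₁ * Tri.sq w₂) *
      (Tri.sq w₁ * F₁ * Tri.sq w₂)ᵀ))⁻¹ = U * diagonal (fun i => b i ^ 2 / (s + b i ^ 2)) * Uᵀ) :
    TV m F₀ w₀ F₁ᵀ w₂ w₁ ψ₁ = ∑ i, ∑ j, (8 : ℝ) ^ m * (a i ^ 2 / ((4 : ℝ) ^ m + a i ^ 2) *
      (b j ^ 2 / ((4 : ℝ) ^ m + b j ^ 2))) * (Vᵀ * Tri.kk w₁ ψ₁ * U) i j ^ 2 := by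
  have hw₁ : ∀ a, 0 ≤ w₁ a := fun a => (abs_nonneg _).trans (h₁ a)
  have hs : (0 : ℝ) < 4 ^ m := zpow_pos (by norm_num) m
  have hX : Tri.sq w₁ * MM (gram ((2 : ℝ) ^ (-m) • F₀) w₀) w₁ * Tri.sq w₁ =
      V * diagonal (fun i => a i ^ 2 / ((4 : ℝ) ^ m + a i ^ 2)) * Vᵀ := by
    rw [← hV _ hs]
    have := MM_conj (gram_psd ((2 : ℝ) ^ (-m) • F₀) hw₀) hw₁
    refine this.trans ?_
    congr 3
    change Tri.sq w₁ * _ * Tri.sq w₁ = _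
    rw [gram_scale, _root_.zpow_neg, Matrix.mul_smul, Matrix.smul_mul, gram, ← Tri.sq_mul_sq hw₀]
    simp only [transpose_mul, Tri.sq_transpose, Matrix.mul_assoc]
  have hY : Tri.sq w₁ * MM (gram ((2 : ℝ) ^ (-m) • F₁ᵀ) w₂) w₁ * Tri.sq w₁ =
      U * diagonal (fun i => b i ^ 2 / ((4 : ℝ) ^ m + b i ^ 2)) * Uᵀ := by
    rw [← hU _ hs]
    have := MM_conj (gram_psd ((2 : ℝ) ^ (-m) • F₁ᵀ) hw₂) hw₁
    refine this.trans ?_
    congr 3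
    change Tri.sq w₁ * _ * Tri.sq w₁ = _
    rw [gram_scale, _root_.zpow_neg, Matrix.mul_smul, Matrix.smul_mul, gram, ← Tri.sq_mul_sq hw₂]
    simp only [transpose_mul, transpose_transpose, Tri.sq_transpose, Matrix.mul_assoc]
  have hq : ∀ X Y : Matrix ι ι ℝ, qf X Y ψ₁ = ((Tri.sq w₁ * X * Tri.sq w₁) * Tri.kk w₁ ψ₁ *
      (Tri.sq w₁ * Y * Tri.sq w₁) * Tri.kk w₁ ψ₁).trace := by
    intro X Y
    rw [qf, Tri.diag_eq h₁]
    calc (X * (Tri.sq w₁ * Tri.kk w₁ ψ₁ * Tri.sq w₁) * Y *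
          (Tri.sq w₁ * Tri.kk w₁ ψ₁ * Tri.sq w₁)).trace
        = ((X * Tri.sq w₁ * Tri.kk w₁ ψ₁ * (Tri.sq w₁ * Y * Tri.sq w₁) * Tri.kk w₁ ψ₁) *
            Tri.sq w₁).trace := by simp only [Matrix.mul_assoc]
      _ = _ := by rw [trace_mul_comm]; simp only [Matrix.mul_assoc]
  rw [TV, TT, hq, hX, hY]
  have h6 : (V * diagonal (fun i => a i ^ 2 / ((4 : ℝ) ^ m + a i ^ 2)) * Vᵀ * Tri.kk w₁ ψ₁ *
      (U * diagonal (fun i => b i ^ 2 / ((4 : ℝ) ^ m + b i ^ 2)) * Uᵀ) * Tri.kk w₁ ψ₁).trace =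
      (diagonal (fun i => a i ^ 2 / ((4 : ℝ) ^ m + a i ^ 2)) * (Vᵀ * Tri.kk w₁ ψ₁ * U) *
        diagonal (fun i => b i ^ 2 / ((4 : ℝ) ^ m + b i ^ 2)) * (Vᵀ * Tri.kk w₁ ψ₁ * U)ᵀ).trace := by
    calc _ = (V * (diagonal (fun i => a i ^ 2 / ((4 : ℝ) ^ m + a i ^ 2)) * (Vᵀ * Tri.kk w₁ ψ₁ * U) *
        diagonal (fun i => b i ^ 2 / ((4 : ℝ) ^ m + b i ^ 2)) * (Uᵀ * Tri.kk w₁ ψ₁))).trace := by
          simp only [Matrix.mul_assoc]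
      _ = _ := by
          rw [trace_mul_comm]
          simp only [transpose_mul, transpose_transpose, Tri.kk_transpose, Matrix.mul_assoc]
  rw [h6, Tri.trace_diag4, Finset.mul_sum]
  refine Finset.sum_congr rfl fun i _ => ?_
  rw [Finset.mul_sum]
  refine Finset.sum_congr rfl fun j _ => ?_
  ring

theorem Tri.lower {a b : ι → ℝ} (ha : ∀ i, 0 ≤ a i) (hb : ∀ i, 0 ≤ b i) (K : Matrix ι ι ℝ) :
    ∃ 𝓜₀ : Finset ℤ, ∀ 𝓜 : Finset ℤ, 𝓜₀ ⊆ 𝓜 →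
      7 / 12 * ∑ i, ∑ j, max (a i) (b j) * min (a i) (b j) ^ 2 * K i j ^ 2 ≤
        ∑ m ∈ 𝓜, ∑ i, ∑ j, (8 : ℝ) ^ m * (a i ^ 2 / ((4 : ℝ) ^ m + a i ^ 2) *
          (b j ^ 2 / ((4 : ℝ) ^ m + b j ^ 2))) * K i j ^ 2 := by
  choose f hf using fun i j => exists_lower (ha i) (hb j)
  refine ⟨Finset.univ.biUnion fun i => Finset.univ.biUnion fun j => f i j, fun 𝓜 h𝓜 => ?_⟩
  rw [Finset.sum_comm (s := 𝓜), Finset.mul_sum]
  refine Finset.sum_le_sum fun i _ => ?_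
  rw [Finset.sum_comm (s := 𝓜), Finset.mul_sum]
  refine Finset.sum_le_sum fun j _ => ?_
  rw [← Finset.sum_mul, ← mul_assoc]
  refine mul_le_mul_of_nonneg_right (hf i j 𝓜 fun m hm => h𝓜 ?_) (sq_nonneg _)
  simp only [Finset.mem_biUnion, Finset.mem_univ, true_and]
  exact ⟨i, j, hm⟩

theorem Tri.sum_sq (F : Matrix ι ι ℝ) {α β : ι → ℝ} (hα : ∀ a, 0 ≤ α a) (hβ : ∀ a, 0 ≤ β a) :
    ∑ i, ∑ j, (Tri.sq α * F * Tri.sq β) i j ^ 2 = hs F α β := by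
  refine Finset.sum_congr rfl fun i _ => Finset.sum_congr rfl fun j _ => ?_
  rw [Tri.sq, Tri.sq, mul_diagonal, diagonal_mul, mul_pow, mul_pow, Real.sq_sqrt (hα i),
    Real.sq_sqrt (hβ j)]
  ring

/-- everything that the two final estimates use. -/
theorem Tri.setup (F₀ F₁ F₂ : Matrix ι ι ℝ) {w₀ w₁ w₂ ψ₀ ψ₁ ψ₂ : ι → ℝ} (h₀ : ∀ a, |ψ₀ a| ≤ w₀ a)
    (h₁ : ∀ a, |ψ₁ a| ≤ w₁ a) (h₂ : ∀ a, |ψ₂ a| ≤ w₂ a) :
    ∃ (K₀ K₁ K₂ : Matrix ι ι ℝ) (a b c : ι → ℝ), Contr K₀ ∧ Contr K₁ ∧ Contr K₂ ∧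
      (∀ i, 0 ≤ a i) ∧ (∀ i, 0 ≤ b i) ∧ (∀ i, 0 ≤ c i) ∧
      (∑ i, a i ^ 2 = hs F₀ w₀ w₁) ∧ (∑ i, b i ^ 2 = hs F₁ w₁ w₂) ∧ (∑ i, c i ^ 2 = hs F₂ w₂ w₀) ∧
      tri F₀ F₁ F₂ ψ₀ ψ₁ ψ₂ = ∑ i, ∑ j, ∑ k, K₀ k i * a i * K₁ i j * b j * K₂ j k * c k ∧
      (∀ m : ℤ, TV m F₀ w₀ F₁ᵀ w₂ w₁ ψ₁ = ∑ i, ∑ j, (8 : ℝ) ^ m *
        (a i ^ 2 / ((4 : ℝ) ^ m + a i ^ 2) * (b j ^ 2 / ((4 : ℝ) ^ m + b j ^ 2))) * K₁ i j ^ 2) ∧
      (∀ m : ℤ, TV m F₁ w₁ F₂ᵀ w₀ w₂ ψ₂ = ∑ i, ∑ j, (8 : ℝ) ^ m *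
        (b i ^ 2 / ((4 : ℝ) ^ m + b i ^ 2) * (c j ^ 2 / ((4 : ℝ) ^ m + c j ^ 2))) * K₂ i j ^ 2) ∧
      (∀ m : ℤ, TV m F₂ w₂ F₀ᵀ w₁ w₀ ψ₀ = ∑ i, ∑ j, (8 : ℝ) ^ m *
        (c i ^ 2 / ((4 : ℝ) ^ m + c i ^ 2) * (a j ^ 2 / ((4 : ℝ) ^ m + a j ^ 2))) * K₀ i j ^ 2) := by
  have hw₀ : ∀ a, 0 ≤ w₀ a := fun a => (abs_nonneg _).trans (h₀ a)
  have hw₁ : ∀ a, 0 ≤ w₁ a := fun a => (abs_nonneg _).trans (h₁ a)
  have hw₂ : ∀ a, 0 ≤ w₂ a := fun a => (abs_nonneg _).trans (h₂ a)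
  obtain ⟨UA, VA, a, ha, hUA, hVA, hA, hAs, hAr⟩ := exists_svd (Tri.sq w₀ * F₀ * Tri.sq w₁)
  obtain ⟨UB, VB, b, hb, hUB, hVB, hB, hBs, hBr⟩ := exists_svd (Tri.sq w₁ * F₁ * Tri.sq w₂)
  obtain ⟨UC, VC, c, hc, hUC, hVC, hC, hCs, hCr⟩ := exists_svd (Tri.sq w₂ * F₂ * Tri.sq w₀)
  refine ⟨VCᵀ * Tri.kk w₀ ψ₀ * UA, VAᵀ * Tri.kk w₁ ψ₁ * UB, VBᵀ * Tri.kk w₂ ψ₂ * UC, a, b, c,
    (hVC.transpose.mul (Tri.kk_contr h₀)).mul hUA, (hVA.transpose.mul (Tri.kk_contr h₁)).mul hUB,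
    (hVB.transpose.mul (Tri.kk_contr h₂)).mul hUC, ha, hb, hc,
    hAs.trans (Tri.sum_sq _ hw₀ hw₁), hBs.trans (Tri.sum_sq _ hw₁ hw₂),
    hCs.trans (Tri.sum_sq _ hw₂ hw₀), ?_,
    fun m => Tri.TV_eq m F₀ F₁ hw₀ h₁ hw₂ (fun s hs => (hAr s hs).1) (fun s hs => (hBr s hs).2),
    fun m => Tri.TV_eq m F₁ F₂ hw₁ h₂ hw₀ (fun s hs => (hBr s hs).1) (fun s hs => (hCr s hs).2),
    fun m => Tri.TV_eq m F₂ F₀ hw₂ h₀ hw₁ (fun s hs => (hCr s hs).1) (fun s hs => (hAr s hs).2)⟩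
  rw [← Tri.trace_diag6, tri_eq_trace, Tri.diag_eq h₀, Tri.diag_eq h₁, Tri.diag_eq h₂]
  calc (Tri.sq w₀ * Tri.kk w₀ ψ₀ * Tri.sq w₀ * F₀ * (Tri.sq w₁ * Tri.kk w₁ ψ₁ * Tri.sq w₁) * F₁ *
        (Tri.sq w₂ * Tri.kk w₂ ψ₂ * Tri.sq w₂) * F₂).trace
      = (Tri.sq w₀ * (Tri.kk w₀ ψ₀ * (Tri.sq w₀ * F₀ * Tri.sq w₁) * Tri.kk w₁ ψ₁ *
          (Tri.sq w₁ * F₁ * Tri.sq w₂) * Tri.kk w₂ ψ₂ * (Tri.sq w₂ * F₂))).trace := by
        simp only [Matrix.mul_assoc]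
    _ = (Tri.kk w₀ ψ₀ * (Tri.sq w₀ * F₀ * Tri.sq w₁) * Tri.kk w₁ ψ₁ *
          (Tri.sq w₁ * F₁ * Tri.sq w₂) * Tri.kk w₂ ψ₂ * (Tri.sq w₂ * F₂ * Tri.sq w₀)).trace := by
        rw [trace_mul_comm]; simp only [Matrix.mul_assoc]
    _ = ((Tri.kk w₀ ψ₀ * UA * diagonal a * (VAᵀ * Tri.kk w₁ ψ₁ * UB) * diagonal b *
          (VBᵀ * Tri.kk w₂ ψ₂ * UC) * diagonal c) * VCᵀ).trace := by
        rw [hA, hB, hC]; simp only [Matrix.mul_assoc]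
    _ = _ := by rw [trace_mul_comm]; simp only [Matrix.mul_assoc]

/-- Recipe: `k_j = ψ_j / w_j` (`0` where `w_j = 0`), `A = √w₀ F₀ √w₁`, `B = √w₁ F₁ √w₂`, `C = √w₂ F₂ √w₀`,
`tri = tr (k₀ A k₁ B k₂ C)`.  With `exists_svd`, `K₁ = V_Aᵀ k₁ U_B`, `K₂ = V_Bᵀ k₂ U_C`, `K₀ = V_Cᵀ k₀ U_A`.
By `gram_scale`, `MM_conj`:
`TV m F₀ w₀ F₁ᵀ w₂ w₁ ψ₁ = 8^m ∑ i j, a i²/(4^m + a i²) * (b j²/(4^m + b j²)) * K₁ i j²`.
Conclude with `core_le` and `exists_lower` (union of the finitely many `𝓜₀`). -/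
theorem tri_le (F₀ F₁ F₂ : Matrix ι ι ℝ) {w₀ w₁ w₂ ψ₀ ψ₁ ψ₂ : ι → ℝ} (h₀ : ∀ a, |ψ₀ a| ≤ w₀ a)
    (h₁ : ∀ a, |ψ₁ a| ≤ w₁ a) (h₂ : ∀ a, |ψ₂ a| ≤ w₂ a) :
    ∃ 𝓜₀ : Finset ℤ, ∀ 𝓜 : Finset ℤ, 𝓜₀ ⊆ 𝓜 → |tri F₀ F₁ F₂ ψ₀ ψ₁ ψ₂| ≤
      6 / 7 * ∑ m ∈ 𝓜, (TV m F₀ w₀ F₁ᵀ w₂ w₁ ψ₁ + TV m F₁ w₁ F₂ᵀ w₀ w₂ ψ₂ +
        TV m F₂ w₂ F₀ᵀ w₁ w₀ ψ₀) := by
  obtain ⟨K₀, K₁, K₂, a, b, c, hK₀, hK₁, hK₂, ha, hb, hc, -, -, -, ht, e₁, e₂, e₀⟩ :=
    Tri.setup F₀ F₁ F₂ h₀ h₁ h₂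
  obtain ⟨M₁, hM₁⟩ := Tri.lower ha hb K₁
  obtain ⟨M₂, hM₂⟩ := Tri.lower hb hc K₂
  obtain ⟨M₀, hM₀⟩ := Tri.lower hc ha K₀
  refine ⟨M₁ ∪ M₂ ∪ M₀, fun 𝓜 h𝓜 => ?_⟩
  have g₁ := hM₁ 𝓜 ((Finset.subset_union_left.trans Finset.subset_union_left).trans h𝓜)
  have g₂ := hM₂ 𝓜 ((Finset.subset_union_right.trans Finset.subset_union_left).trans h𝓜)
  have g₀ := hM₀ 𝓜 (Finset.subset_union_right.trans h𝓜)
  have hcore := core_le hK₀ hK₁ hK₂ ha hb hc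
  simp only [← e₁] at g₁
  simp only [← e₂] at g₂
  simp only [← e₀] at g₀
  rw [ht, Finset.sum_add_distrib, Finset.sum_add_distrib]
  linarith

theorem Tri.maxmin_le {b c : ℝ} (hb : 0 ≤ b) (hc : 0 ≤ c) : max b c * min b c ^ 2 ≤ b * c ^ 2 := by
  rcases le_total b c with h | h
  · rw [max_eq_right h, min_eq_left h]
    have := mul_nonneg hb hc
    nlinarith
  · rw [max_eq_left h, min_eq_right h]

theorem Tri.side {K : Matrix ι ι ℝ} (hK : Contr K) {b c : ι → ℝ} (hb : ∀ i, 0 ≤ b i)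
    (hc : ∀ i, 0 ≤ c i) :
    ∑ j, ∑ k, max (b j) (c k) * min (b j) (c k) ^ 2 * K j k ^ 2 ≤ √(∑ j, b j ^ 2) * ∑ k, c k ^ 2 := by
  rw [Finset.sum_comm, Finset.mul_sum]
  refine Finset.sum_le_sum fun k _ => ?_
  have hbj : ∀ j, b j ≤ √(∑ j, b j ^ 2) := fun j =>
    Real.le_sqrt_of_sq_le (Finset.single_le_sum (f := fun j => b j ^ 2)
      (fun j _ => sq_nonneg _) (Finset.mem_univ j))
  calc ∑ j, max (b j) (c k) * min (b j) (c k) ^ 2 * K j k ^ 2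
      ≤ ∑ j, √(∑ j, b j ^ 2) * c k ^ 2 * K j k ^ 2 := by
        refine Finset.sum_le_sum fun j _ => mul_le_mul_of_nonneg_right ?_ (sq_nonneg _)
        exact (Tri.maxmin_le (hb j) (hc k)).trans
          (mul_le_mul_of_nonneg_right (hbj j) (sq_nonneg _))
    _ = √(∑ j, b j ^ 2) * c k ^ 2 * ∑ j, K j k ^ 2 := (Finset.mul_sum _ _ _).symm
    _ ≤ √(∑ j, b j ^ 2) * c k ^ 2 * 1 :=
        mul_le_mul_of_nonneg_left (hK.col k) (by positivity)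
    _ = _ := mul_one _

/-- Recipe: as `tri_le`, but bound the second and third sums of `core_le` directly:
`max b c * min b c ^ 2 ≤ b c²`, `b j ≤ √(∑ b²) = √(hs F₁ w₁ w₂)`, `Contr.col`, `∑ c² = hs F₂ w₂ w₀`. -/
theorem tri_le' (F₀ F₁ F₂ : Matrix ι ι ℝ) {w₀ w₁ w₂ ψ₀ ψ₁ ψ₂ : ι → ℝ} (h₀ : ∀ a, |ψ₀ a| ≤ w₀ a)
    (h₁ : ∀ a, |ψ₁ a| ≤ w₁ a) (h₂ : ∀ a, |ψ₂ a| ≤ w₂ a) :
    ∃ 𝓜₀ : Finset ℤ, ∀ 𝓜 : Finset ℤ, 𝓜₀ ⊆ 𝓜 → |tri F₀ F₁ F₂ ψ₀ ψ₁ ψ₂| ≤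
      ∑ m ∈ 𝓜, TV m F₀ w₀ F₁ᵀ w₂ w₁ ψ₁ +
        (√(hs F₀ w₀ w₁) + √(hs F₁ w₁ w₂)) * hs F₂ w₂ w₀ := by
  have hw₀ : ∀ a, 0 ≤ w₀ a := fun a => (abs_nonneg _).trans (h₀ a)
  have hw₁ : ∀ a, 0 ≤ w₁ a := fun a => (abs_nonneg _).trans (h₁ a)
  have hw₂ : ∀ a, 0 ≤ w₂ a := fun a => (abs_nonneg _).trans (h₂ a)
  obtain ⟨K₀, K₁, K₂, a, b, c, hK₀, hK₁, hK₂, ha, hb, hc, sa, sb, sc, ht, e₁, -, -⟩ :=
    Tri.setup F₀ F₁ F₂ h₀ h₁ h₂
  obtain ⟨M₁, hM₁⟩ := Tri.lower ha hb K₁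
  refine ⟨M₁, fun 𝓜 h𝓜 => ?_⟩
  have g₁ := hM₁ 𝓜 h𝓜
  have hcore := core_le hK₀ hK₁ hK₂ ha hb hc
  simp only [← e₁] at g₁
  have g₂ := Tri.side hK₂ hb hc
  have g₀ := Tri.side hK₀.transpose ha hc
  rw [Finset.sum_comm] at g₀
  simp only [transpose_apply, max_comm (a _), min_comm (a _)] at g₀
  rw [sb, sc] at g₂
  rw [sa, sc] at g₀
  have p₁ : 0 ≤ ∑ m ∈ 𝓜, TV m F₀ w₀ F₁ᵀ w₂ w₁ ψ₁ :=
    Finset.sum_nonneg fun m _ => TV_nonneg m _ _ hw₀ hw₂ hw₁ _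
  have p₂ : 0 ≤ √(hs F₀ w₀ w₁) * hs F₂ w₂ w₀ :=
    mul_nonneg (Real.sqrt_nonneg _) (hs_nonneg _ hw₂ hw₀)
  have p₃ : 0 ≤ √(hs F₁ w₁ w₂) * hs F₂ w₂ w₀ :=
    mul_nonneg (Real.sqrt_nonneg _) (hs_nonneg _ hw₂ hw₀)
  rw [ht, add_mul]
  linarith

end Crest.Agent.R72
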