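/-
R72/VE: averaging the vertex form over shifted planes (Jensen) gives the energy of wide Gaussians.
Skeleton by helper40; keep the statements unchanged (add any helper lemmas you like).
-/
import Crest.Agent.R72.Mat1
import Crest.Agent.R72.Gauss

set_option autoImplicit false
set_option linter.unusedSectionVars false

namespace Crest.Agent.R72

open Matrix MeasureTheory

variable {ι : Type} [Fintype ι] [DecidableEq ι] (y₁ x y₂ : ι → ℝ) (Z₁ Z₂ : Matrix ι ι ℝ)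

namespace VEAux

theorem meas_TT {Ω : Type*} [MeasurableSpace Ω] {t a b c : Ω → ℝ} (ht : Measurable t)
    (ha : Measurable a) (hb : Measurable b) (hc : Measurable c) :
    Measurable fun z => TT (gram Z₁ (wv y₁ (2 * t z) (a z))) (gram Z₂ (wv y₂ (2 * t z) (c z)))
      (wv x (2 * t z) (b z)) (pv x (t z) (b z)) := by
  have hw : ∀ (y : ι → ℝ) {r : Ω → ℝ}, Measurable r → ∀ i,
      Measurable fun z => wv y (2 * t z) (r z) i := fun y r hr i =>
    measurable_g.comp ((ht.const_mul 2).prodMk (hr.const_sub (y i)))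
  refine measurable_qf (measurable_MM_apply (measurable_gram_apply _ (hw y₁ ha)) (hw x hb))
    (measurable_MM_apply (measurable_gram_apply _ (hw y₂ hc)) (hw x hb)) fun i => ?_
  exact (ht.sqrt.div_const 2).mul (measurable_g1.comp (ht.prodMk (hb.const_sub (x i))))

theorem wv_nonneg (y : ι → ℝ) (τ r : ℝ) (a : ι) : 0 ≤ wv y τ r a := g_nonneg _ _

theorem Aff_gram (Y Z : Matrix ι ι ℝ) (α w : ι → ℝ) (i j : ι) :
    Aff (gram Y α) Z w i j = ∑ a, α a * ((Y * (1 - diagonal w * Z)) a i *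
      (Y * (1 - diagonal w * Z)) a j) + (Zᵀ * diagonal w * Z) i j := by
  rw [← gram_apply, ← Matrix.add_apply]
  simp only [Aff, gram, transpose_mul, Matrix.mul_assoc]

theorem integrable_shift {s : ℝ} (hs : 0 < s) (c : ℝ) : Integrable fun r => g s (r - c) :=
  (integrable_g hs).comp_sub_right c

theorem Aff_eq (Y Z : Matrix ι ι ℝ) (y w : ι → ℝ) (s τ c : ℝ) (i j : ι) :
    (fun r => g s (r - c) * Aff (gram Y (wv y τ r)) Z w i j) = fun r =>
      ∑ a, g τ (y a - r) * g s (-c + r) * ((Y * (1 - diagonal w * Z)) a i *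
        (Y * (1 - diagonal w * Z)) a j) + g s (r - c) * (Zᵀ * diagonal w * Z) i j := by
  funext r
  rw [Aff_gram, mul_add, Finset.mul_sum, neg_add_eq_sub]
  congr 1
  exact Finset.sum_congr rfl fun a _ => by simp only [wv]; ring

theorem integrable_Aff (Y Z : Matrix ι ι ℝ) (y w : ι → ℝ) {s τ : ℝ} (hs : 0 < s) (hτ : 0 < τ)
    (c : ℝ) (i j : ι) : Integrable fun r => g s (r - c) * Aff (gram Y (wv y τ r)) Z w i j := by
  rw [Aff_eq]
  exact (integrable_finsetSum _ fun a _ => (integrable_g_mul_g hτ hs _ _).mul_const _).add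
    ((integrable_shift hs c).mul_const _)

theorem integral_Aff (Y Z : Matrix ι ι ℝ) (y w : ι → ℝ) {s τ : ℝ} (hs : 0 < s) (hτ : 0 < τ)
    (c : ℝ) (i j : ι) : ∫ r, g s (r - c) * Aff (gram Y (wv y τ r)) Z w i j =
      Aff (gram Y (wv y (τ + s) c)) Z w i j := by
  rw [Aff_eq, integral_add
      (integrable_finsetSum _ fun a _ => (integrable_g_mul_g hτ hs _ _).mul_const _)
      ((integrable_shift hs c).mul_const _),
    integral_finsetSum _ fun a _ => (integrable_g_mul_g hτ hs _ _).mul_const _, Aff_gram,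
    integral_mul_const, integral_sub_right_eq_self (g s) c, integral_g hs, one_mul]
  congr 1
  refine Finset.sum_congr rfl fun a _ => ?_
  rw [integral_mul_const, conv_g hτ hs, ← sub_eq_add_neg]
  rfl

/-- the Jensen step -/
theorem jensen (Z : Matrix ι ι ℝ) {w : ι → ℝ} (hw : ∀ b, 0 ≤ w b) (ψ : ι → ℝ) {s τ : ℝ}
    (hs : 0 < s) (hτ : 0 < τ) (c₁ c₂ : ℝ) :
    ∫⁻ r : ℝ × ℝ, ENNReal.ofReal (g s (r.1 - c₁) * g s (r.2 - c₂) *
        TT (gram Z₁ (wv y₁ τ r.1)) (gram Z₂ (wv y₂ τ r.2)) w ψ) ≤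
      ENNReal.ofReal (qf (Aff (gram Z₁ (wv y₁ (τ + s) c₁)) Z w)
        (Aff (gram Z₂ (wv y₂ (τ + s) c₂)) Z w) ψ) := by
  have e : (fun r : ℝ × ℝ => g s (r.1 - c₁) * g s (r.2 - c₂) *
      qf (Aff (gram Z₁ (wv y₁ τ r.1)) Z w) (Aff (gram Z₂ (wv y₂ τ r.2)) Z w) ψ) = fun r =>
      ∑ i, ∑ j, (g s (r.1 - c₁) * Aff (gram Z₁ (wv y₁ τ r.1)) Z w i j) *
        (g s (r.2 - c₂) * Aff (gram Z₂ (wv y₂ τ r.2)) Z w j i) * (ψ i * ψ j) := by
    funext r
    simp only [qf_apply, Finset.mul_sum]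
    exact Finset.sum_congr rfl fun i _ => Finset.sum_congr rfl fun j _ => by ring
  have hi : ∀ i j, Integrable fun r : ℝ × ℝ =>
      (g s (r.1 - c₁) * Aff (gram Z₁ (wv y₁ τ r.1)) Z w i j) *
        (g s (r.2 - c₂) * Aff (gram Z₂ (wv y₂ τ r.2)) Z w j i) * (ψ i * ψ j) := fun i j =>
    ((integrable_Aff Z₁ Z y₁ w hs hτ c₁ i j).mul_prod
      (integrable_Aff Z₂ Z y₂ w hs hτ c₂ j i)).mul_const _
  have h1 : ∫ r : ℝ × ℝ, g s (r.1 - c₁) * g s (r.2 - c₂) *
      qf (Aff (gram Z₁ (wv y₁ τ r.1)) Z w) (Aff (gram Z₂ (wv y₂ τ r.2)) Z w) ψ =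
      qf (Aff (gram Z₁ (wv y₁ (τ + s) c₁)) Z w) (Aff (gram Z₂ (wv y₂ (τ + s) c₂)) Z w) ψ := by
    rw [e, integral_finsetSum _ fun i _ => integrable_finsetSum _ fun j _ => hi i j, qf_apply]
    refine Finset.sum_congr rfl fun i _ => ?_
    rw [integral_finsetSum _ fun j _ => hi i j]
    refine Finset.sum_congr rfl fun j _ => ?_
    rw [integral_mul_const, ← integral_Aff Z₁ Z y₁ w hs hτ c₁ i j,
      ← integral_Aff Z₂ Z y₂ w hs hτ c₂ j i, ← integral_prod_mul]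
    rfl
  have p1 := fun r => gram_psd Z₁ (wv_nonneg y₁ τ r)
  have p2 := fun r => gram_psd Z₂ (wv_nonneg y₂ τ r)
  rw [← h1, ofReal_integral_eq_lintegral_ofReal
    (by rw [e]; exact integrable_finsetSum _ fun i _ => integrable_finsetSum _ fun j _ => hi i j)
    (ae_of_all _ fun r => mul_nonneg (mul_nonneg (g_nonneg _ _) (g_nonneg _ _))
      (qf_nonneg (Aff_psd (p1 _) hw Z) (Aff_psd (p2 _) hw Z) ψ))]
  refine lintegral_mono fun r => ENNReal.ofReal_le_ofReal (mul_le_mul_of_nonneg_left ?_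
    (mul_nonneg (g_nonneg _ _) (g_nonneg _ _)))
  exact qf_mono (MM_psd (p1 _) hw) (MM_le_Aff (p1 _) hw Z) (MM_psd (p2 _) hw)
    (MM_le_Aff (p2 _) hw Z) ψ

/-- change of the weight in the affine majorant -/
theorem Aff_le {R R' : Matrix ι ι ℝ} (M : Matrix ι ι ℝ) {w w' : ι → ℝ} {c : ℝ}
    (hR : (c • R - R').PosSemidef) (hw : ∀ b, 0 < w b) (hw' : ∀ b, 0 ≤ w' b)
    (h : ∀ b, w' b ≤ c * w b) :
    (c • Aff R M w' - Aff R' (diagonal (fun b => w' b / w b) * M) w).PosSemidef := by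
  have e1 : diagonal w * (diagonal (fun b => w' b / w b) * M) = diagonal w' * M := by
    rw [← Matrix.mul_assoc, diagonal_mul_diagonal]
    congr 2
    funext b
    exact mul_div_cancel₀ _ (hw b).ne'
  have e2 : (diagonal (fun b => w' b / w b) * M)ᵀ * diagonal w *
      (diagonal (fun b => w' b / w b) * M) = gram M (fun b => w' b / w b * w' b) := by
    rw [Matrix.mul_assoc, e1, transpose_mul, diagonal_transpose, gram, Matrix.mul_assoc,
      Matrix.mul_assoc, ← Matrix.mul_assoc (diagonal _) (diagonal _), diagonal_mul_diagonal]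
  have e3 : c • gram M w' = gram M (fun b => w' b / w b * w' b) +
      gram M (fun b => (c - w' b / w b) * w' b) := by
    rw [← gram_smul_w, ← gram_add]
    congr 1
    funext b
    simp only [Pi.smul_apply, Pi.add_apply, smul_eq_mul]
    ring
  have e4 : c • Aff R M w' - Aff R' (diagonal (fun b => w' b / w b) * M) w =
      (1 - diagonal w' * M)ᵀ * (c • R - R') * (1 - diagonal w' * M) +
        gram M (fun b => (c - w' b / w b) * w' b) := by
    unfold Aff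
    rw [e1, e2, smul_add, show Mᵀ * diagonal w' * M = gram M w' from rfl, e3, Matrix.mul_sub _ (c • R),
      Matrix.sub_mul, Matrix.mul_smul, Matrix.smul_mul]
    abel
  rw [e4]
  refine PosSemidef.add ?_ (gram_psd M fun b => mul_nonneg (sub_nonneg.2 ?_) (hw' b))
  · simpa only [conjTranspose_eq_transpose_of_trivial] using
      hR.conjTranspose_mul_mul_same (1 - diagonal w' * M)
  · exact (div_le_iff₀ (hw b)).2 (h b)

theorem lintegral_rearrange {H : (ℝ × ℝ × ℝ) × ℝ → ENNReal} (hH : Measurable H) :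
    ∫⁻ p, ∫⁻ q, H (p, q) = ∫⁻ z : ℝ × ℝ, ∫⁻ r : ℝ × ℝ, H ((r.1, z.2, r.2), z.1) := by
  have h1 : Measurable fun u : (ℝ × ℝ) × (ℝ × ℝ) => H ((u.2.1, u.1.2, u.2.2), u.1.1) :=
    hH.comp (by fun_prop)
  rw [lintegral_lintegral_swap (f := fun p q => H (p, q)) hH.aemeasurable, Measure.volume_eq_prod ℝ ℝ,
    lintegral_prod _ h1.lintegral_prod_right'.aemeasurable]
  refine lintegral_congr fun q => ?_
  have h2 : Measurable fun p : ℝ × ℝ × ℝ => H (p, q) := hH.comp (by fun_prop)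
  have h3 : Measurable fun u : (ℝ × ℝ) × ℝ => H ((u.1.1, u.1.2, u.2), q) := hH.comp (by fun_prop)
  calc ∫⁻ p : ℝ × ℝ × ℝ, H (p, q) = ∫⁻ a, ∫⁻ b, ∫⁻ c, H ((a, b, c), q) := by
        rw [Measure.volume_eq_prod, lintegral_prod _ h2.aemeasurable]
        refine lintegral_congr fun a => ?_
        rw [Measure.volume_eq_prod]
        exact lintegral_prod _ (h2.comp (measurable_prodMk_left (x := a))).aemeasurable
    _ = ∫⁻ b, ∫⁻ a, ∫⁻ c, H ((a, b, c), q) :=
        lintegral_lintegral_swap (f := fun a b => ∫⁻ c, H ((a, b, c), q))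
          h3.lintegral_prod_right'.aemeasurable
    _ = _ := by
        refine lintegral_congr fun b => ?_
        have h4 : Measurable fun r : ℝ × ℝ => H ((r.1, b, r.2), q) := hH.comp (by fun_prop)
        exact (lintegral_prod _ h4.aemeasurable).symm

end VEAux

open VEAux

theorem measurable_TVp (m : ℤ) :
    Measurable fun w : ℝ × (ℝ × ℝ × ℝ) => TVp y₁ x y₂ Z₁ Z₂ m w.1 w.2 :=
  (meas_TT y₁ x y₂ _ _ measurable_fst measurable_snd.fst measurable_snd.snd.fst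
    measurable_snd.snd.snd).const_mul _

theorem measurable_TVs : Measurable fun w : ℝ × (ℝ × ℝ × ℝ) => TVs y₁ x y₂ Z₁ Z₂ w.1 w.2 :=
  Measurable.tsum fun m => (measurable_TVp y₁ x y₂ Z₁ Z₂ m).ennreal_ofReal

/-- the inner estimate, for fixed `(q, p)`.  Recipe: `w = wv x (2t) p`, `w̃ = wv x t p ≤ √2 w`
(`g_le_g_two`), `R̄ = gram Z₁ (wv y₁ (v t) q) + gram Z₂ (wv y₂ (v t) (-q - p))`, `M̃ = MM R̄ w̃`,
`Z = diagonal (w̃ / w) * M̃`, so `w Z = w̃ M̃`.  Pointwise `TT ≤ qf (Aff R₁ Z w) (Aff R₂ Z w) ψ` (`MM_le_Aff`,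
`qf_mono`).  By `qf_apply`, `gram_apply` the right side is a finite sum of products (function of `p₁`) *
(function of `p₂`), each affine in a Gaussian; integrate exactly (`integral_prod_mul`, `conv_g`, `conv_g'`,
`integral_g`): the result is `qf (Aff R̄₁ Z w) (Aff R̄₂ Z w) ψ`, and `Aff R̄ⱼ Z w ≤ √2 • Aff R̄ M̃ w̃ = √2 • M̃`
(`Aff_MM`); `qf_smul`. -/
theorem ve_inner {lam t : ℝ} (hl : 0 < lam) (ht : 0 < t) (q p : ℝ) :
    ∫⁻ r : ℝ × ℝ, ENNReal.ofReal (g (lam * t / 2) (r.1 - q) * g (lam * t / 2) (r.2 + q + p) *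
        TT (gram Z₁ (wv y₁ (2 * t) r.1)) (gram Z₂ (wv y₂ (2 * t) r.2)) (wv x (2 * t) p) (pv x t p)) ≤
      ENNReal.ofReal (t / 2 * en y₁ x y₂ Z₁ Z₂ (2 + lam / 2) t (q, p)) := by
  have hs : 0 < lam * t / 2 := by positivity
  have ht2 : 0 < 2 * t := by positivity
  have e1 : 2 * t + lam * t / 2 = (2 + lam / 2) * t := by ring
  have e2 : ∀ r : ℝ, r + q + p = r - (-q - p) := fun r => by ring
  simp only [e2, en]
  set R₁ := gram Z₁ (wv y₁ ((2 + lam / 2) * t) q) with hR₁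
  set R₂ := gram Z₂ (wv y₂ ((2 + lam / 2) * t) (-q - p)) with hR₂
  have p1 : R₁.PosSemidef := gram_psd Z₁ (wv_nonneg _ _ _)
  have p2 : R₂.PosSemidef := gram_psd Z₂ (wv_nonneg _ _ _)
  refine (jensen y₁ y₂ Z₁ Z₂ (diagonal (fun b => wv x t p b / wv x (2 * t) p b) *
    MM (R₁ + R₂) (wv x t p)) (wv_nonneg x (2 * t) p) (pv x t p) hs ht2 q (-q - p)).trans
    (ENNReal.ofReal_le_ofReal ?_)
  rw [e1, ← hR₁, ← hR₂]
  have h2 : (0 : ℝ) ≤ √2 - 1 := sub_nonneg.2 (Real.one_le_sqrt.2 one_le_two)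
  have key : ∀ R' R'' : Matrix ι ι ℝ, R''.PosSemidef → R₁ + R₂ = R' + R'' →
      (√2 • MM (R₁ + R₂) (wv x t p) - Aff R' (diagonal (fun b => wv x t p b / wv x (2 * t) p b) *
        MM (R₁ + R₂) (wv x t p)) (wv x (2 * t) p)).PosSemidef := by
    intro R' R'' h'' he
    have := Aff_le (R := R₁ + R₂) (R' := R') (MM (R₁ + R₂) (wv x t p)) (c := √2)
      (w := wv x (2 * t) p) (w' := wv x t p) (by
        have h3 := ((p1.add p2).smul h2).add h''
        rwa [show (√2 - 1) • (R₁ + R₂) + R'' = √2 • (R₁ + R₂) - R' by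
          rw [sub_smul, one_smul, he]; abel] at h3)
      (fun b => g_pos ht2 _) (wv_nonneg _ _ _) fun b => g_le_g_two ht _
    rwa [Aff_MM (p1.add p2) (wv_nonneg _ _ _)] at this
  refine (qf_mono (Aff_psd p1 (wv_nonneg _ _ _) _) (key R₁ R₂ p2 rfl)
    (Aff_psd p2 (wv_nonneg _ _ _) _) (key R₂ R₁ p1 (add_comm _ _)) _).trans_eq ?_
  refine (qf_smul √2 √2 (√t / 2) _ _ fun b => g1 t (x b - p)).trans ?_
  rw [Real.mul_self_sqrt zero_le_two, div_pow, Real.sq_sqrt ht.le]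
  ring

/-- Recipe: `g (lam t) (p₁ + p + p₂) = ∫ q, g (lam t / 2) (p₁ - q) g (lam t / 2) (p₂ + q + p)` (`conv_g`),
Tonelli (`lintegral_lintegral_swap`, `lintegral_prod`), `ve_inner`. -/
theorem ve_le {lam t : ℝ} (hl : 0 < lam) (ht : 0 < t) :
    ∫⁻ p : ℝ × ℝ × ℝ, ENNReal.ofReal (g (lam * t) (s3 p) *
        TT (gram Z₁ (wv y₁ (2 * t) p.1)) (gram Z₂ (wv y₂ (2 * t) p.2.2)) (wv x (2 * t) p.2.1)
          (pv x t p.2.1)) ≤
      ENNReal.ofReal (t / 2) * ∫⁻ z, ENNReal.ofReal (en y₁ x y₂ Z₁ Z₂ (2 + lam / 2) t z) := by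
  have hs : 0 < lam * t / 2 := by positivity
  have hg : Measurable (g (lam * t / 2)) := (continuous_g _).measurable
  have hH : Measurable fun u : (ℝ × ℝ × ℝ) × ℝ => ENNReal.ofReal
      (g (lam * t / 2) (u.1.1 - u.2) * g (lam * t / 2) (u.1.2.2 + u.2 + u.1.2.1) *
        TT (gram Z₁ (wv y₁ (2 * t) u.1.1)) (gram Z₂ (wv y₂ (2 * t) u.1.2.2)) (wv x (2 * t) u.1.2.1)
          (pv x t u.1.2.1)) :=
    (((hg.comp (by fun_prop)).mul (hg.comp (by fun_prop))).mul
      (meas_TT y₁ x y₂ Z₁ Z₂ measurable_const measurable_fst.fst measurable_fst.snd.fst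
        measurable_fst.snd.snd)).ennreal_ofReal
  rw [← lintegral_const_mul' _ _ ENNReal.ofReal_ne_top]
  refine le_trans (le_of_eq (lintegral_congr fun p => ?_))
    ((lintegral_rearrange hH).trans_le (lintegral_mono fun z => ?_))
  · have e : ∀ q : ℝ, p.2.2 + q + p.2.1 = p.2.1 + p.2.2 + q := fun q => by ring
    simp only [e]
    rw [← ofReal_integral_eq_lintegral_ofReal ((integrable_g_mul_g hs hs _ _).mul_const _)
      (ae_of_all _ fun q => mul_nonneg (mul_nonneg (g_nonneg _ _) (g_nonneg _ _))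
        (TT_nonneg (gram_psd Z₁ (wv_nonneg _ _ _)) (gram_psd Z₂ (wv_nonneg _ _ _))
          (wv_nonneg _ _ _) _)),
      integral_mul_const, conv_g hs hs, add_halves, s3, add_assoc]
  · rw [← ENNReal.ofReal_mul (by positivity)]
    exact ve_inner y₁ x y₂ Z₁ Z₂ hl ht z.1 z.2

end Crest.Agent.R72
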