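/-
R72/VW: the vertex estimate on the lattice, and the jump theorem.
Skeleton by helper40; keep the statements unchanged (add any helper lemmas you like).
-/
import Crest.Agent.R72.VE
import Crest.Agent.R72.JV
import Crest.Agent.R72.Max2
import Crest.Agent.R72.Kern1
import Crest.Agent.R72.Tri
import Crest.Agent.R72.Lat

set_option autoImplicit false
set_option linter.unusedSectionVars false

namespace Crest.Agent.R72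

open Matrix MeasureTheory

section aux
variable {ι : Type} [Fintype ι] [DecidableEq ι] (y₁ x y₂ : ι → ℝ)

theorem VW_measurable_s3 : Measurable s3 := by
  unfold s3
  fun_prop

theorem VW_TVp_nonneg (Z₁ Z₂ : Matrix ι ι ℝ) (m : ℤ) (s : ℝ) (p : ℝ × ℝ × ℝ) :
    0 ≤ TVp y₁ x y₂ Z₁ Z₂ m s p :=
  TV_nonneg m _ _ (fun _ => g_nonneg _ _) (fun _ => g_nonneg _ _) (fun _ => g_nonneg _ _) _

/-- one term `(l, m)` at a fixed time. -/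
theorem VW_term (Z₁ Z₂ : Matrix ι ι ℝ) (l : ℕ) (m : ℤ) {s : ℝ} (hs : 0 < s) :
    ∫⁻ p : ℝ × ℝ × ℝ, ENNReal.ofReal s⁻¹ * (ENNReal.ofReal ((1 / 2) ^ l * g (256 ^ l * s) (s3 p)) *
        ENNReal.ofReal (TVp y₁ x y₂ Z₁ Z₂ m s p)) ≤
      ENNReal.ofReal ((1 / 2) ^ (l + 1)) * (ENNReal.ofReal ((8 : ℝ) ^ m) *
        ∫⁻ z, ENNReal.ofReal (en y₁ x y₂ ((2 : ℝ) ^ (-m) • Z₁) ((2 : ℝ) ^ (-m) • Z₂)
          (2 + 256 ^ l / 2) s z)) := by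
  have h8 : (0 : ℝ) ≤ (8 : ℝ) ^ m := zpow_nonneg (by norm_num) m
  have e : ∀ p : ℝ × ℝ × ℝ,
      ENNReal.ofReal s⁻¹ * (ENNReal.ofReal ((1 / 2) ^ l * g (256 ^ l * s) (s3 p)) *
        ENNReal.ofReal (TVp y₁ x y₂ Z₁ Z₂ m s p)) =
      ENNReal.ofReal (s⁻¹ * (1 / 2) ^ l * (8 : ℝ) ^ m) * ENNReal.ofReal (g (256 ^ l * s) (s3 p) *
        TT (gram ((2 : ℝ) ^ (-m) • Z₁) (wv y₁ (2 * s) p.1))
          (gram ((2 : ℝ) ^ (-m) • Z₂) (wv y₂ (2 * s) p.2.2)) (wv x (2 * s) p.2.1)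
          (pv x s p.2.1)) := by
    intro p
    have hg := g_nonneg (256 ^ l * s) (s3 p)
    rw [← ENNReal.ofReal_mul (by positivity), ← ENNReal.ofReal_mul (by positivity),
      ← ENNReal.ofReal_mul (by positivity)]
    congr 1
    simp only [TVp, TV]
    ring
  simp only [e]
  rw [lintegral_const_mul' _ _ ENNReal.ofReal_ne_top]
  have h := ve_le y₁ x y₂ ((2 : ℝ) ^ (-m) • Z₁) ((2 : ℝ) ^ (-m) • Z₂) (lam := 256 ^ l)
    (by positivity) hs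
  refine (mul_le_mul_right h _).trans (le_of_eq ?_)
  rw [← mul_assoc, ← mul_assoc, ← ENNReal.ofReal_mul (by positivity),
    ← ENNReal.ofReal_mul (by positivity)]
  congr 2
  field_simp
  ring

/-- the inner integral at a fixed time. -/
theorem VW_inner {C : ℝ} (hC : ∀ t : ℝ, 0 < t → ∀ u : ℝ, ENNReal.ofReal (om t u) ≤
      ENNReal.ofReal C * ∑' l : ℕ, ENNReal.ofReal ((1 / 2) ^ l * g (256 ^ l * t) u))
    (Z₁ Z₂ : Matrix ι ι ℝ) {s : ℝ} (hs : 0 < s) :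
    ∫⁻ p : ℝ × ℝ × ℝ, ENNReal.ofReal (s⁻¹ * om s (s3 p)) * TVs y₁ x y₂ Z₁ Z₂ s p ≤
      ENNReal.ofReal C * ∑' l : ℕ, ∑' m : ℤ, ENNReal.ofReal ((1 / 2) ^ (l + 1)) *
        (ENNReal.ofReal ((8 : ℝ) ^ m) *
        ∫⁻ z, ENNReal.ofReal (en y₁ x y₂ ((2 : ℝ) ^ (-m) • Z₁) ((2 : ℝ) ^ (-m) • Z₂)
          (2 + 256 ^ l / 2) s z)) := by
  have hm : ∀ (l : ℕ) (m : ℤ), Measurable fun p : ℝ × ℝ × ℝ => ENNReal.ofReal s⁻¹ *
      (ENNReal.ofReal ((1 / 2) ^ l * g (256 ^ l * s) (s3 p)) *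
        ENNReal.ofReal (TVp y₁ x y₂ Z₁ Z₂ m s p)) := by
    intro l m
    have h1 : Measurable fun p : ℝ × ℝ × ℝ => g (256 ^ l * s) (s3 p) :=
      (continuous_g _).measurable.comp VW_measurable_s3
    have h2 : Measurable fun p : ℝ × ℝ × ℝ => TVp y₁ x y₂ Z₁ Z₂ m s p := by
      simpa only [Function.comp_def] using
        (measurable_TVp y₁ x y₂ Z₁ Z₂ m).comp (measurable_prodMk_left (x := s))
    exact (((h1.const_mul _).ennreal_ofReal).mul h2.ennreal_ofReal).const_mul _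
  calc ∫⁻ p : ℝ × ℝ × ℝ, ENNReal.ofReal (s⁻¹ * om s (s3 p)) * TVs y₁ x y₂ Z₁ Z₂ s p
      ≤ ∫⁻ p : ℝ × ℝ × ℝ, ENNReal.ofReal C * ∑' l : ℕ, ∑' m : ℤ, ENNReal.ofReal s⁻¹ *
          (ENNReal.ofReal ((1 / 2) ^ l * g (256 ^ l * s) (s3 p)) *
            ENNReal.ofReal (TVp y₁ x y₂ Z₁ Z₂ m s p)) := by
        refine lintegral_mono fun p => ?_
        simp only [ENNReal.tsum_mul_left, ENNReal.tsum_mul_right]
        rw [ENNReal.ofReal_mul (by positivity), mul_assoc, mul_left_comm (ENNReal.ofReal C),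
          ← mul_assoc (ENNReal.ofReal C)]
        exact mul_le_mul_right (mul_le_mul_left (hC s hs _) _) _
    _ = ENNReal.ofReal C * ∑' l : ℕ, ∑' m : ℤ, ∫⁻ p : ℝ × ℝ × ℝ, ENNReal.ofReal s⁻¹ *
          (ENNReal.ofReal ((1 / 2) ^ l * g (256 ^ l * s) (s3 p)) *
            ENNReal.ofReal (TVp y₁ x y₂ Z₁ Z₂ m s p)) := by
        rw [lintegral_const_mul' _ _ ENNReal.ofReal_ne_top,
          lintegral_tsum fun l => (Measurable.tsum fun m => hm l m).aemeasurable]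
        congr 1
        refine tsum_congr fun l => ?_
        rw [lintegral_tsum fun m => (hm l m).aemeasurable]
    _ ≤ _ := by
        refine mul_le_mul_right (ENNReal.tsum_le_tsum fun l => ENNReal.tsum_le_tsum fun m => ?_) _
        exact VW_term y₁ x y₂ Z₁ Z₂ l m hs

/-- one time interval. -/
theorem VW_piece {C : ℝ} (hC : ∀ t : ℝ, 0 < t → ∀ u : ℝ, ENNReal.ofReal (om t u) ≤
      ENNReal.ofReal C * ∑' l : ℕ, ENNReal.ofReal ((1 / 2) ^ l * g (256 ^ l * t) u))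
    (Z₁ Z₂ : Matrix ι ι ℝ) {t₁ : ℝ} (ht₁ : 0 ≤ t₁) (t₂ : ℝ) :
    ∫⁻ s in Set.Ioc t₁ t₂, ∫⁻ p : ℝ × ℝ × ℝ,
        ENNReal.ofReal (s⁻¹ * om s (s3 p)) * TVs y₁ x y₂ Z₁ Z₂ s p ≤
      ENNReal.ofReal C * ∑' l : ℕ, ENNReal.ofReal ((1 / 2) ^ (l + 1)) * ∑' m : ℤ,
        ENNReal.ofReal ((8 : ℝ) ^ m) *
          EE y₁ x y₂ ((2 : ℝ) ^ (-m) • Z₁) ((2 : ℝ) ^ (-m) • Z₂) (2 + 256 ^ l / 2) t₁ t₂ := by
  have hm : ∀ (l : ℕ) (m : ℤ), Measurable fun s : ℝ => ENNReal.ofReal ((1 / 2) ^ (l + 1)) *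
      (ENNReal.ofReal ((8 : ℝ) ^ m) *
        ∫⁻ z, ENNReal.ofReal (en y₁ x y₂ ((2 : ℝ) ^ (-m) • Z₁) ((2 : ℝ) ^ (-m) • Z₂)
          (2 + 256 ^ l / 2) s z)) := by
    intro l m
    exact (((measurable_en y₁ x y₂ ((2 : ℝ) ^ (-m) • Z₁) ((2 : ℝ) ^ (-m) • Z₂)
      (2 + 256 ^ l / 2)).ennreal_ofReal.lintegral_prod_right').const_mul _).const_mul _
  refine (setLIntegral_mono' measurableSet_Ioc fun s hs =>
    VW_inner y₁ x y₂ hC Z₁ Z₂ (ht₁.trans_lt hs.1)).trans (le_of_eq ?_)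
  rw [lintegral_const_mul' _ _ ENNReal.ofReal_ne_top,
    lintegral_tsum fun l => (Measurable.tsum fun m => hm l m).aemeasurable]
  congr 1
  refine tsum_congr fun l => ?_
  rw [lintegral_tsum fun m => (hm l m).aemeasurable, ← ENNReal.tsum_mul_left]
  refine tsum_congr fun m => ?_
  rw [lintegral_const_mul' _ _ ENNReal.ofReal_ne_top, lintegral_const_mul' _ _ ENNReal.ofReal_ne_top]
  rfl

theorem VW_geom : ∑' l : ℕ, ENNReal.ofReal ((1 / 2 : ℝ) ^ (l + 1)) = 1 := by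
  rw [← ENNReal.ofReal_tsum_of_nonneg (fun l => by positivity)
    ((summable_nat_add_iff 1).2 summable_geometric_two)]
  simp only [pow_succ]
  rw [tsum_mul_right, tsum_geometric_two]
  norm_num

/-- all time intervals, given a uniform bound for the energies. -/
theorem VW_total {C : ℝ} (hC : ∀ t : ℝ, 0 < t → ∀ u : ℝ, ENNReal.ofReal (om t u) ≤
      ENNReal.ofReal C * ∑' l : ℕ, ENNReal.ofReal ((1 / 2) ^ l * g (256 ^ l * t) u))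
    (Z₁ : Matrix ι ι ℝ) (Z₂ : ℕ → Matrix ι ι ℝ) (t : ℕ → ℝ) (K : ℕ) (ht : ∀ i, 0 ≤ t i) (B : ENNReal)
    (hB : ∀ v : ℝ, 1 ≤ v → ∀ 𝓜 : Finset ℤ, ∑ m ∈ 𝓜, ∑ i ∈ Finset.range K,
      ENNReal.ofReal ((8 : ℝ) ^ m) *
        EE y₁ x y₂ ((2 : ℝ) ^ (-m) • Z₁) ((2 : ℝ) ^ (-m) • Z₂ i) v (t i) (t (i + 1)) ≤ B) :
    ∑ i ∈ Finset.range K, ∫⁻ s in Set.Ioc (t i) (t (i + 1)), ∫⁻ p : ℝ × ℝ × ℝ,
        ENNReal.ofReal (s⁻¹ * om s (s3 p)) * TVs y₁ x y₂ Z₁ (Z₂ i) s p ≤ ENNReal.ofReal C * B := by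
  refine (Finset.sum_le_sum fun i _ => VW_piece y₁ x y₂ hC Z₁ (Z₂ i) (ht i) (t (i + 1))).trans ?_
  rw [← Finset.mul_sum, ← Summable.tsum_finsetSum fun _ _ => ENNReal.summable]
  refine mul_le_mul_right ?_ _
  calc _ ≤ ∑' l : ℕ, ENNReal.ofReal ((1 / 2 : ℝ) ^ (l + 1)) * B := by
        refine ENNReal.tsum_le_tsum fun l => ?_
        rw [← Finset.mul_sum, ← Summable.tsum_finsetSum fun _ _ => ENNReal.summable]
        refine mul_le_mul_right ?_ _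
        rw [ENNReal.tsum_eq_iSup_sum]
        refine iSup_le fun 𝓜 => hB _ ?_ 𝓜
        have : (0 : ℝ) ≤ 256 ^ l / 2 := by positivity
        linarith
    _ = B := by rw [ENNReal.tsum_mul_right, VW_geom, one_mul]

/-- the real-variable bookkeeping. -/
theorem VW_real (h U₁ U₂ U₃ : Matrix ι ι ℝ) {Nn : ℝ} (hN : 0 ≤ Nn) (hh : ∀ a c, 0 ≤ h a c)
    (h₁ : ∀ a c, 0 ≤ U₁ a c) (h₂ : ∀ a c, 0 ≤ U₂ a c) (h₃ : ∀ a c, 0 ≤ U₃ a c) :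
    Nn * ∑ a, ∑ c, h a c * √(U₁ a c + U₂ a c) * √(U₃ a c) ≤
      Nn ^ (3 / 2 : ℝ) * cube h + (∑ a, ∑ c, U₁ a c ^ (3 / 2 : ℝ) + ∑ a, ∑ c, U₂ a c ^ (3 / 2 : ℝ)) +
        Nn ^ (3 / 2 : ℝ) * ∑ a, ∑ c, U₃ a c ^ (3 / 2 : ℝ) := by
  simp only [cube, Finset.mul_sum, ← Finset.sum_add_distrib]
  refine Finset.sum_le_sum fun a _ => Finset.sum_le_sum fun c _ => ?_
  have hs := Real.sqrt_nonneg Nn
  have h0 := hh a c
  have e1 := amgm3 (x := √Nn * h a c) (y := √(U₁ a c + U₂ a c)) (z := √Nn * √(U₃ a c))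
    (by positivity) (by positivity) (by positivity)
  have e2 := add_rpow32_le (h₁ a c) (h₂ a c)
  rw [rpow32_eq' (add_nonneg (h₁ a c) (h₂ a c))] at e2
  have e3 : Nn * (h a c * √(U₁ a c + U₂ a c) * √(U₃ a c)) =
      √Nn * h a c * √(U₁ a c + U₂ a c) * (√Nn * √(U₃ a c)) := by
    conv_lhs => rw [← Real.mul_self_sqrt hN]
    ring
  rw [e3, abs_of_nonneg h0, rpow32_eq' hN, rpow32_eq' (h₃ a c)]
  rw [mul_pow, mul_pow] at e1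
  have p1 : 0 ≤ √Nn ^ 3 * h a c ^ 3 := by positivity
  have p2 : 0 ≤ √Nn ^ 3 * √(U₃ a c) ^ 3 := by positivity
  have p3 : 0 ≤ U₁ a c ^ (3 / 2 : ℝ) := Real.rpow_nonneg (h₁ a c) _
  have p4 : 0 ≤ U₂ a c ^ (3 / 2 : ℝ) := Real.rpow_nonneg (h₂ a c) _
  linarith

theorem VW_cube_abs (H : Matrix ι ι ℝ) : cube (Matrix.of fun a c => |H a c|) = cube H := by
  simp only [cube, Matrix.of_apply, abs_abs]

end aux

/-- Recipe: `om_le_tsum`; `lintegral_tsum` twice (`measurable_TVp`); for fixed `l`, `m` and `t > 0`, `ve_le`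
with `lam = 256^l` for the matrices `2^(-m) • Z` gives `t⁻¹ ∫ g * TVp ≤ 8^m / 2 * ∫ en`, so the `t`-integral
is `≤ 8^m / 2 * EE` with `v = 2 + lam / 2`.  For fixed `l` the sum over `m : ℤ` is the supremum over finsets
(`ENNReal.tsum_eq_iSup_sum`), bounded by `jv_le` uniformly in `v` (`sum_g_lat_le`, `max_shear`, `max_col`,
`max_row`); `amgm3` for `(√Nn h) * √(U₁ + U₂) * (√Nn √U₃)`, `add_rpow32_le`; `∑ 2^(-l) = 2`. -/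
theorem vw_le : ∃ C : ℝ, 0 ≤ C ∧ ∀ (N : ℕ) (θ₁ θ θ₂ : ℝ) (Z₁ h : Matrix (Fin N) (Fin N) ℝ)
    (Z₂ : ℕ → Matrix (Fin N) (Fin N) ℝ) (t : ℕ → ℝ) (K : ℕ) (Nn : ℝ), 1 ≤ Nn → 1 ≤ t 0 → Monotone t →
    (∀ i a c, |Z₂ i a c| ≤ h a c) →
    (∀ a c, ∑ i ∈ Finset.range K, |Z₂ (i + 1) a c - Z₂ i a c| ≤ Nn * h a c) →
    ∑ i ∈ Finset.range K, ∫⁻ s in Set.Ioc (t i) (t (i + 1)), ∫⁻ p : ℝ × ℝ × ℝ,
        ENNReal.ofReal (s⁻¹ * om s (s3 p)) * TVs (lat N θ₁) (lat N θ) (lat N θ₂) Z₁ (Z₂ i) s p ≤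
      ENNReal.ofReal (C * (cube Z₁ + Nn ^ (3 / 2 : ℝ) * cube h)) := by
  obtain ⟨C₀, hC₀, hom⟩ := om_le_tsum
  obtain ⟨C₁, hC₁, hsh⟩ := max_shear
  obtain ⟨C₂, hC₂, hcol⟩ := max_col
  obtain ⟨C₃, hC₃, hrow⟩ := max_row
  refine ⟨C₀ * (26 + 32 * (1 + C₁ + C₂ + C₃)), by positivity, ?_⟩
  intro N θ₁ θ θ₂ Z₁ h Z₂ t K Nn hN ht0 ht hZ hvar
  obtain ⟨U₁, p₁, u₁, c₁⟩ := hsh N θ₂ θ θ₁ Z₁
  obtain ⟨U₂, p₂, u₂, c₂⟩ := hcol N θ₂ h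
  obtain ⟨U₃, p₃, u₃, c₃⟩ := hrow N θ h
  have hh : ∀ a c, 0 ≤ h a c := fun a c => (abs_nonneg _).trans (hZ 0 a c)
  have ht' : ∀ i, 0 ≤ t i := fun i => by linarith [ht (Nat.zero_le i)]
  refine (VW_total (lat N θ₁) (lat N θ) (lat N θ₂) hom Z₁ Z₂ t K ht' _ fun v hv 𝓜 =>
    jv_le (lat N θ₁) (lat N θ) (lat N θ₂) Z₁ h U₁ U₂ U₃ Z₂ t K hv ht0 ht hZ hvar
      (fun _ hτ p => sum_g_lat_le N θ₁ p hτ) (fun _ hτ p => sum_g_lat_le N θ p hτ)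
      (fun _ hτ p => sum_g_lat_le N θ₂ p hτ) u₁ u₂ u₃ 𝓜).trans ?_
  rw [← ENNReal.ofReal_mul hC₀, mul_assoc C₀]
  refine ENNReal.ofReal_le_ofReal (mul_le_mul_of_nonneg_left ?_ hC₀)
  have hr := VW_real h U₁ U₂ U₃ (by linarith : 0 ≤ Nn) hh p₁ p₂ p₃
  have h1 : 1 ≤ Nn ^ (3 / 2 : ℝ) := Real.one_le_rpow hN (by norm_num)
  have hcZ := cube_nonneg Z₁
  have hch := cube_nonneg h
  set W := Nn ^ (3 / 2 : ℝ) with hW
  have h2 : cube h ≤ W * cube h := le_mul_of_one_le_left hch h1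
  have h3 : W * ∑ a, ∑ c, U₃ a c ^ (3 / 2 : ℝ) ≤ C₃ * (W * cube h) := by
    rw [mul_left_comm]
    exact mul_le_mul_of_nonneg_left c₃ (by linarith)
  have h4 : C₂ * cube h ≤ C₂ * (W * cube h) := mul_le_mul_of_nonneg_left h2 hC₂
  have hX : 0 ≤ W * cube h := hch.trans h2
  have h5 := mul_nonneg hC₁ hX
  have h6 := mul_nonneg hC₂ hcZ
  have h7 := mul_nonneg hC₃ hcZ
  rw [mul_assoc 32 Nn]
  generalize W * cube h = X at *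
  nlinarith

/-- pointwise: `√t * loc = 8 / t * tri (pv) (pv) (pv)`, `abs_pv_le`, `tri_le`, `TV_comm`,
`ENNReal.sum_le_tsum`. -/
theorem loc_le {N : ℕ} (F₀ F₁ F₂ : Matrix (Fin N) (Fin N) ℝ) (θ : ℝ) {t : ℝ} (ht : 0 < t)
    (p : ℝ × ℝ × ℝ) :
    ENNReal.ofReal (√t * |loc F₀ F₁ F₂ θ t p|) ≤ ENNReal.ofReal (8 * t⁻¹) *
      (TVs (lat N 0) (lat N 0) (lat N θ) F₀ F₁ᵀ t p +
        TVs (lat N 0) (lat N θ) (lat N 0) F₁ F₂ᵀ t (p.2.1, p.2.2, p.1) +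
        TVs (lat N 0) (lat N 0) (lat N θ) F₀ᵀ F₂ t (p.2.1, p.1, p.2.2)) := by
  have hs : 0 < √t := Real.sqrt_pos.2 ht
  have e : tri F₀ F₁ F₂ (pv (lat N 0) t p.1) (pv (lat N 0) t p.2.1) (pv (lat N θ) t p.2.2) =
      (√t / 2) ^ 3 * loc F₀ F₁ F₂ θ t p := by
    simp only [loc, tri, pv, Finset.mul_sum]
    refine Finset.sum_congr rfl fun a _ => Finset.sum_congr rfl fun b _ =>
      Finset.sum_congr rfl fun c _ => ?_
    ring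
  have e2 : √t * |loc F₀ F₁ F₂ θ t p| = 8 * t⁻¹ *
      |tri F₀ F₁ F₂ (pv (lat N 0) t p.1) (pv (lat N 0) t p.2.1) (pv (lat N θ) t p.2.2)| := by
    rw [e, abs_mul, abs_of_pos (by positivity : 0 < (√t / 2) ^ 3)]
    have h2 : √t ^ 2 = t := Real.sq_sqrt ht.le
    have h3 : (√t / 2) ^ 3 = t * √t / 8 := by
      rw [div_pow, pow_succ (√t) 2, h2]
      norm_num
    rw [h3]
    field_simp
  obtain ⟨𝓜, h𝓜⟩ := tri_le F₀ F₁ F₂ (abs_pv_le (lat N 0) ht p.1) (abs_pv_le (lat N 0) ht p.2.1)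
    (abs_pv_le (lat N θ) ht p.2.2)
  have h := h𝓜 𝓜 subset_rfl
  rw [e2, ENNReal.ofReal_mul (by positivity)]
  refine mul_le_mul_right ?_ _
  have n1 := VW_TVp_nonneg (lat N 0) (lat N 0) (lat N θ) F₀ F₁ᵀ
  have n2 := VW_TVp_nonneg (lat N 0) (lat N θ) (lat N 0) F₁ F₂ᵀ
  have n3 := VW_TVp_nonneg (lat N 0) (lat N 0) (lat N θ) F₀ᵀ F₂
  have h' : |tri F₀ F₁ F₂ (pv (lat N 0) t p.1) (pv (lat N 0) t p.2.1) (pv (lat N θ) t p.2.2)| ≤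
      ∑ m ∈ 𝓜, TVp (lat N 0) (lat N 0) (lat N θ) F₀ F₁ᵀ m t p +
        ∑ m ∈ 𝓜, TVp (lat N 0) (lat N θ) (lat N 0) F₁ F₂ᵀ m t (p.2.1, p.2.2, p.1) +
        ∑ m ∈ 𝓜, TVp (lat N 0) (lat N 0) (lat N θ) F₀ᵀ F₂ m t (p.2.1, p.1, p.2.2) := by
    rw [← Finset.sum_add_distrib, ← Finset.sum_add_distrib]
    have h0 : 0 ≤ ∑ m ∈ 𝓜, (TVp (lat N 0) (lat N 0) (lat N θ) F₀ F₁ᵀ m t p +
        TVp (lat N 0) (lat N θ) (lat N 0) F₁ F₂ᵀ m t (p.2.1, p.2.2, p.1) +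
        TVp (lat N 0) (lat N 0) (lat N θ) F₀ᵀ F₂ m t (p.2.1, p.1, p.2.2)) :=
      Finset.sum_nonneg fun m _ => add_nonneg (add_nonneg (n1 _ _ _) (n2 _ _ _)) (n3 _ _ _)
    simp only [TVp] at h0 ⊢
    simp only [TV_comm _ F₂] at h
    linarith
  refine (ENNReal.ofReal_le_ofReal h').trans (ENNReal.ofReal_add_le.trans
    (add_le_add (ENNReal.ofReal_add_le.trans (add_le_add ?_ ?_)) ?_))
  · rw [ENNReal.ofReal_sum_of_nonneg fun m _ => n1 _ _ _]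
    exact ENNReal.sum_le_tsum _
  · rw [ENNReal.ofReal_sum_of_nonneg fun m _ => n2 _ _ _]
    exact ENNReal.sum_le_tsum _
  · rw [ENNReal.ofReal_sum_of_nonneg fun m _ => n3 _ _ _]
    exact ENNReal.sum_le_tsum _

theorem VW_meas {ι : Type} [Fintype ι] [DecidableEq ι] (y₁ x y₂ : ι → ℝ) (Z₁ Z₂ : Matrix ι ι ℝ) :
    Measurable fun w : ℝ × (ℝ × ℝ × ℝ) =>
      ENNReal.ofReal (w.1⁻¹ * om w.1 (s3 w.2)) * TVs y₁ x y₂ Z₁ Z₂ w.1 w.2 := by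
  have h1 : Measurable fun w : ℝ × (ℝ × ℝ × ℝ) => om w.1 (s3 w.2) :=
    measurable_om.comp (measurable_fst.prodMk (VW_measurable_s3.comp measurable_snd))
  exact (measurable_fst.inv.mul h1).ennreal_ofReal.mul (measurable_TVs y₁ x y₂ Z₁ Z₂)

/-- `loc_le` integrated over the centres. -/
theorem VW_loc_int {N : ℕ} (F₀ F₁ F₂ : Matrix (Fin N) (Fin N) ℝ) (θ : ℝ) {s : ℝ} (hs : 0 < s) :
    ∫⁻ p : ℝ × ℝ × ℝ, ENNReal.ofReal (om s (s3 p) * (√s * |loc F₀ F₁ F₂ θ s p|)) ≤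
      8 * ((∫⁻ p : ℝ × ℝ × ℝ, ENNReal.ofReal (s⁻¹ * om s (s3 p)) *
          TVs (lat N 0) (lat N 0) (lat N θ) F₀ F₁ᵀ s p) +
        (∫⁻ p : ℝ × ℝ × ℝ, ENNReal.ofReal (s⁻¹ * om s (s3 p)) *
          TVs (lat N 0) (lat N θ) (lat N 0) F₁ F₂ᵀ s p) +
        ∫⁻ p : ℝ × ℝ × ℝ, ENNReal.ofReal (s⁻¹ * om s (s3 p)) *
          TVs (lat N 0) (lat N 0) (lat N θ) F₀ᵀ F₂ s p) := by
  have m1 : Measurable fun p : ℝ × ℝ × ℝ => ENNReal.ofReal (s⁻¹ * om s (s3 p)) *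
      TVs (lat N 0) (lat N 0) (lat N θ) F₀ F₁ᵀ s p :=
    (VW_meas (lat N 0) (lat N 0) (lat N θ) F₀ F₁ᵀ).comp (measurable_const.prodMk measurable_id)
  have m3 : Measurable fun p : ℝ × ℝ × ℝ => ENNReal.ofReal (s⁻¹ * om s (s3 p)) *
      TVs (lat N 0) (lat N 0) (lat N θ) F₀ᵀ F₂ s p :=
    (VW_meas (lat N 0) (lat N 0) (lat N θ) F₀ᵀ F₂).comp (measurable_const.prodMk measurable_id)
  have m3' := m3.comp (show Measurable fun p : ℝ × ℝ × ℝ => (p.2.1, p.1, p.2.2) by fun_prop)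
  rw [← lintegral_cyc fun p : ℝ × ℝ × ℝ => ENNReal.ofReal (s⁻¹ * om s (s3 p)) *
      TVs (lat N 0) (lat N θ) (lat N 0) F₁ F₂ᵀ s p,
    ← lintegral_swap12 fun p : ℝ × ℝ × ℝ => ENNReal.ofReal (s⁻¹ * om s (s3 p)) *
      TVs (lat N 0) (lat N 0) (lat N θ) F₀ᵀ F₂ s p,
    ← lintegral_add_left m1, ← lintegral_add_right _ (by exact m3'),
    ← lintegral_const_mul' _ _ (by norm_num)]
  refine lintegral_mono fun p => ?_
  have e1 : s3 (p.2.1, p.2.2, p.1) = s3 p := by simp only [s3]; ring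
  have e2 : s3 (p.2.1, p.1, p.2.2) = s3 p := by simp only [s3]; ring
  have ho := (om_pos hs (s3 p)).le
  simp only [e1, e2]
  rw [ENNReal.ofReal_mul ho]
  refine (mul_le_mul_right (loc_le F₀ F₁ F₂ θ hs p) _).trans (le_of_eq ?_)
  rw [ENNReal.ofReal_mul (by norm_num), ENNReal.ofReal_mul (by positivity), ENNReal.ofReal_ofNat]
  ring

/-- Recipe: `loc_le`, `lintegral_add_left` (`measurable_TVs`, `measurable_om`), `lintegral_cyc`,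
`lintegral_swap12` (`s3` is symmetric), and `vw_le` three times: `(F₀, const F₁ᵀ, h = |F₁ᵀ|, Nn = 1)`,
`(F₁, (C i)ᵀ, h = |Hᵀ|)`, `(F₀ᵀ, C i, h = |H|)`. -/
theorem thmJ : ∃ C : ℝ, 0 ≤ C ∧ ∀ (N : ℕ) (θ : ℝ) (F₀ F₁ H : Matrix (Fin N) (Fin N) ℝ)
    (Z : ℕ → Matrix (Fin N) (Fin N) ℝ) (t : ℕ → ℝ) (K : ℕ) (Nn : ℝ), 1 ≤ Nn → 1 ≤ t 0 → Monotone t →
    (∀ i c a, |Z i c a| ≤ |H c a|) →
    (∀ c a, ∑ i ∈ Finset.range K, |Z (i + 1) c a - Z i c a| ≤ Nn * |H c a|) →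
    ∑ i ∈ Finset.range K, ∫⁻ s in Set.Ioc (t i) (t (i + 1)), ∫⁻ p : ℝ × ℝ × ℝ,
        ENNReal.ofReal (om s (s3 p) * (√s * |loc F₀ F₁ (Z i) θ s p|)) ≤
      ENNReal.ofReal (C * (cube F₀ + cube F₁ + Nn ^ (3 / 2 : ℝ) * cube H)) := by
  obtain ⟨C, hC, hvw⟩ := vw_le
  refine ⟨16 * C, by positivity, ?_⟩
  intro N θ F₀ F₁ H Z t K Nn hN ht0 ht hZ hvar
  have ht' : ∀ i, 0 ≤ t i := fun i => by linarith [ht (Nat.zero_le i)]
  have b1 := hvw N 0 0 θ F₀ (Matrix.of fun a c => |F₁ᵀ a c|) (fun _ => F₁ᵀ) t K 1 le_rfl ht0 ht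
    (fun _ _ _ => le_rfl) (fun a c => by simp)
  have b2 := hvw N 0 θ 0 F₁ (Matrix.of fun a c => |Hᵀ a c|) (fun i => (Z i)ᵀ) t K Nn hN ht0 ht
    (fun i a c => hZ i c a) (fun a c => hvar c a)
  have b3 := hvw N 0 0 θ F₀ᵀ (Matrix.of fun a c => |H a c|) Z t K Nn hN ht0 ht
    (fun i a c => hZ i a c) (fun a c => hvar a c)
  rw [VW_cube_abs, cube_transpose, Real.one_rpow, one_mul] at b1
  rw [VW_cube_abs, cube_transpose] at b2 b3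
  have hp : ∀ i, ∫⁻ s in Set.Ioc (t i) (t (i + 1)), ∫⁻ p : ℝ × ℝ × ℝ,
        ENNReal.ofReal (om s (s3 p) * (√s * |loc F₀ F₁ (Z i) θ s p|)) ≤
      8 * ((∫⁻ s in Set.Ioc (t i) (t (i + 1)), ∫⁻ p : ℝ × ℝ × ℝ,
          ENNReal.ofReal (s⁻¹ * om s (s3 p)) * TVs (lat N 0) (lat N 0) (lat N θ) F₀ F₁ᵀ s p) +
        (∫⁻ s in Set.Ioc (t i) (t (i + 1)), ∫⁻ p : ℝ × ℝ × ℝ,
          ENNReal.ofReal (s⁻¹ * om s (s3 p)) * TVs (lat N 0) (lat N θ) (lat N 0) F₁ (Z i)ᵀ s p) +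
        ∫⁻ s in Set.Ioc (t i) (t (i + 1)), ∫⁻ p : ℝ × ℝ × ℝ,
          ENNReal.ofReal (s⁻¹ * om s (s3 p)) * TVs (lat N 0) (lat N 0) (lat N θ) F₀ᵀ (Z i) s p) := by
    intro i
    refine (setLIntegral_mono' measurableSet_Ioc fun s hs =>
      VW_loc_int F₀ F₁ (Z i) θ ((ht' i).trans_lt hs.1)).trans (le_of_eq ?_)
    rw [lintegral_const_mul' _ _ (by norm_num),
      lintegral_add_right _ (VW_meas (lat N 0) (lat N 0) (lat N θ) F₀ᵀ (Z i)).lintegral_prod_right',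
      lintegral_add_left (VW_meas (lat N 0) (lat N 0) (lat N θ) F₀ F₁ᵀ).lintegral_prod_right']
  refine (Finset.sum_le_sum fun i _ => hp i).trans ?_
  rw [← Finset.mul_sum, Finset.sum_add_distrib, Finset.sum_add_distrib]
  refine (mul_le_mul_right (add_le_add (add_le_add b1 b2) b3) _).trans (le_of_eq ?_)
  have c0 := cube_nonneg F₀
  have c1 := cube_nonneg F₁
  have c2 := cube_nonneg H
  have hW : 0 ≤ Nn ^ (3 / 2 : ℝ) := Real.rpow_nonneg (by linarith) _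
  rw [← ENNReal.ofReal_add (by positivity) (by positivity),
    ← ENNReal.ofReal_add (by positivity) (by positivity), ← ENNReal.ofReal_ofNat 8,
    ← ENNReal.ofReal_mul (by norm_num)]
  congr 1
  ring

end Crest.Agent.R72
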