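/-
R72/ThmS: the square-function theorem.
Skeleton by helper40; keep the statements unchanged (add any helper lemmas you like).
-/
import Crest.Agent.R72.VW

set_option autoImplicit false
set_option linter.unusedSectionVars false

namespace Crest.Agent.R72

open Matrix MeasureTheory

/-- domination of shifted Gaussians: `Y² ≤ 3 ((Y + d/2 - u)² + d²/4 + u²)`. -/
theorem g_shift_le {t : ℝ} (ht : 0 < t) (d Y u : ℝ) :
    g (4 * t) d * g (5 * t) (Y + d / 2 - u) ≤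
      6 * (1 + |u| / √t) * (g (8 * t) d * g (15 * t + 3 * u ^ 2) Y) := by
  have hτ : 0 < 15 * t + 3 * u ^ 2 := by positivity
  have hs : 0 < √t := Real.sqrt_pos.2 ht
  set W := Y + d / 2 - u with hW
  set L := 1 + |u| / √t with hL
  have hL1 : 1 + u ^ 2 / t ≤ L ^ 2 := by
    have h1 : (|u| / √t) ^ 2 = u ^ 2 / t := by rw [div_pow, sq_abs, Real.sq_sqrt ht.le]
    have h2 : 0 ≤ |u| / √t := by positivity
    rw [hL]; nlinarith
  have hL0 : 0 < L := by positivity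
  have hc : (√(2 * Real.pi * (4 * t)))⁻¹ * (√(2 * Real.pi * (5 * t)))⁻¹ ≤
      3 * L * ((√(2 * Real.pi * (8 * t)))⁻¹ * (√(2 * Real.pi * (15 * t + 3 * u ^ 2)))⁻¹) := by
    have hp := Real.pi_pos
    refine abs_le_of_sq_le_sq' ?_ (by positivity) |>.2
    simp only [mul_pow, inv_pow]
    rw [Real.sq_sqrt (by positivity), Real.sq_sqrt (by positivity), Real.sq_sqrt (by positivity),
      Real.sq_sqrt (by positivity)]
    have h3 : (2 * Real.pi * (4 * t))⁻¹ * (2 * Real.pi * (5 * t))⁻¹ =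
        (6 + 6 / 5 * (u ^ 2 / t)) *
          ((2 * Real.pi * (8 * t))⁻¹ * (2 * Real.pi * (15 * t + 3 * u ^ 2))⁻¹) := by
      field_simp; ring
    rw [h3]
    refine mul_le_mul_of_nonneg_right ?_ (by positivity)
    have : 0 ≤ u ^ 2 / t := by positivity
    nlinarith
  have he : Real.exp (-d ^ 2 / (2 * (4 * t))) * Real.exp (-W ^ 2 / (2 * (5 * t))) ≤
      2 * (Real.exp (-d ^ 2 / (2 * (8 * t))) * Real.exp (-Y ^ 2 / (2 * (15 * t + 3 * u ^ 2)))) := by
    have h2 : Real.exp (1 / 2) ≤ 2 := by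
      have h4 : Real.exp (1 / 2) ^ 2 = Real.exp 1 := by rw [← Real.exp_nat_mul]; norm_num
      have := Real.exp_one_lt_d9
      nlinarith [Real.exp_pos (1 / 2)]
    refine le_trans ?_ (mul_le_mul_of_nonneg_right h2 (by positivity))
    rw [← Real.exp_add, ← Real.exp_add, ← Real.exp_add, Real.exp_le_exp]
    have hY : Y ^ 2 ≤ 3 * (W ^ 2 + d ^ 2 / 4) + 3 * u ^ 2 := by
      have : Y = W - d / 2 + u := by rw [hW]; ring
      rw [this]; nlinarith [sq_nonneg (W + d / 2), sq_nonneg (W - u), sq_nonneg (d / 2 + u)]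
    have h5 : Y ^ 2 / (2 * (15 * t + 3 * u ^ 2)) ≤ (W ^ 2 + d ^ 2 / 4) / (10 * t) + 1 / 2 := by
      have h6 : 3 * (W ^ 2 + d ^ 2 / 4) / (2 * (15 * t + 3 * u ^ 2)) ≤
          (W ^ 2 + d ^ 2 / 4) / (10 * t) := by
        rw [div_le_div_iff₀ (by positivity) (by positivity)]
        have : 0 ≤ (W ^ 2 + d ^ 2 / 4) * u ^ 2 := by positivity
        nlinarith
      have h7 : 3 * u ^ 2 / (2 * (15 * t + 3 * u ^ 2)) ≤ 1 / 2 := by
        rw [div_le_div_iff₀ (by positivity) (by positivity)]; nlinarith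
      calc _ ≤ (3 * (W ^ 2 + d ^ 2 / 4) + 3 * u ^ 2) / (2 * (15 * t + 3 * u ^ 2)) := by gcongr
        _ ≤ _ := by rw [add_div]; linarith
    have h8 : -d ^ 2 / (2 * (4 * t)) + -W ^ 2 / (2 * (5 * t)) =
        -d ^ 2 / (2 * (8 * t)) - (W ^ 2 + d ^ 2 / 4) / (10 * t) - 3 / 80 * (d ^ 2 / t) := by
      field_simp; ring
    have h9 : 0 ≤ d ^ 2 / t := by positivity
    rw [h8, neg_div (2 * (15 * t + 3 * u ^ 2))]
    linarith
  unfold g
  calc _ = ((√(2 * Real.pi * (4 * t)))⁻¹ * (√(2 * Real.pi * (5 * t)))⁻¹) *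
        (Real.exp (-d ^ 2 / (2 * (4 * t))) * Real.exp (-W ^ 2 / (2 * (5 * t)))) := by ring
    _ ≤ _ := mul_le_mul hc he (by positivity) (by positivity)
    _ = _ := by ring

theorem thmS_four {t : ℝ} (ht : 0 < t) (xa xc xc' yb u : ℝ) :
    Integrable (fun r : ℝ × ℝ => g (2 * t) (xa - r.1) * g (2 * t) (xc - r.2) *
      (g (2 * t) (yb - (u - r.1 - r.2)) * g (2 * t) (xc' - r.2))) ∧
    ∫ r : ℝ × ℝ, g (2 * t) (xa - r.1) * g (2 * t) (xc - r.2) *
      (g (2 * t) (yb - (u - r.1 - r.2)) * g (2 * t) (xc' - r.2)) ≤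
      6 * (1 + |u| / √t) * (g (8 * t) (xc - xc') * g (15 * t + 3 * u ^ 2) (xa + xc + yb)) := by
  have h2t : 0 < 2 * t := by positivity
  obtain ⟨hi, hv⟩ := plane_3 h2t ht h2t (yb - u) ((xc + xc') / 2) xa
  have e : ∀ r : ℝ × ℝ, g (2 * t) (xa - r.1) * g (2 * t) (xc - r.2) *
      (g (2 * t) (yb - (u - r.1 - r.2)) * g (2 * t) (xc' - r.2)) = g (4 * t) (xc' - xc) *
      (g (2 * t) (yb - u - (-r.1 - r.2)) * g t ((xc + xc') / 2 - r.2) * g (2 * t) (xa - r.1)) := by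
    intro r
    have h1 := g_mul_g h2t h2t xc (-xc') r.2
    have e1 : g (2 * t) (-xc' + r.2) = g (2 * t) (xc' - r.2) := by
      rw [← g_neg]; congr 1; ring
    have e2 : g (2 * t + 2 * t) (xc + -xc') = g (4 * t) (xc' - xc) := by
      rw [← g_neg]; congr 1 <;> ring
    have e3 : g (2 * t * (2 * t) / (2 * t + 2 * t))
        (r.2 - (2 * t * xc - 2 * t * -xc') / (2 * t + 2 * t)) = g t ((xc + xc') / 2 - r.2) := by
      rw [← g_neg]; congr 1 <;> field_simp <;> ring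
    have e4 : yb - (u - r.1 - r.2) = yb - u - (-r.1 - r.2) := by ring
    rw [e1, e2, e3] at h1
    rw [e4]
    linear_combination (g (2 * t) (xa - r.1) * g (2 * t) (yb - u - (-r.1 - r.2))) * h1
  simp_rw [e]
  refine ⟨hi.const_mul _, ?_⟩
  rw [integral_const_mul, hv]
  have h := g_shift_le ht (xc' - xc) (xa + xc + yb) u
  have e5 : g (8 * t) (xc' - xc) = g (8 * t) (xc - xc') := by rw [← g_neg]; congr 1; ring
  have e6 : g (2 * t + t + 2 * t) (yb - u + (xc + xc') / 2 + xa)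
      = g (5 * t) (xa + xc + yb + (xc' - xc) / 2 - u) := by congr 1 <;> ring
  rw [e6, ← e5]; exact h

/-- averages of the Hilbert-Schmidt norm over a shifted plane.  Recipe: Cauchy-Schwarz (or
`√X ≤ (X / η + η) / 2`) against the probability density `g (2t) (xa - r.1) g (2t) (xc - r.2)`; the integral of the
density times `hs` is `∑ b c', Z b c'² g (4t) d g (5t) (xa + y b + xc + d/2 - u)` with `d = x c' - x c`
(`conv_g` in `r.1`, then `g_mul_g`-type completion of the square in `r.2`); `g_shift_le`. -/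
theorem hs_avg_le {ι : Type} [Fintype ι] [DecidableEq ι] (y x : ι → ℝ) (Z : Matrix ι ι ℝ) (xa : ℝ)
    (c : ι) {U t : ℝ} (ht : 1 ≤ t) (u : ℝ)
    (hU : ∀ τ τ' : ℝ, 1 ≤ τ → 1 ≤ τ' →
      ∑ c', ∑ b, g τ' (x c - x c') * (g τ (xa + x c + y b) * Z b c' ^ 2) ≤ U) :
    ∫⁻ r : ℝ × ℝ, ENNReal.ofReal (g (2 * t) (xa - r.1) * g (2 * t) (x c - r.2) *
        √(hs Z (wv y (2 * t) (u - r.1 - r.2)) (wv x (2 * t) r.2))) ≤
      ENNReal.ofReal (3 * √(1 + |u| / √t) * √U) := by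
  have ht0 : 0 < t := by linarith
  have h2t : 0 < 2 * t := by positivity
  set L := 1 + |u| / √t with hL
  have hL0 : 0 ≤ L := by positivity
  set ρ : ℝ × ℝ → ℝ := fun r => g (2 * t) (xa - r.1) * g (2 * t) (x c - r.2) with hρ
  set X : ℝ × ℝ → ℝ := fun r => hs Z (wv y (2 * t) (u - r.1 - r.2)) (wv x (2 * t) r.2) with hX
  have hρ0 : ∀ r, 0 ≤ ρ r := fun r => mul_nonneg (g_nonneg _ _) (g_nonneg _ _)
  have hX0 : ∀ r, 0 ≤ X r := fun r => hs_nonneg _ (fun _ => g_nonneg _ _) fun _ => g_nonneg _ _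
  obtain ⟨hρi, hρv⟩ := plane_1 h2t h2t xa (x c)
  have e : ∀ r, ρ r * X r = ∑ b, ∑ c', Z b c' ^ 2 * (g (2 * t) (xa - r.1) * g (2 * t) (x c - r.2) *
      (g (2 * t) (y b - (u - r.1 - r.2)) * g (2 * t) (x c' - r.2))) := by
    intro r
    simp only [hρ, hX, hs, wv, Finset.mul_sum]
    refine Finset.sum_congr rfl fun b _ => Finset.sum_congr rfl fun c' _ => by ring
  have hi : Integrable fun r => ρ r * X r := by
    simp_rw [e]
    exact integrable_finsetSum _ fun b _ => integrable_finsetSum _ fun c' _ =>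
      (thmS_four ht0 xa (x c) (x c') (y b) u).1.const_mul _
  have hU' := hU (15 * t + 3 * u ^ 2) (8 * t) (by nlinarith [sq_nonneg u]) (by linarith)
  have hU0 : 0 ≤ U := le_trans (Finset.sum_nonneg fun _ _ => Finset.sum_nonneg fun _ _ =>
    mul_nonneg (g_nonneg _ _) (mul_nonneg (g_nonneg _ _) (sq_nonneg _))) hU'
  have hv : ∫ r, ρ r * X r ≤ 6 * L * U := by
    simp_rw [e]
    rw [integral_finsetSum _ fun b _ => integrable_finsetSum _ fun c' _ =>
      (thmS_four ht0 xa (x c) (x c') (y b) u).1.const_mul _]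
    refine le_trans ?_ (mul_le_mul_of_nonneg_left hU' (by positivity))
    rw [Finset.sum_comm, Finset.mul_sum]
    refine Finset.sum_le_sum fun b _ => ?_
    rw [integral_finsetSum _ fun c' _ => (thmS_four ht0 xa (x c) (x c') (y b) u).1.const_mul _,
      Finset.mul_sum]
    refine Finset.sum_le_sum fun c' _ => ?_
    rw [integral_const_mul]
    calc _ ≤ Z b c' ^ 2 * (6 * L * (g (8 * t) (x c - x c') *
          g (15 * t + 3 * u ^ 2) (xa + x c + y b))) :=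
          mul_le_mul_of_nonneg_left (thmS_four ht0 xa (x c) (x c') (y b) u).2 (sq_nonneg _)
      _ = _ := by ring
  set B := 3 * √L * √U with hB
  have hB0 : 0 ≤ B := by positivity
  have hB2 : B ^ 2 = 9 * L * U := by
    rw [hB, mul_pow, mul_pow, Real.sq_sqrt hL0, Real.sq_sqrt hU0]; norm_num
  refine ENNReal.le_of_forall_pos_le_add fun ε hε _ => ?_
  have hε' : (0 : ℝ) < ε := hε
  set η := B + ε with hη
  have hη0 : 0 < η := by positivity
  have hint : Integrable fun r => (2 * η)⁻¹ * (ρ r * X r) + η / 2 * ρ r :=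
    (hi.const_mul _).add (hρi.const_mul _)
  calc ∫⁻ r, ENNReal.ofReal (ρ r * √(X r))
      ≤ ∫⁻ r, ENNReal.ofReal ((2 * η)⁻¹ * (ρ r * X r) + η / 2 * ρ r) := by
        refine lintegral_mono fun r => ENNReal.ofReal_le_ofReal ?_
        have h1 : √(X r) ≤ (2 * η)⁻¹ * X r + η / 2 := by
          have h2 := Real.sq_sqrt (hX0 r)
          have h3 : (2 * η)⁻¹ * X r + η / 2 - √(X r) = (2 * η)⁻¹ * (√(X r) - η) ^ 2 := by
            rw [sub_sq, h2]; field_simp; ring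
          have h4 : 0 ≤ (2 * η)⁻¹ * (√(X r) - η) ^ 2 := by positivity
          linarith
        nlinarith [mul_le_mul_of_nonneg_left h1 (hρ0 r)]
    _ = ENNReal.ofReal (∫ r, (2 * η)⁻¹ * (ρ r * X r) + η / 2 * ρ r) :=
        (ofReal_integral_eq_lintegral_ofReal hint (Filter.Eventually.of_forall fun r => by
          have := hρ0 r; have := hX0 r; positivity)).symm
    _ ≤ ENNReal.ofReal (B + ε) := by
        refine ENNReal.ofReal_le_ofReal ?_
        rw [integral_add (hi.const_mul _) (hρi.const_mul _), integral_const_mul, integral_const_mul,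
          hρv]
        have h5 : ∫ r, ρ r * X r ≤ η ^ 2 := by
          have : 0 ≤ L * U := by positivity
          nlinarith
        have h6 : (2 * η)⁻¹ * ∫ r, ρ r * X r ≤ (2 * η)⁻¹ * η ^ 2 :=
          mul_le_mul_of_nonneg_left h5 (by positivity)
        have h7 : (2 * η)⁻¹ * η ^ 2 = η / 2 := by field_simp
        linarith
    _ = _ := by rw [ENNReal.ofReal_add hB0 hε'.le, ENNReal.ofReal_coe_nnreal]

theorem thmS_cov {Φ : ℝ × ℝ × ℝ → ENNReal} (hΦ : Measurable Φ) :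
    ∫⁻ p, Φ p = ∫⁻ u : ℝ, ∫⁻ r : ℝ × ℝ, Φ (r.1, u - r.1 - r.2, r.2) := by
  rw [← lintegral_swap12 Φ, Measure.volume_eq_prod,
    lintegral_prod_symm' (fun p : ℝ × ℝ × ℝ => Φ (p.2.1, p.1, p.2.2))
      (hΦ.comp (by fun_prop : Measurable fun p : ℝ × ℝ × ℝ => (p.2.1, p.1, p.2.2)))]
  rw [lintegral_lintegral_swap (f := fun (u : ℝ) (r : ℝ × ℝ) => Φ (r.1, u - r.1 - r.2, r.2))
    (hΦ.comp (by fun_prop : Measurable fun w : ℝ × (ℝ × ℝ) =>
      (w.2.1, w.1 - w.2.1 - w.2.2, w.2.2))).aemeasurable]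
  refine lintegral_congr fun r => ?_
  have := lintegral_sub_right_eq_self (μ := (volume : Measure ℝ))
    (fun v => Φ (r.1, v, r.2)) (r.1 + r.2)
  simp only [← sub_sub] at this
  exact this.symm

theorem thmS_meas_hs {N : ℕ} {Ω : Type} [MeasurableSpace Ω] (Z : Matrix (Fin N) (Fin N) ℝ)
    (y x : Fin N → ℝ) {τ a b : Ω → ℝ} (hτ : Measurable τ) (ha : Measurable a) (hb : Measurable b) :
    Measurable fun w => hs Z (wv y (τ w) (a w)) (wv x (τ w) (b w)) := by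
  unfold hs wv
  refine Finset.measurable_sum _ fun i _ => Finset.measurable_sum _ fun j _ => ?_
  exact ((measurable_g.comp (hτ.prodMk (measurable_const.sub ha))).mul
    (measurable_g.comp (hτ.prodMk (measurable_const.sub hb)))).mul measurable_const

/-- one entry of the square function part -/
theorem thmS_part {N : ℕ} (y x : Fin N → ℝ) (Z : Matrix (Fin N) (Fin N) ℝ) (xa : ℝ) (c : Fin N)
    {U Nn T h : ℝ}
    (hU : ∀ τ τ' : ℝ, 1 ≤ τ → 1 ≤ τ' →
      ∑ c', ∑ b, g τ' (x c - x c') * (g τ (xa + x c + y b) * Z b c' ^ 2) ≤ U)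
    {k : ℝ → ℝ → ℝ} (hk : Measurable fun w : ℝ × ℝ => k w.1 w.2)
    (hN : ∫⁻ t in Set.Ioi 0, ∫⁻ u,
      ENNReal.ofReal (t⁻¹ * √(1 + |u| / √t) * k t u ^ 2 / om t u) ≤ ENNReal.ofReal Nn) :
    ∫⁻ t in Set.Ioc 1 T, ∫⁻ u : ℝ, ∫⁻ r : ℝ × ℝ,
      ENNReal.ofReal (t⁻¹ * h ^ 2 * k t u ^ 2 / om t u) *
        ENNReal.ofReal (g (2 * t) (xa - r.1) * g (2 * t) (x c - r.2) *
          √(hs Z (wv y (2 * t) (u - r.1 - r.2)) (wv x (2 * t) r.2))) ≤
      ENNReal.ofReal (3 * (h ^ 2 * √U)) * ENNReal.ofReal Nn := by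
  have _ := hk
  calc _ ≤ ∫⁻ t in Set.Ioc 1 T, ∫⁻ u : ℝ, ENNReal.ofReal (3 * (h ^ 2 * √U)) *
        ENNReal.ofReal (t⁻¹ * √(1 + |u| / √t) * k t u ^ 2 / om t u) := by
        refine setLIntegral_mono' measurableSet_Ioc fun t ht => lintegral_mono fun u => ?_
        have ht0 : 0 < t := by linarith [ht.1]
        have hom := om_pos ht0 u
        rw [lintegral_const_mul' _ _ ENNReal.ofReal_ne_top]
        refine (mul_le_mul_right (hs_avg_le y x Z xa c ht.1.le u hU) _).trans (le_of_eq ?_)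
        rw [← ENNReal.ofReal_mul (by positivity), ← ENNReal.ofReal_mul (by positivity)]
        congr 1; ring
    _ ≤ ENNReal.ofReal (3 * (h ^ 2 * √U)) * ∫⁻ t in Set.Ioi 0, ∫⁻ u : ℝ,
        ENNReal.ofReal (t⁻¹ * √(1 + |u| / √t) * k t u ^ 2 / om t u) := by
        simp_rw [lintegral_const_mul' _ _ ENNReal.ofReal_ne_top]
        refine mul_le_mul_right (lintegral_mono_set fun t ht => ?_) _
        exact lt_trans one_pos ht.1
    _ ≤ _ := mul_le_mul_right hN _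

/-- the pointwise bound -/
theorem thmS_pt {N : ℕ} (θ : ℝ) (F₀ F₁ H k : Matrix (Fin N) (Fin N) ℝ) {t ω : ℝ} (ht : 0 < t)
    (hω : 0 < ω) (p : ℝ × ℝ × ℝ) :
    ENNReal.ofReal (√t * |loc F₀ F₁ (Matrix.of fun c a => H c a * k c a) θ t p|) ≤
      8 * (ENNReal.ofReal (t⁻¹ * ω) * TVs (lat N 0) (lat N 0) (lat N θ) F₀ F₁ᵀ t p +
        (∑ c, ∑ a, ENNReal.ofReal (t⁻¹ * H c a ^ 2 * k c a ^ 2 / ω) *
          ENNReal.ofReal (g (2 * t) (lat N θ c - p.2.2) * g (2 * t) (lat N 0 a - p.1) *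
            √(hs F₀ᵀ (wv (lat N 0) (2 * t) p.2.1) (wv (lat N 0) (2 * t) p.1))) +
        ∑ c, ∑ a, ENNReal.ofReal (t⁻¹ * H c a ^ 2 * k c a ^ 2 / ω) *
          ENNReal.ofReal (g (2 * t) (lat N 0 a - p.1) * g (2 * t) (lat N θ c - p.2.2) *
            √(hs F₁ (wv (lat N 0) (2 * t) p.2.1) (wv (lat N θ) (2 * t) p.2.2))))) := by
  set G : Matrix (Fin N) (Fin N) ℝ := Matrix.of fun c a => H c a * k c a / ω with hG
  obtain ⟨𝓜, h𝓜⟩ := tri_le' F₀ F₁ G (abs_pv_le (lat N 0) ht p.1) (abs_pv_le (lat N 0) ht p.2.1)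
    (abs_pv_le (lat N θ) ht p.2.2)
  have h1 := h𝓜 𝓜 subset_rfl
  have hs2 := Real.sq_sqrt ht.le
  have hs0 : 0 < √t := Real.sqrt_pos.2 ht
  have e : √t * loc F₀ F₁ (Matrix.of fun c a => H c a * k c a) θ t p = 8 * (t⁻¹ * ω) *
      tri F₀ F₁ G (pv (lat N 0) t p.1) (pv (lat N 0) t p.2.1) (pv (lat N θ) t p.2.2) := by
    simp only [loc, tri, pv, hG, Finset.mul_sum, of_apply]
    refine Finset.sum_congr rfl fun a _ => Finset.sum_congr rfl fun b _ =>
      Finset.sum_congr rfl fun c _ => ?_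
    field_simp
    rw [hs2]; ring
  have e' : √t * |loc F₀ F₁ (Matrix.of fun c a => H c a * k c a) θ t p| = 8 * (t⁻¹ * ω) *
      |tri F₀ F₁ G (pv (lat N 0) t p.1) (pv (lat N 0) t p.2.1) (pv (lat N θ) t p.2.2)| := by
    rw [← abs_of_pos hs0, ← abs_mul, e, abs_mul, abs_of_pos (by positivity)]
  have hw : ∀ (y : Fin N → ℝ) r a, 0 ≤ wv y (2 * t) r a := fun _ _ _ => g_nonneg _ _
  set A := ∑ m ∈ 𝓜, TV m F₀ (wv (lat N 0) (2 * t) p.1) F₁ᵀ (wv (lat N θ) (2 * t) p.2.2)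
    (wv (lat N 0) (2 * t) p.2.1) (pv (lat N 0) t p.2.1) with hA
  have hA0 : 0 ≤ A := Finset.sum_nonneg fun m _ => TV_nonneg m _ _ (hw _ _) (hw _ _) (hw _ _) _
  have hA1 : ENNReal.ofReal A ≤ TVs (lat N 0) (lat N 0) (lat N θ) F₀ F₁ᵀ t p := by
    rw [hA, ENNReal.ofReal_sum_of_nonneg fun m _ => TV_nonneg m _ _ (hw _ _) (hw _ _) (hw _ _) _]
    exact ENNReal.sum_le_tsum 𝓜
  set s₀ := √(hs F₀ (wv (lat N 0) (2 * t) p.1) (wv (lat N 0) (2 * t) p.2.1)) with hs₀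
  set s₁ := √(hs F₁ (wv (lat N 0) (2 * t) p.2.1) (wv (lat N θ) (2 * t) p.2.2)) with hs₁
  have hs₀0 : 0 ≤ s₀ := Real.sqrt_nonneg _
  have hs₁0 : 0 ≤ s₁ := Real.sqrt_nonneg _
  have hgn := g_nonneg
  have key : ∀ (s : ℝ), 0 ≤ s → ENNReal.ofReal (t⁻¹ * ω * (s *
      hs G (wv (lat N θ) (2 * t) p.2.2) (wv (lat N 0) (2 * t) p.1))) =
      ∑ c, ∑ a, ENNReal.ofReal (t⁻¹ * H c a ^ 2 * k c a ^ 2 / ω) *
        ENNReal.ofReal (g (2 * t) (lat N θ c - p.2.2) * g (2 * t) (lat N 0 a - p.1) * s) := by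
    intro s hs
    have hn : ∀ c a, 0 ≤ t⁻¹ * H c a ^ 2 * k c a ^ 2 / ω *
        (g (2 * t) (lat N θ c - p.2.2) * g (2 * t) (lat N 0 a - p.1) * s) := fun c a =>
      mul_nonneg (by positivity) (mul_nonneg (mul_nonneg (hgn _ _) (hgn _ _)) hs)
    have e2 : ∀ c a, ENNReal.ofReal (t⁻¹ * H c a ^ 2 * k c a ^ 2 / ω) *
        ENNReal.ofReal (g (2 * t) (lat N θ c - p.2.2) * g (2 * t) (lat N 0 a - p.1) * s) =
        ENNReal.ofReal (t⁻¹ * H c a ^ 2 * k c a ^ 2 / ω *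
        (g (2 * t) (lat N θ c - p.2.2) * g (2 * t) (lat N 0 a - p.1) * s)) := fun c a =>
      (ENNReal.ofReal_mul (by positivity)).symm
    simp_rw [e2, ← ENNReal.ofReal_sum_of_nonneg fun a _ => hn _ a]
    rw [← ENNReal.ofReal_sum_of_nonneg fun c _ => Finset.sum_nonneg fun a _ => hn c a]
    congr 1
    simp only [R72.hs, wv, hG, Finset.mul_sum, of_apply]
    refine Finset.sum_congr rfl fun c _ => Finset.sum_congr rfl fun a _ => ?_
    field_simp
  have hhs : 0 ≤ hs G (wv (lat N θ) (2 * t) p.2.2) (wv (lat N 0) (2 * t) p.1) :=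
    hs_nonneg _ (hw _ _) (hw _ _)
  rw [hs_transpose, ← hs₀, ← key s₀ hs₀0]
  simp_rw [mul_comm (g (2 * t) (lat N 0 _ - p.1)) (g (2 * t) (lat N θ _ - p.2.2))]
  rw [← key s₁ hs₁0, e']
  calc _ ≤ ENNReal.ofReal (8 * (t⁻¹ * ω * A + (t⁻¹ * ω * (s₀ *
          hs G (wv (lat N θ) (2 * t) p.2.2) (wv (lat N 0) (2 * t) p.1)) + t⁻¹ * ω * (s₁ *
          hs G (wv (lat N θ) (2 * t) p.2.2) (wv (lat N 0) (2 * t) p.1))))) := by
        refine ENNReal.ofReal_le_ofReal ((mul_le_mul_of_nonneg_left h1 (by positivity)).trans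
          (le_of_eq (by ring)))
    _ ≤ _ := by
        rw [ENNReal.ofReal_mul (by norm_num), ENNReal.ofReal_add (by positivity) (by positivity),
          ENNReal.ofReal_add (by positivity) (by positivity), ENNReal.ofReal_mul (by positivity),
          ENNReal.ofReal_ofNat]
        gcongr

/-- Recipe: `loc` is linear in the third matrix: `loc (H c) = om * loc (H c / om)`; `tri_le'` gives
`√t |loc (H c)| ≤ 8 t⁻¹ om (TVs … + (√hs F₀ + √hs F₁) hs (H c / om))`.  First part: `vw_le` with `K = 1`,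
`t 0 = 1`, `t i = T`, `Nn = 1`.  Second part: expand `hs (H c / om)` into `∑ c a`, change variables
`p ↦ (u = s3 p, p.1, p.2.2)` for the `F₁` term and `p ↦ (u, p.2.2, p.1)` for the `F₀` term (`hs_transpose`;
Tonelli and translation invariance in `p.2.1`), `hs_avg_le` with `max_two` for `F₁` and for `F₀ᵀ`, the hypothesis
on `c`, and `amgm3` for `(√Nn |H|) (√Nn |H|) √U`. -/
theorem thmS : ∃ C : ℝ, 0 ≤ C ∧ ∀ (N : ℕ) (θ : ℝ) (F₀ F₁ H : Matrix (Fin N) (Fin N) ℝ)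
    (cf : ℝ → ℝ → Fin N → Fin N → ℝ) (T Nn : ℝ), 1 ≤ Nn → 1 ≤ T →
    (∀ c a, Measurable fun w : ℝ × ℝ => cf w.1 w.2 c a) →
    (∀ c a, ∫⁻ t in Set.Ioi 0, ∫⁻ u,
      ENNReal.ofReal (t⁻¹ * √(1 + |u| / √t) * cf t u c a ^ 2 / om t u) ≤ ENNReal.ofReal Nn) →
    ∫⁻ t in Set.Ioc 1 T, ∫⁻ p : ℝ × ℝ × ℝ, ENNReal.ofReal (√t *
        |loc F₀ F₁ (Matrix.of fun c a => H c a * cf t (s3 p) c a) θ t p|) ≤
      ENNReal.ofReal (C * (cube F₀ + cube F₁ + Nn ^ (3 / 2 : ℝ) * cube H)) := by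
  obtain ⟨C₁, hC₁, hvw⟩ := vw_le
  obtain ⟨C₂, hC₂, hmax⟩ := max_two
  refine ⟨8 * (C₁ + C₂ + 4), by positivity, ?_⟩
  intro N θ F₀ F₁ H cf T Nn hNn hT hcf hN
  have hNn0 : 0 ≤ Nn := by linarith
  obtain ⟨U₁, hU₁0, hU₁, hU₁s⟩ := hmax N 0 θ 0 F₁
  obtain ⟨U₀, hU₀0, hU₀, hU₀s⟩ := hmax N θ 0 0 F₀ᵀ
  -- the three pieces
  set A : ℝ → ℝ × ℝ × ℝ → ENNReal := fun t p =>
    ENNReal.ofReal (t⁻¹ * om t (s3 p)) * TVs (lat N 0) (lat N 0) (lat N θ) F₀ F₁ᵀ t p with hA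
  set B₀ : Fin N → Fin N → ℝ → ℝ × ℝ × ℝ → ENNReal := fun c a t p =>
    ENNReal.ofReal (t⁻¹ * H c a ^ 2 * cf t (s3 p) c a ^ 2 / om t (s3 p)) *
      ENNReal.ofReal (g (2 * t) (lat N θ c - p.2.2) * g (2 * t) (lat N 0 a - p.1) *
        √(hs F₀ᵀ (wv (lat N 0) (2 * t) p.2.1) (wv (lat N 0) (2 * t) p.1))) with hB₀
  set B₁ : Fin N → Fin N → ℝ → ℝ × ℝ × ℝ → ENNReal := fun c a t p =>
    ENNReal.ofReal (t⁻¹ * H c a ^ 2 * cf t (s3 p) c a ^ 2 / om t (s3 p)) *
      ENNReal.ofReal (g (2 * t) (lat N 0 a - p.1) * g (2 * t) (lat N θ c - p.2.2) *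
        √(hs F₁ (wv (lat N 0) (2 * t) p.2.1) (wv (lat N θ) (2 * t) p.2.2))) with hB₁
  have ms3 : Measurable fun w : ℝ × (ℝ × ℝ × ℝ) => (w.1, s3 w.2) := by unfold s3; fun_prop
  have m2t : Measurable fun w : ℝ × (ℝ × ℝ × ℝ) => 2 * w.1 := by fun_prop
  have mk : ∀ c a, Measurable fun w : ℝ × (ℝ × ℝ × ℝ) =>
      ENNReal.ofReal (w.1⁻¹ * H c a ^ 2 * cf w.1 (s3 w.2) c a ^ 2 / om w.1 (s3 w.2)) := fun c a =>
    (((measurable_fst.inv.mul_const _).mul (((hcf c a).comp ms3).pow_const 2)).div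
      (measurable_om.comp ms3)).ennreal_ofReal
  have mg : ∀ (x : ℝ) {f : ℝ × (ℝ × ℝ × ℝ) → ℝ}, Measurable f →
      Measurable fun w : ℝ × (ℝ × ℝ × ℝ) => g (2 * w.1) (x - f w) := fun x f hf =>
    measurable_g.comp (m2t.prodMk (measurable_const.sub hf))
  have mA : Measurable (Function.uncurry A) :=
    ((measurable_fst.inv.mul (measurable_om.comp ms3)).ennreal_ofReal).mul
      (measurable_TVs _ _ _ _ _)
  have mB₀ : ∀ c a, Measurable (Function.uncurry (B₀ c a)) := fun c a =>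
    (mk c a).mul (((mg _ (by fun_prop)).mul (mg _ (by fun_prop))).mul
      (thmS_meas_hs _ _ _ m2t (by fun_prop) (by fun_prop)).sqrt).ennreal_ofReal
  have mB₁ : ∀ c a, Measurable (Function.uncurry (B₁ c a)) := fun c a =>
    (mk c a).mul (((mg _ (by fun_prop)).mul (mg _ (by fun_prop))).mul
      (thmS_meas_hs _ _ _ m2t (by fun_prop) (by fun_prop)).sqrt).ennreal_ofReal
  have hAle : ∫⁻ t in Set.Ioc 1 T, ∫⁻ p, A t p ≤ ENNReal.ofReal (C₁ * (cube F₀ + cube F₁)) := by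
    have := hvw N 0 0 θ F₀ (Matrix.of fun a c => |F₁ᵀ a c|) (fun _ => F₁ᵀ)
      (fun i => if i = 0 then 1 else T) 1 1 le_rfl (by simp)
      (monotone_nat_of_le_succ fun i => by by_cases hi : i = 0 <;> simp [hi, hT])
      (fun _ _ _ => le_rfl) (fun a c => by simp)
    have e : cube (Matrix.of fun a c => |F₁ᵀ a c|) = cube F₁ := by
      rw [← cube_transpose F₁]; simp [cube]
    rw [e] at this
    simpa using this
  have hB₁le : ∀ c a, ∫⁻ t in Set.Ioc 1 T, ∫⁻ p, B₁ c a t p ≤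
      ENNReal.ofReal (3 * (H c a ^ 2 * √(U₁ a c))) * ENNReal.ofReal Nn := by
    intro c a
    refine le_trans (le_of_eq ?_) (thmS_part (T := T) (h := H c a) (lat N 0) (lat N θ) F₁ (lat N 0 a) c
      (fun τ τ' h h' => hU₁ τ τ' h h' a c) (hcf c a) (hN c a))
    refine lintegral_congr fun t => ?_
    rw [thmS_cov (mB₁ c a).of_uncurry_left]
    refine lintegral_congr fun u => lintegral_congr fun r => ?_
    have : s3 (r.1, u - r.1 - r.2, r.2) = u := by simp only [s3]; ring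
    simp only [hB₁, this]
  have hB₀le : ∀ c a, ∫⁻ t in Set.Ioc 1 T, ∫⁻ p, B₀ c a t p ≤
      ENNReal.ofReal (3 * (H c a ^ 2 * √(U₀ c a))) * ENNReal.ofReal Nn := by
    intro c a
    refine le_trans (le_of_eq ?_) (thmS_part (T := T) (h := H c a) (lat N 0) (lat N 0) F₀ᵀ (lat N θ c) a
      (fun τ τ' h h' => hU₀ τ τ' h h' c a) (hcf c a) (hN c a))
    refine lintegral_congr fun t => ?_
    rw [thmS_cov (mB₀ c a).of_uncurry_left]
    refine lintegral_congr fun u => ?_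
    rw [Measure.volume_eq_prod, ← lintegral_prod_swap]
    refine lintegral_congr fun r => ?_
    have : s3 (r.2, u - r.2 - r.1, r.1) = u := by simp only [s3]; ring
    have e : u - r.2 - r.1 = u - r.1 - r.2 := by ring
    simp only [hB₀, Prod.fst_swap, Prod.snd_swap, this]
    rw [e]
  have hent : ∀ (h U : ℝ), 0 ≤ U → 3 * (h ^ 2 * √U) * Nn ≤
      2 * (Nn ^ (3 / 2 : ℝ) * |h| ^ 3) + U ^ (3 / 2 : ℝ) := by
    intro h U hU
    have h1 := amgm3 (x := √Nn * |h|) (y := √Nn * |h|) (z := √U) (by positivity) (by positivity)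
      (by positivity)
    have h2 : √Nn * |h| * (√Nn * |h|) = Nn * h ^ 2 := by
      rw [mul_mul_mul_comm, Real.mul_self_sqrt hNn0, abs_mul_abs_self]; ring
    rw [h2, mul_pow, ← rpow32_eq' hNn0, ← rpow32_eq' hU] at h1
    linarith
  have hsum : ∀ U : Fin N → Fin N → ℝ, (∀ c a, 0 ≤ U c a) →
      ∑ c, ∑ a, ENNReal.ofReal (3 * (H c a ^ 2 * √(U c a))) * ENNReal.ofReal Nn ≤
        ENNReal.ofReal (2 * (Nn ^ (3 / 2 : ℝ) * cube H) + ∑ c, ∑ a, U c a ^ (3 / 2 : ℝ)) := by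
    intro U hU
    have hn : ∀ c a, 0 ≤ 3 * (H c a ^ 2 * √(U c a)) * Nn := fun c a => by positivity
    have e2 : ∀ c a, ENNReal.ofReal (3 * (H c a ^ 2 * √(U c a))) * ENNReal.ofReal Nn =
        ENNReal.ofReal (3 * (H c a ^ 2 * √(U c a)) * Nn) := fun c a =>
      (ENNReal.ofReal_mul (by positivity)).symm
    simp_rw [e2, ← ENNReal.ofReal_sum_of_nonneg fun a _ => hn _ a]
    rw [← ENNReal.ofReal_sum_of_nonneg fun c _ => Finset.sum_nonneg fun a _ => hn c a]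
    refine ENNReal.ofReal_le_ofReal ?_
    simp only [cube, Finset.mul_sum, ← Finset.sum_add_distrib]
    exact Finset.sum_le_sum fun c _ => Finset.sum_le_sum fun a _ => hent _ _ (hU c a)
  have mS : ∀ {B : Fin N → Fin N → ℝ → ℝ × ℝ × ℝ → ENNReal},
      (∀ c a, Measurable (Function.uncurry (B c a))) →
      (∀ t, Measurable fun p => ∑ c, ∑ a, B c a t p) ∧
      (Measurable fun t => ∫⁻ p, ∑ c, ∑ a, B c a t p) ∧
      ∫⁻ t in Set.Ioc 1 T, ∫⁻ p, ∑ c, ∑ a, B c a t p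
        = ∑ c, ∑ a, ∫⁻ t in Set.Ioc 1 T, ∫⁻ p, B c a t p := by
    intro B hB
    have h1 : ∀ t, ∫⁻ p, ∑ c, ∑ a, B c a t p = ∑ c, ∑ a, ∫⁻ p, B c a t p := by
      intro t
      rw [lintegral_finsetSum _ fun c _ => Finset.measurable_sum _ fun a _ => (hB c a).of_uncurry_left]
      exact Finset.sum_congr rfl fun c _ => lintegral_finsetSum _ fun a _ => (hB c a).of_uncurry_left
    have h2 : ∀ c a, Measurable fun t => ∫⁻ p, B c a t p := fun c a => (hB c a).lintegral_prod_right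
    refine ⟨fun t => Finset.measurable_sum _ fun c _ => Finset.measurable_sum _ fun a _ =>
      (hB c a).of_uncurry_left, ?_, ?_⟩
    · simp_rw [h1]
      exact Finset.measurable_sum _ fun c _ => Finset.measurable_sum _ fun a _ => h2 c a
    · simp_rw [h1]
      rw [lintegral_finsetSum _ fun c _ => Finset.measurable_sum _ fun a _ => h2 c a]
      exact Finset.sum_congr rfl fun c _ => lintegral_finsetSum _ fun a _ => h2 c a
  obtain ⟨m₀, m₀', e₀⟩ := mS mB₀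
  obtain ⟨m₁, m₁', e₁⟩ := mS mB₁
  have hc₀ := cube_nonneg F₀
  have hc₁ := cube_nonneg F₁
  have hcH : 0 ≤ Nn ^ (3 / 2 : ℝ) * cube H := mul_nonneg (by positivity) (cube_nonneg H)
  calc _ ≤ ∫⁻ t in Set.Ioc 1 T, ∫⁻ p, 8 * (A t p +
        (∑ c, ∑ a, B₀ c a t p + ∑ c, ∑ a, B₁ c a t p)) := by
        refine setLIntegral_mono' measurableSet_Ioc fun t ht => lintegral_mono fun p => ?_
        have ht0 : 0 < t := by linarith [ht.1]
        exact thmS_pt θ F₀ F₁ H (Matrix.of fun c a => cf t (s3 p) c a) ht0 (om_pos ht0 _) p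
    _ = 8 * ((∫⁻ t in Set.Ioc 1 T, ∫⁻ p, A t p) +
        ((∫⁻ t in Set.Ioc 1 T, ∫⁻ p, ∑ c, ∑ a, B₀ c a t p) +
          ∫⁻ t in Set.Ioc 1 T, ∫⁻ p, ∑ c, ∑ a, B₁ c a t p)) := by
        rw [← lintegral_add_left m₀', ← lintegral_add_left mA.lintegral_prod_right,
          ← lintegral_const_mul' _ _ (by norm_num)]
        refine lintegral_congr fun t => ?_
        rw [lintegral_const_mul' _ _ (by norm_num), lintegral_add_left mA.of_uncurry_left,
          lintegral_add_left (m₀ t)]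
    _ ≤ 8 * (ENNReal.ofReal (C₁ * (cube F₀ + cube F₁)) +
        (ENNReal.ofReal (2 * (Nn ^ (3 / 2 : ℝ) * cube H) + C₂ * cube F₀) +
          ENNReal.ofReal (2 * (Nn ^ (3 / 2 : ℝ) * cube H) + C₂ * cube F₁))) := by
        rw [e₀, e₁]
        gcongr
        · refine (Finset.sum_le_sum fun c _ => Finset.sum_le_sum fun a _ => hB₀le c a).trans
            ((hsum U₀ hU₀0).trans (ENNReal.ofReal_le_ofReal ?_))
          rw [cube_transpose] at hU₀s; linarith
        · refine (Finset.sum_le_sum fun c _ => Finset.sum_le_sum fun a _ => hB₁le c a).trans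
            ((hsum (fun c a => U₁ a c) fun c a => hU₁0 a c).trans (ENNReal.ofReal_le_ofReal ?_))
          rw [Finset.sum_comm]; linarith
    _ ≤ _ := by
        rw [← ENNReal.ofReal_add (by positivity) (by positivity),
          ← ENNReal.ofReal_add (by positivity) (by positivity), ← ENNReal.ofReal_ofNat 8,
          ← ENNReal.ofReal_mul (by norm_num)]
        refine ENNReal.ofReal_le_ofReal ?_
        have h1 := mul_nonneg hC₁ hcH
        have h2 := mul_nonneg hC₂ hcH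
        nlinarith

end Crest.Agent.R72
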