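/-
R72/DT: the theorem on the lattice.
Skeleton by helper40; keep the statements unchanged (add any helper lemmas you like).
-/
import Crest.Agent.R72.ThmS
import Crest.Agent.R72.Kern2
import Crest.Agent.R72.Kern3

set_option autoImplicit false
set_option linter.unusedSectionVars false

namespace Crest.Agent.R72

open Matrix MeasureTheory

/-- a partition of `[1, T]` avoiding finitely many break points.  Recipe: induction on `B`, or sort
`(B ∩ Ioo 1 T) ∪ {1, T}` (`Finset.orderEmbOfFin`) and continue with the constant `T`. -/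
theorem exists_partition (B : Finset ℝ) {T : ℝ} (hT : 1 ≤ T) : ∃ (t : ℕ → ℝ) (K : ℕ), Monotone t ∧
    t 0 = 1 ∧ t K = T ∧ ∀ i < K, ∀ b ∈ B, b ≤ t i ∨ t (i + 1) ≤ b := by
  classical
  set S : Finset ℝ := insert 1 (insert T (B.filter fun b => 1 < b ∧ b < T)) with hS
  have hmem : ∀ x ∈ S, 1 ≤ x ∧ x ≤ T := by
    intro x hx
    simp only [hS, Finset.mem_insert, Finset.mem_filter] at hx
    rcases hx with rfl | rfl | ⟨-, h1, h2⟩
    exacts [⟨le_rfl, hT⟩, ⟨hT, le_rfl⟩, ⟨h1.le, h2.le⟩]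
  obtain ⟨K, hK⟩ : ∃ K, S.card = K + 1 :=
    Nat.exists_eq_add_one.2 (Finset.card_pos.2 ⟨1, Finset.mem_insert_self _ _⟩)
  set e := S.orderEmbOfFin hK with he
  have hsurj : ∀ x ∈ S, ∃ j, e j = x := fun x hx => by
    have : x ∈ Set.range e := by rw [he, Finset.range_orderEmbOfFin]; exact hx
    exact this
  have hin : ∀ j, e j ∈ S := fun j => Finset.orderEmbOfFin_mem _ _ _
  refine ⟨fun i => e ⟨min i K, by omega⟩, K, fun i j hij => e.monotone ?_, ?_, ?_, ?_⟩
  · exact Fin.mk_le_mk.2 (min_le_min_right _ hij)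
  · obtain ⟨j, hj⟩ := hsurj 1 (Finset.mem_insert_self _ _)
    refine le_antisymm (hj ▸ e.monotone ?_) (hmem _ (hin _)).1
    rw [Fin.le_def]
    simp
  · obtain ⟨j, hj⟩ := hsurj T (Finset.mem_insert_of_mem (Finset.mem_insert_self _ _))
    refine le_antisymm (hmem _ (hin _)).2 (hj ▸ e.monotone ?_)
    have := j.2
    rw [Fin.le_def]
    simp only [min_self]
    omega
  · intro i hi b hb
    rcases le_or_gt b 1 with h1 | h1
    · exact Or.inl (h1.trans (hmem _ (hin _)).1)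
    rcases le_or_gt T b with h2 | h2
    · exact Or.inr ((hmem _ (hin _)).2.trans h2)
    obtain ⟨j, rfl⟩ := hsurj b (Finset.mem_insert_of_mem (Finset.mem_insert_of_mem
      (Finset.mem_filter.2 ⟨hb, h1, h2⟩)))
    rcases le_or_gt j.1 i with h | h
    · refine Or.inl (e.monotone ?_)
      rw [Fin.le_def]
      simp only
      omega
    · refine Or.inr (e.monotone ?_)
      rw [Fin.le_def]
      simp only
      omega

theorem DT_lintegral_Ioc (f : ℝ → ENNReal) {t : ℕ → ℝ} (ht : Monotone t) (K : ℕ) :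
    ∫⁻ s in Set.Ioc (t 0) (t K), f s =
      ∑ i ∈ Finset.range K, ∫⁻ s in Set.Ioc (t i) (t (i + 1)), f s := by
  induction K with
  | zero => simp
  | succ K ih =>
    rw [Finset.sum_range_succ, ← ih,
      ← Set.Ioc_union_Ioc_eq_Ioc (ht (Nat.zero_le K)) (ht (Nat.le_succ K)),
      lintegral_union measurableSet_Ioc (Set.Ioc_disjoint_Ioc_of_le le_rfl)]

theorem DT_loc_add {N : ℕ} (F₀ F₁ X Y : Matrix (Fin N) (Fin N) ℝ) (k θ t : ℝ) (p : ℝ × ℝ × ℝ) :
    loc F₀ F₁ (k • X + Y) θ t p = k * loc F₀ F₁ X θ t p + loc F₀ F₁ Y θ t p := by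
  simp only [loc, tri, Finset.mul_sum, ← Finset.sum_add_distrib, Matrix.add_apply,
    Matrix.smul_apply, smul_eq_mul]
  refine Finset.sum_congr rfl fun a _ => Finset.sum_congr rfl fun b _ =>
    Finset.sum_congr rfl fun c _ => ?_
  ring

theorem DT_measurable_loc {N : ℕ} (F₀ F₁ : Matrix (Fin N) (Fin N) ℝ)
    {Z : ℝ → Matrix (Fin N) (Fin N) ℝ} (hZ : ∀ c a, Measurable fun s => Z s c a) (θ : ℝ) :
    Measurable fun w : ℝ × (ℝ × ℝ × ℝ) => loc F₀ F₁ (Z w.1) θ w.1 w.2 := by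
  unfold loc tri
  refine Finset.measurable_sum _ fun a _ => Finset.measurable_sum _ fun b _ =>
    Finset.measurable_sum _ fun c _ => ?_
  refine (measurable_const.mul ((hZ c a).comp measurable_fst)).mul (Measurable.mul (.mul ?_ ?_) ?_)
  · exact measurable_g1.comp (f := fun w : ℝ × (ℝ × ℝ × ℝ) => (w.1, lat N 0 a - w.2.1)) (by fun_prop)
  · exact measurable_g1.comp (f := fun w : ℝ × (ℝ × ℝ × ℝ) => (w.1, lat N 0 b - w.2.2.1))
      (by fun_prop)
  · exact measurable_g1.comp (f := fun w : ℝ × (ℝ × ℝ × ℝ) => (w.1, lat N θ c - w.2.2.2))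
      (by fun_prop)

theorem DT_measurable_sw (e : ℝ) : Measurable (sw e) :=
  Measurable.ite measurableSet_Ioi measurable_const measurable_const

/-- Recipe: `rep_le`; by `ak_eq` the third matrix is `al * (H σ_t) + H r` with
`σ_t = ∑ ϑ (sw - sw)`, `r = ∑ ϑ (rr - rr)`; `loc` is linear in the third matrix; `abs_al_le`.  The second part is
`thmS` with `Sel.sq_weight_le`.  For the first part take `exists_partition` for the break points `ε²`, `R²`; on
`Ioc (t i) (t (i+1))` one has `sw e s = sw e (t (i+1))`, so put `Z i = H σ_{t (i+1)}` and use `thmJ` with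
`Sel.abs_sw_le`, `Sel.var_sw_le` (for the shifted sequence), `Nn = 2 n`; `Ioc 1 T` is the disjoint union of the
pieces (`lintegral_union`, induction on `K`). -/
theorem lattice_thm : ∃ C : ℝ, 0 ≤ C ∧ ∀ (κ : Type) (N n : ℕ) (F₀ F₁ H : Matrix (Fin N) (Fin N) ℝ)
    (θ T : ℝ) (𝒜 : Finset κ) (ε R : κ → ℝ) (ϑ : Fin N → Fin N → κ → ℝ), 1 ≤ n → 1 ≤ T →
    (∀ α ∈ 𝒜, 0 < ε α ∧ ε α < R α) → (∀ c a, Sel n 𝒜 ε R (ϑ c a)) →
    |∑ a, ∑ b, ∑ c, F₀ a b * F₁ b c * H c a *
        ∑ α ∈ 𝒜, ϑ c a α * kern (ε α) (R α) T (lat N 0 a + lat N 0 b + lat N θ c)| ≤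
      C * (cube F₀ + cube F₁ + (n : ℝ) ^ (3 / 2 : ℝ) * cube H) := by
  classical
  obtain ⟨CJ, hCJ, hJ⟩ := thmJ
  obtain ⟨CS, hCS, hS⟩ := thmS
  obtain ⟨CW, hCW, hW⟩ := Sel.sq_weight_le
  obtain ⟨Ca, hCa, ha⟩ := abs_al_le
  refine ⟨Ca * CJ * 2 ^ (3 / 2 : ℝ) + CS * CW ^ (3 / 2 : ℝ), by positivity, ?_⟩
  intro κ N n F₀ F₁ H θ T 𝒜 ε R ϑ hn hT hε hsel
  have hn' : (1 : ℝ) ≤ n := by exact_mod_cast hn
  set Zs : ℝ → Matrix (Fin N) (Fin N) ℝ := fun s => Matrix.of fun c a =>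
    H c a * ∑ α ∈ 𝒜, ϑ c a α * (sw (ε α) s - sw (R α) s) with hZs
  set cf : ℝ → ℝ → Fin N → Fin N → ℝ := fun t u c a =>
    ∑ α ∈ 𝒜, ϑ c a α * (rr (ε α) t u - rr (R α) t u) with hcf
  set A : ℝ → ℝ × ℝ × ℝ → ENNReal := fun s p =>
    ENNReal.ofReal (om s (s3 p) * (√s * |loc F₀ F₁ (Zs s) θ s p|)) with hA
  have hAm : Measurable fun w : ℝ × (ℝ × ℝ × ℝ) => A w.1 w.2 := by
    refine ENNReal.measurable_ofReal.comp (Measurable.mul ?_ (Measurable.mul ?_ ?_))
    · exact measurable_om.comp (f := fun w : ℝ × (ℝ × ℝ × ℝ) => (w.1, s3 w.2))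
        (by unfold s3; fun_prop)
    · fun_prop
    · refine (DT_measurable_loc F₀ F₁ (fun c a => ?_) θ).abs
      exact measurable_const.mul (Finset.measurable_sum _ fun α _ =>
        measurable_const.mul ((DT_measurable_sw _).sub (DT_measurable_sw _)))
  have h1 : ∫⁻ s in Set.Ioc 1 T, ∫⁻ p, A s p ≤
      ENNReal.ofReal (CJ * (cube F₀ + cube F₁ + (2 * n : ℝ) ^ (3 / 2 : ℝ) * cube H)) := by
    obtain ⟨t, K, ht, ht0, htK, hb⟩ := exists_partition
      (𝒜.image (fun α => ε α ^ 2) ∪ 𝒜.image fun α => R α ^ 2) hT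
    have hsw : ∀ i < K, ∀ s ∈ Set.Ioc (t i) (t (i + 1)), ∀ e : ℝ,
        (e ^ 2 ≤ t i ∨ t (i + 1) ≤ e ^ 2) → sw e s = sw e (t (i + 1)) := by
      intro i _ s hs e he
      unfold sw
      rcases he with he | he
      · rw [if_pos (he.trans_lt hs.1), if_pos ((he.trans_lt hs.1).trans_le hs.2)]
      · rw [if_neg (not_lt.2 (hs.2.trans he)), if_neg (not_lt.2 he)]
    rw [← ht0, ← htK, DT_lintegral_Ioc _ ht]
    refine le_trans (le_of_eq ?_) (hJ N θ F₀ F₁ H (fun i => Zs (t (i + 1))) t K (2 * n)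
      (by linarith) ht0.ge ht (fun i c a => ?_) fun c a => ?_)
    · refine Finset.sum_congr rfl fun i hi => setLIntegral_congr_fun measurableSet_Ioc fun s hs => ?_
      have e : Zs s = Zs (t (i + 1)) := by
        ext c a
        simp only [hZs, Matrix.of_apply]
        congr 1
        refine Finset.sum_congr rfl fun α hα => ?_
        rw [hsw i (Finset.mem_range.1 hi) s hs _ (hb i (Finset.mem_range.1 hi) _
            (Finset.mem_union_left _ (Finset.mem_image_of_mem _ hα))),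
          hsw i (Finset.mem_range.1 hi) s hs _ (hb i (Finset.mem_range.1 hi) _
            (Finset.mem_union_right _ (Finset.mem_image_of_mem _ hα)))]
      simp only [hA, e]
    · simp only [hZs, Matrix.of_apply, abs_mul]
      exact mul_le_of_le_one_right (abs_nonneg _) ((hsel c a).abs_sw_le hε _)
    · simp only [hZs, Matrix.of_apply, ← mul_sub (H c a), abs_mul, ← Finset.mul_sum]
      rw [mul_comm]
      exact mul_le_mul_of_nonneg_right ((hsel c a).var_sw_le (t := fun i => t (i + 1))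
        (fun i j hij => ht (Nat.succ_le_succ hij)) K) (abs_nonneg _)
  have h2 := hS N θ F₀ F₁ H cf T (CW * n) (by nlinarith) hT
    (fun c a => Finset.measurable_sum _ fun α _ =>
      measurable_const.mul ((measurable_rr _).sub (measurable_rr _)))
    fun c a => hW κ n 𝒜 ε R (ϑ c a) (hsel c a) hε
  have h3 : ∀ s ∈ Set.Ioc 1 T, ∀ p : ℝ × ℝ × ℝ, ENNReal.ofReal (√s * |loc F₀ F₁
      (Matrix.of fun c a => H c a * ∑ α ∈ 𝒜, ϑ c a α * ak (ε α) (R α) s (s3 p)) θ s p|) ≤
      ENNReal.ofReal Ca * A s p + ENNReal.ofReal (√s *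
        |loc F₀ F₁ (Matrix.of fun c a => H c a * cf s (s3 p) c a) θ s p|) := by
    intro s hs p
    have hs0 : 0 < s := zero_lt_one.trans hs.1
    have e : (Matrix.of fun c a => H c a * ∑ α ∈ 𝒜, ϑ c a α * ak (ε α) (R α) s (s3 p)) =
        al s (s3 p) • Zs s + Matrix.of fun c a => H c a * cf s (s3 p) c a := by
      ext c a
      simp only [hZs, hcf, Matrix.of_apply, Matrix.add_apply, Matrix.smul_apply, smul_eq_mul,
        Finset.mul_sum, ← Finset.sum_add_distrib]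
      refine Finset.sum_congr rfl fun α hα => ?_
      rw [ak_eq (hε α hα).1 (hε α hα).2 hs0]
      ring
    have ho := om_pos hs0 (s3 p)
    rw [e, DT_loc_add, hA, ← ENNReal.ofReal_mul hCa,
      ← ENNReal.ofReal_add (by positivity) (by positivity)]
    refine ENNReal.ofReal_le_ofReal ?_
    refine (mul_le_mul_of_nonneg_left (abs_add_le _ _) (Real.sqrt_nonneg s)).trans ?_
    rw [mul_add, abs_mul]
    have := mul_le_mul_of_nonneg_right (ha s hs0 (s3 p))
      (show 0 ≤ √s * |loc F₀ F₁ (Zs s) θ s p| by positivity)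
    linarith
  have c0 := cube_nonneg F₀
  have c1 := cube_nonneg F₁
  have c2 := cube_nonneg H
  rw [← ENNReal.ofReal_le_ofReal_iff (by positivity)]
  refine (rep_le F₀ F₁ H θ 𝒜 ε R hε ϑ hT).trans ?_
  refine (setLIntegral_mono' measurableSet_Ioc fun s hs => lintegral_mono (h3 s hs)).trans ?_
  have e : ∀ s, ∫⁻ p : ℝ × ℝ × ℝ, (ENNReal.ofReal Ca * A s p + ENNReal.ofReal (√s *
      |loc F₀ F₁ (Matrix.of fun c a => H c a * cf s (s3 p) c a) θ s p|)) =
      ENNReal.ofReal Ca * (∫⁻ p, A s p) + ∫⁻ p : ℝ × ℝ × ℝ, ENNReal.ofReal (√s *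
        |loc F₀ F₁ (Matrix.of fun c a => H c a * cf s (s3 p) c a) θ s p|) := by
    intro s
    have hm : Measurable (A s) := hAm.comp measurable_prodMk_left
    rw [lintegral_add_left (hm.const_mul _), lintegral_const_mul _ hm]
  simp only [e]
  have hm : Measurable fun s => ∫⁻ p, A s p := hAm.lintegral_prod_right'
  rw [lintegral_add_left (hm.const_mul _), lintegral_const_mul _ hm]
  refine (add_le_add (mul_le_mul_right h1 _) h2).trans ?_
  rw [← ENNReal.ofReal_mul hCa, ← ENNReal.ofReal_add (by positivity) (by positivity)]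
  refine ENNReal.ofReal_le_ofReal ?_
  have k : ∀ D : ℝ, 1 ≤ D → cube F₀ + cube F₁ + (D * n) ^ (3 / 2 : ℝ) * cube H ≤
      D ^ (3 / 2 : ℝ) * (cube F₀ + cube F₁ + (n : ℝ) ^ (3 / 2 : ℝ) * cube H) := by
    intro D hD
    have := Real.one_le_rpow hD (show (0 : ℝ) ≤ 3 / 2 by norm_num)
    rw [Real.mul_rpow (by linarith) (by linarith)]
    nlinarith
  have k1 := mul_le_mul_of_nonneg_left (k 2 one_le_two) (mul_nonneg hCa hCJ)
  have k2 := mul_le_mul_of_nonneg_left (k CW hCW) hCS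
  linarith

end Crest.Agent.R72
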