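/-
R72/Kern4: the limit of the smooth kernels.
Skeleton by helper40; keep the statements unchanged (add any helper lemmas you like).
-/
import Crest.Agent.R72.Gauss

set_option autoImplicit false
set_option linter.unusedSectionVars false

namespace Crest.Agent.R72

open MeasureTheory

theorem measurable_kap (ε R : ℝ) : Measurable (kap ε R) := by
  refine Measurable.ite ?_ (by fun_prop) measurable_const
  exact (measurableSet_lt measurable_const measurable_abs).inter
    (measurableSet_lt measurable_abs measurable_const)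

theorem abs_kap_le {ε : ℝ} (hε : 0 < ε) (R s : ℝ) : |kap ε R s| ≤ 1 / ε := by
  unfold kap
  split_ifs with h
  · rw [abs_div, abs_one]
    exact one_div_le_one_div_of_le hε h.1.le
  · rw [abs_zero]
    positivity

namespace K4

theorem eta_one_eq (y : ℝ) : eta 1 y = 3 / 2 * g 4 y - 1 / 8 * (y ^ 2 * g 4 y) := by
  simp only [eta, g2, mul_one]
  ring

theorem integrable_eta1 : Integrable (eta 1) := by
  rw [show eta 1 = _ from funext eta_one_eq]
  exact ((integrable_g (by norm_num)).const_mul _).sub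
    ((integrable_pow_mul_g (by norm_num) 2).const_mul _)

theorem measurable_eta1 : Measurable (eta 1) := by
  rw [show eta 1 = _ from funext eta_one_eq]
  have := (continuous_g 4).measurable
  fun_prop

theorem g_scale {c : ℝ} (hc : 0 < c) (t y : ℝ) : g (c ^ 2 * t) (c * y) = c⁻¹ * g t y := by
  unfold g
  rw [show 2 * Real.pi * (c ^ 2 * t) = c ^ 2 * (2 * Real.pi * t) by ring,
    Real.sqrt_mul (sq_nonneg c), Real.sqrt_sq hc.le, mul_inv, mul_assoc]
  congr 3
  rw [show -(c * y) ^ 2 = c ^ 2 * -y ^ 2 by ring, show 2 * (c ^ 2 * t) = c ^ 2 * (2 * t) by ring,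
    mul_div_mul_left _ _ (by positivity)]

theorem eta_scale {c : ℝ} (hc : 0 < c) (y : ℝ) : eta (c ^ 2) (c * y) = c⁻¹ * eta 1 y := by
  simp only [eta, g2, mul_one]
  rw [mul_comm 4, g_scale hc]
  field_simp

theorem integrable_eta_sq {c : ℝ} (hc : 0 < c) : Integrable (eta (c ^ 2)) := by
  rw [← integrable_comp_mul_left_iff _ hc.ne']
  simp only [eta_scale hc]
  exact integrable_eta1.const_mul _

theorem kap_scale {c : ℝ} (hc : 0 < c) (ε R s : ℝ) :
    c * kap (c * ε) (c * R) (c * s) = kap ε R s := by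
  unfold kap
  simp only [abs_mul, abs_of_pos hc, mul_lt_mul_iff_right₀ hc]
  split_ifs
  · rw [one_div, one_div, mul_inv, ← mul_assoc, mul_inv_cancel₀ hc.ne', one_mul]
  · rw [mul_zero]

theorem integrable_bdd_mul {f φ : ℝ → ℝ} (hf : Measurable f) {C : ℝ} (hC : ∀ x, |f x| ≤ C)
    (hφ : Integrable φ) : Integrable fun x => f x * φ x :=
  hφ.bdd_mul hf.aestronglyMeasurable (c := C) (Filter.Eventually.of_forall hC)

theorem kap_conv {ε R : ℝ} (hε : 0 < ε) {φ : ℝ → ℝ} (hφ : Integrable φ) (σ : ℝ) :
    ∫ s in Set.Ioc ε R, (φ (σ - s) - φ (σ + s)) / s = ∫ y, kap ε R (σ - y) * φ y := by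
  set f : ℝ → ℝ := (Set.Ioo ε R).indicator fun s => 1 / s with hf
  have hfm : Measurable f := Measurable.indicator (by fun_prop) measurableSet_Ioo
  have hfb : ∀ x, |f x| ≤ 1 / ε := fun x => by
    by_cases hx : x ∈ Set.Ioo ε R
    · rw [hf, Set.indicator_of_mem hx, abs_of_pos (one_div_pos.2 (hε.trans hx.1))]
      exact one_div_le_one_div_of_le hε hx.1.le
    · rw [hf, Set.indicator_of_notMem hx, abs_zero]
      positivity
  have hk : ∀ s, kap ε R s = f s - f (-s) := fun s => by
    simp only [kap, hf, Set.indicator_apply, Set.mem_Ioo]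
    rcases le_total 0 s with h | h
    · rw [abs_of_nonneg h, if_neg (show ¬(ε < -s ∧ -s < R) from fun h' => by linarith [h'.1]),
        sub_zero]
    · rw [abs_of_nonpos h, if_neg (show ¬(ε < s ∧ s < R) from fun h' => by linarith [h'.1]),
        zero_sub]
      split_ifs
      · rw [div_neg, neg_neg]
      · rw [neg_zero]
  have h1 : Integrable fun s => φ (σ - s) := hφ.comp_sub_left σ
  have h2 : Integrable fun s => φ (σ + s) := hφ.comp_add_left σ
  have h3 : ∫ y, kap ε R (σ - y) * φ y = ∫ s, kap ε R s * φ (σ - s) := by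
    rw [← integral_sub_left_eq_self (fun s => kap ε R s * φ (σ - s)) volume σ]
    simp only [sub_sub_cancel]
  have h4 : ∫ s, f (-s) * φ (σ - s) = ∫ s, f s * φ (σ + s) := by
    rw [← integral_neg_eq_self (fun s => f s * φ (σ + s))]
    simp only [sub_eq_add_neg]
  rw [h3]
  simp only [hk, sub_mul]
  rw [integral_sub (integrable_bdd_mul hfm hfb h1)
      (integrable_bdd_mul (f := fun s => f (-s)) (hfm.comp measurable_neg) (fun x => hfb _) h1),
    h4, ← integral_sub (integrable_bdd_mul hfm hfb h1) (integrable_bdd_mul hfm hfb h2),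
    integral_Ioc_eq_integral_Ioo, ← integral_indicator measurableSet_Ioo]
  congr 1
  funext s
  by_cases hs : s ∈ Set.Ioo ε R
  · simp only [hf, Set.indicator_of_mem hs]
    ring
  · simp [hf, Set.indicator_of_notMem hs]

theorem continuousAt_kap {ε R : ℝ} (hε : 0 < ε) {s : ℝ} (h₁ : |s| ≠ ε) (h₂ : |s| ≠ R) :
    ContinuousAt (kap ε R) s := by
  by_cases h : ε < |s| ∧ |s| < R
  · have h0 : s ≠ 0 := abs_pos.1 (hε.trans h.1)
    refine (show ContinuousAt (fun x : ℝ => 1 / x) s from
      continuousAt_const.div continuousAt_id h0).congr ?_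
    filter_upwards [continuous_abs.continuousAt.eventually (lt_mem_nhds h.1),
      continuous_abs.continuousAt.eventually (gt_mem_nhds h.2)] with x h3 h4
    rw [kap, if_pos ⟨h3, h4⟩]
  · refine (continuousAt_const (y := (0 : ℝ))).congr ?_
    rcases not_and_or.1 h with h | h
    · filter_upwards [continuous_abs.continuousAt.eventually
        (gt_mem_nhds (lt_of_le_of_ne (not_lt.1 h) h₁))] with x h3
      rw [kap, if_neg fun h4 => absurd h4.1 h3.le.not_gt]
    · filter_upwards [continuous_abs.continuousAt.eventually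
        (lt_mem_nhds (lt_of_le_of_ne (not_lt.1 h) h₂.symm))] with x h3
      rw [kap, if_neg fun h4 => absurd h4.2 h3.le.not_gt]

theorem norm_term_le {ε : ℝ} (hε : 0 < ε) (R x y : ℝ) :
    ‖kap ε R x * eta 1 y‖ ≤ 1 / ε * ‖eta 1 y‖ := by
  rw [norm_mul]
  exact mul_le_mul_of_nonneg_right (abs_kap_le hε R x) (norm_nonneg _)

end K4

open K4

/-- closed form.  Recipe: `∫_{Ioc ε R} (φ (σ - s) - φ (σ + s)) / s = ∫ kap ε R s * φ (σ - s)` (split the
support of `kap` into `Ioo ε R` and its reflection, `integral_neg_eq_self`), then substitute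
`s = σ - √t y`, `eta t (√t y) = (√t)⁻¹ eta 1 y`, and `kap (c ε) (c R) (c s) = c⁻¹ kap ε R s`. -/
theorem kn_eq {ε R : ℝ} (hε : 0 < ε) (hR : ε < R) (k : ℕ) (s : ℝ) :
    kn ε R k s = (∫ y, kap ε R (s - y / ((k : ℝ) + 1)) * eta 1 y) -
      ∫ y, kap ε R (s - ((k : ℝ) + 1) * y) * eta 1 y := by
  set c : ℝ := (k : ℝ) + 1 with hc
  have hc0 : 0 < c := by positivity
  have hT : c ^ 4 = (c ^ 2) ^ 2 := by ring
  have h1 : Integrable (eta (c ^ 4)) := hT ▸ integrable_eta_sq (pow_pos hc0 2)
  have hm : Measurable fun y => kap (c * ε) (c * R) (c * s - y) :=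
    (measurable_kap _ _).comp (by fun_prop)
  have hb : ∀ y, |kap (c * ε) (c * R) (c * s - y)| ≤ 1 / (c * ε) := fun y =>
    abs_kap_le (mul_pos hc0 hε) _ _
  have h2 := kap_conv (R := c * R) (mul_pos hc0 hε) (integrable_eta1.sub h1) (c * s)
  simp only [Pi.sub_apply] at h2
  rw [kn, kern, ← hc, h2]
  simp only [mul_sub]
  rw [integral_sub (integrable_bdd_mul hm hb integrable_eta1) (integrable_bdd_mul hm hb h1),
    mul_sub, ← integral_const_mul, ← integral_const_mul]
  congr 1
  · congr 1
    funext y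
    rw [← mul_assoc, ← kap_scale hc0 ε R, mul_sub, mul_div_cancel₀ _ hc0.ne']
  · have h3 := Measure.integral_comp_mul_left
      (fun y => c * (kap (c * ε) (c * R) (c * s - y) * eta (c ^ 4) y)) (c ^ 2)
    rw [abs_of_pos (inv_pos.2 (pow_pos hc0 2)), smul_eq_mul,
      eq_inv_mul_iff_mul_eq₀ (pow_pos hc0 2).ne'] at h3
    rw [← h3, ← integral_const_mul]
    congr 1
    funext y
    rw [hT, eta_scale (pow_pos hc0 2), ← kap_scale hc0 ε R (s - c * y),
      show c * (s - c * y) = c * s - c ^ 2 * y by ring]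
    field_simp

theorem integrable_eta_one : Integrable (eta 1) := by
  exact integrable_eta1

theorem integral_eta_one : ∫ y, eta 1 y = 1 := by
  have h4 : (0 : ℝ) < 4 := by norm_num
  have h := moment_succ h4 0
  simp only [zero_add, pow_zero, one_mul, integral_g h4, Nat.cast_zero] at h
  simp only [eta_one_eq]
  rw [integral_sub ((integrable_g h4).const_mul _) ((integrable_pow_mul_g h4 2).const_mul _),
    integral_const_mul, integral_const_mul, h, integral_g h4]
  norm_num

theorem measurable_kn {ε R : ℝ} (hε : 0 < ε) (hR : ε < R) (k : ℕ) : Measurable (kn ε R k) := by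
  rw [show kn ε R k = _ from funext (kn_eq hε hR k)]
  have h1 := measurable_kap ε R
  have h2 := measurable_eta1
  refine Measurable.sub ?_ ?_
  · exact (StronglyMeasurable.integral_prod_right' (f := fun p : ℝ × ℝ =>
      kap ε R (p.1 - p.2 / ((k : ℝ) + 1)) * eta 1 p.2)
      (Measurable.stronglyMeasurable (by fun_prop))).measurable
  · exact (StronglyMeasurable.integral_prod_right' (f := fun p : ℝ × ℝ =>
      kap ε R (p.1 - ((k : ℝ) + 1) * p.2) * eta 1 p.2)
      (Measurable.stronglyMeasurable (by fun_prop))).measurable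

theorem abs_kn_le {ε R : ℝ} (hε : 0 < ε) (hR : ε < R) : ∃ C : ℝ, ∀ k s, |kn ε R k s| ≤ C := by
  have hi : Integrable fun y => 1 / ε * ‖eta 1 y‖ := integrable_eta1.norm.const_mul _
  refine ⟨(∫ y, 1 / ε * ‖eta 1 y‖) + ∫ y, 1 / ε * ‖eta 1 y‖, fun k s => ?_⟩
  rw [kn_eq hε hR]
  refine (abs_sub _ _).trans (add_le_add ?_ ?_) <;>
    exact norm_integral_le_of_norm_le hi (Filter.Eventually.of_forall fun y => norm_term_le hε _ _ _)

/-- dominated convergence in `kn_eq`: `kap` is continuous off `|s| ∈ {ε, R}` and vanishes for `|s| ≥ R`. -/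
theorem tendsto_kn {ε R : ℝ} (hε : 0 < ε) (hR : ε < R) {s : ℝ} (h₁ : |s| ≠ ε) (h₂ : |s| ≠ R) :
    Filter.Tendsto (fun k => kn ε R k s) Filter.atTop (nhds (kap ε R s)) := by
  have hi : Integrable fun y => 1 / ε * ‖eta 1 y‖ := integrable_eta1.norm.const_mul _
  have h1 := measurable_kap ε R
  have h2 := measurable_eta1
  have hk : Filter.Tendsto (fun k : ℕ => (k : ℝ) + 1) Filter.atTop Filter.atTop :=
    Filter.tendsto_atTop_add_const_right _ _ tendsto_natCast_atTop_atTop
  have hA : Filter.Tendsto (fun k : ℕ => ∫ y, kap ε R (s - y / ((k : ℝ) + 1)) * eta 1 y)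
      Filter.atTop (nhds (∫ y, kap ε R s * eta 1 y)) := by
    refine tendsto_integral_of_dominated_convergence _
      (fun k => Measurable.aestronglyMeasurable (by fun_prop)) hi
      (fun k => Filter.Eventually.of_forall fun y => norm_term_le hε _ _ _)
      (Filter.Eventually.of_forall fun y => Filter.Tendsto.mul_const _ ?_)
    refine (continuousAt_kap hε h₁ h₂).tendsto.comp ?_
    simpa using (hk.const_div_atTop y).const_sub s
  have hB : Filter.Tendsto (fun k : ℕ => ∫ y, kap ε R (s - ((k : ℝ) + 1) * y) * eta 1 y)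
      Filter.atTop (nhds (∫ _ : ℝ, (0 : ℝ))) := by
    refine tendsto_integral_of_dominated_convergence _
      (fun k => Measurable.aestronglyMeasurable (by fun_prop)) hi
      (fun k => Filter.Eventually.of_forall fun y => norm_term_le hε _ _ _) ?_
    filter_upwards [Measure.ae_ne volume 0] with y hy
    refine tendsto_const_nhds.congr' ?_
    filter_upwards [(hk.atTop_mul_const (abs_pos.2 hy)).eventually_ge_atTop (R + |s|)] with k h3
    have h4 : R ≤ |s - ((k : ℝ) + 1) * y| := by
      have h5 := abs_sub_abs_le_abs_sub (((k : ℝ) + 1) * y) s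
      rw [abs_mul, abs_of_pos (by positivity : (0 : ℝ) < (k : ℝ) + 1), abs_sub_comm] at h5
      linarith
    rw [kap, if_neg fun h6 => absurd h6.2 h4.not_gt, zero_mul]
  rw [integral_const_mul, integral_eta_one, mul_one] at hA
  rw [integral_zero] at hB
  simpa only [kn_eq hε hR, sub_zero] using hA.sub hB

end Crest.Agent.R72
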