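/-
R72/Cont1: the linearised form in the continuum, for bounded functions with bounded support.
Skeleton by helper40; keep the statements unchanged (add any helper lemmas you like).
-/
import Crest.Agent.R72.DT
import Crest.Agent.R72.Kern4

set_option autoImplicit false
set_option linter.unusedSectionVars false

namespace Crest.Agent.R72

open MeasureTheory

theorem cont1_mp {α β : Type*} [MeasurableSpace α] [MeasurableSpace β] {μ : Measure α}
    {ν : Measure β} {φ : α → β} (hφ : Measurable φ)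
    (h : ∀ f : β → ENNReal, Measurable f → ∫⁻ x, f (φ x) ∂μ = ∫⁻ y, f y ∂ν) :
    MeasurePreserving φ μ ν :=
  ⟨hφ, Measure.ext_of_lintegral _ fun f hf => by rw [lintegral_map hf hφ, h f hf]⟩

theorem cont1_int {α β : Type*} [MeasurableSpace α] [MeasurableSpace β] {μ : Measure α}
    {ν : Measure β} {φ : α → β} (hφ : MeasurePreserving φ μ ν) {f : β → ℝ} (hf : Measurable f) :
    ∫ x, f (φ x) ∂μ = ∫ y, f y ∂ν := by
  rw [← hφ.map_eq, integral_map hφ.measurable.aemeasurable hf.aestronglyMeasurable]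

theorem cont1_mp0 : MeasurePreserving (fun z : ℝ × ℝ => (z.1 + z.2, -z.1)) := by
  refine cont1_mp (by fun_prop) fun f hf => ?_
  rw [Measure.volume_eq_prod, lintegral_prod _ (by fun_prop), lintegral_prod_symm _ (by fun_prop),
    ← lintegral_neg_eq_self (fun y => ∫⁻ x, f (x, y))]
  exact lintegral_congr fun a => lintegral_add_left_eq_self (fun b => f (b, -a)) a

theorem cont1_mp1 : MeasurePreserving (fun z : ℝ × ℝ => (-z.2, z.1 + z.2)) := by
  refine cont1_mp (by fun_prop) fun f hf => ?_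
  rw [Measure.volume_eq_prod, lintegral_prod_symm _ (by fun_prop), lintegral_prod _ (by fun_prop),
    ← lintegral_neg_eq_self (fun x => ∫⁻ y, f (x, y))]
  exact lintegral_congr fun a => lintegral_add_right_eq_self (fun b => f (-a, b)) a

theorem cont1_mp2 : MeasurePreserving (fun z : ℝ × ℝ => (-z.1, -z.2)) :=
  (Measure.measurePreserving_neg (volume : Measure ℝ)).prod
    (Measure.measurePreserving_neg (volume : Measure ℝ))

theorem cont1_mp3 :
    MeasurePreserving (fun x : ℝ × ℝ × ℝ => (((-x.2.2, -x.1), x.1 + x.2.1 + x.2.2) : (ℝ × ℝ) × ℝ)) := by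
  refine cont1_mp (by fun_prop) fun f hf => ?_
  have hJ : Measurable fun z : ℝ × ℝ => ∫⁻ s, f (z, s) := hf.lintegral_prod_right'
  rw [Measure.volume_eq_prod, lintegral_prod _ (by fun_prop), Measure.volume_eq_prod (ℝ × ℝ),
    lintegral_prod f hf.aemeasurable, Measure.volume_eq_prod, lintegral_prod_symm _ hJ.aemeasurable,
    ← lintegral_neg_eq_self (fun y => ∫⁻ x, ∫⁻ s, f ((x, y), s))]
  refine lintegral_congr fun a => ?_
  rw [lintegral_prod_symm _ (by fun_prop), ← lintegral_neg_eq_self (fun x => ∫⁻ s, f ((x, -a), s))]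
  refine lintegral_congr fun c => ?_
  rw [← lintegral_add_left_eq_self (fun s => f ((-c, -a), s)) (a + c)]
  exact lintegral_congr fun b => by rw [add_right_comm]

theorem cont1_integrable {α : Type*} [MeasurableSpace α] {μ : Measure α} {f : α → ℝ}
    (hf : Measurable f) {C : ℝ} (hC : ∀ x, |f x| ≤ C) {S : Set α} (hS : μ S ≠ ⊤)
    (hs : ∀ x, f x ≠ 0 → x ∈ S) : Integrable f μ :=
  (integrableOn_iff_integrable_of_support_subset fun x hx => hs x hx).1
    (Measure.integrableOn_of_bounded hS hf.aestronglyMeasurable (Filter.Eventually.of_forall hC))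

theorem Nice.integrable_of {F : ℝ × ℝ → ℝ} (hF : Nice F) {u : ℝ → ℝ} (hu : Continuous u)
    (h0 : u 0 = 0) : Integrable fun z => u (F z) := by
  obtain ⟨hm, B, hB, hs⟩ := hF
  obtain ⟨C, hC⟩ := (isCompact_Icc (a := -B) (b := B)).exists_bound_of_continuousOn hu.continuousOn
  refine cont1_integrable (hu.measurable.comp hm) (C := C) (fun z => hC _ (abs_le.1 (hB z)))
    (S := Set.Icc (-B) B ×ˢ Set.Icc (-B) B) (isCompact_Icc.prod isCompact_Icc).measure_ne_top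
    fun z hz => ?_
  have := hs z fun e => hz (by rw [e, h0])
  exact ⟨abs_le.1 this.1, abs_le.1 this.2⟩

theorem Nice.integrable_cube {F : ℝ × ℝ → ℝ} (hF : Nice F) : Integrable fun z => |F z| ^ 3 :=
  hF.integrable_of (u := fun x => |x| ^ 3) (by fun_prop) (by simp)

theorem Nice.integrable_abs {F : ℝ × ℝ → ℝ} (hF : Nice F) : Integrable fun z => |F z| :=
  hF.integrable_of (u := fun x => |x|) (by fun_prop) (by simp)

theorem cont1_line {F G : ℝ × ℝ → ℝ} (hF : Nice F) (hG : Nice G) : ∃ M : ℝ,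
    ∀ (z : ℝ × ℝ) (κ : ℝ → ℝ) (C : ℝ), Measurable κ → (∀ s, |κ s| ≤ C) →
      Integrable (fun s => F (z.1 + s, z.2) * G (z.1, z.2 + s) * κ s) ∧
        |∫ s, F (z.1 + s, z.2) * G (z.1, z.2 + s) * κ s| ≤ C * M := by
  obtain ⟨hmF, B, hB, hs⟩ := hF
  obtain ⟨hmG, B', hB', -⟩ := hG
  have hB0 : 0 ≤ B := (abs_nonneg _).trans (hB 0)
  have hB0' : 0 ≤ B' := (abs_nonneg _).trans (hB' 0)
  refine ⟨B * B' * (2 * B), fun z κ C hκ hC => ?_⟩
  have hb : ∀ s, |F (z.1 + s, z.2) * G (z.1, z.2 + s) * κ s| ≤ B * B' * C := fun s => by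
    rw [abs_mul, abs_mul]
    exact mul_le_mul (mul_le_mul (hB _) (hB' _) (abs_nonneg _) hB0) (hC s) (abs_nonneg _)
      (by positivity)
  have hsup : ∀ s, F (z.1 + s, z.2) * G (z.1, z.2 + s) * κ s ≠ 0 →
      s ∈ Set.Icc (-B - z.1) (B - z.1) := fun s h => by
    have := abs_le.1 (hs _ (left_ne_zero_of_mul (left_ne_zero_of_mul h))).1
    constructor <;> linarith [this.1, this.2]
  refine ⟨cont1_integrable (by fun_prop) hb isCompact_Icc.measure_ne_top hsup, ?_⟩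
  rw [← setIntegral_eq_integral_of_forall_compl_eq_zero (s := Set.Icc (-B - z.1) (B - z.1))
    fun s h => by_contra fun h' => h (hsup s h')]
  refine (norm_setIntegral_le_of_norm_le_const (C := B * B' * C)
    (f := fun s => F (z.1 + s, z.2) * G (z.1, z.2 + s) * κ s) isCompact_Icc.measure_lt_top
    fun s _ => hb s).trans (le_of_eq ?_)
  rw [Real.volume_real_Icc_of_le (by linarith)]
  ring

theorem Sel.scale {κ : Type} {n : ℕ} {𝒜 : Finset κ} {ε R ϑ : κ → ℝ} (h : Sel n 𝒜 ε R ϑ) {c : ℝ}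
    (hc : 0 ≤ c) : Sel n 𝒜 (fun α => c * ε α) (fun α => c * R α) ϑ := by
  obtain ⟨h1, A, h2, h3, h4, h5⟩ := h
  exact ⟨h1, A, h2, h3, h4, fun α hα β hβ hne => (h5 α hα β hβ hne).imp
    (fun e => mul_le_mul_of_nonneg_left e hc) fun e => mul_le_mul_of_nonneg_left e hc⟩

theorem cont1_kn_bound {κ : Type} (𝒜 : Finset κ) (ε R : κ → ℝ)
    (hε : ∀ α ∈ 𝒜, 0 < ε α ∧ ε α < R α) : ∃ C : κ → ℝ, ∀ α ∈ 𝒜, ∀ k s, |kn (ε α) (R α) k s| ≤ C α := by
  have : ∀ α, ∃ C : ℝ, α ∈ 𝒜 → ∀ k s, |kn (ε α) (R α) k s| ≤ C := fun α => by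
    by_cases h : α ∈ 𝒜
    · obtain ⟨C, hC⟩ := abs_kn_le (hε α h).1 (hε α h).2
      exact ⟨C, fun _ => hC⟩
    · exact ⟨0, fun h' => absurd h' h⟩
  choose C hC using this
  exact ⟨C, hC⟩

/-- the smoothed form.  Recipe: Fubini and the substitutions `z = (-x₂, -x₀)`, `s = x₀ + x₁ + x₂` turn the
left side into `|∫ Φ|` over `ℝ × ℝ × ℝ` with
`Φ x = F (x₀ + x₁, -x₀) G (-x₂, x₁ + x₂) H (-x₂, -x₀) ∑ ϑ (-x₂, -x₀) α * kn (ε α) (R α) k (x₀ + x₁ + x₂)`
(bounded, measurable, supported in a box).  `lattice_bound` with `δ = 1 / (k + 1)`, `o = -2B - 1`, `N` large,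
`f₀ (x₀, x₁) = C |F (x₀ + x₁, -x₀)|³`, `f₁ (x₁, x₂) = C |G (-x₂, x₁ + x₂)|³`,
`f₂ (x₂, x₀) = C n^{3/2} |H (-x₂, -x₀)|³` (shears and reflections preserve the integral); the hypothesis is
`lattice_thm` with radii `(k+1) ε`, `(k+1) R`, `T = (k+1)^4`, `θ = 3 o (k+1) + θ₀ + θ₁ + θ₂`. -/
theorem form_kn_le : ∃ C : ℝ, 0 ≤ C ∧ ∀ (κ : Type) (n k : ℕ) (F G H : ℝ × ℝ → ℝ) (𝒜 : Finset κ)
    (ε R : κ → ℝ) (ϑ : ℝ × ℝ → κ → ℝ), 1 ≤ n → Nice F → Nice G → Nice H →
    (∀ α ∈ 𝒜, 0 < ε α ∧ ε α < R α) → (∀ α, Measurable fun z => ϑ z α) → (∀ z, Sel n 𝒜 ε R (ϑ z)) →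
    |∫ z : ℝ × ℝ, H z * ∑ α ∈ 𝒜, ϑ z α * ∫ s, F (z.1 + s, z.2) * G (z.1, z.2 + s) * kn (ε α) (R α) k s| ≤
      C * ((∫ z, |F z| ^ 3) + (∫ z, |G z| ^ 3) + (n : ℝ) ^ (3 / 2 : ℝ) * ∫ z, |H z| ^ 3) := by
  obtain ⟨C, hC0, hC⟩ := lattice_thm
  refine ⟨C, hC0, fun κ n k F G H 𝒜 ε R ϑ hn hF hG hH hε hϑ hsel => ?_⟩
  obtain ⟨Ck, hCk⟩ := cont1_kn_bound 𝒜 ε R hε
  obtain ⟨M, hM⟩ := cont1_line hF hG
  obtain ⟨c, hc⟩ : ∃ c : ℝ, c = (k : ℝ) + 1 := ⟨_, rfl⟩
  have hc1 : 1 ≤ c := by rw [hc]; linarith [(Nat.cast_nonneg k : (0 : ℝ) ≤ k)]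
  have hc0 : 0 < c := by linarith
  have iF := hF.integrable_cube
  have iG := hG.integrable_cube
  have iH := hH.integrable_cube
  obtain ⟨mF, BF, bF, sF⟩ := hF
  obtain ⟨mG, BG, bG, -⟩ := hG
  obtain ⟨mH, BH, bH, sH⟩ := hH
  have pF : 0 ≤ BF := (abs_nonneg _).trans (bF 0)
  have pG : 0 ≤ BG := (abs_nonneg _).trans (bG 0)
  have pH : 0 ≤ BH := (abs_nonneg _).trans (bH 0)
  obtain ⟨Ψ, hΨ⟩ : ∃ Ψ : (ℝ × ℝ) × ℝ → ℝ, Ψ = fun w => F (w.1.1 + w.2, w.1.2) * G (w.1.1, w.1.2 + w.2) *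
      H w.1 * ∑ α ∈ 𝒜, ϑ w.1 α * kn (ε α) (R α) k w.2 := ⟨_, rfl⟩
  have mΨ : Measurable Ψ := by
    rw [hΨ]
    refine Measurable.mul (by fun_prop) (Finset.measurable_sum _ fun α hα => ?_)
    exact ((hϑ α).comp measurable_fst).mul
      ((measurable_kn (hε α hα).1 (hε α hα).2 k).comp measurable_snd)
  have bΨ : ∀ w, |Ψ w| ≤ BF * BG * BH * ∑ α ∈ 𝒜, Ck α := fun w => by
    rw [hΨ]
    simp only [abs_mul]
    refine mul_le_mul (mul_le_mul (mul_le_mul (bF _) (bG _) (abs_nonneg _) pF) (bH _) (abs_nonneg _)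
      (by positivity)) ((Finset.abs_sum_le_sum_abs _ _).trans (Finset.sum_le_sum fun α hα => ?_))
      (abs_nonneg _) (by positivity)
    rw [abs_mul]
    exact (mul_le_of_le_one_left (abs_nonneg _) ((hsel _).1 α)).trans (hCk α hα _ _)
  obtain ⟨o, ho⟩ : ∃ o : ℝ, o = -(BF + BH) - 1 := ⟨_, rfl⟩
  obtain ⟨N, hN⟩ : ∃ N : ℕ, (2 * (BF + BH) + 2) * c ≤ N := ⟨_, Nat.le_ceil _⟩
  have hN' : BF + BH + 1 ≤ o + 1 / c * N := by
    have : 2 * (BF + BH) + 2 ≤ 1 / c * N := by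
      rw [one_div, ← div_eq_inv_mul, le_div_iff₀ hc0]; exact hN
    linarith
  have hs : ∀ x : ℝ × ℝ × ℝ, Ψ ((-x.2.2, -x.1), x.1 + x.2.1 + x.2.2) ≠ 0 →
      x.1 ∈ Set.Ico o (o + 1 / c * N) ∧ x.2.1 ∈ Set.Ico o (o + 1 / c * N) ∧
        x.2.2 ∈ Set.Ico o (o + 1 / c * N) := fun x hx => by
    rw [hΨ] at hx
    have h1 := sF _ (left_ne_zero_of_mul (left_ne_zero_of_mul (left_ne_zero_of_mul hx)))
    have h2 := sH _ (right_ne_zero_of_mul (left_ne_zero_of_mul hx))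
    have a1 := abs_le.1 h1.1
    have a2 := abs_le.1 h2.1
    have a3 := abs_le.1 h2.2
    simp only at a1 a2 a3
    refine ⟨⟨?_, ?_⟩, ⟨?_, ?_⟩, ⟨?_, ?_⟩⟩ <;> linarith [a1.1, a1.2, a2.1, a2.2, a3.1, a3.2]
  have iΦ : Integrable fun x : ℝ × ℝ × ℝ => Ψ ((-x.2.2, -x.1), x.1 + x.2.1 + x.2.2) :=
    cont1_integrable (mΨ.comp cont1_mp3.measurable) (fun x => bΨ _)
      (S := Set.Icc o (o + 1 / c * N) ×ˢ Set.Icc o (o + 1 / c * N) ×ˢ Set.Icc o (o + 1 / c * N))
      (isCompact_Icc.prod (isCompact_Icc.prod isCompact_Icc)).measure_ne_top fun x hx =>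
        ⟨Set.Ico_subset_Icc_self (hs x hx).1, Set.Ico_subset_Icc_self (hs x hx).2.1,
          Set.Ico_subset_Icc_self (hs x hx).2.2⟩
  have iΨ : Integrable Ψ := (cont1_mp3.integrable_comp mΨ.aestronglyMeasurable).1 iΦ
  have e1 : ∫ z : ℝ × ℝ, H z * ∑ α ∈ 𝒜, ϑ z α *
      ∫ s, F (z.1 + s, z.2) * G (z.1, z.2 + s) * kn (ε α) (R α) k s =
      ∫ x : ℝ × ℝ × ℝ, Ψ ((-x.2.2, -x.1), x.1 + x.2.1 + x.2.2) := by
    rw [cont1_int cont1_mp3 mΨ, Measure.volume_eq_prod (ℝ × ℝ), integral_prod _ iΨ]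
    refine integral_congr_ae (Filter.Eventually.of_forall fun z => ?_)
    simp only [← integral_const_mul]
    rw [← integral_finsetSum _ fun α hα => (hM z _ _ (measurable_kn (hε α hα).1 (hε α hα).2 k)
      (hCk α hα k)).1.const_mul _, ← integral_const_mul]
    refine integral_congr_ae (Filter.Eventually.of_forall fun s => ?_)
    simp only [hΨ, Finset.mul_sum]
    exact Finset.sum_congr rfl fun α _ => by ring
  have hn0 : (0 : ℝ) ≤ (n : ℝ) ^ (3 / 2 : ℝ) := by positivity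
  have key := lattice_bound iΦ (f₀ := fun z => C * |F (z.1 + z.2, -z.1)| ^ 3)
    (f₁ := fun z => C * |G (-z.2, z.1 + z.2)| ^ 3)
    (f₂ := fun z => C * (n : ℝ) ^ (3 / 2 : ℝ) * |H (-z.1, -z.2)| ^ 3)
    ((cont1_mp0.integrable_comp_of_integrable iF).const_mul _)
    ((cont1_mp1.integrable_comp_of_integrable iG).const_mul _)
    ((cont1_mp2.integrable_comp_of_integrable iH).const_mul _)
    (fun z => by positivity) (fun z => by positivity) (fun z => by positivity)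
    (o := o) (δ := 1 / c) (by positivity) N hs fun θ _ => by
      have h1 := hC κ N n
        (Matrix.of fun a b => F (o + 1 / c * lat N θ.1 a + (o + 1 / c * lat N θ.2.1 b),
          -(o + 1 / c * lat N θ.1 a)))
        (Matrix.of fun b d => G (-(o + 1 / c * lat N θ.2.2 d),
          o + 1 / c * lat N θ.2.1 b + (o + 1 / c * lat N θ.2.2 d)))
        (Matrix.of fun d a => H (-(o + 1 / c * lat N θ.2.2 d), -(o + 1 / c * lat N θ.1 a)))
        (3 * o * c + θ.1 + θ.2.1 + θ.2.2) (c ^ 4) 𝒜 (fun α => c * ε α) (fun α => c * R α)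
        (fun d a => ϑ (-(o + 1 / c * lat N θ.2.2 d), -(o + 1 / c * lat N θ.1 a))) hn
        (one_le_pow₀ hc1)
        (fun α hα => ⟨mul_pos hc0 (hε α hα).1, mul_lt_mul_of_pos_left (hε α hα).2 hc0⟩)
        (fun d a => (hsel _).scale hc0.le)
      have h2 := mul_le_mul_of_nonneg_left h1 (sq_nonneg (1 / c))
      rw [← abs_of_nonneg (sq_nonneg (1 / c)), ← abs_mul, abs_of_nonneg (sq_nonneg (1 / c))] at h2
      refine le_of_eq_of_le ?_ (h2.trans (le_of_eq ?_))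
      · congr 1
        simp only [Finset.mul_sum, hΨ, Matrix.of_apply]
        refine Finset.sum_congr rfl fun a _ => Finset.sum_congr rfl fun b _ =>
          Finset.sum_congr rfl fun d _ => Finset.sum_congr rfl fun α _ => ?_
        have e2 : c * (o + 1 / c * lat N θ.1 a + (o + 1 / c * lat N θ.2.1 b) +
            (o + 1 / c * lat N θ.2.2 d)) =
            lat N 0 a + lat N 0 b + lat N (3 * o * c + θ.1 + θ.2.1 + θ.2.2) d := by
          simp only [lat]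
          field_simp
          ring
        have e3 : ∀ x y w : ℝ, -w + (x + y + w) = x + y := fun x y w => by ring
        have e4 : ∀ x y w : ℝ, -x + (x + y + w) = y + w := fun x y w => by ring
        rw [kn, ← hc, e2, e3, e4]
        field_simp
      · simp only [cube, Matrix.of_apply, mul_add, Finset.mul_sum, mul_assoc]
  rw [e1]
  refine key.trans (le_of_eq ?_)
  rw [integral_const_mul, integral_const_mul, integral_const_mul,
    cont1_int cont1_mp0 (f := fun z => |F z| ^ 3) (by fun_prop),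
    cont1_int cont1_mp1 (f := fun z => |G z| ^ 3) (by fun_prop),
    cont1_int cont1_mp2 (f := fun z => |H z| ^ 3) (by fun_prop)]
  ring

theorem Nice.measurable_Bh {F G : ℝ × ℝ → ℝ} (hF : Measurable F) (hG : Measurable G) (ε R : ℝ) :
    Measurable (Bh F G ε R) := by
  have := measurable_kap ε R
  have h : Measurable fun w : (ℝ × ℝ) × ℝ =>
      F (w.1.1 + w.2, w.1.2) * G (w.1.1, w.1.2 + w.2) * kap ε R w.2 := by fun_prop
  exact h.stronglyMeasurable.integral_prod_right'.measurable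

theorem Nice.abs_Bh_le {F G : ℝ × ℝ → ℝ} (hF : Nice F) (hG : Nice G) {ε R : ℝ} (hε : 0 < ε) :
    ∃ C : ℝ, ∀ z, |Bh F G ε R z| ≤ C := by
  obtain ⟨M, hM⟩ := cont1_line hF hG
  exact ⟨_, fun z => (hM z _ _ (measurable_kap ε R) (abs_kap_le hε R)).2⟩

/-- Recipe: dominated convergence twice (`tendsto_kn`, `abs_kn_le`, `measurable_kn`): in `s` for each `z`
with `H z ≠ 0` (or all `z`), then in `z`; `le_of_tendsto'` with `form_kn_le`. -/
theorem form_le : ∃ C : ℝ, 0 ≤ C ∧ ∀ (κ : Type) (n : ℕ) (F G H : ℝ × ℝ → ℝ) (𝒜 : Finset κ)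
    (ε R : κ → ℝ) (ϑ : ℝ × ℝ → κ → ℝ), 1 ≤ n → Nice F → Nice G → Nice H →
    (∀ α ∈ 𝒜, 0 < ε α ∧ ε α < R α) → (∀ α, Measurable fun z => ϑ z α) → (∀ z, Sel n 𝒜 ε R (ϑ z)) →
    |∫ z : ℝ × ℝ, H z * ∑ α ∈ 𝒜, ϑ z α * Bh F G (ε α) (R α) z| ≤
      C * ((∫ z, |F z| ^ 3) + (∫ z, |G z| ^ 3) + (n : ℝ) ^ (3 / 2 : ℝ) * ∫ z, |H z| ^ 3) := by
  obtain ⟨C, hC0, hC⟩ := form_kn_le
  refine ⟨C, hC0, fun κ n F G H 𝒜 ε R ϑ hn hF hG hH hε hϑ hsel => ?_⟩
  obtain ⟨Ck, hCk⟩ := cont1_kn_bound 𝒜 ε R hε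
  obtain ⟨M, hM⟩ := cont1_line hF hG
  refine le_of_tendsto' (x := Filter.atTop) (Filter.Tendsto.abs ?_) fun k => hC κ n k F G H 𝒜 ε R ϑ hn hF hG hH hε hϑ hsel
  refine tendsto_integral_of_dominated_convergence (fun z => |H z| * ∑ α ∈ 𝒜, Ck α * M)
    (fun k => Measurable.aestronglyMeasurable ?_) (hH.integrable_abs.mul_const _)
    (fun k => Filter.Eventually.of_forall fun z => ?_) (Filter.Eventually.of_forall fun z => ?_)
  · refine hH.1.mul (Finset.measurable_sum _ fun α hα => (hϑ α).mul ?_)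
    have := measurable_kn (hε α hα).1 (hε α hα).2 k
    have h1 := hF.1
    have h2 := hG.1
    have h : Measurable fun w : (ℝ × ℝ) × ℝ =>
        F (w.1.1 + w.2, w.1.2) * G (w.1.1, w.1.2 + w.2) * kn (ε α) (R α) k w.2 := by fun_prop
    exact h.stronglyMeasurable.integral_prod_right'.measurable
  · rw [Real.norm_eq_abs, abs_mul]
    refine mul_le_mul_of_nonneg_left ((Finset.abs_sum_le_sum_abs _ _).trans
      (Finset.sum_le_sum fun α hα => ?_)) (abs_nonneg _)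
    rw [abs_mul]
    exact (mul_le_of_le_one_left (abs_nonneg _) ((hsel _).1 α)).trans
      (hM z _ _ (measurable_kn (hε α hα).1 (hε α hα).2 k) (hCk α hα k)).2
  · refine Filter.Tendsto.const_mul _ (tendsto_finsetSum _ fun α hα => Filter.Tendsto.const_mul _ ?_)
    have i1 := (hM z (fun _ => Ck α) _ measurable_const fun _ => le_rfl).1
    refine tendsto_integral_of_dominated_convergence _
      (fun k => (hM z _ _ (measurable_kn (hε α hα).1 (hε α hα).2 k) (hCk α hα k)).1.1) i1.abs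
      (fun k => Filter.Eventually.of_forall fun s => ?_) ?_
    · simp only [Real.norm_eq_abs, abs_mul]
      exact mul_le_mul_of_nonneg_left ((hCk α hα k s).trans (le_abs_self _)) (by positivity)
    · have hae : ∀ r : ℝ, ∀ᵐ s : ℝ, |s| ≠ r := fun r => by
        filter_upwards [Measure.ae_ne volume r, Measure.ae_ne volume (-r)] with s h1 h2 h3
        rcases abs_cases s with h | h
        · exact h1 (h.1.symm.trans h3)
        · exact h2 (by linarith [h.1])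
      filter_upwards [hae (ε α), hae (R α)] with s h1 h2
      exact (tendsto_kn (hε α hα).1 (hε α hα).2 h1 h2).const_mul _

end Crest.Agent.R72
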