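/-
R72/Cont2: linearisation and duality.
Skeleton by helper40; keep the statements unchanged (add any helper lemmas you like).
-/
import Crest.Agent.R72.Cont1

set_option autoImplicit false
set_option linter.unusedSectionVars false

namespace Crest.Agent.R72

open MeasureTheory
open scoped ENNReal

theorem measurable_cnt (𝒜 : Finset (ℚ × ℚ)) (n : ℕ) {F G : ℝ × ℝ → ℝ} (hF : Measurable F)
    (hG : Measurable G) : Measurable (cnt 𝒜 n F G) :=
  Measurable.iSup fun A => Measurable.iSup_Prop _ (Measurable.iSup_Prop _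
    (Finset.measurable_sum A fun α _ => (Nice.measurable_Bh hF hG (α.1 : ℝ) (α.2 : ℝ)).enorm))

theorem c2_adm_empty (n : ℕ) : Adm n ∅ := ⟨by simp, by simp, by simp⟩

theorem c2_le_cnt {𝒜 A : Finset (ℚ × ℚ)} {n : ℕ} (h1 : A ⊆ 𝒜) (h2 : Adm n A) (F G : ℝ × ℝ → ℝ)
    (z : ℝ × ℝ) : ∑ α ∈ A, ‖Bh F G (α.1 : ℝ) (α.2 : ℝ) z‖ₑ ≤ cnt 𝒜 n F G z :=
  le_iSup₂_of_le A h1 (le_iSup_of_le h2 le_rfl)

theorem c2_cnt_le {𝒜 : Finset (ℚ × ℚ)} {n : ℕ} {F G : ℝ × ℝ → ℝ} {z : ℝ × ℝ} {L : ℝ≥0∞}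
    (h : ∀ A ⊆ 𝒜, Adm n A → ∑ α ∈ A, ‖Bh F G (α.1 : ℝ) (α.2 : ℝ) z‖ₑ ≤ L) : cnt 𝒜 n F G z ≤ L :=
  iSup₂_le fun A h1 => iSup_le (h A h1)

theorem c2_sum_enorm (A : Finset (ℚ × ℚ)) (f : ℚ × ℚ → ℝ) :
    ∑ α ∈ A, ‖f α‖ₑ = ENNReal.ofReal (∑ α ∈ A, |f α|) := by
  rw [ENNReal.ofReal_sum_of_nonneg fun _ _ => abs_nonneg _]
  simp only [Real.enorm_eq_ofReal_abs]

/-- measurable selection of a maximising family with signs.  Recipe: the admissible subfamilies of `𝒜` form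
a nonempty finset (`∅` is admissible); enumerate it, take for each `z` the first maximiser `A z`
(`Nat.find`, `measurable_find`, or induction on a list of candidates with `Measurable.ite`) and put
`ϑ z α = if α ∈ A z then sign (Bh z) else 0`. -/
theorem exists_sel (𝒜 : Finset (ℚ × ℚ)) (n : ℕ) {F G : ℝ × ℝ → ℝ} (hF : Measurable F)
    (hG : Measurable G) : ∃ ϑ : ℝ × ℝ → ℚ × ℚ → ℝ, (∀ α, Measurable fun z => ϑ z α) ∧
      (∀ z, Sel n 𝒜 (fun α => (α.1 : ℝ)) (fun α => (α.2 : ℝ)) (ϑ z)) ∧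
      ∀ z, 0 ≤ ∑ α ∈ 𝒜, ϑ z α * Bh F G (α.1 : ℝ) (α.2 : ℝ) z ∧
        cnt 𝒜 n F G z = ENNReal.ofReal (∑ α ∈ 𝒜, ϑ z α * Bh F G (α.1 : ℝ) (α.2 : ℝ) z) := by
  classical
  obtain ⟨e, he⟩ := exists_surjective_nat (Finset (ℚ × ℚ))
  obtain ⟨f, hf⟩ : ∃ f : Finset (ℚ × ℚ) → ℝ × ℝ → ℝ,
    f = fun A z => ∑ α ∈ A, |Bh F G (α.1 : ℝ) (α.2 : ℝ) z| := ⟨_, rfl⟩
  have hfm : ∀ A, Measurable (f A) := fun A => hf ▸ Finset.measurable_sum A fun α _ =>
    (Nice.measurable_Bh hF hG (α.1 : ℝ) (α.2 : ℝ)).abs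
  obtain ⟨T, hT⟩ : ∃ T : Finset (Finset (ℚ × ℚ)), ∀ A, A ∈ T ↔ A ⊆ 𝒜 ∧ Adm n A :=
    ⟨𝒜.powerset.filter (Adm n), fun A => by simp⟩
  have hp : ∀ z, ∃ k, e k ∈ T ∧ ∀ B ∈ T, f B z ≤ f (e k) z := fun z => by
    obtain ⟨A, hA, h⟩ := T.exists_max_image (f · z)
      ⟨∅, (hT _).2 ⟨Finset.empty_subset _, c2_adm_empty n⟩⟩
    obtain ⟨k, rfl⟩ := he A
    exact ⟨k, hA, h⟩
  have hm : Measurable fun z => Nat.find (hp z) := measurable_find hp fun k => by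
    simp only [Set.ofPred_and, Set.ofPred_forall]
    exact (MeasurableSet.const _).inter (.iInter fun B => .iInter fun _ =>
      measurableSet_le (hfm B) (hfm _))
  refine ⟨fun z α => (if α ∈ e (Nat.find (hp z)) then 1 else 0) *
    (if 0 ≤ Bh F G (α.1 : ℝ) (α.2 : ℝ) z then 1 else -1), fun α => ?_, fun z => ?_, fun z => ?_⟩
  · exact ((measurable_from_nat (f := fun k => if α ∈ e k then (1 : ℝ) else 0)).comp hm).mul
      (Measurable.ite (measurableSet_le measurable_const (Nice.measurable_Bh hF hG _ _))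
        measurable_const measurable_const)
  · obtain ⟨h1, h2, -, h3⟩ := (hT _).1 (Nat.find_spec (hp z)).1
    refine ⟨fun α => ?_, _, h1, h2, fun α hα => by simp [hα], fun α hα β hβ hne => ?_⟩
    · dsimp only
      split_ifs <;> simp
    · dsimp only
      exact_mod_cast h3 α hα β hβ hne
  · obtain ⟨h0, hmax⟩ := Nat.find_spec (hp z)
    obtain ⟨h1, h2⟩ := (hT _).1 h0
    have key : ∑ α ∈ 𝒜, ((if α ∈ e (Nat.find (hp z)) then (1 : ℝ) else 0) *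
        (if 0 ≤ Bh F G (α.1 : ℝ) (α.2 : ℝ) z then 1 else -1)) * Bh F G (α.1 : ℝ) (α.2 : ℝ) z =
        ∑ α ∈ e (Nat.find (hp z)), |Bh F G (α.1 : ℝ) (α.2 : ℝ) z| := by
      rw [← Finset.sum_subset h1 fun α _ hα => by simp [hα]]
      refine Finset.sum_congr rfl fun α hα => ?_
      rw [if_pos hα]
      split_ifs with h
      · rw [abs_of_nonneg h]; ring
      · rw [abs_of_neg (not_le.1 h)]; ring
    rw [key]
    refine ⟨Finset.sum_nonneg fun _ _ => abs_nonneg _, le_antisymm (c2_cnt_le fun B b1 b2 => ?_) ?_⟩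
    · rw [c2_sum_enorm]
      exact ENNReal.ofReal_le_ofReal ((congrFun₂ hf _ _).symm.trans_le
        ((hmax B ((hT _).2 ⟨b1, b2⟩)).trans_eq (congrFun₂ hf _ _)))
    · rw [← c2_sum_enorm]
      exact c2_le_cnt h1 h2 F G z

theorem c2_nice_smul {F : ℝ × ℝ → ℝ} (hF : Nice F) (l : ℝ) : Nice fun z => l * F z := by
  obtain ⟨hm, B, h1, h2⟩ := hF
  have hB : 0 ≤ B := (abs_nonneg _).trans (h1 0)
  have hl := mul_nonneg (abs_nonneg l) hB
  refine ⟨hm.const_mul l, |l| * B + B, fun z => ?_, fun z hz => ?_⟩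
  · rw [abs_mul]
    linarith [mul_le_mul_of_nonneg_left (h1 z) (abs_nonneg l)]
  · obtain ⟨a, b⟩ := h2 z (right_ne_zero_of_mul hz)
    constructor <;> linarith

theorem c2_nice_integrable {F : ℝ × ℝ → ℝ} (hF : Nice F) : Integrable fun z => |F z| ^ 3 := by
  obtain ⟨hm, B, h1, h2⟩ := hF
  have hB : 0 ≤ B := (abs_nonneg _).trans (h1 0)
  refine IntegrableOn.integrable_of_forall_notMem_eq_zero (s := Metric.closedBall 0 B)
    (Measure.integrableOn_of_bounded (M := B ^ 3) measure_closedBall_lt_top.ne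
      (hm.abs.pow_const 3).aestronglyMeasurable (.of_forall fun z => ?_)) fun z hz => ?_
  · rw [Real.norm_of_nonneg (by positivity)]
    exact pow_le_pow_left₀ (abs_nonneg _) (h1 z) 3
  · by_contra h
    have h' : F z ≠ 0 := fun h0 => h (by simp [h0])
    exact hz (by simpa [Prod.norm_def] using h2 z h')

theorem c2_Bh_smul (F G : ℝ × ℝ → ℝ) (a b ε R : ℝ) (z : ℝ × ℝ) :
    Bh (fun z => a * F z) (fun z => b * G z) ε R z = a * b * Bh F G ε R z := by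
  unfold Bh
  rw [← integral_const_mul]
  congr 1
  funext s
  ring

theorem c2_int_smul (F : ℝ × ℝ → ℝ) {l : ℝ} (hl : 0 < l) :
    ∫ z, |l * F z| ^ 3 = l ^ 3 * ∫ z, |F z| ^ 3 := by
  rw [← integral_const_mul]
  congr 1
  funext z
  rw [abs_mul, abs_of_pos hl, mul_pow]

theorem c2_alg {c X Y I n : ℝ} (hc : 0 ≤ c) (hX : 0 ≤ X) (hY : 0 ≤ Y) (hI : 0 ≤ I) (hn : 0 ≤ n)
    (h : I ≤ 3 * c * X ^ (1 / 3 : ℝ) * Y ^ (1 / 3 : ℝ) * (n ^ (3 / 2 : ℝ) * I) ^ (1 / 3 : ℝ)) :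
    I ≤ (3 * c) ^ (3 / 2 : ℝ) * n ^ (3 / 4 : ℝ) * √X * √Y := by
  rcases hI.eq_or_lt with rfl | hI'
  · positivity
  have e : I = I ^ (2 / 3 : ℝ) * I ^ (1 / 3 : ℝ) := by
    rw [← Real.rpow_add hI']
    norm_num
  rw [Real.mul_rpow (by positivity) hI, ← mul_assoc] at h
  have h1 := le_of_mul_le_mul_right (e.symm.trans_le h) (by positivity)
  have h2 := Real.rpow_le_rpow (by positivity) h1 (by norm_num : (0 : ℝ) ≤ 3 / 2)
  rw [← Real.rpow_mul hI, Real.mul_rpow (by positivity) (by positivity),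
    Real.mul_rpow (by positivity) (by positivity), Real.mul_rpow (by positivity) (by positivity),
    ← Real.rpow_mul hX, ← Real.rpow_mul hY, ← Real.rpow_mul hn, ← Real.rpow_mul hn] at h2
  rw [Real.sqrt_eq_rpow, Real.sqrt_eq_rpow]
  norm_num at h2 ⊢
  linarith

/-- Recipe: WLOG all members of `𝒜` satisfy `0 < α.1 < α.2` (filter; `cnt` does not change).  Let `S` be the
sum of `exists_sel` (measurable, bounded by `Nice.abs_Bh_le`), `I = ∫_{box} S^{3/2}` for the box of size `ρ`.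
`form_le` with `H = 1_{box} √S` and scaled copies of `F, G, H` (`Bh` is bilinear, keep `ϑ`) gives by
`le_prod_of_forall_scale` that `I ≤ 3 C X^{1/3} Y^{1/3} (n^{3/2} I)^{1/3}`, hence
`I ≤ (3C)^{3/2} n^{3/4} √X √Y`.  Let `ρ → ∞` (monotone convergence, `lintegral_iSup`). -/
theorem cnt_nice_le : ∃ C : ℝ, 0 ≤ C ∧ ∀ (𝒜 : Finset (ℚ × ℚ)) (n : ℕ) (F G : ℝ × ℝ → ℝ), 1 ≤ n →
    Nice F → Nice G →
    ∫⁻ z, cnt 𝒜 n F G z ^ (3 / 2 : ℝ) ≤
      ENNReal.ofReal (C * (n : ℝ) ^ (3 / 4 : ℝ) * √(∫ z, |F z| ^ 3) * √(∫ z, |G z| ^ 3)) := by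
  classical
  obtain ⟨C, hC, hform⟩ := form_le
  refine ⟨(3 * C) ^ (3 / 2 : ℝ), by positivity, fun 𝒜₀ n F G hn hF hG => ?_⟩
  obtain ⟨𝒜, h𝒜⟩ : ∃ 𝒜 : Finset (ℚ × ℚ), ∀ α, α ∈ 𝒜 ↔ α ∈ 𝒜₀ ∧ 0 < α.1 ∧ α.1 < α.2 :=
    ⟨𝒜₀.filter fun α => 0 < α.1 ∧ α.1 < α.2, fun α => by simp⟩
  have hpos : ∀ α ∈ 𝒜, (0 : ℝ) < α.1 ∧ (α.1 : ℝ) < α.2 := fun α hα => by
    exact_mod_cast ((h𝒜 α).1 hα).2
  obtain ⟨ϑ, hϑm, hsel, hS⟩ := exists_sel 𝒜 n hF.1 hG.1
  obtain ⟨S, hSd⟩ : ∃ S : ℝ × ℝ → ℝ, S = fun z => ∑ α ∈ 𝒜, ϑ z α * Bh F G (α.1 : ℝ) (α.2 : ℝ) z :=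
    ⟨_, rfl⟩
  have hSm : Measurable S := hSd ▸ Finset.measurable_sum _ fun α _ =>
    (hϑm α).mul (Nice.measurable_Bh hF.1 hG.1 _ _)
  have hS0 : ∀ z, 0 ≤ S z := fun z => hSd ▸ (hS z).1
  have hcnt : ∀ z, cnt 𝒜₀ n F G z ≤ ENNReal.ofReal (S z) := fun z =>
    c2_cnt_le fun A h1 h2 => (c2_le_cnt (fun α hα => (h𝒜 α).2 ⟨h1 hα, h2.2.1 α hα⟩) h2 F G z).trans_eq
      (hSd ▸ (hS z).2)
  obtain ⟨K, hK⟩ : ∃ K : ℝ, ∀ z, S z ≤ K := by
    choose! c hc using fun α (hα : α ∈ 𝒜) => Nice.abs_Bh_le hF hG (R := (α.2 : ℝ)) (hpos α hα).1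
    refine ⟨∑ α ∈ 𝒜, c α, fun z => hSd ▸ Finset.sum_le_sum fun α hα => (le_abs_self _).trans ?_⟩
    rw [abs_mul]
    exact (mul_le_of_le_one_left (abs_nonneg _) ((hsel z).1 α)).trans (hc α hα z)
  obtain ⟨H, hH⟩ : ∃ H : ℕ → ℝ × ℝ → ℝ,
    H = fun (ρ : ℕ) (z : ℝ × ℝ) => if |z.1| ≤ (ρ : ℝ) ∧ |z.2| ≤ (ρ : ℝ) then √(S z) else 0 := ⟨_, rfl⟩
  have hHn : ∀ ρ, Nice (H ρ) := fun ρ => by
    have h0 : (0 : ℝ) ≤ ρ := Nat.cast_nonneg ρ
    have h1 := Real.sqrt_nonneg K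
    rw [hH]
    refine ⟨Measurable.ite ((measurableSet_le measurable_fst.abs measurable_const).inter
      (measurableSet_le measurable_snd.abs measurable_const)) hSm.sqrt measurable_const,
      ρ + √K, fun z => ?_, fun z hz => ?_⟩
    · dsimp only
      split_ifs
      · rw [abs_of_nonneg (Real.sqrt_nonneg _)]
        linarith [Real.sqrt_le_sqrt (hK z)]
      · rw [abs_zero]; positivity
    · have h2 : |z.1| ≤ ρ ∧ |z.2| ≤ ρ := by
        by_contra h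
        exact hz (if_neg h)
      constructor <;> linarith [h2.1, h2.2]
  have hHS : ∀ ρ z, H ρ z * S z = |H ρ z| ^ 3 := fun ρ z => by
    rw [hH]
    dsimp only
    split_ifs
    · rw [abs_of_nonneg (Real.sqrt_nonneg _), pow_succ', Real.sq_sqrt (hS0 z)]
    · simp
  have hI : ∀ ρ, ∫ z, |H ρ z| ^ 3 ≤ (3 * C) ^ (3 / 2 : ℝ) * (n : ℝ) ^ (3 / 4 : ℝ) *
      √(∫ z, |F z| ^ 3) * √(∫ z, |G z| ^ 3) := fun ρ => by
    have p : ∀ F : ℝ × ℝ → ℝ, 0 ≤ ∫ z, |F z| ^ 3 := fun F => integral_nonneg fun z => by positivity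
    refine c2_alg hC (p F) (p G) (p _) (Nat.cast_nonneg n) (le_prod_of_forall_scale hC (p F) (p G)
      (mul_nonneg (by positivity) (p _)) fun a b c ha hb hc => ?_)
    have h := hform _ n _ _ _ 𝒜 (fun α => (α.1 : ℝ)) (fun α => (α.2 : ℝ)) ϑ hn (c2_nice_smul hF a)
      (c2_nice_smul hG b) (c2_nice_smul (hHn ρ) c) hpos hϑm hsel
    rw [c2_int_smul F ha, c2_int_smul G hb, c2_int_smul _ hc] at h
    refine le_trans (le_of_eq ?_) ((le_abs_self _).trans (h.trans_eq (by ring)))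
    rw [← integral_const_mul]
    congr 1
    funext z
    simp only [c2_Bh_smul, ← hHS, hSd, Finset.mul_sum]
    exact Finset.sum_congr rfl fun α _ => by ring
  have hlim : ∀ z, cnt 𝒜₀ n F G z ^ (3 / 2 : ℝ) ≤
      Filter.liminf (fun ρ => ENNReal.ofReal (|H ρ z| ^ 3)) Filter.atTop := fun z => by
    refine Filter.le_liminf_of_le (h := ?_)
    filter_upwards [tendsto_natCast_atTop_atTop.eventually_ge_atTop |z.1|,
      tendsto_natCast_atTop_atTop.eventually_ge_atTop |z.2|] with ρ h1 h2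
    refine (ENNReal.rpow_le_rpow (hcnt z) (by norm_num)).trans_eq ?_
    rw [ENNReal.ofReal_rpow_of_nonneg (hS0 z) (by norm_num), hH]
    dsimp only
    rw [if_pos ⟨h1, h2⟩, abs_of_nonneg (Real.sqrt_nonneg _), Real.sqrt_eq_rpow,
      ← Real.rpow_natCast, ← Real.rpow_mul (hS0 z)]
    norm_num
  refine (lintegral_mono hlim).trans ((lintegral_liminf_le fun ρ =>
    ((hHn ρ).1.abs.pow_const 3).ennreal_ofReal).trans
      (Filter.liminf_le_of_frequently_le' (.of_forall fun ρ => ?_)))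
  rw [← ofReal_integral_eq_lintegral_ofReal (c2_nice_integrable (hHn ρ))
    (.of_forall fun z => by positivity)]
  exact ENNReal.ofReal_le_ofReal (hI ρ)

/-- cube-integrable functions are cube-integrable on a.e. horizontal / vertical line. -/
theorem c2_ae_lines {f g : ℝ × ℝ → ℝ} (hf : Integrable f) (hg : Integrable g) :
    ∀ᵐ z : ℝ × ℝ, Integrable (fun s => f (z.1 + s, z.2)) ∧ Integrable (fun s => g (z.1, z.2 + s)) := by
  filter_upwards [Measure.quasiMeasurePreserving_snd.ae (Integrable.prod_left_ae hf),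
    Measure.quasiMeasurePreserving_fst.ae (Integrable.prod_right_ae hg)] with z h1 h2
  exact ⟨h1.comp_add_left z.1, h2.comp_add_left z.2⟩

theorem c2_mul_le {a b : ℝ} (ha : 0 ≤ a) (hb : 0 ≤ b) : a * b ≤ a ^ 3 + b ^ 3 + 1 := by
  nlinarith [mul_nonneg (by linarith : 0 ≤ a + b + 1)
    (add_nonneg (add_nonneg (sq_nonneg (a - b)) (sq_nonneg (a - 1))) (sq_nonneg (b - 1))),
    mul_nonneg ha hb]

theorem c2_integrable_kap {ε : ℝ} (hε : 0 < ε) (R : ℝ) : Integrable (kap ε R) := by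
  refine IntegrableOn.integrable_of_forall_notMem_eq_zero (s := Set.Ioo (-R) R)
    (Measure.integrableOn_of_bounded (M := 1 / ε) measure_Ioo_lt_top.ne
      (measurable_kap ε R).aestronglyMeasurable (.of_forall fun s => abs_kap_le hε R s)) fun s hs => ?_
  exact if_neg fun h => hs (abs_lt.1 h.2)

/-- the dominating function on a good pair of lines. -/
theorem c2_integrable_dom {u v : ℝ → ℝ} (hu : Integrable u) (hv : Integrable v) {ε : ℝ} (hε : 0 < ε)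
    (R : ℝ) : Integrable fun s => (u s + v s + 1) * |kap ε R s| := by
  have h := ((hu.add hv).mul_bdd (measurable_kap ε R).abs.aestronglyMeasurable (c := 1 / ε)
    (.of_forall fun s => by simpa using abs_kap_le hε R s)).add (c2_integrable_kap hε R).abs
  exact h.congr (.of_forall fun s => by simp only [Pi.add_apply]; ring)

/-- truncation -/
noncomputable def c2_tr (F : ℝ × ℝ → ℝ) (j : ℕ) (z : ℝ × ℝ) : ℝ :=
  if |F z| ≤ j ∧ |z.1| ≤ j ∧ |z.2| ≤ j then F z else 0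

theorem c2_tr_abs (F : ℝ × ℝ → ℝ) (j : ℕ) (z : ℝ × ℝ) : |c2_tr F j z| ≤ |F z| := by
  unfold c2_tr
  split_ifs <;> simp

theorem c2_tr_nice {F : ℝ × ℝ → ℝ} (hF : Measurable F) (j : ℕ) : Nice (c2_tr F j) := by
  refine ⟨Measurable.ite ((measurableSet_le hF.abs measurable_const).inter
    ((measurableSet_le measurable_fst.abs measurable_const).inter
      (measurableSet_le measurable_snd.abs measurable_const))) hF measurable_const, j, fun z => ?_,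
    fun z hz => ?_⟩
  · unfold c2_tr
    split_ifs with h
    · exact h.1
    · simp
  · by_contra h
    exact hz (if_neg fun h' => h h'.2)

theorem c2_tr_eq (F : ℝ × ℝ → ℝ) (z : ℝ × ℝ) : ∀ᶠ j in Filter.atTop, c2_tr F j z = F z := by
  filter_upwards [tendsto_natCast_atTop_atTop.eventually_ge_atTop |F z|,
    tendsto_natCast_atTop_atTop.eventually_ge_atTop |z.1|,
    tendsto_natCast_atTop_atTop.eventually_ge_atTop |z.2|] with j h1 h2 h3
  exact if_pos ⟨h1, h2, h3⟩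

theorem c2_tr_int {F : ℝ × ℝ → ℝ} (hF : Integrable fun z => |F z| ^ 3) (j : ℕ) :
    ∫ z, |c2_tr F j z| ^ 3 ≤ ∫ z, |F z| ^ 3 :=
  integral_mono_of_nonneg (.of_forall fun z => by positivity) hF
    (.of_forall fun z => pow_le_pow_left₀ (abs_nonneg _) (c2_tr_abs F j z) 3)

theorem c2_tendsto_Bh {F G : ℝ × ℝ → ℝ} (hF : Measurable F) (hG : Measurable G) {z : ℝ × ℝ}
    (h1 : Integrable fun s => |F (z.1 + s, z.2)| ^ 3) (h2 : Integrable fun s => |G (z.1, z.2 + s)| ^ 3)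
    {ε : ℝ} (hε : 0 < ε) (R : ℝ) :
    Filter.Tendsto (fun j => Bh (c2_tr F j) (c2_tr G j) ε R z) Filter.atTop (nhds (Bh F G ε R z)) := by
  refine tendsto_integral_of_dominated_convergence _ (fun j => ?_) (c2_integrable_dom h1 h2 hε R)
    (fun j => .of_forall fun s => ?_) (.of_forall fun s => tendsto_const_nhds.congr' ?_)
  · exact ((((c2_tr_nice hF j).1.comp (by fun_prop)).mul ((c2_tr_nice hG j).1.comp (by fun_prop))).mul
      (measurable_kap ε R)).aestronglyMeasurable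
  · rw [Real.norm_eq_abs, abs_mul, abs_mul]
    refine mul_le_mul_of_nonneg_right (le_trans ?_ (c2_mul_le (abs_nonneg _) (abs_nonneg _)))
      (abs_nonneg _)
    exact mul_le_mul (c2_tr_abs _ _ _) (c2_tr_abs _ _ _) (abs_nonneg _) (abs_nonneg _)
  · filter_upwards [c2_tr_eq F (z.1 + s, z.2), c2_tr_eq G (z.1, z.2 + s)] with j a b
    rw [a, b]

/-- Recipe: truncate, `F_j = F 1_{|F| ≤ j, |z.1| ≤ j, |z.2| ≤ j}`.  For a.e. `z`, `|F|³` is integrable on the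
horizontal and `|G|³` on the vertical line through `z` (`Integrable.prod_left_ae`, `prod_right_ae`, lifted to the
product by `Measure.quasiMeasurePreserving_snd`/`fst`), so `|F G kap| ≤ (|F|³ + |G|³ + 1) / ε` on `|s| < R` is a
dominating function and `Bh F_j G_j → Bh F G` at `z` for all the finitely many annuli; thus
`cnt F G z ≤ liminf cnt F_j G_j z`; Fatou (`lintegral_liminf_le`). -/
theorem cnt_le : ∃ C : ℝ, 0 ≤ C ∧ ∀ (𝒜 : Finset (ℚ × ℚ)) (n : ℕ) (F G : ℝ × ℝ → ℝ), 1 ≤ n →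
    Measurable F → Measurable G → Integrable (fun z => |F z| ^ 3) → Integrable (fun z => |G z| ^ 3) →
    ∫⁻ z, cnt 𝒜 n F G z ^ (3 / 2 : ℝ) ≤
      ENNReal.ofReal (C * (n : ℝ) ^ (3 / 4 : ℝ) * √(∫ z, |F z| ^ 3) * √(∫ z, |G z| ^ 3)) := by
  obtain ⟨C, hC, h⟩ := cnt_nice_le
  refine ⟨C, hC, fun 𝒜 n F G hn hF hG hF3 hG3 => ?_⟩
  have hp : (0 : ℝ) < 3 / 2 := by norm_num
  have hlim : ∀ᵐ z : ℝ × ℝ, cnt 𝒜 n F G z ^ (3 / 2 : ℝ) ≤ Filter.liminf
      (fun j => cnt 𝒜 n (c2_tr F j) (c2_tr G j) z ^ (3 / 2 : ℝ)) Filter.atTop := by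
    filter_upwards [c2_ae_lines hF3 hG3] with z hz
    refine (ENNReal.le_rpow_inv_iff hp).1 (c2_cnt_le fun A h1 h2 => (ENNReal.le_rpow_inv_iff hp).2 ?_)
    have ht : Filter.Tendsto (fun j => (∑ α ∈ A, ‖Bh (c2_tr F j) (c2_tr G j) (α.1 : ℝ) (α.2 : ℝ) z‖ₑ) ^
        (3 / 2 : ℝ)) Filter.atTop (nhds ((∑ α ∈ A, ‖Bh F G (α.1 : ℝ) (α.2 : ℝ) z‖ₑ) ^ (3 / 2 : ℝ))) :=
      (ENNReal.continuous_rpow_const.tendsto _).comp (tendsto_finsetSum A fun α hα =>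
        (c2_tendsto_Bh hF hG hz.1 hz.2 (by exact_mod_cast (h2.2.1 α hα).1) _).enorm)
    rw [← ht.liminf_eq]
    exact Filter.liminf_le_liminf (.of_forall fun j =>
      ENNReal.rpow_le_rpow (c2_le_cnt h1 h2 _ _ z) hp.le)
  refine (lintegral_mono_ae hlim).trans ((lintegral_liminf_le fun j =>
    (measurable_cnt 𝒜 n (c2_tr_nice hF j).1 (c2_tr_nice hG j).1).pow_const _).trans
      (Filter.liminf_le_of_frequently_le' (.of_forall fun j =>
        (h 𝒜 n _ _ hn (c2_tr_nice hF j) (c2_tr_nice hG j)).trans (ENNReal.ofReal_le_ofReal ?_))))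
  have a1 := c2_tr_int hF3 j
  have a2 := c2_tr_int hG3 j
  gcongr

end Crest.Agent.R72
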