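/-
R72/Cont3: complex functions in L³, all rational annuli (S0096).
Skeleton by helper40; keep the statements unchanged (add any helper lemmas you like).
-/
import Crest.Agent.R72.Cont2
import Crest.Prelude.Def_TriangularHilbert

set_option autoImplicit false
set_option linter.unusedSectionVars false

namespace Crest.Agent.R72

open MeasureTheory Crest.AnalysisR
open scoped ENNReal

theorem c3_ae_line1 {P : ℝ × ℝ → Prop} (h : ∀ᵐ z : ℝ × ℝ, P z) :
    ∀ᵐ z : ℝ × ℝ, ∀ᵐ t : ℝ, P (z.1 + t, z.2) := by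
  have h1 : ∀ᵐ z : ℝ × ℝ ∂((volume : Measure ℝ).prod volume), P z.swap :=
    (Measure.measurePreserving_swap (μ := (volume : Measure ℝ))
      (ν := (volume : Measure ℝ))).quasiMeasurePreserving.ae h
  have h2 := (Measure.quasiMeasurePreserving_snd (μ := (volume : Measure ℝ))
    (ν := (volume : Measure ℝ))).ae (Measure.ae_ae_of_ae_prod h1)
  filter_upwards [h2] with z hz
  exact (measurePreserving_add_left volume z.1).quasiMeasurePreserving.ae hz

theorem c3_ae_line2 {P : ℝ × ℝ → Prop} (h : ∀ᵐ z : ℝ × ℝ, P z) :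
    ∀ᵐ z : ℝ × ℝ, ∀ᵐ t : ℝ, P (z.1, z.2 + t) := by
  have h2 := (Measure.quasiMeasurePreserving_fst (μ := (volume : Measure ℝ))
    (ν := (volume : Measure ℝ))).ae (Measure.ae_ae_of_ae_prod h)
  filter_upwards [h2] with z hz
  exact (measurePreserving_add_left volume z.2).quasiMeasurePreserving.ae hz

/-- changing `F`, `G` on null sets changes all the transforms only on a null set
(`Measure.ae_ae_of_ae_prod`, also for the swapped product; translation invariance). -/
theorem annular_congr_ae {F F' G G' : ℝ × ℝ → ℂ} (hF : F =ᵐ[volume] F') (hG : G =ᵐ[volume] G') :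
    ∀ᵐ z : ℝ × ℝ, ∀ ε R : ℝ, annularTriangularHT F G ε R z = annularTriangularHT F' G' ε R z := by
  filter_upwards [c3_ae_line1 hF, c3_ae_line2 hG] with z h1 h2 ε R
  unfold annularTriangularHT
  refine integral_congr_ae (ae_restrict_of_ae ?_)
  filter_upwards [h1, h2] with t e1 e2
  rw [e1, e2]

theorem measurable_annular {F G : ℝ × ℝ → ℂ} (hF : Measurable F) (hG : Measurable G) (ε R : ℝ) :
    Measurable (annularTriangularHT F G ε R) := by
  have h : Measurable fun p : (ℝ × ℝ) × ℝ =>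
      F (p.1.1 + p.2, p.1.2) * G (p.1.1, p.1.2 + p.2) / (p.2 : ℂ) := by fun_prop
  exact (h.stronglyMeasurable.integral_prod_right'
    (ν := volume.restrict {t : ℝ | ε < abs t ∧ abs t < R})).measurable

theorem c3_measurable_count (n : ℕ) {F G : ℝ × ℝ → ℂ} (hF : Measurable F) (hG : Measurable G) :
    Measurable (annulusCount n F G) := by
  unfold annulusCount
  refine Measurable.iSup fun m => Measurable.iSup_Prop _ (Measurable.iSup fun ε =>
    Measurable.iSup fun R => Measurable.iSup_Prop _ (Measurable.iSup_Prop _ ?_))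
  exact Finset.measurable_sum _ fun j _ => (measurable_annular hF hG _ _).enorm

theorem c3_count_congr (n : ℕ) {F F' G G' : ℝ × ℝ → ℂ} (hF : F =ᵐ[volume] F')
    (hG : G =ᵐ[volume] G') : annulusCount n F G =ᵐ[volume] annulusCount n F' G' := by
  filter_upwards [annular_congr_ae hF hG] with z hz
  simp only [annulusCount, hz]

/-- countable suprema of finite sums (`Measurable.iSup`, `Measurable.iSup_Prop`) and `annular_congr_ae`. -/
theorem aemeasurable_annulusCount (n : ℕ) {F G : ℝ × ℝ → ℂ} (hF : AEStronglyMeasurable F volume)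
    (hG : AEStronglyMeasurable G volume) : AEMeasurable (annulusCount n F G) volume := by
  exact (c3_measurable_count n hF.measurable_mk hG.measurable_mk).aemeasurable.congr
    (c3_count_congr n hF.ae_eq_mk hG.ae_eq_mk).symm

theorem c3_measurableSet (ε R : ℝ) : MeasurableSet {t : ℝ | ε < abs t ∧ abs t < R} :=
  (measurableSet_lt measurable_const measurable_abs).inter
    (measurableSet_lt measurable_abs measurable_const)

theorem c3_integrable {f g a b : ℝ → ℝ} (hf : Measurable f) (hg : Measurable g)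
    (ha : Integrable fun s => a s ^ 3) (hb : Integrable fun s => b s ^ 3)
    (hfa : ∀ s, |f s| ≤ a s) (hgb : ∀ s, |g s| ≤ b s) {ε : ℝ} (hε : 0 < ε) (R : ℝ) :
    Integrable fun s => f s * g s * kap ε R s := by
  have hk : Measurable (kap ε R) := by
    unfold kap
    exact Measurable.ite (c3_measurableSet ε R) (by fun_prop) measurable_const
  have hI : Integrable ((Set.Icc (-R) R).indicator fun _ : ℝ => (1 : ℝ)) :=
    (integrable_indicator_iff measurableSet_Icc).2 (integrableOn_const (by simp))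
  refine Integrable.mono' (((ha.add hb).add hI).div_const ε)
    ((hf.mul hg).mul hk).aestronglyMeasurable (Filter.Eventually.of_forall fun s => ?_)
  have ha0 : 0 ≤ a s := (abs_nonneg _).trans (hfa s)
  have hb0 : 0 ≤ b s := (abs_nonneg _).trans (hgb s)
  simp only [Pi.add_apply, kap]
  split_ifs with h
  · have hs : s ∈ Set.Icc (-R) R := abs_le.1 h.2.le
    rw [Set.indicator_of_mem hs, Real.norm_eq_abs, abs_mul, abs_mul, abs_div, abs_one,
      mul_one_div]
    have h1 : |f s| * |g s| ≤ a s * b s := mul_le_mul (hfa s) (hgb s) (abs_nonneg _) ha0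
    have h2 : a s * b s ≤ a s ^ 3 + b s ^ 3 + 1 := by
      nlinarith [mul_nonneg ha0 (sq_nonneg (a s - 1)), mul_nonneg hb0 (sq_nonneg (b s - 1)),
        sq_nonneg (a s - b s), sq_nonneg (a s - 1), sq_nonneg (b s - 1)]
    exact div_le_div₀ (by positivity) (h1.trans h2) hε h.1.le
  · rw [mul_zero, norm_zero]
    have : 0 ≤ (Set.Icc (-R) R).indicator (fun _ : ℝ => (1 : ℝ)) s :=
      Set.indicator_nonneg (fun _ _ => zero_le_one) s
    positivity

theorem c3_enorm_le {F G : ℝ × ℝ → ℂ} (hF : Measurable F) (hG : Measurable G) {z : ℝ × ℝ}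
    (h1 : Integrable fun t => ‖F (z.1 + t, z.2)‖ ^ 3) (h2 : Integrable fun t => ‖G (z.1, z.2 + t)‖ ^ 3)
    {ε : ℝ} (hε : 0 < ε) (R : ℝ) :
    ‖annularTriangularHT F G ε R z‖ₑ ≤
      ‖Bh (fun z => (F z).re) (fun z => (G z).re) ε R z‖ₑ +
        ‖Bh (fun z => (F z).im) (fun z => (G z).im) ε R z‖ₑ +
        ‖Bh (fun z => (F z).re) (fun z => (G z).im) ε R z‖ₑ +
        ‖Bh (fun z => (F z).im) (fun z => (G z).re) ε R z‖ₑ := by
  have mF : Measurable fun t : ℝ => F (z.1 + t, z.2) := by fun_prop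
  have mG : Measurable fun t : ℝ => G (z.1, z.2 + t) := by fun_prop
  have i1 := c3_integrable (Complex.measurable_re.comp mF) (Complex.measurable_re.comp mG) h1 h2
    (fun s => Complex.abs_re_le_norm _) (fun s => Complex.abs_re_le_norm _) hε R
  have i2 := c3_integrable (Complex.measurable_im.comp mF) (Complex.measurable_im.comp mG) h1 h2
    (fun s => Complex.abs_im_le_norm _) (fun s => Complex.abs_im_le_norm _) hε R
  have i3 := c3_integrable (Complex.measurable_re.comp mF) (Complex.measurable_im.comp mG) h1 h2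
    (fun s => Complex.abs_re_le_norm _) (fun s => Complex.abs_im_le_norm _) hε R
  have i4 := c3_integrable (Complex.measurable_im.comp mF) (Complex.measurable_re.comp mG) h1 h2
    (fun s => Complex.abs_im_le_norm _) (fun s => Complex.abs_re_le_norm _) hε R
  simp only [Function.comp] at i1 i2 i3 i4
  have e : annularTriangularHT F G ε R z =
      ((Bh (fun z => (F z).re) (fun z => (G z).re) ε R z : ℝ) : ℂ) -
        ((Bh (fun z => (F z).im) (fun z => (G z).im) ε R z : ℝ) : ℂ) +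
        (((Bh (fun z => (F z).re) (fun z => (G z).im) ε R z : ℝ) : ℂ) +
        ((Bh (fun z => (F z).im) (fun z => (G z).re) ε R z : ℝ) : ℂ)) * Complex.I := by
    unfold annularTriangularHT Bh
    rw [← Complex.ofReal_sub, ← Complex.ofReal_add, ← integral_sub i1 i2, ← integral_add i3 i4,
      ← integral_complex_ofReal, ← integral_complex_ofReal, ← integral_mul_const,
      ← integral_add (i1.sub i2).ofReal ((i3.add i4).ofReal.mul_const _),
      ← integral_indicator (c3_measurableSet ε R)]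
    congr 1
    funext t
    simp only [Set.indicator, kap, Set.mem_ofPred_eq]
    split_ifs with h
    · rw [div_eq_mul_one_div, ← Complex.ofReal_one, ← Complex.ofReal_div]
      apply Complex.ext <;> simp <;> ring
    · simp
  rw [e]
  refine (enorm_add_le _ _).trans ?_
  rw [add_assoc (_ + _)]
  refine add_le_add ((enorm_sub_le).trans (le_of_eq ?_)) ?_
  · simp only [← ofReal_norm, Complex.norm_real]
  · rw [enorm_mul]
    refine (mul_le_of_le_one_right' (by simp [← ofReal_norm])).trans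
      ((enorm_add_le _ _).trans (le_of_eq ?_))
    simp only [← ofReal_norm, Complex.norm_real]

theorem c3_le_cnt {𝒜 A : Finset (ℚ × ℚ)} {n : ℕ} (h : A ⊆ 𝒜) (hA : Adm n A) (F G : ℝ × ℝ → ℝ)
    (z : ℝ × ℝ) : ∑ α ∈ A, ‖Bh F G (α.1 : ℝ) (α.2 : ℝ) z‖ₑ ≤ cnt 𝒜 n F G z :=
  le_iSup_of_le A (le_iSup_of_le h (le_iSup_of_le hA le_rfl))

theorem c3_cnt_mono {𝒜 ℬ : Finset (ℚ × ℚ)} (h : 𝒜 ⊆ ℬ) (n : ℕ) (F G : ℝ × ℝ → ℝ) (z : ℝ × ℝ) :
    cnt 𝒜 n F G z ≤ cnt ℬ n F G z :=
  iSup_le fun _ => iSup_le fun hA => iSup_le fun hA' => c3_le_cnt (hA.trans h) hA' F G z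

/-- splitting into real and imaginary parts, a.e.  Recipe: for a.e. `z` the four products are integrable on
every annulus (as in `cnt_le`), so the transform is `Bh Fr Gr - Bh Fi Gi + i (Bh Fr Gi + Bh Fi Gr)`
(`integral_indicator`).  A family `(ε j, R j)` is injective in `j` and its image is `Adm n`; with a fixed
exhaustion `𝒜 k` of `ℚ × ℚ` by finsets it lies in some `𝒜 k`. -/
theorem annulusCount_le_ae (n : ℕ) {F G : ℝ × ℝ → ℂ} (hF : Measurable F) (hG : Measurable G)
    (hF3 : Integrable fun z => ‖F z‖ ^ 3) (hG3 : Integrable fun z => ‖G z‖ ^ 3)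
    (𝒜 : ℕ → Finset (ℚ × ℚ)) (hm : Monotone 𝒜) (hex : ∀ α, ∃ k, α ∈ 𝒜 k) :
    ∀ᵐ z : ℝ × ℝ, annulusCount n F G z ≤ ⨆ k,
      (cnt (𝒜 k) n (fun z => (F z).re) (fun z => (G z).re) z +
        cnt (𝒜 k) n (fun z => (F z).im) (fun z => (G z).im) z +
        cnt (𝒜 k) n (fun z => (F z).re) (fun z => (G z).im) z +
        cnt (𝒜 k) n (fun z => (F z).im) (fun z => (G z).re) z) := by
  have l1 := (Measure.quasiMeasurePreserving_snd (μ := (volume : Measure ℝ))
    (ν := (volume : Measure ℝ))).ae (Integrable.prod_left_ae hF3)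
  have l2 := (Measure.quasiMeasurePreserving_fst (μ := (volume : Measure ℝ))
    (ν := (volume : Measure ℝ))).ae (Integrable.prod_right_ae hG3)
  filter_upwards [l1, l2] with z h1 h2
  have h1' : Integrable fun t => ‖F (z.1 + t, z.2)‖ ^ 3 := h1.comp_add_left z.1
  have h2' : Integrable fun t => ‖G (z.1, z.2 + t)‖ ^ 3 := h2.comp_add_left z.2
  refine iSup_le fun m => iSup_le fun hmn => iSup_le fun ε => iSup_le fun R => iSup_le fun hεR =>
    iSup_le fun hdis => ?_
  have hinj : Function.Injective fun j => (ε j, R j) := by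
    intro i j hij
    by_contra hne
    have e1 : ε i = ε j := congrArg Prod.fst hij
    have e2 : R i = R j := congrArg Prod.snd hij
    have := (hεR i).2
    rcases hdis i j hne with h | h <;> linarith
  set A : Finset (ℚ × ℚ) := Finset.univ.map ⟨_, hinj⟩ with hA
  have hAdm : Adm n A := by
    refine ⟨by simpa [hA] using hmn, fun α hα => ?_, fun α hα β hβ hne => ?_⟩
    · obtain ⟨j, -, rfl⟩ := Finset.mem_map.1 hα
      exact hεR j
    · obtain ⟨i, -, rfl⟩ := Finset.mem_map.1 hα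
      obtain ⟨j, -, rfl⟩ := Finset.mem_map.1 hβ
      exact hdis i j fun h => hne (by rw [h])
  choose k hk using hex
  have hsub : A ⊆ 𝒜 (A.sup k) := fun α hα => hm (Finset.le_sup hα) (hk α)
  refine le_iSup_of_le (A.sup k) ?_
  refine le_trans ?_ (add_le_add (add_le_add (add_le_add (c3_le_cnt hsub hAdm _ _ z)
    (c3_le_cnt hsub hAdm _ _ z)) (c3_le_cnt hsub hAdm _ _ z)) (c3_le_cnt hsub hAdm _ _ z))
  rw [← Finset.sum_add_distrib, ← Finset.sum_add_distrib, ← Finset.sum_add_distrib, hA,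
    Finset.sum_map]
  exact Finset.sum_le_sum fun j _ => c3_enorm_le hF hG h1' h2' (by exact_mod_cast (hεR j).1) _

theorem c3_rpow_two (a b : ℝ≥0∞) :
    (a + b) ^ (3 / 2 : ℝ) ≤ 2 * (a ^ (3 / 2 : ℝ) + b ^ (3 / 2 : ℝ)) := by
  refine (ENNReal.rpow_add_le_mul_rpow_add_rpow a b (by norm_num)).trans (mul_le_mul_left ?_ _)
  calc (2 : ℝ≥0∞) ^ (3 / 2 - 1 : ℝ) ≤ 2 ^ (1 : ℝ) :=
        ENNReal.rpow_le_rpow_of_exponent_le (by norm_num) (by norm_num)
    _ = 2 := ENNReal.rpow_one _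

theorem c3_rpow_four (a b c d : ℝ≥0∞) : (a + b + c + d) ^ (3 / 2 : ℝ) ≤
    4 * (a ^ (3 / 2 : ℝ) + b ^ (3 / 2 : ℝ) + c ^ (3 / 2 : ℝ) + d ^ (3 / 2 : ℝ)) := by
  rw [add_assoc (a + b)]
  refine (c3_rpow_two _ _).trans ?_
  calc 2 * ((a + b) ^ (3 / 2 : ℝ) + (c + d) ^ (3 / 2 : ℝ))
      ≤ 2 * (2 * (a ^ (3 / 2 : ℝ) + b ^ (3 / 2 : ℝ)) + 2 * (c ^ (3 / 2 : ℝ) + d ^ (3 / 2 : ℝ))) := by
        gcongr <;> exact c3_rpow_two _ _
    _ = _ := by ring

theorem c3_part {F : ℝ × ℝ → ℂ} (hF3 : Integrable fun z => ‖F z‖ ^ 3) {f : ℝ × ℝ → ℝ}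
    (hf : Measurable f) (h : ∀ z, |f z| ≤ ‖F z‖) :
    (Integrable fun z => |f z| ^ 3) ∧ √(∫ z, |f z| ^ 3) ≤ √(∫ z, ‖F z‖ ^ 3) := by
  have h1 : ∀ z, |f z| ^ 3 ≤ ‖F z‖ ^ 3 := fun z => pow_le_pow_left₀ (abs_nonneg _) (h z) 3
  have h2 : Integrable fun z => |f z| ^ 3 :=
    hF3.mono' (hf.abs.pow_const 3).aestronglyMeasurable (Filter.Eventually.of_forall fun z => by
      rw [Real.norm_of_nonneg (by positivity)]; exact h1 z)
  exact ⟨h2, Real.sqrt_le_sqrt (integral_mono h2 hF3 h1)⟩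

theorem c3_lintegral_le : ∃ C : ℝ, 0 ≤ C ∧ ∀ n : ℕ, 1 ≤ n → ∀ F G : ℝ × ℝ → ℂ,
    Measurable F → Measurable G → (Integrable fun z => ‖F z‖ ^ 3) →
    (Integrable fun z => ‖G z‖ ^ 3) → ∫⁻ z, annulusCount n F G z ^ (3 / 2 : ℝ) ≤
      ENNReal.ofReal (C * (n : ℝ) ^ (3 / 4 : ℝ) * √(∫ z, ‖F z‖ ^ 3) * √(∫ z, ‖G z‖ ^ 3)) := by
  classical
  obtain ⟨C, hC, h⟩ := cnt_le
  refine ⟨16 * C, by positivity, fun n hn F G hF hG hF3 hG3 => ?_⟩
  obtain ⟨e, he⟩ := exists_surjective_nat (ℚ × ℚ)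
  set 𝒜 : ℕ → Finset (ℚ × ℚ) := fun k => (Finset.range k).image e with h𝒜
  have hm : Monotone 𝒜 := fun k l hkl => Finset.image_subset_image (Finset.range_mono hkl)
  have hex : ∀ α, ∃ k, α ∈ 𝒜 k := fun α => by
    obtain ⟨i, rfl⟩ := he α
    exact ⟨i + 1, Finset.mem_image_of_mem _ (Finset.self_mem_range_succ i)⟩
  have mFr : Measurable fun z => (F z).re := Complex.measurable_re.comp hF
  have mFi : Measurable fun z => (F z).im := Complex.measurable_im.comp hF
  have mGr : Measurable fun z => (G z).re := Complex.measurable_re.comp hG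
  have mGi : Measurable fun z => (G z).im := Complex.measurable_im.comp hG
  have pFr := c3_part hF3 mFr fun z => Complex.abs_re_le_norm _
  have pFi := c3_part hF3 mFi fun z => Complex.abs_im_le_norm _
  have pGr := c3_part hG3 mGr fun z => Complex.abs_re_le_norm _
  have pGi := c3_part hG3 mGi fun z => Complex.abs_im_le_norm _
  set B := ENNReal.ofReal (C * (n : ℝ) ^ (3 / 4 : ℝ) * √(∫ z, ‖F z‖ ^ 3) * √(∫ z, ‖G z‖ ^ 3)) with hB
  have key : ∀ (k : ℕ) (f g : ℝ × ℝ → ℝ), Measurable f → Measurable g →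
      (Integrable fun z => |f z| ^ 3) ∧ √(∫ z, |f z| ^ 3) ≤ √(∫ z, ‖F z‖ ^ 3) →
      (Integrable fun z => |g z| ^ 3) ∧ √(∫ z, |g z| ^ 3) ≤ √(∫ z, ‖G z‖ ^ 3) →
      ∫⁻ z, cnt (𝒜 k) n f g z ^ (3 / 2 : ℝ) ≤ B := by
    intro k f g hf hg pf pg
    refine (h (𝒜 k) n f g hn hf hg pf.1 pg.1).trans (ENNReal.ofReal_le_ofReal ?_)
    have := pf.2
    have := pg.2
    gcongr
  set S : ℕ → ℝ × ℝ → ℝ≥0∞ := fun k z =>
    (cnt (𝒜 k) n (fun z => (F z).re) (fun z => (G z).re) z +
        cnt (𝒜 k) n (fun z => (F z).im) (fun z => (G z).im) z +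
        cnt (𝒜 k) n (fun z => (F z).re) (fun z => (G z).im) z +
        cnt (𝒜 k) n (fun z => (F z).im) (fun z => (G z).re) z) with hS
  have m1 := fun k => measurable_cnt (𝒜 k) n mFr mGr
  have m2 := fun k => measurable_cnt (𝒜 k) n mFi mGi
  have m3 := fun k => measurable_cnt (𝒜 k) n mFr mGi
  have m4 := fun k => measurable_cnt (𝒜 k) n mFi mGr
  have hSm : ∀ k, Measurable fun z => S k z ^ (3 / 2 : ℝ) := fun k =>
    ((((m1 k).add (m2 k)).add (m3 k)).add (m4 k)).pow_const _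
  have hmono : Monotone fun k z => S k z ^ (3 / 2 : ℝ) := by
    intro k l hkl z
    refine ENNReal.rpow_le_rpow ?_ (by norm_num)
    have := hm hkl
    exact add_le_add (add_le_add (add_le_add (c3_cnt_mono this _ _ _ _) (c3_cnt_mono this _ _ _ _))
      (c3_cnt_mono this _ _ _ _)) (c3_cnt_mono this _ _ _ _)
  calc ∫⁻ z, annulusCount n F G z ^ (3 / 2 : ℝ) ≤ ∫⁻ z, ⨆ k, S k z ^ (3 / 2 : ℝ) := by
        refine lintegral_mono_ae ?_
        filter_upwards [annulusCount_le_ae n hF hG hF3 hG3 𝒜 hm hex] with z hz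
        refine (ENNReal.rpow_le_rpow hz (by norm_num)).trans (le_of_eq ?_)
        exact (ENNReal.orderIsoRpow (3 / 2) (by norm_num)).map_iSup fun k => S k z
    _ = ⨆ k, ∫⁻ z, S k z ^ (3 / 2 : ℝ) := lintegral_iSup hSm hmono
    _ ≤ 4 * (B + B + B + B) := by
        refine iSup_le fun k => (lintegral_mono fun z => c3_rpow_four _ _ _ _).trans ?_
        rw [lintegral_const_mul' _ _ (by simp), lintegral_add_right _ ((m4 k).pow_const _),
          lintegral_add_right _ ((m3 k).pow_const _), lintegral_add_right _ ((m2 k).pow_const _)]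
        gcongr
        exacts [key k _ _ mFr mGr pFr pGr, key k _ _ mFi mGi pFi pGi, key k _ _ mFr mGi pFr pGi,
          key k _ _ mFi mGr pFi pGr]
    _ = ENNReal.ofReal 16 * B := by
        rw [show ENNReal.ofReal 16 = 16 by simp]
        ring
    _ = _ := by
        rw [hB, ← ENNReal.ofReal_mul (by norm_num)]
        congr 1
        ring

theorem c3_eLpNorm {F : ℝ × ℝ → ℂ} (hF : MemLp F 3 volume) :
    eLpNorm F 3 volume = ENNReal.ofReal (√(∫ z, ‖F z‖ ^ 3) ^ (2 / 3 : ℝ)) := by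
  rw [hF.eLpNorm_eq_integral_rpow_norm (by simp) (by simp)]
  have h0 : 0 ≤ ∫ z, ‖F z‖ ^ 3 := integral_nonneg fun z => by positivity
  rw [Real.sqrt_eq_rpow, ← Real.rpow_mul h0]
  have e : (3 : ℝ≥0∞).toReal = ((3 : ℕ) : ℝ) := by simp
  simp only [e, Real.rpow_natCast]
  norm_num

/-- Recipe: pass to measurable representatives (`annular_congr_ae`, `eLpNorm_congr_ae`),
`annulusCount_le_ae`, monotone convergence (`cnt` is monotone in `𝒜`; `x ↦ x^(3/2)` commutes with `iSup`),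
`(a + b + c + d)^(3/2) ≤ 8 (a^(3/2) + …)`, `cnt_le`, and `eLpNorm F 3 = ofReal ((∫ ‖F‖³)^(1/3))`
(`MemLp.eLpNorm_eq_integral_rpow_norm`). -/
theorem count_bound : ∃ C : ℝ, 0 ≤ C ∧ ∀ n : ℕ, 1 ≤ n → ∀ F G : ℝ × ℝ → ℂ,
    MemLp F 3 volume → MemLp G 3 volume →
      (∫⁻ z, annulusCount n F G z ^ (3 / 2 : ℝ)) ^ (2 / 3 : ℝ) ≤
        ENNReal.ofReal (C * Real.sqrt n) * eLpNorm F 3 volume * eLpNorm G 3 volume := by
  obtain ⟨C, hC, h⟩ := c3_lintegral_le
  refine ⟨C ^ (2 / 3 : ℝ), by positivity, fun n hn F G hF hG => ?_⟩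
  have hF' : MemLp (hF.1.mk F) 3 volume := (memLp_congr_ae hF.1.ae_eq_mk).1 hF
  have hG' : MemLp (hG.1.mk G) 3 volume := (memLp_congr_ae hG.1.ae_eq_mk).1 hG
  have h1 := h n hn _ _ hF.1.measurable_mk hG.1.measurable_mk
    (MemLp.integrable_norm_pow (p := 3) (by exact_mod_cast hF') (by norm_num))
    (MemLp.integrable_norm_pow (p := 3) (by exact_mod_cast hG') (by norm_num))
  have h2 : ∫⁻ z, annulusCount n F G z ^ (3 / 2 : ℝ) =
      ∫⁻ z, annulusCount n (hF.1.mk F) (hG.1.mk G) z ^ (3 / 2 : ℝ) := by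
    refine lintegral_congr_ae ?_
    filter_upwards [c3_count_congr n hF.1.ae_eq_mk hG.1.ae_eq_mk] with z hz
    rw [hz]
  have eF := (eLpNorm_congr_ae hF.1.ae_eq_mk).trans (c3_eLpNorm hF')
  have eG := (eLpNorm_congr_ae hG.1.ae_eq_mk).trans (c3_eLpNorm hG')
  rw [eF, eG, h2, ← ENNReal.ofReal_mul (by positivity), ← ENNReal.ofReal_mul (by positivity)]
  refine (ENNReal.rpow_le_rpow h1 (by norm_num)).trans (le_of_eq ?_)
  rw [ENNReal.ofReal_rpow_of_nonneg (by positivity) (by norm_num), Real.mul_rpow (by positivity)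
    (by positivity), Real.mul_rpow (by positivity) (by positivity),
    Real.mul_rpow hC (by positivity), ← Real.rpow_mul (Nat.cast_nonneg n), Real.sqrt_eq_rpow n]
  norm_num

/-- `1 ≤ log (2 + n)` for `1 ≤ n` (`Real.exp_one_lt_d9`). -/
theorem S0096_main :
    ∃ C : ℝ, ∀ n : ℕ, 1 ≤ n → ∀ F G : ℝ × ℝ → ℂ, MemLp F 3 volume → MemLp G 3 volume →
      (∫⁻ z, annulusCount n F G z ^ (3 / 2 : ℝ)) ^ (2 / 3 : ℝ) ≤
        ENNReal.ofReal (C * Real.sqrt n * Real.log (2 + n)) * eLpNorm F 3 volume *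
          eLpNorm G 3 volume := by
  obtain ⟨C, hC, h⟩ := count_bound
  refine ⟨C, fun n hn F G hF hG => (h n hn F G hF hG).trans ?_⟩
  have h1 : (1 : ℝ) ≤ Real.log (2 + n) := by
    rw [Real.le_log_iff_exp_le (by positivity)]
    have : (1 : ℝ) ≤ n := by exact_mod_cast hn
    linarith [Real.exp_one_lt_d9]
  exact mul_le_mul_left (mul_le_mul_left (ENNReal.ofReal_le_ofReal
    (le_mul_of_one_le_right (by positivity) h1)) _) _

end Crest.Agent.R72
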