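/-
R72/Dyad: the discrete dyadic theorem.
Skeleton by helper40; keep the statements unchanged (add any helper lemmas you like).
-/
import Crest.Agent.R72.Tri
import Crest.Agent.R72.Jump

set_option autoImplicit false
set_option linter.unusedSectionVars false

namespace Crest.Agent.R72

open Matrix

/-- normalised indicator of the interval `[n 2^j, (n+1) 2^j)`. -/
noncomputable def dw (J j n : ℕ) : Fin (2 ^ J) → ℝ := fun a => if a.val / 2 ^ j = n then (1 / 2) ^ j else 0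

theorem Dyad_dw_nonneg (J j n : ℕ) (a : Fin (2 ^ J)) : 0 ≤ dw J j n a := by
  unfold dw
  split_ifs <;> positivity

theorem Dyad_div (a j : ℕ) : a / 2 ^ (j + 1) = a / 2 ^ j / 2 := by
  rw [pow_succ, Nat.div_div_eq_div_mul]

theorem Dyad_even (J j n : ℕ) : dw J j (2 * n) =
    dw J (j + 1) n + fun a : Fin (2 ^ J) => (1 / 2 : ℝ) ^ (j + 1) * hsg (j + 1) n a.val := by
  funext a
  simp only [dw, hsg, Pi.add_apply, Dyad_div, Nat.add_sub_cancel]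
  split_ifs <;> first | omega | ring

theorem Dyad_odd (J j n : ℕ) : dw J j (2 * n + 1) =
    dw J (j + 1) n - fun a : Fin (2 ^ J) => (1 / 2 : ℝ) ^ (j + 1) * hsg (j + 1) n a.val := by
  funext a
  simp only [dw, hsg, Pi.sub_apply, Dyad_div, Nat.add_sub_cancel]
  split_ifs <;> first | omega | ring

theorem Dyad_abs (J j n : ℕ) (a : Fin (2 ^ J)) :
    |(1 / 2 : ℝ) ^ j * hsg j n a.val| ≤ dw J j n a := by
  simp only [dw, hsg]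
  split_ifs <;> simp

theorem Dyad_gram {J : ℕ} (Z : Matrix (Fin (2 ^ J)) (Fin (2 ^ J)) ℝ) (j n : ℕ) :
    gram Z (dw J (j + 1) n) =
      (1 / 2 : ℝ) • (gram Z (dw J j (2 * n)) + gram Z (dw J j (2 * n + 1))) := by
  rw [← gram_add, ← gram_smul_w, Dyad_even, Dyad_odd]
  congr 1
  funext a
  simp only [Pi.smul_apply, Pi.add_apply, Pi.sub_apply, smul_eq_mul]
  ring

theorem Dyad_abstract {ι : Type} [Fintype ι] [DecidableEq ι] {A₀ A₁ B₀ B₁ : Matrix ι ι ℝ}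
    (hA₀ : A₀.PosSemidef) (hA₁ : A₁.PosSemidef) (hB₀ : B₀.PosSemidef) (hB₁ : B₁.PosSemidef)
    {w ψ : ι → ℝ} (h : ∀ b, |ψ b| ≤ w b) :
    4 * Phi ((1 / 2 : ℝ) • (A₀ + A₁) + (1 / 2 : ℝ) • (B₀ + B₁)) w +
      2 * TT ((1 / 2 : ℝ) • (A₀ + A₁)) ((1 / 2 : ℝ) • (B₀ + B₁)) w ψ ≤
    Phi (A₀ + B₀) (w + ψ) + Phi (A₀ + B₁) (w - ψ) +
      (Phi (A₁ + B₁) (w + ψ) + Phi (A₁ + B₀) (w - ψ)) := by
  have hw : ∀ b, 0 ≤ w b := fun b => (abs_nonneg _).trans (h b)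
  have hp : ∀ b, 0 ≤ (w + ψ) b := fun b => by
    have := (abs_le.1 (h b)).1
    simp only [Pi.add_apply]
    linarith
  have hm : ∀ b, 0 ≤ (w - ψ) b := fun b => by
    have := (abs_le.1 (h b)).2
    simp only [Pi.sub_apply]
    linarith
  have hA : ((1 / 2 : ℝ) • (A₀ + A₁)).PosSemidef := (hA₀.add hA₁).smul (by norm_num)
  have hB : ((1 / 2 : ℝ) • (B₀ + B₁)).PosSemidef := (hB₀.add hB₁).smul (by norm_num)
  have h1 := LL_mid (hA₀.add hB₀) (hA₁.add hB₁) hp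
  have h2 := LL_mid (hA₀.add hB₁) (hA₁.add hB₀) hm
  have e1 : (1 / 2 : ℝ) • (A₀ + B₀ + (A₁ + B₁)) =
      (1 / 2 : ℝ) • (A₀ + A₁) + (1 / 2 : ℝ) • (B₀ + B₁) := by module
  have e2 : (1 / 2 : ℝ) • (A₀ + B₁ + (A₁ + B₀)) =
      (1 / 2 : ℝ) • (A₀ + A₁) + (1 / 2 : ℝ) • (B₀ + B₁) := by module
  rw [e1] at h1
  rw [e2] at h2
  have h3 := LL_deficit (hA.add hB) h
  have h4 := qf_mono (MM_psd hA hw) (MM_mono hA (R' := (1 / 2 : ℝ) • (A₀ + A₁) +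
    (1 / 2 : ℝ) • (B₀ + B₁)) (by simpa using hB) hw) (MM_psd hB hw)
    (MM_mono hB (R' := (1 / 2 : ℝ) • (A₀ + A₁) + (1 / 2 : ℝ) • (B₀ + B₁))
      (by simpa using hA) hw) ψ
  have e3 : 4 * (((1 / 2 : ℝ) • (A₀ + A₁) + (1 / 2 : ℝ) • (B₀ + B₁)) * diagonal w).trace =
      ((A₀ + B₀) * diagonal (w + ψ)).trace + ((A₀ + B₁) * diagonal (w - ψ)).trace +
        (((A₁ + B₁) * diagonal (w + ψ)).trace + ((A₁ + B₀) * diagonal (w - ψ)).trace) := by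
    simp only [Matrix.trace, Matrix.diag_apply, Matrix.mul_diagonal, Finset.mul_sum,
      ← Finset.sum_add_distrib, Matrix.add_apply, Matrix.smul_apply, Pi.add_apply, Pi.sub_apply,
      smul_eq_mul]
    exact Finset.sum_congr rfl fun i _ => by ring
  unfold Phi TT
  linarith

/-- one vertex, one scale.  Children of `(n₁, n, n₂)` are `(2 n₁ + e₁, 2 n + e, 2 n₂ + e₂)` with
`e₂ = e₁ xor e`.  Recipe: `dw (j+1) n = (dw j (2n) + dw j (2n+1)) / 2`, and `dw j (2n) = w + ψ`,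
`dw j (2n+1) = w - ψ` for `w = dw (j+1) n`, `ψ = 2^{-(j+1)} hsg (j+1) n`.  For fixed `e` the mean over `e₁` of
the Gram sums is the parent Gram sum `R` (`gram_add`, `gram_smul_w`), so `LL_mid`; then `LL_deficit`; the trace
parts of `Phi` agree exactly; finally `TT R₁ R₂ w ψ ≤ qf (MM R w) (MM R w) ψ` by `qf_mono`, `MM_mono`. -/
theorem vertex_step {J : ℕ} (Z₁ Z₂ : Matrix (Fin (2 ^ J)) (Fin (2 ^ J)) ℝ) (j n₁ n n₂ : ℕ) :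
    4 * Phi (gram Z₁ (dw J (j + 1) n₁) + gram Z₂ (dw J (j + 1) n₂)) (dw J (j + 1) n) +
      2 * TT (gram Z₁ (dw J (j + 1) n₁)) (gram Z₂ (dw J (j + 1) n₂)) (dw J (j + 1) n)
        (fun a => (1 / 2) ^ (j + 1) * hsg (j + 1) n a.val) ≤
    ∑ e₁ ∈ Finset.range 2, ∑ e ∈ Finset.range 2,
      Phi (gram Z₁ (dw J j (2 * n₁ + e₁)) + gram Z₂ (dw J j (2 * n₂ + (e₁ ^^^ e))))
        (dw J j (2 * n + e)) := by
  have h := Dyad_abstract (gram_psd Z₁ (Dyad_dw_nonneg J j (2 * n₁)))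
    (gram_psd Z₁ (Dyad_dw_nonneg J j (2 * n₁ + 1))) (gram_psd Z₂ (Dyad_dw_nonneg J j (2 * n₂)))
    (gram_psd Z₂ (Dyad_dw_nonneg J j (2 * n₂ + 1))) (Dyad_abs J (j + 1) n)
  rw [← Dyad_gram, ← Dyad_gram, ← Dyad_even, ← Dyad_odd] at h
  simpa [Finset.sum_range_succ] using h

/-- the Bellman function of one vertex, summed over the scales. -/
noncomputable def Dyad_V {J : ℕ} (𝓜 : Finset ℤ) (Z₁ Z₂ : Matrix (Fin (2 ^ J)) (Fin (2 ^ J)) ℝ)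
    (j n₁ n n₂ : ℕ) : ℝ :=
  ∑ m ∈ 𝓜, (8 : ℝ) ^ m * Phi (gram ((2 : ℝ) ^ (-m) • Z₁) (dw J j n₁) +
    gram ((2 : ℝ) ^ (-m) • Z₂) (dw J j n₂)) (dw J j n)

theorem Dyad_V_nonneg {J : ℕ} (𝓜 : Finset ℤ) (Z₁ Z₂ : Matrix (Fin (2 ^ J)) (Fin (2 ^ J)) ℝ)
    (j n₁ n n₂ : ℕ) : 0 ≤ Dyad_V 𝓜 Z₁ Z₂ j n₁ n n₂ :=
  Finset.sum_nonneg fun _ _ => mul_nonneg (zpow_nonneg (by norm_num) _)
    (Phi_nonneg ((gram_psd _ (Dyad_dw_nonneg _ _ _)).add (gram_psd _ (Dyad_dw_nonneg _ _ _)))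
      (Dyad_dw_nonneg _ _ _))

theorem Dyad_V_step {J : ℕ} (𝓜 : Finset ℤ) (Z₁ Z₂ : Matrix (Fin (2 ^ J)) (Fin (2 ^ J)) ℝ)
    (j n₁ n n₂ : ℕ) :
    4 * Dyad_V 𝓜 Z₁ Z₂ (j + 1) n₁ n n₂ +
      2 * ∑ m ∈ 𝓜, TV m Z₁ (dw J (j + 1) n₁) Z₂ (dw J (j + 1) n₂) (dw J (j + 1) n)
        (fun a => (1 / 2) ^ (j + 1) * hsg (j + 1) n a.val) ≤
      Dyad_V 𝓜 Z₁ Z₂ j (2 * n₁) (2 * n) (2 * n₂) +
        Dyad_V 𝓜 Z₁ Z₂ j (2 * n₁) (2 * n + 1) (2 * n₂ + 1) +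
        Dyad_V 𝓜 Z₁ Z₂ j (2 * n₁ + 1) (2 * n) (2 * n₂ + 1) +
        Dyad_V 𝓜 Z₁ Z₂ j (2 * n₁ + 1) (2 * n + 1) (2 * n₂) := by
  simp only [Dyad_V, Finset.mul_sum, ← Finset.sum_add_distrib]
  refine Finset.sum_le_sum fun m _ => ?_
  have h := vertex_step ((2 : ℝ) ^ (-m) • Z₁) ((2 : ℝ) ^ (-m) • Z₂) j n₁ n n₂
  simp only [Finset.sum_range_succ, Finset.sum_range_zero, zero_add, add_zero, Nat.xor_self,
    Nat.zero_xor, Nat.xor_zero] at h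
  have h8 : (0 : ℝ) ≤ 8 ^ m := zpow_nonneg (by norm_num) _
  have := mul_le_mul_of_nonneg_left h h8
  unfold TV
  linarith

theorem Dyad_hs {J : ℕ} (Z : Matrix (Fin (2 ^ J)) (Fin (2 ^ J)) ℝ) (a b : Fin (2 ^ J)) :
    hs Z (dw J 0 a) (dw J 0 b) = Z a b ^ 2 := by
  simp [hs, dw, Fin.val_inj]

theorem Dyad_V_zero {J : ℕ} (𝓜 : Finset ℤ) (Z₁ Z₂ : Matrix (Fin (2 ^ J)) (Fin (2 ^ J)) ℝ)
    (a b c : Fin (2 ^ J)) :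
    Dyad_V 𝓜 Z₁ Z₂ 0 a b c ≤ 15 / 4 * (|Z₁ a b| ^ 3 + |Z₂ c b| ^ 3) := by
  have h := sum_Phi_le ((gram_psd Z₁ (Dyad_dw_nonneg J 0 a)).add
    (gram_psd Z₂ (Dyad_dw_nonneg J 0 c))) (Dyad_dw_nonneg J 0 b) 𝓜
  rw [Matrix.add_mul, Matrix.trace_add, trace_gram_mul, trace_gram_mul, Dyad_hs, Dyad_hs] at h
  have h2 := add_rpow32_le (sq_nonneg (Z₁ a b)) (sq_nonneg (Z₂ c b))
  rw [sq_rpow32, sq_rpow32] at h2
  simp only [Dyad_V, gram_scale, ← smul_add]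
  linarith

theorem Dyad_sum_two (f : ℕ → ℝ) (N : ℕ) :
    ∑ n ∈ Finset.range (2 * N), f n = ∑ n ∈ Finset.range N, (f (2 * n) + f (2 * n + 1)) := by
  induction N with
  | zero => simp
  | succ N ih =>
    rw [Nat.mul_succ, Finset.sum_range_succ, Finset.sum_range_succ, ih, Finset.sum_range_succ]
    ring

theorem Dyad_xor00 (a b : ℕ) : (2 * a) ^^^ (2 * b) = 2 * (a ^^^ b) := by
  simpa [Nat.bit] using Nat.xor_bit false a false b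

theorem Dyad_xor01 (a b : ℕ) : (2 * a) ^^^ (2 * b + 1) = 2 * (a ^^^ b) + 1 := by
  simpa [Nat.bit] using Nat.xor_bit false a true b

theorem Dyad_xor10 (a b : ℕ) : (2 * a + 1) ^^^ (2 * b) = 2 * (a ^^^ b) + 1 := by
  simpa [Nat.bit] using Nat.xor_bit true a false b

theorem Dyad_xor11 (a b : ℕ) : (2 * a + 1) ^^^ (2 * b + 1) = 2 * (a ^^^ b) := by
  simpa [Nat.bit] using Nat.xor_bit true a true b

/-- the Bellman function of a triple. -/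
noncomputable def Dyad_B {J : ℕ} (𝓜 : Finset ℤ) (F₀ F₁ F₂ : Matrix (Fin (2 ^ J)) (Fin (2 ^ J)) ℝ)
    (j n₀ n₁ : ℕ) : ℝ :=
  Dyad_V 𝓜 F₀ F₁ᵀ j n₀ n₁ (n₀ ^^^ n₁) + Dyad_V 𝓜 F₁ F₂ᵀ j n₁ (n₀ ^^^ n₁) n₀ +
    Dyad_V 𝓜 F₂ F₀ᵀ j (n₀ ^^^ n₁) n₀ n₁

/-- the energy of a triple. -/
noncomputable def Dyad_D {J : ℕ} (𝓜 : Finset ℤ) (F₀ F₁ F₂ : Matrix (Fin (2 ^ J)) (Fin (2 ^ J)) ℝ)
    (j n₀ n₁ : ℕ) : ℝ :=
  ∑ m ∈ 𝓜, (TV m F₀ (dw J j n₀) F₁ᵀ (dw J j (n₀ ^^^ n₁)) (dw J j n₁)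
      (fun a => (1 / 2) ^ j * hsg j n₁ a.val) +
    TV m F₁ (dw J j n₁) F₂ᵀ (dw J j n₀) (dw J j (n₀ ^^^ n₁))
      (fun a => (1 / 2) ^ j * hsg j (n₀ ^^^ n₁) a.val) +
    TV m F₂ (dw J j (n₀ ^^^ n₁)) F₀ᵀ (dw J j n₁) (dw J j n₀)
      (fun a => (1 / 2) ^ j * hsg j n₀ a.val))

section
variable {J : ℕ} (𝓜 : Finset ℤ) (F₀ F₁ F₂ : Matrix (Fin (2 ^ J)) (Fin (2 ^ J)) ℝ)

theorem Dyad_D_nonneg (j n₀ n₁ : ℕ) : 0 ≤ Dyad_D 𝓜 F₀ F₁ F₂ j n₀ n₁ := by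
  refine Finset.sum_nonneg fun m _ => add_nonneg (add_nonneg ?_ ?_) ?_ <;>
    exact TV_nonneg _ _ _ (Dyad_dw_nonneg _ _ _) (Dyad_dw_nonneg _ _ _) (Dyad_dw_nonneg _ _ _) _

theorem Dyad_B_step (j n₀ n₁ : ℕ) :
    4 * Dyad_B 𝓜 F₀ F₁ F₂ (j + 1) n₀ n₁ + 2 * Dyad_D 𝓜 F₀ F₁ F₂ (j + 1) n₀ n₁ ≤
      (Dyad_B 𝓜 F₀ F₁ F₂ j (2 * n₀) (2 * n₁) + Dyad_B 𝓜 F₀ F₁ F₂ j (2 * n₀) (2 * n₁ + 1)) +
        (Dyad_B 𝓜 F₀ F₁ F₂ j (2 * n₀ + 1) (2 * n₁) +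
          Dyad_B 𝓜 F₀ F₁ F₂ j (2 * n₀ + 1) (2 * n₁ + 1)) := by
  have h1 := Dyad_V_step 𝓜 F₀ F₁ᵀ j n₀ n₁ (n₀ ^^^ n₁)
  have h2 := Dyad_V_step 𝓜 F₁ F₂ᵀ j n₁ (n₀ ^^^ n₁) n₀
  have h3 := Dyad_V_step 𝓜 F₂ F₀ᵀ j (n₀ ^^^ n₁) n₀ n₁
  simp only [Dyad_B, Dyad_D, Dyad_xor00, Dyad_xor01, Dyad_xor10, Dyad_xor11,
    Finset.sum_add_distrib]
  linarith

/-- the Bellman function of a level. -/
noncomputable def Dyad_S (j : ℕ) : ℝ :=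
  4 ^ j * ∑ n₀ ∈ Finset.range (2 ^ (J - j)), ∑ n₁ ∈ Finset.range (2 ^ (J - j)),
    Dyad_B 𝓜 F₀ F₁ F₂ j n₀ n₁

theorem Dyad_S_nonneg (j : ℕ) : 0 ≤ Dyad_S 𝓜 F₀ F₁ F₂ j :=
  mul_nonneg (by positivity) (Finset.sum_nonneg fun _ _ => Finset.sum_nonneg fun _ _ =>
    add_nonneg (add_nonneg (Dyad_V_nonneg ..) (Dyad_V_nonneg ..)) (Dyad_V_nonneg ..))

theorem Dyad_S_step {j : ℕ} (hj : j < J) :
    ∑ p ∈ Finset.range (2 ^ (J - (j + 1))) ×ˢ Finset.range (2 ^ (J - (j + 1))),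
      4 ^ (j + 1) * Dyad_D 𝓜 F₀ F₁ F₂ (j + 1) p.1 p.2 ≤
      2 * (Dyad_S 𝓜 F₀ F₁ F₂ j - Dyad_S 𝓜 F₀ F₁ F₂ (j + 1)) := by
  have e : 2 ^ (J - j) = 2 * 2 ^ (J - (j + 1)) := by
    rw [← pow_succ']
    congr 1
    omega
  unfold Dyad_S
  rw [e, Dyad_sum_two, Finset.sum_product]
  simp only [Dyad_sum_two, ← Finset.sum_add_distrib, Finset.mul_sum, ← Finset.sum_sub_distrib]
  refine Finset.sum_le_sum fun n₀ _ => Finset.sum_le_sum fun n₁ _ => ?_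
  have h := mul_le_mul_of_nonneg_left (Dyad_B_step 𝓜 F₀ F₁ F₂ j n₀ n₁)
    (show (0 : ℝ) ≤ 4 ^ j by positivity)
  rw [pow_succ]
  linarith

/-- xor with a fixed element. -/
def Dyad_x (b : Fin (2 ^ J)) : Equiv.Perm (Fin (2 ^ J)) :=
  Function.Involutive.toPerm (fun a => ⟨a.val ^^^ b.val, Nat.xor_lt_two_pow a.2 b.2⟩)
    fun a => Fin.ext (by simp)

theorem Dyad_S_zero : Dyad_S 𝓜 F₀ F₁ F₂ 0 ≤ 15 / 2 * (cube F₀ + cube F₁ + cube F₂) := by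
  have h1 : ∑ a : Fin (2 ^ J), ∑ b : Fin (2 ^ J), |F₁ b (Dyad_x b a)| ^ 3 = cube F₁ := by
    rw [Finset.sum_comm]
    exact Finset.sum_congr rfl fun b _ => Equiv.sum_comp (Dyad_x b) fun c => |F₁ b c| ^ 3
  have h2 : ∑ a : Fin (2 ^ J), ∑ b : Fin (2 ^ J), |F₂ (Dyad_x b a) a| ^ 3 = cube F₂ := by
    rw [cube, Finset.sum_comm (f := fun a b => |F₂ a b| ^ 3)]
    refine Finset.sum_congr rfl fun a _ => ?_
    rw [← Equiv.sum_comp (Dyad_x a) fun c => |F₂ c a| ^ 3]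
    refine Finset.sum_congr rfl fun b _ => ?_
    have : Dyad_x b a = Dyad_x a b := Fin.ext (Nat.xor_comm _ _)
    rw [this]
  rw [← h1, ← h2, cube, Dyad_S, pow_zero, one_mul, Nat.sub_zero]
  simp only [Finset.sum_range, ← Finset.sum_add_distrib, Finset.mul_sum]
  refine Finset.sum_le_sum fun a _ => Finset.sum_le_sum fun b _ => ?_
  have t1 := Dyad_V_zero 𝓜 F₀ F₁ᵀ a b (Dyad_x b a)
  have t2 := Dyad_V_zero 𝓜 F₁ F₂ᵀ b (Dyad_x b a) a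
  have t3 := Dyad_V_zero 𝓜 F₂ F₀ᵀ (Dyad_x b a) a b
  have e : (Dyad_x b a).val = a.val ^^^ b.val := rfl
  simp only [Matrix.transpose_apply, e] at t1 t2 t3
  unfold Dyad_B
  linarith

theorem Dyad_tri (c : ℝ) (ψ₀ ψ₁ ψ₂ : Fin (2 ^ J) → ℝ) :
    tri F₀ F₁ F₂ (fun a => c * ψ₀ a) (fun a => c * ψ₁ a) (fun a => c * ψ₂ a) =
      c ^ 3 * tri F₀ F₁ F₂ ψ₀ ψ₁ ψ₂ := by
  simp only [tri, Finset.mul_sum]
  exact Finset.sum_congr rfl fun a _ => Finset.sum_congr rfl fun b _ =>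
    Finset.sum_congr rfl fun c _ => by ring

end

/-- Recipe.  Fix a finset `𝓜` containing all the `𝓜₀` of `tri_le` for the triples `(j, n₀, n₁)`,
`1 ≤ j ≤ J`, `n₀, n₁ < 2^(J-j)`.  Put `B j n₀ n₁ = 4^j ∑_{m ∈ 𝓜} 8^m (Phi at vertex 1 + vertex 2 + vertex 0)`
for the matrices `2^(-m) • F`, `n₂ = n₀ ^^^ n₁`, and `S j = ∑_{n₀, n₁ < 2^(J-j)} B j n₀ n₁ ≥ 0`.  The term of
`(j, n₀, n₁)` equals `4^j |tri F₀ F₁ F₂ ψ₀ ψ₁ ψ₂|` with `ψ = 2^{-j} hsg`; by `tri_le` and `vertex_step`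
(`(2 n₀ + e₀) ^^^ (2 n₁ + e₁) = 2 (n₀ ^^^ n₁) + (e₀ ^^^ e₁)`) it is at most
`12/7 (∑ children B - B j n₀ n₁)`, so the total is `≤ 12/7 S 0`.  At level `0` the weights are point masses:
`sum_Phi_le`, `trace_gram_mul`, `add_rpow32_le`, `sq_rpow32` give
`S 0 ≤ 5/2 * 3/2 * 2 (cube F₀ + cube F₁ + cube F₂)` (reindex by the xor involutions); `12/7 * 15/2 ≤ 40/3`. -/
theorem dyadic_discrete (J : ℕ) (F₀ F₁ F₂ : Matrix (Fin (2 ^ J)) (Fin (2 ^ J)) ℝ)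
    (𝓘 : Finset (ℕ × ℕ × ℕ))
    (h : ∀ i ∈ 𝓘, 1 ≤ i.1 ∧ i.1 ≤ J ∧ i.2.1 < 2 ^ (J - i.1) ∧ i.2.2 < 2 ^ (J - i.1)) :
    ∑ i ∈ 𝓘, |(1 / 2 : ℝ) ^ i.1 * tri F₀ F₁ F₂ (fun a => hsg i.1 i.2.1 a.val)
        (fun b => hsg i.1 i.2.2 b.val) (fun c => hsg i.1 (i.2.1 ^^^ i.2.2) c.val)| ≤
      40 / 3 * (cube F₀ + cube F₁ + cube F₂) := by
  choose M hM using fun i : ℕ × ℕ × ℕ => tri_le F₀ F₁ F₂ (Dyad_abs J i.1 i.2.1)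
    (Dyad_abs J i.1 i.2.2) (Dyad_abs J i.1 (i.2.1 ^^^ i.2.2))
  set 𝓜 := 𝓘.biUnion M with h𝓜
  set t : ℕ × ℕ × ℕ → ℝ := fun i => 4 ^ i.1 * Dyad_D 𝓜 F₀ F₁ F₂ i.1 i.2.1 i.2.2 with ht
  have ht0 : ∀ i, 0 ≤ t i := fun i => mul_nonneg (by positivity) (Dyad_D_nonneg ..)
  have h1 : ∑ i ∈ 𝓘, t i ≤ ∑ j ∈ Finset.range J,
      ∑ p ∈ Finset.range (2 ^ (J - (j + 1))) ×ˢ Finset.range (2 ^ (J - (j + 1))), t (j + 1, p) := by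
    rw [Finset.sum_sigma']
    refine le_trans (Finset.sum_le_sum_of_subset_of_nonneg (t := Finset.image
      (fun x : (_ : ℕ) × (ℕ × ℕ) => (x.1 + 1, x.2)) ((Finset.range J).sigma fun j =>
        Finset.range (2 ^ (J - (j + 1))) ×ˢ Finset.range (2 ^ (J - (j + 1)))))
      (fun i hi => ?_) fun i _ _ => ht0 i) (Finset.sum_image_le_of_nonneg fun i _ => ht0 i)
    obtain ⟨j, n₀, n₁⟩ := i
    obtain ⟨a1, a2, a3, a4⟩ := h _ hi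
    obtain ⟨j, rfl⟩ : ∃ k, j = k + 1 := ⟨j - 1, by simp only at a1; omega⟩
    refine Finset.mem_image.2 ⟨⟨j, n₀, n₁⟩, ?_, rfl⟩
    simp only [Finset.mem_sigma, Finset.mem_range, Finset.mem_product]
    exact ⟨a2, a3, a4⟩
  have h2 : ∑ j ∈ Finset.range J,
      ∑ p ∈ Finset.range (2 ^ (J - (j + 1))) ×ˢ Finset.range (2 ^ (J - (j + 1))), t (j + 1, p) ≤
      ∑ j ∈ Finset.range J, 2 * (Dyad_S 𝓜 F₀ F₁ F₂ j - Dyad_S 𝓜 F₀ F₁ F₂ (j + 1)) :=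
    Finset.sum_le_sum fun j hj => Dyad_S_step 𝓜 F₀ F₁ F₂ (Finset.mem_range.1 hj)
  rw [← Finset.mul_sum, Finset.sum_range_sub'] at h2
  have h3 := Dyad_S_zero 𝓜 F₀ F₁ F₂
  have h4 := Dyad_S_nonneg 𝓜 F₀ F₁ F₂ J
  have h5 := cube_nonneg F₀
  have h6 := cube_nonneg F₁
  have h7 := cube_nonneg F₂
  refine le_trans (Finset.sum_le_sum (g := fun i => 6 / 7 * t i) fun i hi => ?_) ?_
  · have a1 := hM i 𝓜 (Finset.subset_biUnion_of_mem M hi)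
    rw [Dyad_tri] at a1
    have a2 : (1 / 2 : ℝ) ^ i.1 = 4 ^ i.1 * ((1 / 2) ^ i.1) ^ 3 := by
      rw [← pow_mul, mul_comm i.1 3, pow_mul, ← mul_pow]
      norm_num
    rw [a2, mul_assoc, abs_mul, abs_of_nonneg (by positivity : (0 : ℝ) ≤ 4 ^ i.1)]
    refine (mul_le_mul_of_nonneg_left a1 (by positivity)).trans (le_of_eq ?_)
    simp only [ht, Dyad_D]
    ring
  · rw [← Finset.mul_sum]
    linarith

end Crest.Agent.R72
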