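/-
R72/Fin97: the dyadic theorem on the line (S0097).
Skeleton by helper40; keep the statements unchanged (add any helper lemmas you like).
-/
import Crest.Agent.R72.Dyad
import Crest.Agent.R72.Lat
import Crest.Prelude.Def_DyadicTriangular

set_option autoImplicit false
set_option linter.unusedSectionVars false

namespace Crest.Agent.R72

open MeasureTheory Crest.AnalysisR

namespace Fin97

open TriangularDyadic

theorem mem_Ico_iff {δ θ : ℝ} (hδ : 0 < δ) (hθ : θ ∈ Set.Ico (0 : ℝ) 1) (a m : ℕ) {P : ℕ}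
    (hP : 0 < P) : δ * (a + θ) ∈ Set.Ico (δ * (P * m)) (δ * (P * (m + 1))) ↔ a / P = m := by
  rw [Set.mem_Ico, mul_le_mul_iff_right₀ hδ, mul_lt_mul_iff_right₀ hδ, Nat.div_eq_iff hP]
  obtain ⟨h0, h1⟩ := hθ
  constructor
  · rintro ⟨h2, h3⟩
    have h4 : ((P * m : ℕ) : ℝ) < (a + 1 : ℕ) := by push_cast; linarith
    have h5 : (a : ℝ) < (P * (m + 1) : ℕ) := by push_cast; linarith
    have h6 := Nat.cast_lt.1 h4
    have h7 := Nat.cast_lt.1 h5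
    rw [mul_add, mul_one] at h7
    rw [mul_comm m P]
    omega
  · rintro ⟨h2, h3⟩
    rw [mul_comm m P] at h2 h3
    have h4 : a + 1 ≤ P * (m + 1) := by rw [mul_add, mul_one]; omega
    have h5 : ((P * m : ℕ) : ℝ) ≤ a := Nat.cast_le.2 h2
    have h6 : ((a + 1 : ℕ) : ℝ) ≤ (P * (m + 1) : ℕ) := Nat.cast_le.2 h4
    push_cast at h5 h6
    constructor <;> linarith

theorem haar_lat (k₀ : ℤ) {j : ℕ} (hj : 1 ≤ j) (n a : ℕ) {θ : ℝ} (hθ : θ ∈ Set.Ico (0 : ℝ) 1) :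
    haarSign (k₀ + j) n ((2 : ℝ) ^ k₀ * (a + θ)) = hsg j n a := by
  obtain ⟨i, rfl⟩ : ∃ i, j = i + 1 := ⟨j - 1, by omega⟩
  have hδ : (0 : ℝ) < 2 ^ k₀ := by positivity
  have h1 := mem_Ico_iff hδ hθ a (2 * n) (P := 2 ^ i) (by positivity)
  have h2 := mem_Ico_iff hδ hθ a (2 * n + 1) (P := 2 ^ i) (by positivity)
  have e1 : (2 : ℝ) ^ (k₀ + (i + 1 : ℕ)) = 2 ^ k₀ * (2 ^ i * 2) := by
    rw [zpow_add₀ two_ne_zero, zpow_natCast, pow_succ]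
  have e2 : (2 : ℝ) ^ (k₀ + (i + 1 : ℕ) - 1) = 2 ^ k₀ * 2 ^ i := by
    rw [show k₀ + (i + 1 : ℕ) - 1 = k₀ + (i : ℕ) by push_cast; ring, zpow_add₀ two_ne_zero,
      zpow_natCast]
  have e3 : a / 2 ^ (i + 1) = a / 2 ^ i / 2 := by rw [Nat.div_div_eq_div_mul, pow_succ]
  push_cast at h1 h2
  rw [haarSign, hsg, e1, e2, e3, Nat.add_sub_cancel,
    show (2 : ℝ) ^ k₀ * (2 ^ i * 2) * n + 2 ^ k₀ * 2 ^ i = 2 ^ k₀ * (2 ^ i * (2 * n + 1)) by ring,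
    show (2 : ℝ) ^ k₀ * (2 ^ i * 2) * n = 2 ^ k₀ * (2 ^ i * (2 * n)) by ring,
    show (2 : ℝ) ^ k₀ * (2 ^ i * 2) * (n + 1) = 2 ^ k₀ * (2 ^ i * (2 * n + 1 + 1)) by ring]
  simp only [h1, h2]
  split_ifs <;> first | rfl | omega

theorem haar_eq_zero {k : ℤ} {n : ℕ} {x : ℝ} (hx : x ∉ interval k n) : haarSign k n x = 0 := by
  have h1 : (0 : ℝ) < 2 ^ (k - 1) := by positivity
  have h2 : (2 : ℝ) ^ k = 2 ^ (k - 1) + 2 ^ (k - 1) := by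
    rw [zpow_sub_one₀ two_ne_zero]
    ring
  rw [haarSign, if_neg, if_neg]
  · exact fun h => hx ⟨by linarith [h.1], h.2⟩
  · exact fun h => hx ⟨h.1, by rw [mul_add, mul_one]; linarith [h.2]⟩

theorem abs_haar_le (k : ℤ) (n : ℕ) (x : ℝ) : |haarSign k n x| ≤ 1 := by
  unfold haarSign
  split_ifs <;> simp

theorem measurable_haar (k : ℤ) (n : ℕ) : Measurable (haarSign k n) :=
  Measurable.ite measurableSet_Ico measurable_const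
    (Measurable.ite measurableSet_Ico measurable_const measurable_const)

theorem integrable_of_bdd {α : Type} [MeasurableSpace α] {μ : Measure α} {f : α → ℝ}
    (hf : Measurable f) {M : ℝ} (hM : ∀ x, |f x| ≤ M) {s : Set α} (hs : μ s ≠ ⊤)
    (h0 : ∀ x, x ∉ s → f x = 0) : Integrable f μ :=
  (Measure.integrableOn_of_bounded hs hf.aestronglyMeasurable
    (Filter.Eventually.of_forall hM)).integrable_of_forall_notMem_eq_zero h0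

/-- the integrand of the local form. -/
noncomputable def Ph (k : ℤ) (n₀ n₁ n₂ : ℕ) (F₀ F₁ F₂ : ℝ × ℝ → ℝ) (x : ℝ × ℝ × ℝ) : ℝ :=
  F₀ (x.1, x.2.1) * F₁ (x.2.1, x.2.2) * F₂ (x.2.2, x.1) *
    (haarSign k n₀ x.1 * haarSign k n₁ x.2.1 * haarSign k n₂ x.2.2)

theorem Ph_ne_zero {k : ℤ} {n₀ n₁ n₂ : ℕ} {F₀ F₁ F₂ : ℝ × ℝ → ℝ} {x : ℝ × ℝ × ℝ}
    (h : Ph k n₀ n₁ n₂ F₀ F₁ F₂ x ≠ 0) :
    x.1 ∈ interval k n₀ ∧ x.2.1 ∈ interval k n₁ ∧ x.2.2 ∈ interval k n₂ := by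
  refine ⟨?_, ?_, ?_⟩ <;> by_contra hx <;> simp [Ph, haar_eq_zero hx] at h

theorem Ph_spec (k : ℤ) (n₀ n₁ n₂ : ℕ) {F₀ F₁ F₂ : ℝ × ℝ → ℝ} (hF₀ : Measurable F₀)
    (hF₁ : Measurable F₁) (hF₂ : Measurable F₂)
    (hb : ∃ M : ℝ, ∀ z, abs (F₀ z) ≤ M ∧ abs (F₁ z) ≤ M ∧ abs (F₂ z) ≤ M) :
    Integrable (Ph k n₀ n₁ n₂ F₀ F₁ F₂) ∧
      localForm k n₀ n₁ n₂ F₀ F₁ F₂ = 2 ^ (-k) * ∫ x, Ph k n₀ n₁ n₂ F₀ F₁ F₂ x := by
  obtain ⟨M, hM⟩ := hb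
  have hM0 : 0 ≤ M := (abs_nonneg _).trans (hM 0).1
  have hm : Measurable (Ph k n₀ n₁ n₂ F₀ F₁ F₂) := by
    have := measurable_haar k
    unfold Ph
    fun_prop
  have hB : ∀ x, |Ph k n₀ n₁ n₂ F₀ F₁ F₂ x| ≤ M * M * M * (1 * 1 * 1) := fun x => by
    simp only [Ph, abs_mul]
    gcongr
    exacts [(hM _).1, (hM _).2.1, (hM _).2.2, abs_haar_le _ _ _, abs_haar_le _ _ _, abs_haar_le _ _ _]
  have hI : ∀ n, volume (interval k n) ≠ ⊤ := fun n => by simp [interval]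
  have h1 : Integrable (Ph k n₀ n₁ n₂ F₀ F₁ F₂) := by
    refine integrable_of_bdd hm hB (s := interval k n₀ ×ˢ interval k n₁ ×ˢ interval k n₂) ?_
      fun x hx => by_contra fun h => hx (Ph_ne_zero h)
    rw [Measure.volume_eq_prod, Measure.prod_prod, Measure.volume_eq_prod, Measure.prod_prod]
    exact ENNReal.mul_ne_top (hI _) (ENNReal.mul_ne_top (hI _) (hI _))
  have h2 : ∀ x₀, Integrable fun y => Ph k n₀ n₁ n₂ F₀ F₁ F₂ (x₀, y) := fun x₀ => by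
    refine integrable_of_bdd (hm.comp measurable_prodMk_left) (fun y => hB _)
      (s := interval k n₁ ×ˢ interval k n₂) ?_ fun x hx => by_contra fun h => hx (Ph_ne_zero h).2
    rw [Measure.volume_eq_prod, Measure.prod_prod]
    exact ENNReal.mul_ne_top (hI _) (hI _)
  refine ⟨h1, ?_⟩
  rw [localForm, Measure.volume_eq_prod (α := ℝ) (β := ℝ × ℝ), integral_prod _ h1,
    setIntegral_eq_integral_of_forall_compl_eq_zero fun x hx => by simp [haar_eq_zero hx]]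
  congr 2
  ext x₀
  rw [Measure.volume_eq_prod (α := ℝ) (β := ℝ), integral_prod _ (h2 x₀),
    setIntegral_eq_integral_of_forall_compl_eq_zero fun x hx => by simp [haar_eq_zero hx]]
  congr 1
  ext x₁
  rw [setIntegral_eq_integral_of_forall_compl_eq_zero fun x hx => by simp [haar_eq_zero hx]]
  rfl

/-- the majorant. -/
noncomputable def mj (F : ℝ × ℝ → ℝ) : ℝ × ℝ → ℝ :=
  (Set.Ici 0 ×ˢ Set.Ici 0).indicator fun z => 40 / 3 * |F z| ^ 3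

theorem mj_nonneg (F : ℝ × ℝ → ℝ) (z : ℝ × ℝ) : 0 ≤ mj F z :=
  Set.indicator_nonneg (fun _ _ => by positivity) z

theorem mj_integrable {F : ℝ × ℝ → ℝ} (hF : Measurable F) {M : ℝ} (hM : ∀ z, |F z| ≤ M)
    (hc : HasCompactSupport F) : Integrable (mj F) := by
  refine Integrable.indicator ?_ (measurableSet_Ici.prod measurableSet_Ici)
  refine Integrable.const_mul (integrable_of_bdd (M := M ^ 3) (by fun_prop) (fun z => ?_)
    hc.isCompact.measure_lt_top.ne fun z hz => ?_) _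
  · rw [abs_pow, abs_abs]
    exact pow_le_pow_left₀ (abs_nonneg _) (hM z) 3
  · simp [image_eq_zero_of_notMem_tsupport hz]

theorem mj_integral (F : ℝ × ℝ → ℝ) :
    ∫ z, mj F z = 40 / 3 * ∫ z in Set.Ici 0 ×ˢ Set.Ici 0, |F z| ^ 3 := by
  rw [mj, integral_indicator (measurableSet_Ici.prod measurableSet_Ici), integral_const_mul]

theorem mj_apply (F : ℝ × ℝ → ℝ) {x y : ℝ} (hx : 0 ≤ x) (hy : 0 ≤ y) :
    mj F (x, y) = 40 / 3 * |F (x, y)| ^ 3 :=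
  Set.indicator_of_mem (Set.mk_mem_prod hx hy) _

theorem exists_scales (𝓘 : Finset (ℤ × ℕ × ℕ)) : ∃ (k₀ : ℤ) (J : ℕ), ∀ i ∈ 𝓘, ∃ j : ℕ,
    i.1 = k₀ + j ∧ 1 ≤ j ∧ j ≤ J ∧ i.2.1 < 2 ^ (J - j) ∧ i.2.2 < 2 ^ (J - j) := by
  obtain ⟨k, hk⟩ := (𝓘.image fun i => i.1).bddBelow
  obtain ⟨J, hJ⟩ := (𝓘.image fun i => (i.1 - (k - 1)).toNat + i.2.1 + i.2.2).bddAbove
  refine ⟨k - 1, J, fun i hi => ?_⟩
  have h1 : k ≤ i.1 := hk (Finset.mem_coe.2 (Finset.mem_image_of_mem _ hi))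
  have h2 : (i.1 - (k - 1)).toNat + i.2.1 + i.2.2 ≤ J :=
    hJ (Finset.mem_coe.2 (Finset.mem_image_of_mem _ hi))
  have h3 := Nat.lt_two_pow_self (n := J - (i.1 - (k - 1)).toNat)
  exact ⟨(i.1 - (k - 1)).toNat, by omega, by omega, by omega, by omega, by omega⟩

theorem interval_subset {k₀ : ℤ} {j J n : ℕ} (hj : j ≤ J) (hn : n < 2 ^ (J - j)) {x : ℝ}
    (hx : x ∈ interval (k₀ + j) n) :
    x ∈ Set.Ico (0 : ℝ) (0 + (2 : ℝ) ^ k₀ * ((2 ^ J : ℕ) : ℝ)) := by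
  refine ⟨le_trans (by positivity) hx.1, hx.2.trans_le ?_⟩
  have h1 : ((n + 1 : ℕ) : ℝ) ≤ (2 ^ (J - j) : ℕ) := Nat.cast_le.2 hn
  rw [zero_add, zpow_add₀ two_ne_zero, zpow_natCast, mul_assoc, ← Nat.add_sub_cancel' hj, pow_add]
  push_cast at h1 ⊢
  gcongr

end Fin97

open Fin97 in
/-- Recipe.  Choose `k₀ : ℤ` below all scales (`k₀ < k`), `δ = 2^k₀`, `j = (k - k₀).toNat`, and `J` so large
that `j ≤ J`, `n₀, n₁ < 2^(J-j)` for all members.  `localForm` is `∫ Φ_i` over `ℝ × ℝ × ℝ` with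
`Φ_i x = 2^(-k) F₀ F₁ F₂ h h h` (`haarSign` vanishes off the interval; bounded measurable with bounded support,
so integrable, `integral_prod`).  Put `Φ = ∑ sign_i Φ_i` and use `lattice_bound` with `o = 0`, `N = 2^J`,
`f_j = 40/3 * indicator (quarter plane) |F_j|³`; `haarSign k n (δ (a + θ)) = hsg j n a` for `θ ∈ [0,1)`;
`dyadic_discrete` for the image of `𝓘` under the injective map `(k, n₀, n₁) ↦ (j, n₀, n₁)`. -/
theorem dyadic_sum_le (F₀ F₁ F₂ : ℝ × ℝ → ℝ) (hF₀ : Measurable F₀) (hF₁ : Measurable F₁)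
    (hF₂ : Measurable F₂) (hb : ∃ M : ℝ, ∀ z, abs (F₀ z) ≤ M ∧ abs (F₁ z) ≤ M ∧ abs (F₂ z) ≤ M)
    (hc₀ : HasCompactSupport F₀) (hc₁ : HasCompactSupport F₁) (hc₂ : HasCompactSupport F₂)
    (𝓘 : Finset (ℤ × ℕ × ℕ)) :
    ∑ i ∈ 𝓘, abs (TriangularDyadic.localForm i.1 i.2.1 i.2.2 (i.2.1 ^^^ i.2.2) F₀ F₁ F₂) ≤
      40 / 3 * ((∫ z in Set.Ici 0 ×ˢ Set.Ici 0, abs (F₀ z) ^ 3) +
        (∫ z in Set.Ici 0 ×ˢ Set.Ici 0, abs (F₁ z) ^ 3) +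
        ∫ z in Set.Ici 0 ×ˢ Set.Ici 0, abs (F₂ z) ^ 3) := by
  classical
  obtain ⟨k₀, J, hJ⟩ := exists_scales 𝓘
  choose! j hj using hJ
  have hδ : (0 : ℝ) < 2 ^ k₀ := by positivity
  let s : ℤ × ℕ × ℕ → ℝ := fun i =>
    SignType.sign (TriangularDyadic.localForm i.1 i.2.1 i.2.2 (i.2.1 ^^^ i.2.2) F₀ F₁ F₂)
  have hs : ∀ i, |s i| ≤ 1 := fun i => by
    simp only [s]
    generalize SignType.sign (_ : ℝ) = t
    cases t <;> simp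
  have hP := fun i : ℤ × ℕ × ℕ => Ph_spec i.1 i.2.1 i.2.2 (i.2.1 ^^^ i.2.2) hF₀ hF₁ hF₂ hb
  obtain ⟨M, hM⟩ := hb
  let Φ : ℝ × ℝ × ℝ → ℝ := fun x =>
    ∑ i ∈ 𝓘, s i * (2 ^ (-i.1) * Ph i.1 i.2.1 i.2.2 (i.2.1 ^^^ i.2.2) F₀ F₁ F₂ x)
  have hint : ∀ i ∈ 𝓘, Integrable fun x =>
      s i * (2 ^ (-i.1) * Ph i.1 i.2.1 i.2.2 (i.2.1 ^^^ i.2.2) F₀ F₁ F₂ x) := fun i _ =>
    ((hP i).1.const_mul _).const_mul _
  have key := lattice_bound (Φ := Φ) (integrable_finsetSum _ hint)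
    (mj_integrable hF₀ (fun z => (hM z).1) hc₀) (mj_integrable hF₁ (fun z => (hM z).2.1) hc₁)
    (mj_integrable hF₂ (fun z => (hM z).2.2) hc₂) (mj_nonneg _) (mj_nonneg _) (mj_nonneg _)
    (o := 0) hδ (2 ^ J) (fun x hx => ?_) fun θ hθ => ?_
  · rw [mj_integral, mj_integral, mj_integral, integral_finsetSum _ hint] at key
    simp only [integral_const_mul, ← (hP _).2, s, sign_mul_self] at key
    linarith [le_abs_self (∑ i ∈ 𝓘,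
      |TriangularDyadic.localForm i.1 i.2.1 i.2.2 (i.2.1 ^^^ i.2.2) F₀ F₁ F₂|)]
  · obtain ⟨i, hi, h⟩ := Finset.exists_ne_zero_of_sum_ne_zero hx
    obtain ⟨h1, h2, h3⟩ := Ph_ne_zero (right_ne_zero_of_mul (right_ne_zero_of_mul h))
    obtain ⟨e, -, a1, a2, a3⟩ := hj i hi
    rw [e] at h1 h2 h3
    exact ⟨interval_subset a1 a2 h1, interval_subset a1 a3 h2,
      interval_subset a1 (Nat.xor_lt_two_pow a2 a3) h3⟩
  obtain ⟨t0, t1, t2⟩ := hθ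
  let G : (ℝ × ℝ → ℝ) → ℝ → ℝ → Matrix (Fin (2 ^ J)) (Fin (2 ^ J)) ℝ := fun F t t' a b =>
    F (0 + 2 ^ k₀ * lat (2 ^ J) t a, 0 + 2 ^ k₀ * lat (2 ^ J) t' b)
  have hG : ∀ F, ∀ t ∈ Set.Ico (0 : ℝ) 1, ∀ t' ∈ Set.Ico (0 : ℝ) 1,
      ∑ a, ∑ b, mj F (0 + 2 ^ k₀ * lat (2 ^ J) t a, 0 + 2 ^ k₀ * lat (2 ^ J) t' b) =
        40 / 3 * cube (G F t t') := fun F t ht t' ht' => by
    simp only [cube, Finset.mul_sum]
    refine Finset.sum_congr rfl fun a _ => Finset.sum_congr rfl fun b _ => mj_apply F ?_ ?_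
    · have := ht.1
      unfold lat
      positivity
    · have := ht'.1
      unfold lat
      positivity
  have hd := dyadic_discrete J (G F₀ θ.1 θ.2.1) (G F₁ θ.2.1 θ.2.2) (G F₂ θ.2.2 θ.1)
    (𝓘.image fun i => (j i, i.2)) (fun i hi => by
      obtain ⟨i', hi', rfl⟩ := Finset.mem_image.1 hi
      exact (hj i' hi').2)
  rw [Finset.sum_image fun i hi i' hi' h => by
    simp only [Prod.mk.injEq] at h
    exact Prod.ext (by rw [(hj i hi).1, (hj i' hi').1, h.1]) h.2] at hd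
  rw [hG _ _ t0 _ t1, hG _ _ t1 _ t2, hG _ _ t2 _ t0]
  have e : ((2 : ℝ) ^ k₀) ^ 3 * ∑ a : Fin (2 ^ J), ∑ b : Fin (2 ^ J), ∑ c : Fin (2 ^ J),
      Φ (0 + 2 ^ k₀ * lat (2 ^ J) θ.1 a, 0 + 2 ^ k₀ * lat (2 ^ J) θ.2.1 b,
        0 + 2 ^ k₀ * lat (2 ^ J) θ.2.2 c) =
      (2 ^ k₀) ^ 2 * ∑ i ∈ 𝓘, s i * ((1 / 2 : ℝ) ^ j i *
        tri (G F₀ θ.1 θ.2.1) (G F₁ θ.2.1 θ.2.2) (G F₂ θ.2.2 θ.1) (fun a => hsg (j i) i.2.1 a.val)
          (fun b => hsg (j i) i.2.2 b.val) fun c => hsg (j i) (i.2.1 ^^^ i.2.2) c.val) := by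
    simp only [Φ, tri, Finset.mul_sum]
    conv_rhs => rw [Finset.sum_comm]
    refine Finset.sum_congr rfl fun a _ => ?_
    conv_rhs => rw [Finset.sum_comm]
    refine Finset.sum_congr rfl fun b _ => ?_
    conv_rhs => rw [Finset.sum_comm]
    refine Finset.sum_congr rfl fun c _ => Finset.sum_congr rfl fun i hi => ?_
    obtain ⟨e, a0, -⟩ := hj i hi
    rw [e]
    simp only [Ph, G, zero_add, lat, haar_lat k₀ a0 _ _ t0, haar_lat k₀ a0 _ _ t1,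
      haar_lat k₀ a0 _ _ t2]
    rw [zpow_neg, zpow_add₀ two_ne_zero, zpow_natCast, one_div, inv_pow]
    field_simp
  rw [e, abs_mul, abs_of_nonneg (by positivity)]
  refine mul_le_mul_of_nonneg_left ((Finset.abs_sum_le_sum_abs _ _).trans
    ((Finset.sum_le_sum fun i _ => ?_).trans (hd.trans_eq (by ring)))) (by positivity)
  rw [abs_mul]
  exact mul_le_of_le_one_left (abs_nonneg _) (hs i)

/-- `dyadic_sum_le` for `l_j • F_j` and `le_prod_of_forall_scale`. -/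
theorem S0097_main (F₀ F₁ F₂ : ℝ × ℝ → ℝ) (hF₀ : Measurable F₀) (hF₁ : Measurable F₁)
    (hF₂ : Measurable F₂) (hb : ∃ M : ℝ, ∀ z, abs (F₀ z) ≤ M ∧ abs (F₁ z) ≤ M ∧ abs (F₂ z) ≤ M)
    (hc₀ : HasCompactSupport F₀) (hc₁ : HasCompactSupport F₁) (hc₂ : HasCompactSupport F₂)
    (𝓘 : Finset (ℤ × ℕ × ℕ)) :
    ∑ i ∈ 𝓘, abs (TriangularDyadic.localForm i.1 i.2.1 i.2.2 (i.2.1 ^^^ i.2.2) F₀ F₁ F₂) ≤
      40 * (∫ z in Set.Ici 0 ×ˢ Set.Ici 0, abs (F₀ z) ^ 3) ^ (1 / 3 : ℝ) *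
        (∫ z in Set.Ici 0 ×ˢ Set.Ici 0, abs (F₁ z) ^ 3) ^ (1 / 3 : ℝ) *
        (∫ z in Set.Ici 0 ×ˢ Set.Ici 0, abs (F₂ z) ^ 3) ^ (1 / 3 : ℝ) := by
  have h0 : ∀ F : ℝ × ℝ → ℝ, 0 ≤ ∫ z in Set.Ici 0 ×ˢ Set.Ici 0, abs (F z) ^ 3 := fun F =>
    integral_nonneg fun z => by positivity
  refine (le_prod_of_forall_scale (c := 40 / 3) (by norm_num) (h0 F₀) (h0 F₁) (h0 F₂)
    fun l₀ l₁ l₂ p₀ p₁ p₂ => ?_).trans_eq (by norm_num)
  obtain ⟨M, hM⟩ := hb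
  have hM0 : 0 ≤ M := (abs_nonneg _).trans (hM 0).1
  have hl : ∀ {l x : ℝ}, 0 < l → l ≤ l₀ + l₁ + l₂ → |x| ≤ M → |l * x| ≤ (l₀ + l₁ + l₂) * M :=
    fun h1 h2 h3 => by
      rw [abs_mul, abs_of_pos h1]
      gcongr
  have key := dyadic_sum_le (fun z => l₀ * F₀ z) (fun z => l₁ * F₁ z) (fun z => l₂ * F₂ z)
    (hF₀.const_mul _) (hF₁.const_mul _) (hF₂.const_mul _)
    ⟨(l₀ + l₁ + l₂) * M, fun z => ⟨hl p₀ (by linarith) (hM z).1, hl p₁ (by linarith) (hM z).2.1,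
      hl p₂ (by linarith) (hM z).2.2⟩⟩ hc₀.mul_left hc₁.mul_left hc₂.mul_left 𝓘
  have e : ∀ k n₀ n₁ n₂, TriangularDyadic.localForm k n₀ n₁ n₂ (fun z => l₀ * F₀ z)
      (fun z => l₁ * F₁ z) (fun z => l₂ * F₂ z) =
      l₀ * l₁ * l₂ * TriangularDyadic.localForm k n₀ n₁ n₂ F₀ F₁ F₂ := fun k n₀ n₁ n₂ => by
    simp only [TriangularDyadic.localForm]
    rw [mul_left_comm]
    simp only [← integral_const_mul (l₀ * l₁ * l₂)]
    congr 2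
    ext x₀
    congr 1
    ext x₁
    congr 1
    ext x₂
    ring
  simp only [e, abs_mul, abs_of_pos p₀, abs_of_pos p₁, abs_of_pos p₂, mul_pow, integral_const_mul,
    ← Finset.mul_sum] at key
  exact key

end Crest.Agent.R72
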