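/-
R72/Var: the variation estimate from the counting estimate (S0095).
Skeleton by helper40; keep the statements unchanged (add any helper lemmas you like).
-/
import Crest.Agent.R72.Cont3

set_option autoImplicit false
set_option linter.unusedSectionVars false

namespace Crest.Agent.R72

open MeasureTheory Crest.AnalysisR
open scoped ENNReal

/-- the combinatorial step.  Recipe: fewer than `2^k` indices satisfy `b j > c k` (otherwise sum over `2^k`
of them).  With `K ≥ 1`, `card ι ≤ 2^K`, give `j` the least `k ∈ [1, K)` with `b j > c k`, and `K` if there is none;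
then `b j ≤ c (k - 1)` (also `b j ≤ c 0`) and each class has at most `2^k` members. -/
theorem sum_rpow_le {ι : Type} [Fintype ι] (b : ι → ℝ) (hb : ∀ j, 0 ≤ b j) (c : ℕ → ℝ)
    (hc : ∀ (k : ℕ) (A : Finset ι), A.card ≤ 2 ^ k → ∑ j ∈ A, b j ≤ 2 ^ k * c k) {r : ℝ} (hr : 0 < r) :
    ∃ K : ℕ, ∑ j, b j ^ r ≤ ∑ k ∈ Finset.range K, 2 ^ (k + 1) * c k ^ r := by
  classical
  have hc0 : ∀ k, 0 ≤ c k := by
    intro k
    have h := hc k ∅ (by simp)
    rw [Finset.sum_empty] at h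
    exact nonneg_of_mul_nonneg_right h (by positivity)
  have hN : ∀ k, (Finset.univ.filter fun j => c k < b j).card < 2 ^ k := by
    intro k
    by_contra h
    obtain ⟨A, hA, hcard⟩ := Finset.exists_subset_card_eq (not_lt.1 h)
    have h1 := hc k A hcard.le
    have hne : A.Nonempty := by
      rw [← Finset.card_pos, hcard]
      positivity
    have h2 : ∑ _j ∈ A, c k < ∑ j ∈ A, b j :=
      Finset.sum_lt_sum_of_nonempty hne fun j hj => (Finset.mem_filter.1 (hA hj)).2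
    rw [Finset.sum_const, hcard, nsmul_eq_mul] at h2
    push_cast at h2
    linarith
  have hsum : ∀ (k : ℕ) (A : Finset ι), A.card ≤ 2 ^ (k + 1) → (∀ j ∈ A, b j ≤ c k) →
      ∑ j ∈ A, b j ^ r ≤ 2 ^ (k + 1) * c k ^ r := by
    intro k A hA hle
    have h1 : ∑ j ∈ A, b j ^ r ≤ ∑ _j ∈ A, c k ^ r :=
      Finset.sum_le_sum fun j hj => Real.rpow_le_rpow (hb j) (hle j hj) hr.le
    rw [Finset.sum_const, nsmul_eq_mul] at h1
    refine h1.trans (mul_le_mul_of_nonneg_right ?_ (Real.rpow_nonneg (hc0 k) r))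
    exact_mod_cast hA
  have main : ∀ K : ℕ, ∑ j, b j ^ r ≤ ∑ k ∈ Finset.range K, 2 ^ (k + 1) * c k ^ r +
      ∑ j ∈ Finset.univ.filter (fun j => ∀ i ≤ K, b j ≤ c i), b j ^ r := by
    intro K
    induction K with
    | zero =>
      have h0 := hN 0
      rw [pow_zero, Nat.lt_one_iff, Finset.card_eq_zero, Finset.filter_eq_empty_iff] at h0
      rw [Finset.filter_true_of_mem, Finset.sum_range_zero, zero_add]
      intro j hj i hi
      obtain rfl : i = 0 := by omega
      exact not_lt.1 (h0 hj)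
    | succ K ih =>
      rw [Finset.sum_range_succ]
      rw [← Finset.sum_filter_add_sum_filter_not (Finset.univ.filter fun j => ∀ i ≤ K, b j ≤ c i)
        (fun j => c (K + 1) < b j)] at ih
      have h1 := hsum K ((Finset.univ.filter fun j => ∀ i ≤ K, b j ≤ c i).filter
        (fun j => c (K + 1) < b j))
        ((Finset.card_le_card (Finset.filter_subset_filter _ (Finset.subset_univ _))).trans
          (hN (K + 1)).le)
        (fun j hj => (Finset.mem_filter.1 (Finset.mem_filter.1 hj).1).2 K le_rfl)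
      have h2 : ((Finset.univ.filter fun j => ∀ i ≤ K, b j ≤ c i).filter
          (fun j => ¬ c (K + 1) < b j)) =
          Finset.univ.filter (fun j => ∀ i ≤ K + 1, b j ≤ c i) := by
        ext j
        simp only [Finset.mem_filter, Finset.mem_univ, true_and, not_lt]
        constructor
        · rintro ⟨h3, h4⟩ i hi
          rcases Nat.lt_or_ge K i with h5 | h5
          · obtain rfl : i = K + 1 := by omega
            exact h4
          · exact h3 i h5
        · intro h3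
          exact ⟨fun i hi => h3 i (by omega), h3 _ le_rfl⟩
      rw [h2] at ih
      linarith
  refine ⟨Fintype.card ι + 1, ?_⟩
  rw [Finset.sum_range_succ]
  refine (main (Fintype.card ι)).trans (add_le_add le_rfl (hsum _ _ ?_ ?_))
  · refine (Finset.card_le_univ _).trans (Nat.lt_two_pow_self.le.trans ?_)
    exact Nat.pow_le_pow_right (by norm_num) (Nat.le_succ _)
  · exact fun j hj => (Finset.mem_filter.1 hj).2 _ le_rfl

/-- any subfamily of the increments of a chain is admissible for `annulusCount` -/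
theorem var_sum_le_annulusCount (F G : ℝ × ℝ → ℂ) (z : ℝ × ℝ) {J : ℕ} (t : Fin (J + 2) → ℚ)
    (ht : StrictMono t) (h0 : 0 < t 0) (n : ℕ) (A : Finset (Fin (J + 1))) (hA : A.card ≤ n) :
    ∑ j ∈ A, ‖annularTriangularHT F G (t (Fin.castSucc j) : ℝ) (t (Fin.succ j) : ℝ) z‖ₑ ≤
      annulusCount n F G z := by
  let e : Fin A.card → Fin (J + 1) := fun i => (A.equivFin.symm i : Fin (J + 1))
  have he : Function.Injective e := Subtype.val_injective.comp A.equivFin.symm.injective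
  have hsum : ∑ j ∈ A, ‖annularTriangularHT F G (t (Fin.castSucc j) : ℝ) (t (Fin.succ j) : ℝ) z‖ₑ =
      ∑ i : Fin A.card, ‖annularTriangularHT F G (t (Fin.castSucc (e i)) : ℝ)
        (t (Fin.succ (e i)) : ℝ) z‖ₑ := by
    rw [← Finset.sum_coe_sort A]
    exact (Equiv.sum_comp A.equivFin.symm fun j : A =>
      ‖annularTriangularHT F G (t (Fin.castSucc j.1) : ℝ) (t (Fin.succ j.1) : ℝ) z‖ₑ).symm
  rw [hsum]
  unfold annulusCount
  refine le_iSup_of_le A.card (le_iSup_of_le hA (le_iSup_of_le (fun i => t (Fin.castSucc (e i)))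
    (le_iSup_of_le (fun i => t (Fin.succ (e i))) (le_iSup_of_le (fun i => ⟨?_, ?_⟩)
      (le_iSup_of_le (fun i j hij => ?_) le_rfl)))))
  · exact h0.trans_le (ht.monotone (Fin.zero_le _))
  · exact ht (Fin.castSucc_lt_succ)
  · have hne : e i ≠ e j := fun h => hij (he h)
    rcases lt_or_gt_of_ne hne with h | h
    · exact Or.inl (ht.monotone (Fin.succ_le_castSucc_iff.2 h))
    · exact Or.inr (ht.monotone (Fin.succ_le_castSucc_iff.2 h))

/-- pointwise.  Recipe: `η = (1/2 - 1/r) / 2 > 0`, `D = ⨆ k, 2^(-k (1/2 + η)) S_{2^k} z`; nothing to prove if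
`D = ⊤`.  For a chain the annuli `(t j, t (j+1))` are pairwise disjoint, so any `≤ 2^k` increments sum to at most
`S_{2^k} z ≤ 2^(k (1/2 + η)) D` (enumerate the subset with `Finset.equivFin`); `sum_rpow_le` with
`c k = 2^(k (η - 1/2)) D` and the geometric series `∑ 2^(k+1) 2^(k r (η - 1/2)) = 2 ∑ 2^(-k r η)`. -/
theorem variation_le {r : ℝ} (hr : 2 < r) : ∃ C η : ℝ, 0 ≤ C ∧ 0 < η ∧ ∀ (F G : ℝ × ℝ → ℂ) (z : ℝ × ℝ),
    annularVariation r F G z ≤ ENNReal.ofReal C *
      ⨆ k : ℕ, ENNReal.ofReal ((2 : ℝ) ^ (-(k : ℝ) * (1 / 2 + η))) * annulusCount (2 ^ k) F G z := by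
  have hr0 : 0 < r := by linarith
  set η : ℝ := (1 / 2 - 1 / r) / 2 with hη
  have hη0 : 0 < η := by
    have : 1 / r < 1 / 2 := one_div_lt_one_div_of_lt (by norm_num) hr
    rw [hη]
    linarith
  have hrη : r * η = r / 4 - 1 / 2 := by
    rw [hη]
    field_simp
    ring
  set q : ℝ := (2 : ℝ) ^ (-(r * η)) with hq
  have hq0 : 0 < q := Real.rpow_pos_of_pos (by norm_num) _
  have hq1 : q < 1 := Real.rpow_lt_one_of_one_lt_of_neg (by norm_num) (by nlinarith)
  have hM : 0 < 2 * (1 - q)⁻¹ := by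
    have : 0 < 1 - q := by linarith
    positivity
  have hC : 0 < (2 * (1 - q)⁻¹) ^ (1 / r) := Real.rpow_pos_of_pos hM _
  refine ⟨(2 * (1 - q)⁻¹) ^ (1 / r), η, hC.le, hη0, fun F G z => ?_⟩
  set D : ℝ≥0∞ := ⨆ k : ℕ, ENNReal.ofReal ((2 : ℝ) ^ (-(k : ℝ) * (1 / 2 + η))) *
    annulusCount (2 ^ k) F G z with hD
  rcases eq_or_ne D ⊤ with hDt | hDt
  · rw [hDt, ENNReal.mul_top (by simpa using hC)]
    exact le_top
  unfold annularVariation
  refine iSup_le fun J => iSup_le fun t => iSup_le fun ht => iSup_le fun h0 => ?_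
  set b : Fin (J + 1) → ℝ := fun j =>
    ‖annularTriangularHT F G (t (Fin.castSucc j) : ℝ) (t (Fin.succ j) : ℝ) z‖ with hb
  have hb0 : ∀ j, 0 ≤ b j := fun j => norm_nonneg _
  have hbe : ∀ j, ‖annularTriangularHT F G (t (Fin.castSucc j) : ℝ) (t (Fin.succ j) : ℝ) z‖ₑ =
      ENNReal.ofReal (b j) := fun j => (ofReal_norm _).symm
  have hd0 : 0 ≤ D.toReal := ENNReal.toReal_nonneg
  obtain ⟨K, hK⟩ := sum_rpow_le b hb0 (fun k => (2 : ℝ) ^ ((k : ℝ) * (η - 1 / 2)) * D.toReal)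
    (fun k A hA => by
      have h1 := var_sum_le_annulusCount F G z t ht h0 (2 ^ k) A hA
      simp only [hbe] at h1
      rw [← ENNReal.ofReal_sum_of_nonneg fun j _ => hb0 j] at h1
      have hw : 0 < (2 : ℝ) ^ (-(k : ℝ) * (1 / 2 + η)) := Real.rpow_pos_of_pos (by norm_num) _
      have h2 : ENNReal.ofReal ((2 : ℝ) ^ (-(k : ℝ) * (1 / 2 + η)) * ∑ j ∈ A, b j) ≤ D := by
        rw [ENNReal.ofReal_mul hw.le]
        exact le_iSup_of_le k (by gcongr)
      rw [ENNReal.ofReal_le_iff_le_toReal hDt] at h2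
      have h3 : (2 : ℝ) ^ (-(k : ℝ) * (1 / 2 + η)) *
          (2 ^ k * (2 : ℝ) ^ ((k : ℝ) * (η - 1 / 2))) = 1 := by
        rw [← Real.rpow_natCast, ← Real.rpow_add (by norm_num), ← Real.rpow_add (by norm_num)]
        rw [show -(k : ℝ) * (1 / 2 + η) + (k + k * (η - 1 / 2)) = 0 by ring, Real.rpow_zero]
      refine le_of_mul_le_mul_left ?_ hw
      rw [← mul_assoc (2 ^ k : ℝ), ← mul_assoc, h3, one_mul]
      exact h2) hr0
  have hterm : ∀ k : ℕ, (2 : ℝ) ^ (k + 1) *
      ((2 : ℝ) ^ ((k : ℝ) * (η - 1 / 2)) * D.toReal) ^ r = 2 * D.toReal ^ r * q ^ k := by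
    intro k
    rw [Real.mul_rpow (by positivity) hd0, ← Real.rpow_mul (by norm_num), hq,
      ← Real.rpow_mul_natCast (by norm_num), pow_succ, ← Real.rpow_natCast]
    have : (2 : ℝ) ^ (-(r * η) * k) = 2 ^ (k : ℝ) * 2 ^ ((k : ℝ) * (η - 1 / 2) * r) := by
      rw [← Real.rpow_add (by norm_num)]
      congr 1
      have : (k : ℝ) * (η - 1 / 2) * r = k * (r * η) - k * r / 2 := by ring
      rw [this, hrη]
      ring
    rw [this]
    ring
  simp only [hterm] at hK
  rw [← Finset.mul_sum] at hK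
  have hgeo : ∑ k ∈ Finset.range K, q ^ k ≤ (1 - q)⁻¹ := by
    rw [← tsum_geometric_of_lt_one hq0.le hq1]
    exact (summable_geometric_of_lt_one hq0.le hq1).sum_le_tsum _ fun k _ => by positivity
  have hfin : ∑ j, b j ^ r ≤ 2 * (1 - q)⁻¹ * D.toReal ^ r := by
    have := mul_le_mul_of_nonneg_left hgeo
      (show 0 ≤ 2 * D.toReal ^ r by positivity)
    linarith
  have hfin2 : (∑ j, b j ^ r) ^ (1 / r) ≤ (2 * (1 - q)⁻¹) ^ (1 / r) * D.toReal := by
    refine (Real.rpow_le_rpow (Finset.sum_nonneg fun j _ => Real.rpow_nonneg (hb0 j) r) hfin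
      (by positivity)).trans (le_of_eq ?_)
    rw [Real.mul_rpow hM.le (by positivity), ← Real.rpow_mul hd0, mul_one_div_cancel hr0.ne',
      Real.rpow_one]
  simp only [hbe, ENNReal.ofReal_rpow_of_nonneg (hb0 _) hr0.le]
  rw [← ENNReal.ofReal_sum_of_nonneg fun j _ => Real.rpow_nonneg (hb0 j) r,
    ENNReal.ofReal_rpow_of_nonneg (Finset.sum_nonneg fun j _ => Real.rpow_nonneg (hb0 j) r)
      (by positivity)]
  refine (ENNReal.ofReal_le_ofReal hfin2).trans (le_of_eq ?_)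
  rw [ENNReal.ofReal_mul hC.le, ENNReal.ofReal_toReal hDt]

/-- Recipe: `variation_le`; `(⨆ a k)^(3/2) ≤ ∑' a k ^ (3/2)`, `lintegral_tsum` (`aemeasurable_annulusCount`),
`count_bound` raised to the power `3/2`, geometric series with ratio `2^(-3η/2)`. -/
theorem S0095_main (r : ℝ) (hr : 2 < r) :
    ∃ C : ℝ, ∀ F G : ℝ × ℝ → ℂ, MemLp F 3 volume → MemLp G 3 volume →
      (∫⁻ z, annularVariation r F G z ^ (3 / 2 : ℝ)) ^ (2 / 3 : ℝ) ≤
        ENNReal.ofReal C * eLpNorm F 3 volume * eLpNorm G 3 volume := by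
  obtain ⟨C, η, hC, hη, hV⟩ := variation_le hr
  obtain ⟨C', hC', hB⟩ := count_bound
  set w : ℕ → ℝ≥0∞ := fun k => ENNReal.ofReal ((2 : ℝ) ^ (-(k : ℝ) * (1 / 2 + η))) with hw
  set M : ℝ≥0∞ := ∑' k : ℕ,
    (w k * ENNReal.ofReal (C' * Real.sqrt ((2 ^ k : ℕ) : ℝ))) ^ (3 / 2 : ℝ) with hM
  have hMt : M ≠ ⊤ := by
    set q : ℝ := (2 : ℝ) ^ (-η * (3 / 2)) with hq
    have hq0 : 0 < q := Real.rpow_pos_of_pos (by norm_num) _
    have hq1 : q < 1 := Real.rpow_lt_one_of_one_lt_of_neg (by norm_num) (by linarith)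
    have hterm : ∀ k : ℕ,
        (w k * ENNReal.ofReal (C' * Real.sqrt ((2 ^ k : ℕ) : ℝ))) ^ (3 / 2 : ℝ) =
          ENNReal.ofReal (C' ^ (3 / 2 : ℝ) * q ^ k) := by
      intro k
      simp only [hw]
      rw [← ENNReal.ofReal_mul (by positivity),
        ENNReal.ofReal_rpow_of_nonneg (by positivity) (by norm_num)]
      congr 1
      have h1 : (2 : ℝ) ^ (-(k : ℝ) * (1 / 2 + η)) * (C' * Real.sqrt ((2 ^ k : ℕ) : ℝ)) =
          C' * (2 : ℝ) ^ (-η * k) := by
        rw [Real.sqrt_eq_rpow, Nat.cast_pow, Nat.cast_ofNat, ← Real.rpow_natCast,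
          ← Real.rpow_mul (by norm_num), mul_left_comm, ← Real.rpow_add (by norm_num)]
        congr 2
        ring
      rw [h1, Real.mul_rpow hC' (by positivity), ← Real.rpow_mul (by norm_num), hq,
        ← Real.rpow_mul_natCast (by norm_num)]
      congr 2
      ring
    rw [hM]
    simp only [hterm]
    exact ((summable_geometric_of_lt_one hq0.le hq1).mul_left _).tsum_ofReal_ne_top
  refine ⟨(ENNReal.ofReal C * M ^ (2 / 3 : ℝ)).toReal, fun F G hF hG => ?_⟩
  rw [ENNReal.ofReal_toReal (ENNReal.mul_ne_top ENNReal.ofReal_ne_top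
    (ENNReal.rpow_ne_top_of_nonneg (by norm_num) hMt))]
  set X : ℝ≥0∞ := eLpNorm F 3 volume * eLpNorm G 3 volume with hX
  have h32 : (0 : ℝ) < 3 / 2 := by norm_num
  have hinv : (2 / 3 : ℝ) = (3 / 2 : ℝ)⁻¹ := by norm_num
  have hpt : ∀ z, annularVariation r F G z ^ (3 / 2 : ℝ) ≤ ENNReal.ofReal C ^ (3 / 2 : ℝ) *
      ∑' k : ℕ, w k ^ (3 / 2 : ℝ) * annulusCount (2 ^ k) F G z ^ (3 / 2 : ℝ) := by
    intro z
    refine (ENNReal.rpow_le_rpow (hV F G z) h32.le).trans ?_
    rw [ENNReal.mul_rpow_of_nonneg _ _ h32.le]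
    refine mul_le_mul_right ?_ _
    rw [← ENNReal.le_rpow_inv_iff h32]
    refine iSup_le fun k => ?_
    rw [ENNReal.le_rpow_inv_iff h32, ENNReal.mul_rpow_of_nonneg _ _ h32.le]
    exact ENNReal.le_tsum (f := fun k : ℕ =>
      w k ^ (3 / 2 : ℝ) * annulusCount (2 ^ k) F G z ^ (3 / 2 : ℝ)) k
  have hmeas : ∀ k : ℕ, AEMeasurable (fun z => annulusCount (2 ^ k) F G z ^ (3 / 2 : ℝ)) volume :=
    fun k => (aemeasurable_annulusCount _ hF.1 hG.1).pow_const _
  have hint : ∫⁻ z, annularVariation r F G z ^ (3 / 2 : ℝ) ≤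
      ENNReal.ofReal C ^ (3 / 2 : ℝ) * (M * X ^ (3 / 2 : ℝ)) := by
    refine (lintegral_mono hpt).trans ?_
    rw [lintegral_const_mul' _ _ (ENNReal.rpow_ne_top_of_nonneg h32.le ENNReal.ofReal_ne_top),
      lintegral_tsum fun k => (hmeas k).const_mul _, hM, ← ENNReal.tsum_mul_right]
    refine mul_le_mul_right (ENNReal.tsum_le_tsum fun k => ?_) _
    rw [lintegral_const_mul'' _ (hmeas k)]
    have h1 := hB (2 ^ k) Nat.one_le_two_pow F G hF hG
    rw [hinv, ENNReal.rpow_inv_le_iff h32, mul_assoc, ← hX] at h1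
    refine (mul_le_mul_right h1 _).trans (le_of_eq ?_)
    rw [ENNReal.mul_rpow_of_nonneg _ X h32.le, ENNReal.mul_rpow_of_nonneg (w k) _ h32.le,
      mul_assoc]
  rw [hinv, ENNReal.rpow_inv_le_iff h32]
  refine hint.trans (le_of_eq ?_)
  rw [mul_assoc _ (eLpNorm F 3 volume), ← hX, ENNReal.mul_rpow_of_nonneg _ X h32.le,
    ENNReal.mul_rpow_of_nonneg (ENNReal.ofReal C) _ h32.le, ENNReal.rpow_inv_rpow h32.ne',
    mul_assoc]

end Crest.Agent.R72
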